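/-
S0351 (Lubin-Tate stable ideals): shared definitions. See BLUEPRINT.md in this directory.
Keep this file free of `sorry`; add definitions here only after telling the chat (topic S0351).
-/
import Crest.Prelude.Def_LubinTate

set_option autoImplicit false

open Crest.LubinTate

namespace Crest.Agent.LT

noncomputable section

/-! ## Integers of an ultrametric normed field -/
section Val

variable (C : Type) [NormedField C] [IsUltrametricDist C]

/-- The closed unit ball `𝒪_C` as a subring of `C`. -/
def OC : Subring C where
  carrier := {x | ‖x‖ ≤ 1}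
  mul_mem' {a b} ha hb := by
    simp only [Set.mem_setOf_eq, norm_mul] at *
    exact mul_le_one₀ ha (norm_nonneg _) hb
  one_mem' := by simp
  add_mem' {a b} ha hb := by
    simp only [Set.mem_setOf_eq] at *
    exact (IsUltrametricDist.norm_add_le_max a b).trans (max_le ha hb)
  zero_mem' := by simp
  neg_mem' {a} ha := by simpa using ha

variable {C}

/-- Coefficient of a power series over `𝒪_C`, seen in `C`. -/
abbrev cf {σ : Type} (f : MvPowerSeries σ (OC C)) (d : σ →₀ ℕ) : C :=
  ((MvPowerSeries.coeff d f : OC C) : C)

/-- Evaluation of a multivariate power series over `𝒪_C` at a point of `C^σ`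
(meaningful for `‖a i‖ < 1`, complete `C`, finite `σ`). -/
def evMv {σ : Type} [Fintype σ] (f : MvPowerSeries σ (OC C)) (a : σ → C) : C :=
  ∑' d : σ →₀ ℕ, cf f d * d.prod (fun i e => a i ^ e)

/-- Evaluation of a one-variable power series over `𝒪_C`. -/
def ev1 (f : PowerSeries (OC C)) (x : C) : C :=
  ∑' k : ℕ, ((PowerSeries.coeff k f : OC C) : C) * x ^ k

/-- The formal-group sum `x +_F y = F(x,y)` on `C`. -/
def lawAdd (F : FormalGroup (OC C)) (x y : C) : C := evMv F.toPowerSeries ![x, y]

/-- The points `F(𝔪_C)` of a formal group law over `𝒪_C`: the open unit ball, on which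
`Crest.Agent.LT.Eval` puts the group structure `x +_F y` (additive notation). -/
def LawPt (_F : FormalGroup (OC C)) : Type := {x : C // ‖x‖ < 1}

end Val

end

end Crest.Agent.LT
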