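/-
S0351 package EVAL: evaluation of power series over 𝒪_C on the open unit ball, and the group
`F(𝔪_C)`. All statements elementary (ultrametric summability). See BLUEPRINT.md §E.
-/
import Crest.Agent.LT.Defs

set_option autoImplicit false
set_option linter.unusedSectionVars false
set_option linter.unusedVariables false
set_option linter.deprecated false

open Crest.LubinTate

namespace Crest.Agent.LT

noncomputable section

variable {C : Type} [NontriviallyNormedField C] [IsUltrametricDist C] [CompleteSpace C]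

/-! ### Auxiliary summability -/

theorem summable_of_norm_le_pow {ι : Type*} (u : ι → C) (w : ι → ℕ)
    (hw : ∀ N, {i | w i ≤ N}.Finite) (r : ℝ) (hr0 : 0 ≤ r) (hr1 : r < 1)
    (h : ∀ i, ‖u i‖ ≤ r ^ w i) : Summable u := by
  apply NonarchimedeanAddGroup.summable_of_tendsto_cofinite_zero
  have hw' : Filter.Tendsto w Filter.cofinite Filter.atTop := by
    rw [Filter.tendsto_atTop]
    intro N
    by_cases hN : N = 0
    · subst hN; exact Filter.Eventually.of_forall (fun _ => Nat.zero_le _)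
    have := (hw (N - 1)).compl_mem_cofinite
    filter_upwards [this] with i hi
    simp only [Set.mem_compl_iff, Set.mem_setOf_eq, not_le] at hi
    omega
  have h2 : Filter.Tendsto (fun i => r ^ w i) Filter.cofinite (nhds 0) :=
    (tendsto_pow_atTop_nhds_zero_of_lt_one hr0 hr1).comp hw'
  exact squeeze_zero_norm h h2

theorem exists_radius {σ : Type} [Finite σ] (a : σ → C) (ha : ∀ i, ‖a i‖ < 1) :
    ∃ r : ℝ, 0 ≤ r ∧ r < 1 ∧ ∀ i, ‖a i‖ ≤ r := by
  by_cases hσ : Nonempty σ
  · obtain ⟨i0, hi0⟩ := Finite.exists_max (fun i => ‖a i‖)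
    exact ⟨‖a i0‖, norm_nonneg _, ha i0, hi0⟩
  · exact ⟨0, le_rfl, one_pos, fun i => (hσ ⟨i⟩).elim⟩

/-- The monomial `a^d`. -/
abbrev mon {σ : Type} (a : σ → C) (d : σ →₀ ℕ) : C := d.prod (fun i e => a i ^ e)

theorem norm_mon_le {σ : Type} (a : σ → C) (r : ℝ) (hr0 : 0 ≤ r) (ha : ∀ i, ‖a i‖ ≤ r)
    (d : σ →₀ ℕ) : ‖mon a d‖ ≤ r ^ d.degree := by
  unfold mon Finsupp.prod
  rw [norm_prod, Finsupp.degree_apply, ← Finset.prod_pow_eq_pow_sum]
  apply Finset.prod_le_prod
  · intro i _; positivity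
  · intro i _
    rw [norm_pow]
    exact pow_le_pow_left₀ (norm_nonneg _) (ha i) _

theorem norm_mon_le_one {σ : Type} (a : σ → C) (ha : ∀ i, ‖a i‖ ≤ 1)
    (d : σ →₀ ℕ) : ‖mon a d‖ ≤ 1 := by
  simpa using norm_mon_le a 1 zero_le_one ha d

theorem norm_cf_le {σ : Type} (f : MvPowerSeries σ (OC C)) (d : σ →₀ ℕ) : ‖cf f d‖ ≤ 1 :=
  (MvPowerSeries.coeff d f).2

theorem norm_term_le {σ : Type} (f : MvPowerSeries σ (OC C)) (a : σ → C) (r : ℝ) (hr0 : 0 ≤ r)
    (ha : ∀ i, ‖a i‖ ≤ r) (d : σ →₀ ℕ) : ‖cf f d * mon a d‖ ≤ r ^ d.degree := by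
  rw [norm_mul]
  calc ‖cf f d‖ * ‖mon a d‖ ≤ 1 * r ^ d.degree :=
        mul_le_mul (norm_cf_le f d) (norm_mon_le a r hr0 ha d) (norm_nonneg _) zero_le_one
    _ = r ^ d.degree := one_mul _

theorem summable_evMv {σ : Type} [Fintype σ] (f : MvPowerSeries σ (OC C)) (a : σ → C)
    (ha : ∀ i, ‖a i‖ < 1) :
    Summable (fun d : σ →₀ ℕ => cf f d * d.prod (fun i e => a i ^ e)) := by
  obtain ⟨r, hr0, hr1, hr⟩ := exists_radius a ha
  exact summable_of_norm_le_pow _ (fun d => d.degree) (fun N => Finsupp.finite_of_degree_le N) r hr0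
    hr1 (norm_term_le f a r hr0 hr)

theorem norm_evMv_le_one {σ : Type} [Fintype σ] (f : MvPowerSeries σ (OC C)) (a : σ → C)
    (ha : ∀ i, ‖a i‖ < 1) : ‖evMv f a‖ ≤ 1 := by
  unfold evMv
  apply IsUltrametricDist.norm_tsum_le_of_forall_le_of_nonneg zero_le_one
  intro d
  have := norm_term_le f a 1 zero_le_one (fun i => (ha i).le) d
  simpa using this

theorem evMv_add {σ : Type} [Fintype σ] (f g : MvPowerSeries σ (OC C)) (a : σ → C)
    (ha : ∀ i, ‖a i‖ < 1) : evMv (f + g) a = evMv f a + evMv g a := by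
  unfold evMv
  rw [← (summable_evMv f a ha).tsum_add (summable_evMv g a ha)]
  apply tsum_congr
  intro d
  simp [cf, add_mul]

open scoped Classical in
theorem evMv_mul {σ : Type} [Fintype σ] (f g : MvPowerSeries σ (OC C)) (a : σ → C)
    (ha : ∀ i, ‖a i‖ < 1) : evMv (f * g) a = evMv f a * evMv g a := by
  obtain ⟨r, hr0, hr1, hr⟩ := exists_radius a ha
  have hfg : Summable (fun x : (σ →₀ ℕ) × (σ →₀ ℕ) =>
      (cf f x.1 * mon a x.1) * (cf g x.2 * mon a x.2)) := by
    refine summable_of_norm_le_pow _ (fun x => x.1.degree + x.2.degree) ?_ r hr0 hr1 ?_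
    · intro N
      apply Set.Finite.subset ((Finsupp.finite_of_degree_le (σ := σ) N).prod
        (Finsupp.finite_of_degree_le (σ := σ) N))
      rintro ⟨d, e⟩ h
      simp only [Set.mem_setOf_eq, Set.mem_prod] at h ⊢
      omega
    · intro x
      rw [norm_mul, pow_add]
      exact mul_le_mul (norm_term_le f a r hr0 hr _) (norm_term_le g a r hr0 hr _) (norm_nonneg _)
        (by positivity)
  unfold evMv
  rw [(summable_evMv f a ha).tsum_mul_tsum_eq_tsum_sum_antidiagonal (summable_evMv g a ha) hfg]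
  apply tsum_congr
  intro d
  simp only [cf, MvPowerSeries.coeff_mul, AddSubmonoidClass.coe_finset_sum,
    Subring.coe_mul, Finset.sum_mul]
  apply Finset.sum_congr rfl
  intro x hx
  have hd : x.1 + x.2 = d := Finset.HasAntidiagonal.mem_antidiagonal.mp hx
  subst hd
  rw [Finsupp.prod_add_index' (by simp) (by intro i m n; exact pow_add _ _ _)]
  ring

open scoped Classical in
theorem evMv_monomial {σ : Type} [Fintype σ] (d : σ →₀ ℕ) (c : OC C) (a : σ → C) :
    evMv (MvPowerSeries.monomial d c) a = c * mon a d := by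
  unfold evMv
  rw [tsum_eq_single d]
  · simp [cf]
  · intro e he
    simp [cf, MvPowerSeries.coeff_monomial, he]

theorem evMv_C {σ : Type} [Fintype σ] (a : σ → C) (ha : ∀ i, ‖a i‖ < 1) (c : OC C) :
    evMv (MvPowerSeries.C c : MvPowerSeries σ (OC C)) a = c := by
  classical
  have : (MvPowerSeries.C c : MvPowerSeries σ (OC C)) = MvPowerSeries.monomial 0 c := rfl
  rw [this, evMv_monomial]
  simp [mon]

theorem evMv_X {σ : Type} [Fintype σ] [DecidableEq σ] (a : σ → C) (ha : ∀ i, ‖a i‖ < 1) (i : σ) :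
    evMv (MvPowerSeries.X i : MvPowerSeries σ (OC C)) a = a i := by
  classical
  have : (MvPowerSeries.X i : MvPowerSeries σ (OC C)) =
      MvPowerSeries.monomial (Finsupp.single i 1) 1 := rfl
  rw [this, evMv_monomial]
  simp [mon]

/-- Evaluation at a point of the open polydisc as a ring hom (use the uniqueness trick:
`f = polynomial of degree < N + (terms in the N-th power of the augmentation ideal)`). -/
def evHom {σ : Type} [Fintype σ] (a : σ → C) (ha : ∀ i, ‖a i‖ < 1) :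
    MvPowerSeries σ (OC C) →+* OC C where
  toFun f := ⟨evMv f a, norm_evMv_le_one f a ha⟩
  map_one' := by
    apply Subtype.ext
    have := evMv_C a ha (1 : OC C)
    simpa using this
  map_mul' f g := Subtype.ext (evMv_mul f g a ha)
  map_zero' := by
    apply Subtype.ext
    have := evMv_C a ha (0 : OC C)
    simpa using this
  map_add' f g := Subtype.ext (evMv_add f g a ha)

theorem coe_evHom {σ : Type} [Fintype σ] (a : σ → C) (ha : ∀ i, ‖a i‖ < 1)
    (f : MvPowerSeries σ (OC C)) : ((evHom a ha f : OC C) : C) = evMv f a := rfl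

theorem evMv_zero {σ : Type} [Fintype σ] (a : σ → C) (ha : ∀ i, ‖a i‖ < 1) :
    evMv (0 : MvPowerSeries σ (OC C)) a = 0 := by
  have := evMv_C a ha (0 : OC C)
  simpa using this

theorem evMv_one {σ : Type} [Fintype σ] (a : σ → C) (ha : ∀ i, ‖a i‖ < 1) :
    evMv (1 : MvPowerSeries σ (OC C)) a = 1 := by
  have := evMv_C a ha (1 : OC C)
  simpa using this

theorem evMv_pow {σ : Type} [Fintype σ] (f : MvPowerSeries σ (OC C)) (k : ℕ) (a : σ → C)
    (ha : ∀ i, ‖a i‖ < 1) : evMv (f ^ k) a = evMv f a ^ k := by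
  rw [← coe_evHom a ha, map_pow]
  push_cast
  rw [coe_evHom]

theorem evMv_sub {σ : Type} [Fintype σ] (f g : MvPowerSeries σ (OC C)) (a : σ → C)
    (ha : ∀ i, ‖a i‖ < 1) : evMv (f - g) a = evMv f a - evMv g a := by
  rw [← coe_evHom a ha, map_sub]
  push_cast
  rw [coe_evHom, coe_evHom]

theorem evMv_finsuppProd {σ τ : Type} [Fintype σ] (b : τ → MvPowerSeries σ (OC C)) (d : τ →₀ ℕ)
    (a : σ → C) (ha : ∀ i, ‖a i‖ < 1) :
    evMv (d.prod fun s k => b s ^ k) a = d.prod fun s k => evMv (b s) a ^ k := by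
  rw [← coe_evHom a ha]
  unfold Finsupp.prod
  rw [map_prod]
  push_cast
  apply Finset.prod_congr rfl
  intro s _
  rw [map_pow]
  push_cast
  rw [coe_evHom]

/-! ### Bounds -/

/-- Order `≥ N`: `‖f(a)‖ ≤ r ^ N`. -/
theorem norm_evMv_le_of_order {σ : Type} [Fintype σ] (f : MvPowerSeries σ (OC C)) (N : ℕ)
    (hf : ∀ d : σ →₀ ℕ, d.degree < N → MvPowerSeries.coeff d f = 0) (a : σ → C) (r : ℝ)
    (hr1 : r < 1) (hr0 : 0 ≤ r) (ha : ∀ i, ‖a i‖ ≤ r) : ‖evMv f a‖ ≤ r ^ N := by
  unfold evMv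
  apply IsUltrametricDist.norm_tsum_le_of_forall_le_of_nonneg (by positivity)
  intro d
  by_cases hd : d.degree < N
  · simp only [cf, hf d hd]
    simp
    positivity
  · calc ‖cf f d * mon a d‖ ≤ r ^ d.degree := norm_term_le f a r hr0 ha d
      _ ≤ r ^ N := pow_le_pow_of_le_one hr0 hr1.le (not_lt.mp hd)

/-- Zero constant term: `‖f(a)‖ ≤ max ‖a i‖`. -/
theorem norm_evMv_le_of_constantCoeff {σ : Type} [Fintype σ] (f : MvPowerSeries σ (OC C))
    (hf : MvPowerSeries.constantCoeff f = 0) (a : σ → C) (r : ℝ) (hr1 : r < 1) (hr0 : 0 ≤ r)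
    (ha : ∀ i, ‖a i‖ ≤ r) : ‖evMv f a‖ ≤ r := by
  have := norm_evMv_le_of_order f 1 ?_ a r hr1 hr0 ha
  · simpa using this
  · intro d hd
    have hd0 : d = 0 := by
      have : d.degree = 0 := by omega
      exact (Finsupp.degree_eq_zero_iff d).mp this
    subst hd0
    simpa using hf

theorem norm_mul_sub_mul_le (x y x' y' : C) (r : ℝ) (hx : ‖x‖ ≤ 1) (hy' : ‖y'‖ ≤ 1)
    (h1 : ‖x - x'‖ ≤ r) (h2 : ‖y - y'‖ ≤ r) : ‖x * y - x' * y'‖ ≤ r := by
  have : x * y - x' * y' = x * (y - y') + (x - x') * y' := by ring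
  rw [this]
  refine (IsUltrametricDist.norm_add_le_max _ _).trans (max_le ?_ ?_)
  · rw [norm_mul]
    calc ‖x‖ * ‖y - y'‖ ≤ 1 * ‖y - y'‖ := by gcongr
      _ ≤ r := by simpa using h2
  · rw [norm_mul]
    calc ‖x - x'‖ * ‖y'‖ ≤ ‖x - x'‖ * 1 := by gcongr
      _ ≤ r := by simpa using h1

theorem norm_pow_sub_pow_le (x y : C) (r : ℝ) (hr0 : 0 ≤ r) (hx : ‖x‖ ≤ 1) (hy : ‖y‖ ≤ 1)
    (h : ‖x - y‖ ≤ r) (k : ℕ) : ‖x ^ k - y ^ k‖ ≤ r := by
  induction k with
  | zero => simpa using hr0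
  | succ k ih =>
    rw [pow_succ, pow_succ]
    exact norm_mul_sub_mul_le _ _ _ _ r (by rw [norm_pow]; exact pow_le_one₀ (norm_nonneg _) hx) hy ih h

theorem norm_prod_sub_prod_le {ι : Type*} (s : Finset ι) (u v : ι → C) (r : ℝ) (hr0 : 0 ≤ r)
    (hu : ∀ i ∈ s, ‖u i‖ ≤ 1) (hv : ∀ i ∈ s, ‖v i‖ ≤ 1) (h : ∀ i ∈ s, ‖u i - v i‖ ≤ r) :
    ‖∏ i ∈ s, u i - ∏ i ∈ s, v i‖ ≤ r := by
  classical
  induction s using Finset.induction_on with
  | empty => simpa using hr0
  | insert i s hi ih =>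
    rw [Finset.prod_insert hi, Finset.prod_insert hi]
    refine norm_mul_sub_mul_le _ _ _ _ r (hu i (by simp)) ?_ (h i (by simp))
      (ih (fun j hj => hu j (by simp [hj])) (fun j hj => hv j (by simp [hj]))
        (fun j hj => h j (by simp [hj])))
    rw [norm_prod]
    exact Finset.prod_le_one (fun _ _ => norm_nonneg _) (fun j hj => hv j (by simp [hj]))

theorem norm_mon_sub_le {σ : Type} (a b : σ → C) (ha : ∀ i, ‖a i‖ ≤ 1) (hb : ∀ i, ‖b i‖ ≤ 1)
    (r : ℝ) (hr0 : 0 ≤ r) (hr : ∀ i, ‖a i - b i‖ ≤ r) (d : σ →₀ ℕ) :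
    ‖mon a d - mon b d‖ ≤ r := by
  unfold mon Finsupp.prod
  apply norm_prod_sub_prod_le _ _ _ r hr0
  · intro i _; rw [norm_pow]; exact pow_le_one₀ (norm_nonneg _) (ha i)
  · intro i _; rw [norm_pow]; exact pow_le_one₀ (norm_nonneg _) (hb i)
  · intro i _; exact norm_pow_sub_pow_le _ _ r hr0 (ha i) (hb i) (hr i) _

/-- Lipschitz: `‖f(a) - f(b)‖ ≤ max ‖a i - b i‖`. -/
theorem norm_evMv_sub_le {σ : Type} [Fintype σ] (f : MvPowerSeries σ (OC C)) (a b : σ → C)
    (ha : ∀ i, ‖a i‖ < 1) (hb : ∀ i, ‖b i‖ < 1) (r : ℝ) (hr : ∀ i, ‖a i - b i‖ ≤ r) (hr0 : 0 ≤ r) :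
    ‖evMv f a - evMv f b‖ ≤ r := by
  unfold evMv
  rw [← (summable_evMv f a ha).tsum_sub (summable_evMv f b hb)]
  apply IsUltrametricDist.norm_tsum_le_of_forall_le_of_nonneg hr0
  intro d
  rw [← mul_sub, norm_mul]
  calc ‖cf f d‖ * ‖mon a d - mon b d‖ ≤ 1 * r :=
        mul_le_mul (norm_cf_le f d) (norm_mon_sub_le a b (fun i => (ha i).le) (fun i => (hb i).le)
          r hr0 hr d) (norm_nonneg _) zero_le_one
    _ = r := one_mul _

/-- Two series with coefficients `r`-close have `r`-close values. -/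
theorem norm_evMv_sub_of_coeff {σ : Type} [Fintype σ] (f g : MvPowerSeries σ (OC C)) (a : σ → C)
    (ha : ∀ i, ‖a i‖ < 1) (r : ℝ) (hr0 : 0 ≤ r) (hr : ∀ d, ‖cf f d - cf g d‖ ≤ r) :
    ‖evMv f a - evMv g a‖ ≤ r := by
  unfold evMv
  rw [← (summable_evMv f a ha).tsum_sub (summable_evMv g a ha)]
  apply IsUltrametricDist.norm_tsum_le_of_forall_le_of_nonneg hr0
  intro d
  rw [← sub_mul, norm_mul]
  calc ‖cf f d - cf g d‖ * ‖mon a d‖ ≤ r * 1 :=
        mul_le_mul (hr d) (norm_mon_le_one a (fun i => (ha i).le) d) (norm_nonneg _) hr0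
    _ = r := mul_one _

/-! ### Composition -/

theorem coeff_finsuppProd_eq_zero {σ τ : Type} {R : Type*} [CommRing R]
    (b : τ → MvPowerSeries σ R) (hb : ∀ t, MvPowerSeries.constantCoeff (b t) = 0)
    (d : τ →₀ ℕ) (e : σ →₀ ℕ) (h : e.degree < d.degree) :
    MvPowerSeries.coeff e (d.prod fun s k => b s ^ k) = 0 := by
  apply MvPowerSeries.coeff_of_lt_order
  have h1 : ((d.degree : ℕ) : ℕ∞) ≤ (d.prod fun s k => b s ^ k).order := by
    unfold Finsupp.prod
    refine le_trans ?_ (MvPowerSeries.le_order_prod _ _)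
    rw [Finsupp.degree_apply]
    push_cast
    apply Finset.sum_le_sum
    intro s _
    exact MvPowerSeries.le_order_pow_of_constantCoeff_eq_zero _ (hb s)
  exact lt_of_lt_of_le (by exact_mod_cast h) h1

/-- Composition: `(f ∘ b)(a) = f (b(a))`, for `b` with zero constant terms. -/
theorem evMv_subst {σ τ : Type} [Fintype σ] [Fintype τ] (f : MvPowerSeries τ (OC C))
    (b : τ → MvPowerSeries σ (OC C)) (hb : ∀ t, MvPowerSeries.constantCoeff (b t) = 0)
    (a : σ → C) (ha : ∀ i, ‖a i‖ < 1) :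
    evMv (f.subst b) a = evMv f (fun t => evMv (b t) a) := by
  classical
  have hb' : MvPowerSeries.HasSubst b := MvPowerSeries.hasSubst_of_constantCoeff_zero hb
  obtain ⟨r, hr0, hr1, hr⟩ := exists_radius a ha
  let U : (τ →₀ ℕ) → (σ →₀ ℕ) → C := fun d e =>
    cf f d * ((MvPowerSeries.coeff e (d.prod fun s k => b s ^ k) : OC C) * mon a e)
  have hU : Summable (Function.uncurry U) := by
    refine summable_of_norm_le_pow _ (fun x => max x.1.degree x.2.degree) ?_ r hr0 hr1 ?_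
    · intro N
      apply Set.Finite.subset ((Finsupp.finite_of_degree_le (σ := τ) N).prod
        (Finsupp.finite_of_degree_le (σ := σ) N))
      rintro ⟨d, e⟩ h
      simp only [Set.mem_setOf_eq, Set.mem_prod, max_le_iff] at h ⊢
      exact h
    · rintro ⟨d, e⟩
      by_cases hde : e.degree < d.degree
      · have : U d e = 0 := by
          simp only [U, coeff_finsuppProd_eq_zero b hb d e hde]
          simp
        simp only [Function.uncurry_apply_pair, this, norm_zero]
        positivity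
      · have hm : max d.degree e.degree = e.degree := max_eq_right (not_lt.mp hde)
        simp only [Function.uncurry_apply_pair, hm, U]
        rw [norm_mul, norm_mul]
        have h1 : ‖((MvPowerSeries.coeff e (d.prod fun s k => b s ^ k) : OC C) : C)‖ ≤ 1 :=
          (MvPowerSeries.coeff e (d.prod fun s k => b s ^ k)).2
        have h2 := norm_cf_le f d
        have h3 := norm_mon_le a r hr0 hr e
        calc ‖cf f d‖ * (‖((MvPowerSeries.coeff e (d.prod fun s k => b s ^ k) : OC C) : C)‖ * ‖mon a e‖)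
            ≤ 1 * (1 * r ^ e.degree) := by gcongr
          _ = r ^ e.degree := by ring
  have h1 : ∀ e, cf (f.subst b) e * mon a e = ∑' d, U d e := by
    intro e
    have hfin := MvPowerSeries.coeff_subst_finite hb' f e
    have hc := MvPowerSeries.coeff_subst hb' f e
    rw [finsum_eq_sum_of_support_subset (s := hfin.toFinset) _ (by simp)] at hc
    have hz : ∀ d ∉ hfin.toFinset, U d e = 0 := by
      intro d hd
      simp only [Set.Finite.mem_toFinset, Function.mem_support, ne_eq, not_not, smul_eq_mul] at hd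
      simp only [U]
      have : ((MvPowerSeries.coeff d f * MvPowerSeries.coeff e (d.prod fun s k => b s ^ k) : OC C) : C)
          = 0 := by rw [hd]; rfl
      push_cast at this
      rw [← mul_assoc, this, zero_mul]
    rw [tsum_eq_sum hz]
    simp only [U, cf]
    rw [hc]
    simp only [smul_eq_mul, AddSubmonoidClass.coe_finset_sum, Subring.coe_mul, Finset.sum_mul]
    apply Finset.sum_congr rfl
    intro d _
    ring
  have h2 : ∀ d, cf f d * mon (fun t => evMv (b t) a) d = ∑' e, U d e := by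
    intro d
    simp only [U]
    rw [tsum_mul_left]
    congr 1
    have := evMv_finsuppProd b d a ha
    rw [mon, ← this]
    rfl
  unfold evMv
  simp only [show ∀ e, cf (f.subst b) e * e.prod (fun i k => a i ^ k) = ∑' d, U d e from h1]
  have h3 : ∀ d, cf f d * d.prod (fun i e => (∑' d' : σ →₀ ℕ, cf (b i) d' * d'.prod (fun i k => a i ^ k)) ^ e)
      = ∑' e, U d e := h2
  simp only [h3]
  exact hU.tsum_comm' (fun d => (hU.prod_factor d)) (fun e => hU.prod_symm.prod_factor e)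


/-- `ev1` is `evMv` in one variable. -/
theorem ev1_eq_evMv (f : PowerSeries (OC C)) (x : C) :
    ev1 f x = evMv (σ := Unit) f (fun _ => x) := by
  unfold ev1 evMv
  rw [← (Equiv.finsuppUnique (ι := Unit) (M := ℕ)).tsum_eq]
  apply tsum_congr
  intro d
  have hd : d = Finsupp.single () (d ()) := by
    ext; simp
  simp only [Equiv.finsuppUnique_apply]
  congr 1
  · conv_rhs => rw [hd]
    rfl
  · conv_rhs => rw [hd]
    rw [Finsupp.prod_single_index (by simp)]

/-- `f(g(a))` for one-variable `f`. -/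
theorem evMv_psubst {σ : Type} [Fintype σ] (f : PowerSeries (OC C)) (g : MvPowerSeries σ (OC C))
    (hg : MvPowerSeries.constantCoeff g = 0) (a : σ → C) (ha : ∀ i, ‖a i‖ < 1) :
    evMv (PowerSeries.subst g f) a = ev1 f (evMv g a) := by
  rw [PowerSeries.subst_def, ev1_eq_evMv]
  exact evMv_subst (σ := σ) (τ := Unit) f (fun _ => g) (fun _ => hg) a ha

theorem ev1_subst (f g : PowerSeries (OC C)) (hg : PowerSeries.constantCoeff g = 0) (x : C)
    (hx : ‖x‖ < 1) : ev1 (PowerSeries.subst g f) x = ev1 f (ev1 g x) := by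
  rw [ev1_eq_evMv (PowerSeries.subst g f), ev1_eq_evMv g]
  exact evMv_psubst (σ := Unit) f g hg (fun _ => x) (fun _ => hx)

/-- `f(F(x,y))` for one-variable `f`. -/
theorem evMv_subst_two (f : PowerSeries (OC C)) (F : MvPowerSeries (Fin 2) (OC C))
    (hF : MvPowerSeries.constantCoeff F = 0) (x y : C) (hx : ‖x‖ < 1) (hy : ‖y‖ < 1) :
    evMv (PowerSeries.subst F f) ![x, y] = ev1 f (evMv F ![x, y]) := by
  refine evMv_psubst f F hF _ ?_
  intro i
  fin_cases i
  · simpa using hx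
  · simpa using hy

theorem evMv_subst_pair {σ : Type} [Fintype σ] (F : MvPowerSeries (Fin 2) (OC C))
    (f g : MvPowerSeries σ (OC C))
    (hf : MvPowerSeries.constantCoeff f = 0) (hg : MvPowerSeries.constantCoeff g = 0) (a : σ → C)
    (ha : ∀ i, ‖a i‖ < 1) :
    evMv (F.subst ![f, g]) a = evMv F ![evMv f a, evMv g a] := by
  rw [evMv_subst F ![f, g] (by intro t; fin_cases t <;> simpa) a ha]
  congr 1
  funext t
  fin_cases t <;> rfl

theorem ev1_X (x : C) (hx : ‖x‖ < 1) : ev1 (PowerSeries.X : PowerSeries (OC C)) x = x := by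
  rw [ev1_eq_evMv]
  exact evMv_X (σ := Unit) (fun _ => x) (fun _ => hx) ()

theorem ev1_zero (x : C) (hx : ‖x‖ < 1) : ev1 (0 : PowerSeries (OC C)) x = 0 := by
  rw [ev1_eq_evMv]
  exact evMv_zero (σ := Unit) (fun _ => x) (fun _ => hx)

/-- `F(f(x),g(x))`. -/
theorem ev1_lawAdd_subst (F : FormalGroup (OC C)) (f g : PowerSeries (OC C))
    (hf : PowerSeries.constantCoeff f = 0) (hg : PowerSeries.constantCoeff g = 0) (x : C)
    (hx : ‖x‖ < 1) :
    ev1 (F.toPowerSeries.subst ![f, g]) x = lawAdd F (ev1 f x) (ev1 g x) := by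
  rw [ev1_eq_evMv, ev1_eq_evMv f, ev1_eq_evMv g]
  exact evMv_subst_pair (σ := Unit) F.toPowerSeries f g hf hg (fun _ => x) (fun _ => hx)

theorem norm_ev1_le_of_constantCoeff (f : PowerSeries (OC C)) (hf : PowerSeries.constantCoeff f = 0)
    (x : C) (hx : ‖x‖ < 1) : ‖ev1 f x‖ ≤ ‖x‖ := by
  rw [ev1_eq_evMv]
  exact norm_evMv_le_of_constantCoeff (σ := Unit) f hf (fun _ => x) ‖x‖ hx (norm_nonneg _)
    (fun _ => le_rfl)

theorem norm_ev1_sub_le (f : PowerSeries (OC C)) (x y : C) (hx : ‖x‖ < 1) (hy : ‖y‖ < 1) :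
    ‖ev1 f x - ev1 f y‖ ≤ ‖x - y‖ := by
  rw [ev1_eq_evMv, ev1_eq_evMv f y]
  exact norm_evMv_sub_le (σ := Unit) f (fun _ => x) (fun _ => y) (fun _ => hx) (fun _ => hy) _
    (fun _ => le_rfl) (norm_nonneg _)

/-! ## The group `F(𝔪_C)` -/

section Law

variable (F : FormalGroup (OC C))

theorem mon_pair (x y : C) (d : Fin 2 →₀ ℕ) : mon ![x, y] d = x ^ d 0 * y ^ d 1 := by
  unfold mon
  rw [Finsupp.prod_fintype _ _ (by simp), Fin.prod_univ_two]
  simp

theorem norm_ball_pair {x y : C} (hx : ‖x‖ < 1) (hy : ‖y‖ < 1) :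
    ∀ i, ‖(![x, y] : Fin 2 → C) i‖ < 1 := by
  intro i
  fin_cases i
  · simpa using hx
  · simpa using hy

/-- The cross estimate, valid for any series in two variables. -/
theorem norm_cross_le (G : MvPowerSeries (Fin 2) (OC C)) (x x' y y' : C) (hx : ‖x‖ < 1)
    (hx' : ‖x'‖ < 1) (hy : ‖y‖ < 1) (hy' : ‖y'‖ < 1) :
    ‖(evMv G ![x, y] - evMv G ![x', y]) - (evMv G ![x, y'] - evMv G ![x', y'])‖
      ≤ ‖x - x'‖ * ‖y - y'‖ := by
  have s1 := summable_evMv G ![x, y] (norm_ball_pair hx hy)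
  have s2 := summable_evMv G ![x', y] (norm_ball_pair hx' hy)
  have s3 := summable_evMv G ![x, y'] (norm_ball_pair hx hy')
  have s4 := summable_evMv G ![x', y'] (norm_ball_pair hx' hy')
  unfold evMv
  rw [← s1.tsum_sub s2, ← s3.tsum_sub s4, ← (s1.sub s2).tsum_sub (s3.sub s4)]
  apply IsUltrametricDist.norm_tsum_le_of_forall_le_of_nonneg (by positivity)
  intro d
  have e : cf G d * d.prod (fun i e => (![x, y] : Fin 2 → C) i ^ e) -
      cf G d * d.prod (fun i e => (![x', y] : Fin 2 → C) i ^ e) -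
      (cf G d * d.prod (fun i e => (![x, y'] : Fin 2 → C) i ^ e) -
      cf G d * d.prod (fun i e => (![x', y'] : Fin 2 → C) i ^ e)) =
      cf G d * ((x ^ d 0 - x' ^ d 0) * (y ^ d 1 - y' ^ d 1)) := by
    have := mon_pair x y d
    have h2 := mon_pair x' y d
    have h3 := mon_pair x y' d
    have h4 := mon_pair x' y' d
    unfold mon at this h2 h3 h4
    rw [this, h2, h3, h4]
    ring
  rw [e, norm_mul, norm_mul]
  calc ‖cf G d‖ * (‖x ^ d 0 - x' ^ d 0‖ * ‖y ^ d 1 - y' ^ d 1‖) ≤ 1 * (‖x - x'‖ * ‖y - y'‖) := by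
        gcongr
        · exact norm_cf_le G d
        · exact norm_pow_sub_pow_le _ _ _ (norm_nonneg _) hx.le hx'.le le_rfl _
        · exact norm_pow_sub_pow_le _ _ _ (norm_nonneg _) hy.le hy'.le le_rfl _
    _ = _ := one_mul _

theorem norm_zero_lt_one' : ‖(0 : C)‖ < 1 := by simp

theorem lawAdd_zero_right (x : C) (hx : ‖x‖ < 1) : lawAdd F x 0 = x := by
  have h := evMv_subst_pair (σ := Unit) F.toPowerSeries (PowerSeries.X : PowerSeries (OC C)) 0
    PowerSeries.constantCoeff_X (by simp) (fun _ => x) (fun _ => hx)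
  have hX : evMv (σ := Unit) (PowerSeries.X : PowerSeries (OC C)) (fun _ => x) = x := by
    rw [← ev1_eq_evMv]; exact ev1_X x hx
  have h0 : evMv (σ := Unit) (0 : MvPowerSeries Unit (OC C)) (fun _ => x) = 0 :=
    evMv_zero _ (fun _ => hx)
  rw [hX, h0] at h
  unfold lawAdd
  rw [← h]
  have h2 : MvPowerSeries.subst ![PowerSeries.X, 0] F.toPowerSeries =
      (PowerSeries.X : PowerSeries (OC C)) := F.Xzero_eq_X
  rw [h2]; exact hX

theorem lawAdd_zero_left (x : C) (hx : ‖x‖ < 1) : lawAdd F 0 x = x := by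
  have h := evMv_subst_pair (σ := Unit) F.toPowerSeries 0 (PowerSeries.X : PowerSeries (OC C))
    (by simp) PowerSeries.constantCoeff_X (fun _ => x) (fun _ => hx)
  have hX : evMv (σ := Unit) (PowerSeries.X : PowerSeries (OC C)) (fun _ => x) = x := by
    rw [← ev1_eq_evMv]; exact ev1_X x hx
  have h0 : evMv (σ := Unit) (0 : MvPowerSeries Unit (OC C)) (fun _ => x) = 0 :=
    evMv_zero _ (fun _ => hx)
  rw [hX, h0] at h
  unfold lawAdd
  rw [← h]
  have h2 : MvPowerSeries.subst ![0, PowerSeries.X] F.toPowerSeries =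
      (PowerSeries.X : PowerSeries (OC C)) := F.zeroX_eq_X
  rw [h2]; exact hX

theorem lawAdd_zero_zero : lawAdd F (0 : C) 0 = 0 :=
  lawAdd_zero_right F 0 (by simp)

theorem norm_lawAdd_le (x y : C) (hx : ‖x‖ < 1) (hy : ‖y‖ < 1) :
    ‖lawAdd F x y‖ ≤ max ‖x‖ ‖y‖ := by
  refine norm_evMv_le_of_constantCoeff _ F.zero_constantCoeff _ _ (max_lt hx hy)
    (le_max_of_le_left (norm_nonneg _)) ?_
  intro i
  fin_cases i
  · simp
  · simp

/-- `x +_F y = x + y + xy·(...)`. -/
theorem norm_lawAdd_sub_add_le (x y : C) (hx : ‖x‖ < 1) (hy : ‖y‖ < 1) :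
    ‖lawAdd F x y - (x + y)‖ ≤ ‖x‖ * ‖y‖ := by
  have h := norm_cross_le F.toPowerSeries x 0 y 0 hx (by simp) hy (by simp)
  have h1 : evMv F.toPowerSeries ![0, y] = y := lawAdd_zero_left F y hy
  have h2 : evMv F.toPowerSeries ![x, 0] = x := lawAdd_zero_right F x hx
  have h3 : evMv F.toPowerSeries ![(0 : C), 0] = 0 := lawAdd_zero_zero F
  rw [h1, h2, h3] at h
  simp only [sub_zero] at h
  have e : lawAdd F x y - (x + y) = evMv F.toPowerSeries ![x, y] - y - x := by
    unfold lawAdd; ring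
  rw [e]
  exact h

/-- `y ↦ x +_F y` is close to a translation. -/
theorem norm_lawAdd_contract (x y y' : C) (hx : ‖x‖ < 1) (hy : ‖y‖ < 1) (hy' : ‖y'‖ < 1) :
    ‖(y - lawAdd F x y) - (y' - lawAdd F x y')‖ ≤ ‖x‖ * ‖y - y'‖ := by
  have h := norm_cross_le F.toPowerSeries x 0 y y' hx (by simp) hy hy'
  have h1 : evMv F.toPowerSeries ![0, y] = y := lawAdd_zero_left F y hy
  have h2 : evMv F.toPowerSeries ![0, y'] = y' := lawAdd_zero_left F y' hy'
  rw [h1, h2] at h
  simp only [sub_zero] at h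
  rw [← norm_neg]
  have e : -(y - lawAdd F x y - (y' - lawAdd F x y')) =
      evMv F.toPowerSeries ![x, y] - y - (evMv F.toPowerSeries ![x, y'] - y') := by
    unfold lawAdd; ring
  rw [e]
  exact h

/-- Existence of the inverse: `F(x, y) = 0` has a solution with `‖y‖ ≤ ‖x‖`, by contraction. -/
theorem exists_lawAdd_eq_zero (x : C) (hx : ‖x‖ < 1) :
    ∃ y : C, ‖y‖ ≤ ‖x‖ ∧ lawAdd F x y = 0 := by
  let B : Set C := Metric.closedBall 0 ‖x‖
  have hB : IsClosed B := Metric.isClosed_closedBall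
  have : CompleteSpace B := hB.completeSpace_coe
  have hlt : ∀ y : B, ‖(y : C)‖ < 1 := fun y => by
    have := y.2
    simp only [B, mem_closedBall_zero_iff] at this
    exact this.trans_lt hx
  have hmap : ∀ y : B, (y : C) - lawAdd F x y ∈ B := by
    intro y
    have hy : ‖(y : C)‖ ≤ ‖x‖ := by
      have := y.2
      simpa only [B, mem_closedBall_zero_iff] using this
    simp only [B, mem_closedBall_zero_iff]
    have e : (y : C) - lawAdd F x y = -x + -(lawAdd F x y - (x + y)) := by ring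
    rw [e]
    refine (IsUltrametricDist.norm_add_le_max _ _).trans (max_le (by simp) ?_)
    rw [norm_neg]
    refine (norm_lawAdd_sub_add_le F x y hx (hlt y)).trans ?_
    calc ‖x‖ * ‖(y : C)‖ ≤ ‖x‖ * 1 := by gcongr; exact (hlt y).le
      _ = ‖x‖ := mul_one _
  let T : B → B := fun y => ⟨(y : C) - lawAdd F x y, hmap y⟩
  have hT : ContractingWith ‖x‖₊ T := by
    refine ⟨by exact_mod_cast hx, LipschitzWith.of_dist_le_mul ?_⟩
    intro y y'
    rw [Subtype.dist_eq, Subtype.dist_eq, dist_eq_norm, dist_eq_norm]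
    exact norm_lawAdd_contract F x y y' hx (hlt y) (hlt y')
  have h0 : (0 : C) ∈ B := by simp [B]
  obtain ⟨y, hy, -, -⟩ := hT.exists_fixedPoint ⟨0, h0⟩ (edist_ne_top _ _)
  refine ⟨y, ?_, ?_⟩
  · have := y.2
    simpa only [B, mem_closedBall_zero_iff] using this
  · have := congrArg (Subtype.val) (hy : T y = y)
    simp only [T] at this
    exact sub_eq_self.mp this

theorem lawAdd_assoc (x y z : C) (hx : ‖x‖ < 1) (hy : ‖y‖ < 1) (hz : ‖z‖ < 1) :
    lawAdd F (lawAdd F x y) z = lawAdd F x (lawAdd F y z) := by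
  have ha : ∀ i, ‖(![x, y, z] : Fin 3 → C) i‖ < 1 := by
    intro i
    fin_cases i
    · simpa using hx
    · simpa using hy
    · simpa using hz
  have h := congrArg (fun f : MvPowerSeries (Fin 3) (OC C) => evMv f ![x, y, z]) F.assoc
  have hX0 : (MvPowerSeries.constantCoeff (MvPowerSeries.X 0 : MvPowerSeries (Fin 3) (OC C))) = 0 := by simp
  have hX1 : (MvPowerSeries.constantCoeff (MvPowerSeries.X 1 : MvPowerSeries (Fin 3) (OC C))) = 0 := by simp
  have hX2 : (MvPowerSeries.constantCoeff (MvPowerSeries.X 2 : MvPowerSeries (Fin 3) (OC C))) = 0 := by simp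
  have e0 : evMv (MvPowerSeries.X 0 : MvPowerSeries (Fin 3) (OC C)) ![x, y, z] = x := evMv_X _ ha 0
  have e1 : evMv (MvPowerSeries.X 1 : MvPowerSeries (Fin 3) (OC C)) ![x, y, z] = y := evMv_X _ ha 1
  have e2 : evMv (MvPowerSeries.X 2 : MvPowerSeries (Fin 3) (OC C)) ![x, y, z] = z := evMv_X _ ha 2
  have c1 : MvPowerSeries.constantCoeff (F.toPowerSeries.subst ![(MvPowerSeries.X 0 : MvPowerSeries (Fin 3) (OC C)), MvPowerSeries.X 1]) = 0 :=
    MvPowerSeries.constantCoeff_subst_eq_zero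
      (MvPowerSeries.hasSubst_of_constantCoeff_zero (by intro t; fin_cases t <;> simp))
      (by intro t; fin_cases t <;> simp) F.zero_constantCoeff
  have c2 : MvPowerSeries.constantCoeff (F.toPowerSeries.subst ![(MvPowerSeries.X 1 : MvPowerSeries (Fin 3) (OC C)), MvPowerSeries.X 2]) = 0 :=
    MvPowerSeries.constantCoeff_subst_eq_zero
      (MvPowerSeries.hasSubst_of_constantCoeff_zero (by intro t; fin_cases t <;> simp))
      (by intro t; fin_cases t <;> simp) F.zero_constantCoeff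
  rw [evMv_subst_pair _ _ _ c1 hX2 _ ha, evMv_subst_pair _ _ _ hX0 c2 _ ha,
    evMv_subst_pair _ _ _ hX0 hX1 _ ha, evMv_subst_pair _ _ _ hX1 hX2 _ ha, e0, e1, e2] at h
  exact h

theorem lawAdd_comm [F.IsComm] (x y : C) (hx : ‖x‖ < 1) (hy : ‖y‖ < 1) :
    lawAdd F x y = lawAdd F y x := by
  have ha := norm_ball_pair hx hy
  have h := congrArg (fun f : MvPowerSeries (Fin 2) (OC C) => evMv f ![x, y])
    (FormalGroup.IsComm.comm (F := F))
  have e0 : evMv (MvPowerSeries.X 0 : MvPowerSeries (Fin 2) (OC C)) ![x, y] = x := evMv_X _ ha 0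
  have e1 : evMv (MvPowerSeries.X 1 : MvPowerSeries (Fin 2) (OC C)) ![x, y] = y := evMv_X _ ha 1
  rw [evMv_subst_pair _ _ _ (by simp) (by simp) _ ha, e0, e1] at h
  exact h

instance instAddLawPt : Add (LawPt F) :=
  ⟨fun x y => ⟨lawAdd F x.1 y.1, (norm_lawAdd_le F _ _ x.2 y.2).trans_lt (max_lt x.2 y.2)⟩⟩

instance instZeroLawPt : Zero (LawPt F) := ⟨⟨0, by simp⟩⟩

instance instNegLawPt : Neg (LawPt F) := ⟨fun x => ⟨(exists_lawAdd_eq_zero F x.1 x.2).choose,
    (exists_lawAdd_eq_zero F x.1 x.2).choose_spec.1.trans_lt x.2⟩⟩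

instance [F.IsComm] : AddCommGroup (LawPt F) where
  add_assoc x y z := Subtype.ext (lawAdd_assoc F _ _ _ x.2 y.2 z.2)
  zero_add x := Subtype.ext (lawAdd_zero_left F _ x.2)
  add_zero x := Subtype.ext (lawAdd_zero_right F _ x.2)
  nsmul := nsmulRec
  zsmul := zsmulRec
  neg_add_cancel x := by
    apply Subtype.ext
    change lawAdd F (exists_lawAdd_eq_zero F x.1 x.2).choose x.1 = 0
    rw [lawAdd_comm F _ _ ((exists_lawAdd_eq_zero F x.1 x.2).choose_spec.1.trans_lt x.2) x.2]
    exact (exists_lawAdd_eq_zero F x.1 x.2).choose_spec.2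
  add_comm x y := Subtype.ext (lawAdd_comm F _ _ x.2 y.2)

/-- The underlying element of `C`. -/
def LawPt.val {F : FormalGroup (OC C)} (x : LawPt F) : C := Subtype.val x

/-- Constructor. -/
def LawPt.mk {F : FormalGroup (OC C)} (x : C) (hx : ‖x‖ < 1) : LawPt F := ⟨x, hx⟩

theorem LawPt.norm_lt {F : FormalGroup (OC C)} (x : LawPt F) : ‖x.val‖ < 1 := x.2

@[ext] theorem LawPt.ext' {F : FormalGroup (OC C)} {x y : LawPt F} (h : x.val = y.val) : x = y :=
  Subtype.ext h

theorem LawPt.val_add [F.IsComm] (x y : LawPt F) : (x + y).val = lawAdd F x.val y.val := rfl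

@[simp] theorem LawPt.val_zero [F.IsComm] : (0 : LawPt F).val = 0 := rfl

theorem constantCoeff_mulSeries_aux (m : ℕ) :
    PowerSeries.constantCoeff (mulSeries F m) = 0 := by
  induction m with
  | zero => simp [mulSeries]
  | succ m ih =>
    rw [mulSeries]
    have : PowerSeries.constantCoeff (F.toPowerSeries.subst ![mulSeries F m, PowerSeries.X]) =
        MvPowerSeries.constantCoeff
          (F.toPowerSeries.subst (![mulSeries F m, PowerSeries.X] : Fin 2 → MvPowerSeries Unit (OC C))) := rfl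
    rw [this]
    refine MvPowerSeries.constantCoeff_subst_eq_zero
      (MvPowerSeries.hasSubst_of_constantCoeff_zero ?_) ?_ F.zero_constantCoeff
    · intro t; fin_cases t
      · exact ih
      · exact PowerSeries.constantCoeff_X
    · intro t; fin_cases t
      · exact ih
      · exact PowerSeries.constantCoeff_X

/-- `[m]_F` computes `m • x`. -/
theorem LawPt.val_nsmul [F.IsComm] (m : ℕ) (x : LawPt F) : (m • x).val = ev1 (mulSeries F m) x.val := by
  induction m with
  | zero => simp [mulSeries, ev1_zero _ x.norm_lt]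
  | succ m ih =>
    rw [succ_nsmul, LawPt.val_add, ih, mulSeries,
      ev1_lawAdd_subst F _ _ (constantCoeff_mulSeries_aux F m) (by simp) _ x.norm_lt, ev1_X _ x.norm_lt]

theorem LawPt.norm_neg_le [F.IsComm] (x : LawPt F) : ‖(-x).val‖ ≤ ‖x.val‖ :=
  (exists_lawAdd_eq_zero F x.1 x.2).choose_spec.1

/-- The norm is ultrametric for the group law; `‖-x‖ = ‖x‖`. -/
theorem LawPt.norm_neg [F.IsComm] (x : LawPt F) : ‖(-x).val‖ = ‖x.val‖ := by
  refine le_antisymm (LawPt.norm_neg_le F x) ?_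
  have := LawPt.norm_neg_le F (-x)
  rwa [neg_neg] at this

theorem LawPt.norm_add_eq_of_lt [F.IsComm] (x y : LawPt F) (h : ‖x.val‖ < ‖y.val‖) :
    ‖(x + y).val‖ = ‖y.val‖ := by
  rw [LawPt.val_add]
  have e : lawAdd F x.val y.val = y.val + (x.val + (lawAdd F x.val y.val - (x.val + y.val))) := by ring
  have hsmall : ‖x.val + (lawAdd F x.val y.val - (x.val + y.val))‖ < ‖y.val‖ := by
    refine (IsUltrametricDist.norm_add_le_max _ _).trans_lt (max_lt h ?_)
    refine (norm_lawAdd_sub_add_le F _ _ x.norm_lt y.norm_lt).trans_lt ?_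
    calc ‖x.val‖ * ‖y.val‖ ≤ ‖x.val‖ * 1 := by gcongr; exact y.norm_lt.le
      _ = ‖x.val‖ := mul_one _
      _ < ‖y.val‖ := h
  rw [e, add_comm, IsUltrametricDist.norm_add_eq_max_of_norm_ne_norm hsmall.ne, max_eq_right hsmall.le]

/-- `x -_F y` is small iff `x - y` is small: `‖(x - y)_F‖ = ‖x - y‖`. -/
theorem LawPt.norm_sub_eq [F.IsComm] (x y : LawPt F) : ‖(x - y).val‖ = ‖x.val - y.val‖ := by
  set z : LawPt F := x - y with hz
  have hx : x = z + y := by simp [hz]
  by_cases hz0 : z.val = 0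
  · have : z = 0 := LawPt.ext' (by simpa using hz0)
    have hxy : x = y := by rw [hx, this, zero_add]
    rw [hz0, hxy]; simp
  have hpos : 0 < ‖z.val‖ := norm_pos_iff.mpr hz0
  have e : x.val - y.val = z.val + (lawAdd F z.val y.val - (z.val + y.val)) := by
    rw [hx, LawPt.val_add]; ring
  have hsmall : ‖lawAdd F z.val y.val - (z.val + y.val)‖ < ‖z.val‖ := by
    refine (norm_lawAdd_sub_add_le F _ _ z.norm_lt y.norm_lt).trans_lt ?_
    nlinarith [y.norm_lt]
  rw [e, IsUltrametricDist.norm_add_eq_max_of_norm_ne_norm hsmall.ne', max_eq_left hsmall.le]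

/-- Partial sums of `F`-null sequences converge: -/
theorem LawPt.exists_tendsto_sum [F.IsComm] (u : ℕ → LawPt F)
    (hu : Filter.Tendsto (fun k => (u k).val) Filter.atTop (nhds 0)) :
    ∃ s : LawPt F, Filter.Tendsto (fun N => ((∑ k ∈ Finset.range N, u k : LawPt F)).val)
      Filter.atTop (nhds s.val) := by
  -- uniform bound
  obtain ⟨t, ht0, ht1, ht⟩ : ∃ t : ℝ, 0 ≤ t ∧ t < 1 ∧ ∀ k, ‖(u k).val‖ ≤ t := by
    have h1 : ∀ᶠ k in Filter.atTop, ‖(u k).val‖ < 1 / 2 := by
      have := (hu.norm).eventually (gt_mem_nhds (show ‖(0 : C)‖ < 1 / 2 by simp))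
      exact this
    obtain ⟨N, hN⟩ := Filter.eventually_atTop.mp h1
    obtain ⟨r, hr0, hr1, hr⟩ := exists_radius (fun k : Fin N => (u k).val) (fun k => (u k).norm_lt)
    refine ⟨max r (1 / 2), le_max_of_le_left hr0, max_lt hr1 (by norm_num), fun k => ?_⟩
    by_cases hk : k < N
    · exact (hr ⟨k, hk⟩).trans (le_max_left _ _)
    · exact (hN k (not_lt.mp hk)).le.trans (le_max_right _ _)
  have hS : ∀ N, ‖((∑ k ∈ Finset.range N, u k : LawPt F)).val‖ ≤ t := by
    intro N
    induction N with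
    | zero => simpa using ht0
    | succ N ih =>
      rw [Finset.sum_range_succ, LawPt.val_add]
      exact (norm_lawAdd_le F _ _ (LawPt.norm_lt _) (LawPt.norm_lt _)).trans (max_le ih (ht N))
  have hdiff : ∀ N, ((∑ k ∈ Finset.range (N + 1), u k : LawPt F)).val
      - ((∑ k ∈ Finset.range N, u k : LawPt F)).val = ((∑ k ∈ Finset.range (N + 1), u k : LawPt F)
        - (∑ k ∈ Finset.range N, u k : LawPt F)).val + (((∑ k ∈ Finset.range (N + 1), u k : LawPt F)).val
      - ((∑ k ∈ Finset.range N, u k : LawPt F)).val - ((∑ k ∈ Finset.range (N + 1), u k : LawPt F)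
        - (∑ k ∈ Finset.range N, u k : LawPt F)).val) := by intro N; ring
  have hc : CauchySeq (fun N => ((∑ k ∈ Finset.range N, u k : LawPt F)).val) := by
    apply NonarchimedeanAddGroup.cauchySeq_of_tendsto_sub_nhds_zero
    rw [tendsto_zero_iff_norm_tendsto_zero]
    have : ∀ N, ‖((∑ k ∈ Finset.range (N + 1), u k : LawPt F)).val
        - ((∑ k ∈ Finset.range N, u k : LawPt F)).val‖ = ‖(u N).val‖ := by
      intro N
      rw [← LawPt.norm_sub_eq, Finset.sum_range_succ]
      simp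
    simp only [this]
    exact tendsto_zero_iff_norm_tendsto_zero.mp hu
  obtain ⟨s, hs⟩ := cauchySeq_tendsto_of_complete hc
  have hnorm : ‖s‖ ≤ t := le_of_tendsto hs.norm (Filter.Eventually.of_forall hS)
  exact ⟨LawPt.mk s (hnorm.trans_lt ht1), hs⟩

end Law

theorem val_isHom_eq {F G : FormalGroup (OC C)} (θ : PowerSeries (OC C))
    (hθ : IsFGHom F G θ) (x y : C) (hx : ‖x‖ < 1) (hy : ‖y‖ < 1) :
    ev1 θ (lawAdd F x y) = lawAdd G (ev1 θ x) (ev1 θ y) := by
  have ha := norm_ball_pair hx hy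
  have h := congrArg (fun f : MvPowerSeries (Fin 2) (OC C) => evMv f ![x, y]) hθ.2
  have e0 : evMv (MvPowerSeries.X 0 : MvPowerSeries (Fin 2) (OC C)) ![x, y] = x := evMv_X _ ha 0
  have e1 : evMv (MvPowerSeries.X 1 : MvPowerSeries (Fin 2) (OC C)) ![x, y] = y := evMv_X _ ha 1
  have hc : ∀ i : Fin 2, MvPowerSeries.constantCoeff
      (PowerSeries.subst (MvPowerSeries.X i : MvPowerSeries (Fin 2) (OC C)) θ) = 0 := by
    intro i
    rw [PowerSeries.subst_def]
    exact MvPowerSeries.constantCoeff_subst_eq_zero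
      (MvPowerSeries.hasSubst_of_constantCoeff_zero (by intro t; simp))
      (by intro t; simp) hθ.1
  rw [evMv_subst_two θ _ F.zero_constantCoeff x y hx hy, evMv_subst_pair _ _ _ (hc 0) (hc 1) _ ha,
    evMv_psubst θ _ (by simp) _ ha, evMv_psubst θ _ (by simp) _ ha, e0, e1] at h
  exact h

/-- A homomorphism of laws induces a group homomorphism on points. -/
def homPt {F G : FormalGroup (OC C)} [F.IsComm] [G.IsComm] (θ : PowerSeries (OC C))
    (hθ : IsFGHom F G θ) : LawPt F →+ LawPt G :=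
  AddMonoidHom.mk' (fun x => LawPt.mk (ev1 θ x.val)
      ((norm_ev1_le_of_constantCoeff θ hθ.1 _ x.norm_lt).trans_lt x.norm_lt))
    (fun x y => LawPt.ext' (val_isHom_eq θ hθ _ _ x.norm_lt y.norm_lt))

theorem homPt_val {F G : FormalGroup (OC C)} [F.IsComm] [G.IsComm] (θ : PowerSeries (OC C))
    (hθ : IsFGHom F G θ) (x : LawPt F) : (homPt θ hθ x).val = ev1 θ x.val := rfl

end

end Crest.Agent.LT
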