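/-
S0351 package FORMAL: algebra of formal group laws over an arbitrary commutative ring.
See BLUEPRINT.md §F.
-/
import Crest.Agent.LT.Defs

set_option autoImplicit false

open Crest.LubinTate

namespace Crest.Agent.LT

noncomputable section

variable {R S : Type*} [CommRing R] [CommRing S]

abbrev scomp (f g : PowerSeries R) : PowerSeries R := PowerSeries.subst g f

theorem constantCoeff_scomp (f g : PowerSeries R) (hf : PowerSeries.constantCoeff f = 0)
    (hg : PowerSeries.constantCoeff g = 0) : PowerSeries.constantCoeff (scomp f g) = 0 := by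
  exact PowerSeries.constantCoeff_subst_eq_zero hg f hf

theorem hasSubst_of_cc {g : PowerSeries R} (hg : PowerSeries.constantCoeff g = 0) :
    PowerSeries.HasSubst g := PowerSeries.HasSubst.of_constantCoeff_zero' hg

theorem scomp_assoc (f g h : PowerSeries R) (hg : PowerSeries.constantCoeff g = 0)
    (hh : PowerSeries.constantCoeff h = 0) : scomp (scomp f g) h = scomp f (scomp g h) := by
  exact PowerSeries.subst_comp_subst_apply (hasSubst_of_cc hg) (hasSubst_of_cc hh) f

/-- An element of order `≥ 1` has `coeff n (g ^ d) = 0` for `n < d`. -/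
theorem coeff_pow_of_lt (g : PowerSeries R) (hg : PowerSeries.constantCoeff g = 0) (n d : ℕ)
    (h : n < d) : PowerSeries.coeff n (g ^ d) = 0 := by
  have h1 : (PowerSeries.X : PowerSeries R) ∣ g := PowerSeries.X_dvd_iff.mpr hg
  have h2 : (PowerSeries.X : PowerSeries R) ^ d ∣ g ^ d := pow_dvd_pow_of_dvd h1 d
  exact PowerSeries.X_pow_dvd_iff.mp h2 n h

theorem coeff_pow_self (g : PowerSeries R) (hg : PowerSeries.constantCoeff g = 0) (d : ℕ) :
    PowerSeries.coeff d (g ^ d) = (PowerSeries.coeff 1 g) ^ d := by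
  obtain ⟨u, rfl⟩ : (PowerSeries.X : PowerSeries R) ∣ g := PowerSeries.X_dvd_iff.mpr hg
  rw [mul_pow, PowerSeries.coeff_X_pow_mul', if_pos le_rfl, Nat.sub_self,
    PowerSeries.coeff_zero_eq_constantCoeff_apply, map_pow]
  congr 1
  rw [show (1 : ℕ) = 0 + 1 from rfl, PowerSeries.coeff_succ_X_mul,
    PowerSeries.coeff_zero_eq_constantCoeff_apply]

/-- Coefficient of a composition at the order of the outer series. -/
theorem coeff_scomp_of_order (f g : PowerSeries R) (hg : PowerSeries.constantCoeff g = 0) (N : ℕ)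
    (hf : ∀ j, j < N → PowerSeries.coeff j f = 0) :
    PowerSeries.coeff N (scomp f g) = PowerSeries.coeff N f * (PowerSeries.coeff 1 g) ^ N := by
  rw [scomp, PowerSeries.coeff_subst' (hasSubst_of_cc hg), finsum_eq_single _ N]
  · rw [coeff_pow_self g hg, smul_eq_mul]
  · intro d hd
    rcases lt_or_gt_of_ne hd with h | h
    · rw [hf d h, zero_smul]
    · rw [coeff_pow_of_lt g hg N d h, smul_zero]

/-- Coefficient of a composition below the order of the outer series and inner series. -/
theorem coeff_scomp_of_lt (f g : PowerSeries R) (hg : PowerSeries.constantCoeff g = 0) (N : ℕ)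
    (hf : ∀ j, j < N → PowerSeries.coeff j f = 0) (n : ℕ) (hn : n < N) :
    PowerSeries.coeff n (scomp f g) = 0 := by
  rw [scomp, PowerSeries.coeff_subst' (hasSubst_of_cc hg)]
  apply finsum_eq_zero_of_forall_eq_zero
  intro d
  rcases lt_or_ge d N with h | h
  · rw [hf d h, zero_smul]
  · rw [coeff_pow_of_lt g hg n d (lt_of_lt_of_le hn h), smul_zero]

/-- Coefficient of `θ ∘ A` at the order of the inner series. -/
theorem coeff_scomp_of_order_inner (f g : PowerSeries R) (hf0 : PowerSeries.constantCoeff f = 0)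
    (N : ℕ) (hN : 1 ≤ N) (hg : ∀ j, j < N → PowerSeries.coeff j g = 0) :
    PowerSeries.coeff N (scomp f g) = PowerSeries.coeff 1 f * PowerSeries.coeff N g := by
  have hg0 : PowerSeries.constantCoeff g = 0 := by
    rw [← PowerSeries.coeff_zero_eq_constantCoeff_apply]; exact hg 0 hN
  have hd : ∀ d, 2 ≤ d → PowerSeries.coeff N (g ^ d) = 0 := by
    intro d hd
    have h1 : (PowerSeries.X : PowerSeries R) ^ N ∣ g := PowerSeries.X_pow_dvd_iff.mpr hg
    have h2 : ((PowerSeries.X : PowerSeries R) ^ N) ^ d ∣ g ^ d := pow_dvd_pow_of_dvd h1 d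
    rw [← pow_mul] at h2
    refine PowerSeries.X_pow_dvd_iff.mp h2 N ?_
    nlinarith
  rw [scomp, PowerSeries.coeff_subst' (hasSubst_of_cc hg0), finsum_eq_single _ 1]
  · rw [pow_one, smul_eq_mul]
  · intro d hd1
    rcases Nat.lt_or_ge d 2 with h | h
    · have : d = 0 := by omega
      subst this
      rw [PowerSeries.coeff_zero_eq_constantCoeff_apply, hf0, zero_smul]
    · rw [hd d h, smul_zero]

theorem coeff_one_scomp (f g : PowerSeries R) (hf : PowerSeries.constantCoeff f = 0)
    (hg : PowerSeries.constantCoeff g = 0) :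
    PowerSeries.coeff 1 (scomp f g) = PowerSeries.coeff 1 f * PowerSeries.coeff 1 g := by
  refine coeff_scomp_of_order_inner f g hf 1 le_rfl ?_
  intro j hj
  have : j = 0 := by omega
  subst this
  rw [PowerSeries.coeff_zero_eq_constantCoeff_apply, hg]

theorem map_scomp (φ : R →+* S) (f g : PowerSeries R) (hg : PowerSeries.constantCoeff g = 0) :
    PowerSeries.map φ (scomp f g) = scomp (PowerSeries.map φ f) (PowerSeries.map φ g) := by
  exact PowerSeries.map_subst (hasSubst_of_cc hg) f


/-- Compositional inverse (`PowerSeries.substInvOfIsUnit`, junk `0` if the linear coefficient is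
not a unit). -/
def compInv (t : PowerSeries R) : PowerSeries R := by
  classical
  exact if h : IsUnit (PowerSeries.coeff 1 t) then t.substInvOfIsUnit h else 0

theorem compInv_eq (t : PowerSeries R) (hu : IsUnit (PowerSeries.coeff 1 t)) :
    compInv t = t.substInvOfIsUnit hu := by
  simp [compInv, hu]

theorem scomp_compInv (t : PowerSeries R) (h0 : PowerSeries.constantCoeff t = 0)
    (hu : IsUnit (PowerSeries.coeff 1 t)) : scomp t (compInv t) = PowerSeries.X := by
  rw [compInv_eq t hu]
  exact PowerSeries.subst_substInvOfIsUnit_right t h0 hu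

theorem compInv_scomp (t : PowerSeries R) (h0 : PowerSeries.constantCoeff t = 0)
    (hu : IsUnit (PowerSeries.coeff 1 t)) : scomp (compInv t) t = PowerSeries.X := by
  rw [compInv_eq t hu]
  exact PowerSeries.subst_substInvOfIsUnit_left t h0 hu

theorem constantCoeff_compInv (t : PowerSeries R) (h0 : PowerSeries.constantCoeff t = 0)
    (hu : IsUnit (PowerSeries.coeff 1 t)) : PowerSeries.constantCoeff (compInv t) = 0 := by
  rw [compInv_eq t hu]
  exact PowerSeries.constantCoeff_substInvOfIsUnit t hu

theorem isUnit_coeff_one_compInv (t : PowerSeries R) (h0 : PowerSeries.constantCoeff t = 0)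
    (hu : IsUnit (PowerSeries.coeff 1 t)) : IsUnit (PowerSeries.coeff 1 (compInv t)) := by
  rw [compInv_eq t hu, PowerSeries.coeff_one_substInvOfIsUnit]
  exact (hu.unit⁻¹).isUnit

theorem scomp_X (f : PowerSeries R) : scomp f PowerSeries.X = f := PowerSeries.X_subst f

theorem X_scomp (g : PowerSeries R) (hg : PowerSeries.constantCoeff g = 0) :
    scomp PowerSeries.X g = g := PowerSeries.subst_X (hasSubst_of_cc hg)

theorem cc_map (φ : R →+* S) (t : PowerSeries R) (h0 : PowerSeries.constantCoeff t = 0) :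
    PowerSeries.constantCoeff (PowerSeries.map φ t) = 0 := by
  rw [← PowerSeries.coeff_zero_eq_constantCoeff_apply, PowerSeries.coeff_map,
    PowerSeries.coeff_zero_eq_constantCoeff_apply, h0, map_zero]

theorem map_compInv (φ : R →+* S) (t : PowerSeries R) (h0 : PowerSeries.constantCoeff t = 0)
    (hu : IsUnit (PowerSeries.coeff 1 t)) :
    PowerSeries.map φ (compInv t) = compInv (PowerSeries.map φ t) := by
  have h0' : PowerSeries.constantCoeff (PowerSeries.map φ t) = 0 := cc_map φ t h0
  have hu' : IsUnit (PowerSeries.coeff 1 (PowerSeries.map φ t)) := by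
    rw [PowerSeries.coeff_map]; exact hu.map φ
  have hi0 : PowerSeries.constantCoeff (PowerSeries.map φ (compInv t)) = 0 :=
    cc_map φ _ (constantCoeff_compInv t h0 hu)
  have h1 : scomp (PowerSeries.map φ t) (PowerSeries.map φ (compInv t)) = PowerSeries.X := by
    rw [← map_scomp φ t (compInv t) (constantCoeff_compInv t h0 hu), scomp_compInv t h0 hu,
      PowerSeries.map_X]
  calc PowerSeries.map φ (compInv t)
      = scomp PowerSeries.X (PowerSeries.map φ (compInv t)) := (X_scomp _ hi0).symm
    _ = scomp (scomp (compInv (PowerSeries.map φ t)) (PowerSeries.map φ t))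
          (PowerSeries.map φ (compInv t)) := by rw [compInv_scomp _ h0' hu']
    _ = scomp (compInv (PowerSeries.map φ t)) (scomp (PowerSeries.map φ t)
          (PowerSeries.map φ (compInv t))) := scomp_assoc _ _ _ h0' hi0
    _ = compInv (PowerSeries.map φ t) := by rw [h1, scomp_X]

/-! ### Substitution helpers -/

section Helpers

open MvPowerSeries

variable {σ τ : Type*}

/-- Substituting in a one-variable composition. -/
theorem mv_subst_psubst (f : PowerSeries R) {a : MvPowerSeries σ R} {b : σ → MvPowerSeries τ R}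
    (ha : PowerSeries.HasSubst a) (hb : MvPowerSeries.HasSubst b) :
    MvPowerSeries.subst b (PowerSeries.subst a f) = PowerSeries.subst (MvPowerSeries.subst b a) f :=
  MvPowerSeries.subst_comp_subst_apply ha.const hb f

/-- Substituting `X i` in a one-variable series along a family. -/
theorem mv_subst_psubst_X (f : PowerSeries R) (i : σ) {b : σ → MvPowerSeries τ R}
    (hb : MvPowerSeries.HasSubst b) :
    MvPowerSeries.subst b (PowerSeries.subst (MvPowerSeries.X i : MvPowerSeries σ R) f) =
      PowerSeries.subst (b i) f := by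
  rw [mv_subst_psubst f (PowerSeries.HasSubst.X i) hb, MvPowerSeries.subst_X hb]

theorem hasSubst_pair {f g : MvPowerSeries σ R} (hf : MvPowerSeries.constantCoeff f = 0)
    (hg : MvPowerSeries.constantCoeff g = 0) : MvPowerSeries.HasSubst ![f, g] := by
  refine MvPowerSeries.hasSubst_of_constantCoeff_zero ?_
  intro s; fin_cases s <;> simp [hf, hg]

/-- Substituting into `G.subst ![a,b]`. -/
theorem mv_subst_subst_pair (G : MvPowerSeries (Fin 2) R) {a b : MvPowerSeries σ R}
    (ha : MvPowerSeries.constantCoeff a = 0) (hb : MvPowerSeries.constantCoeff b = 0)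
    {c : σ → MvPowerSeries τ R} (hc : MvPowerSeries.HasSubst c) :
    MvPowerSeries.subst c (G.subst ![a, b]) =
      G.subst ![MvPowerSeries.subst c a, MvPowerSeries.subst c b] := by
  rw [MvPowerSeries.subst_comp_subst_apply (hasSubst_pair ha hb) hc]
  congr 1
  funext s
  fin_cases s <;> rfl

theorem subst_pair_X (G : MvPowerSeries (Fin 2) R) :
    G.subst ![(X 0 : MvPowerSeries (Fin 2) R), X 1] = G := by
  have : ![(X 0 : MvPowerSeries (Fin 2) R), X 1] = X := by
    funext s; fin_cases s <;> rfl
  rw [this, MvPowerSeries.subst_self]; rfl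

theorem psubst_cc {f : PowerSeries R} {a : MvPowerSeries σ R}
    (hf : PowerSeries.constantCoeff f = 0) (ha : MvPowerSeries.constantCoeff a = 0) :
    MvPowerSeries.constantCoeff (PowerSeries.subst a f) = 0 :=
  PowerSeries.constantCoeff_subst_eq_zero ha f hf

theorem law_cc (F : FormalGroup R) {a b : MvPowerSeries σ R}
    (ha : MvPowerSeries.constantCoeff a = 0) (hb : MvPowerSeries.constantCoeff b = 0) :
    MvPowerSeries.constantCoeff (F.toPowerSeries.subst ![a, b]) = 0 := by
  refine MvPowerSeries.constantCoeff_subst_eq_zero (hasSubst_pair ha hb) ?_ F.zero_constantCoeff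
  intro s; fin_cases s <;> simp [ha, hb]

theorem cc_X (i : σ) : MvPowerSeries.constantCoeff (X i : MvPowerSeries σ R) = 0 := by simp

theorem law_hs (F : FormalGroup R) {a b : MvPowerSeries σ R}
    (ha : MvPowerSeries.constantCoeff a = 0) (hb : MvPowerSeries.constantCoeff b = 0) :
    PowerSeries.HasSubst (F.toPowerSeries.subst ![a, b]) :=
  PowerSeries.HasSubst.of_constantCoeff_zero (law_cc F ha hb)

end Helpers

/-- A homomorphism applied at arbitrary points: `θ(F(a,b)) = G(θ a, θ b)`. -/
theorem fgHom_at {F G : FormalGroup R} {θ : PowerSeries R} (h : IsFGHom F G θ)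
    {τ : Type*} {a b : MvPowerSeries τ R} (ha : MvPowerSeries.constantCoeff a = 0)
    (hb : MvPowerSeries.constantCoeff b = 0) :
    PowerSeries.subst (F.toPowerSeries.subst ![a, b]) θ =
      G.toPowerSeries.subst ![PowerSeries.subst a θ, PowerSeries.subst b θ] := by
  have hc := hasSubst_pair ha hb
  have := congrArg (MvPowerSeries.subst ![a, b]) h.2
  rw [mv_subst_psubst θ (PowerSeries.HasSubst.of_constantCoeff_zero F.zero_constantCoeff) hc,
    mv_subst_subst_pair _ (psubst_cc h.1 (cc_X 0)) (psubst_cc h.1 (cc_X 1)) hc,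
    mv_subst_psubst_X θ 0 hc, mv_subst_psubst_X θ 1 hc] at this
  simpa using this

/-! ### Homomorphisms -/

theorem fgHom_id (F : FormalGroup R) : IsFGHom F F PowerSeries.X := by
  refine ⟨by simp, ?_⟩
  rw [PowerSeries.subst_X (PowerSeries.HasSubst.of_constantCoeff_zero F.zero_constantCoeff),
    PowerSeries.subst_X (PowerSeries.HasSubst.X 0), PowerSeries.subst_X (PowerSeries.HasSubst.X 1),
    subst_pair_X]

theorem fgHom_comp {F G K : FormalGroup R} {θ₁ θ₂ : PowerSeries R} (h₂ : IsFGHom G K θ₂)
    (h₁ : IsFGHom F G θ₁) : IsFGHom F K (scomp θ₂ θ₁) := by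
  have hF : PowerSeries.HasSubst F.toPowerSeries :=
    PowerSeries.HasSubst.of_constantCoeff_zero F.zero_constantCoeff
  have h10 : PowerSeries.HasSubst θ₁ := hasSubst_of_cc h₁.1
  refine ⟨constantCoeff_scomp _ _ h₂.1 h₁.1, ?_⟩
  rw [scomp, PowerSeries.subst_comp_subst_apply h10 hF, h₁.2,
    fgHom_at h₂ (psubst_cc h₁.1 (cc_X 0)) (psubst_cc h₁.1 (cc_X 1)),
    PowerSeries.subst_comp_subst_apply h10 (PowerSeries.HasSubst.X 0),
    PowerSeries.subst_comp_subst_apply h10 (PowerSeries.HasSubst.X 1)]

theorem map_X_mv {σ : Type*} (φ : R →+* S) (i : σ) :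
    MvPowerSeries.map φ (MvPowerSeries.X i : MvPowerSeries σ R) = MvPowerSeries.X i :=
  MvPowerSeries.map_X φ i

theorem map_pair (φ : R →+* S) {σ : Type*} (a b : MvPowerSeries σ R) :
    (fun i => MvPowerSeries.map φ ((![a, b] : Fin 2 → MvPowerSeries σ R) i)) =
      ![MvPowerSeries.map φ a, MvPowerSeries.map φ b] := by
  funext s; fin_cases s <;> rfl

/-- `map` of a law evaluated on a pair. -/
theorem map_law_subst {σ : Type*} (φ : R →+* S) (F : MvPowerSeries (Fin 2) R) {a b : MvPowerSeries σ R}
    (ha : MvPowerSeries.constantCoeff a = 0) (hb : MvPowerSeries.constantCoeff b = 0) :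
    MvPowerSeries.map φ (F.subst ![a, b]) =
      (MvPowerSeries.map φ F).subst ![MvPowerSeries.map φ a, MvPowerSeries.map φ b] := by
  rw [MvPowerSeries.map_subst (hasSubst_pair ha hb), map_pair]

theorem fgHom_map {F G : FormalGroup R} {θ : PowerSeries R} (h : IsFGHom F G θ) (φ : R →+* S) :
    IsFGHom (F.map φ) (G.map φ) (PowerSeries.map φ θ) := by
  refine ⟨cc_map φ θ h.1, ?_⟩
  have h2 := congrArg (MvPowerSeries.map φ) h.2
  rw [PowerSeries.map_subst (PowerSeries.HasSubst.of_constantCoeff_zero F.zero_constantCoeff),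
    map_law_subst φ _ (psubst_cc h.1 (cc_X 0)) (psubst_cc h.1 (cc_X 1)),
    PowerSeries.map_subst (PowerSeries.HasSubst.X 0), PowerSeries.map_subst (PowerSeries.HasSubst.X 1),
    map_X_mv, map_X_mv] at h2
  exact h2

theorem psubst_X_cc {σ : Type*} {θ : PowerSeries R} (h : PowerSeries.constantCoeff θ = 0) (i : σ) :
    MvPowerSeries.constantCoeff (PowerSeries.subst (MvPowerSeries.X i : MvPowerSeries σ R) θ) = 0 :=
  psubst_cc h (cc_X i)

/-- The identity `θ(ψ(a)) = a` at a multivariate point. -/
theorem psubst_scomp_of_eq_X {σ : Type*} {θ ψ : PowerSeries R} (hψ : PowerSeries.constantCoeff ψ = 0)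
    (h : scomp θ ψ = PowerSeries.X) {a : MvPowerSeries σ R} (ha : MvPowerSeries.constantCoeff a = 0) :
    PowerSeries.subst (PowerSeries.subst a ψ) θ = a := by
  have hs : PowerSeries.HasSubst a := PowerSeries.HasSubst.of_constantCoeff_zero ha
  rw [← PowerSeries.subst_comp_subst_apply (hasSubst_of_cc hψ) hs]
  have : PowerSeries.subst ψ θ = PowerSeries.X := h
  rw [this, PowerSeries.subst_X hs]

theorem fgHom_inv {F G : FormalGroup R} {θ : PowerSeries R} (h : IsFGHom F G θ)
    (hu : IsUnit (PowerSeries.coeff 1 θ)) : IsFGHom G F (compInv θ) := by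
  have hi0 := constantCoeff_compInv θ h.1 hu
  refine ⟨hi0, ?_⟩
  have hG : PowerSeries.HasSubst G.toPowerSeries :=
    PowerSeries.HasSubst.of_constantCoeff_zero G.zero_constantCoeff
  -- `θ (F (ψ X₀, ψ X₁)) = G (X₀, X₁)`
  have key : PowerSeries.subst (F.toPowerSeries.subst ![PowerSeries.subst (MvPowerSeries.X 0 : MvPowerSeries (Fin 2) R) (compInv θ),
      PowerSeries.subst (MvPowerSeries.X 1 : MvPowerSeries (Fin 2) R) (compInv θ)]) θ = G.toPowerSeries := by
    have := fgHom_at h (psubst_X_cc hi0 (0 : Fin 2)) (psubst_X_cc hi0 (1 : Fin 2))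
    rw [psubst_scomp_of_eq_X hi0 (scomp_compInv θ h.1 hu) (cc_X 0),
      psubst_scomp_of_eq_X hi0 (scomp_compInv θ h.1 hu) (cc_X 1)] at this
    exact this.trans (subst_pair_X _)
  rw [← key]
  exact psubst_scomp_of_eq_X h.1 (compInv_scomp θ h.1 hu) (law_cc F (psubst_X_cc hi0 0) (psubst_X_cc hi0 1))

theorem map_map_law (F : FormalGroup R) {T : Type*} [CommRing T] (φ : R →+* S) (ψ : S →+* T) :
    (F.map φ).map ψ = F.map (ψ.comp φ) := by
  ext d
  simp [FormalGroup.map]

instance isComm_map (F : FormalGroup R) [F.IsComm] (φ : R →+* S) : (F.map φ).IsComm := by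
  refine ⟨?_⟩
  have h : F.toPowerSeries = F.toPowerSeries.subst ![(MvPowerSeries.X 1 : MvPowerSeries (Fin 2) R), MvPowerSeries.X 0] :=
    FormalGroup.IsComm.comm
  change MvPowerSeries.map φ F.toPowerSeries = _
  conv_lhs => rw [h]
  rw [map_law_subst φ _ (cc_X 1) (cc_X 0), map_X_mv, map_X_mv]
  rfl

theorem law_comm (F : FormalGroup R) [F.IsComm] {σ : Type*} {a b : MvPowerSeries σ R}
    (ha : MvPowerSeries.constantCoeff a = 0) (hb : MvPowerSeries.constantCoeff b = 0) :
    F.toPowerSeries.subst ![a, b] = F.toPowerSeries.subst ![b, a] :=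
  F.comm' (PowerSeries.HasSubst.of_constantCoeff_zero ha) (PowerSeries.HasSubst.of_constantCoeff_zero hb)

/-- `coeff m T` with `m 1 = 0` is read off `T(X,0)`. -/
theorem coeff_eq_coeff_subst_X_zero (T : MvPowerSeries (Fin 2) R) (m : Fin 2 →₀ ℕ) (hm : m 1 = 0) :
    MvPowerSeries.coeff m T =
      PowerSeries.coeff (m 0) (T.subst ![(PowerSeries.X : PowerSeries R), 0]) := by
  have hprod : ∀ d : Fin 2 →₀ ℕ, (d.prod fun s e => ((![(PowerSeries.X : PowerSeries R), 0] : Fin 2 → PowerSeries R) s) ^ e)
      = (PowerSeries.X : PowerSeries R) ^ (d 0) * (0 : PowerSeries R) ^ (d 1) := by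
    intro d
    rw [Finsupp.prod_fintype _ _ (by simp), Fin.prod_univ_two]
    rfl
  rw [PowerSeries.coeff, MvPowerSeries.coeff_subst, finsum_eq_single _ m]
  · rw [hprod, hm, pow_zero, mul_one, smul_eq_mul]
    have : (MvPowerSeries.coeff (Finsupp.single () (m 0))) ((PowerSeries.X : PowerSeries R) ^ (m 0)) = 1 := by
      have := PowerSeries.coeff_X_pow_self (R := R) (m 0)
      simpa [PowerSeries.coeff] using this
    rw [this, mul_one]
  · intro d hd
    rw [hprod]
    by_cases hd1 : d 1 = 0
    · have hd0 : d 0 ≠ m 0 := by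
        intro h0
        apply hd
        ext s; fin_cases s
        · exact h0
        · simp [hd1, hm]
      rw [hd1, pow_zero, mul_one]
      have : (MvPowerSeries.coeff (Finsupp.single () (m 0))) ((PowerSeries.X : PowerSeries R) ^ (d 0)) = 0 := by
        have := PowerSeries.coeff_X_pow (R := R) (m 0) (d 0)
        rw [if_neg (Ne.symm hd0)] at this
        simpa [PowerSeries.coeff] using this
      rw [this, smul_zero]
    · rw [zero_pow hd1, mul_zero, map_zero, smul_zero]
  · exact MvPowerSeries.HasSubst.X_zero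

/-- Same with the roles exchanged. -/
theorem coeff_eq_coeff_subst_zero_X (T : MvPowerSeries (Fin 2) R) (m : Fin 2 →₀ ℕ) (hm : m 0 = 0) :
    MvPowerSeries.coeff m T =
      PowerSeries.coeff (m 1) (T.subst ![0, (PowerSeries.X : PowerSeries R)]) := by
  have hprod : ∀ d : Fin 2 →₀ ℕ, (d.prod fun s e => ((![0, (PowerSeries.X : PowerSeries R)] : Fin 2 → PowerSeries R) s) ^ e)
      = (0 : PowerSeries R) ^ (d 0) * (PowerSeries.X : PowerSeries R) ^ (d 1) := by
    intro d
    rw [Finsupp.prod_fintype _ _ (by simp), Fin.prod_univ_two]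
    rfl
  rw [PowerSeries.coeff, MvPowerSeries.coeff_subst, finsum_eq_single _ m]
  · rw [hprod, hm, pow_zero, one_mul, smul_eq_mul]
    have : (MvPowerSeries.coeff (Finsupp.single () (m 1))) ((PowerSeries.X : PowerSeries R) ^ (m 1)) = 1 := by
      have := PowerSeries.coeff_X_pow_self (R := R) (m 1)
      simpa [PowerSeries.coeff] using this
    rw [this, mul_one]
  · intro d hd
    rw [hprod]
    by_cases hd1 : d 0 = 0
    · have hd0 : d 1 ≠ m 1 := by
        intro h0
        apply hd
        ext s; fin_cases s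
        · simp [hd1, hm]
        · exact h0
      rw [hd1, pow_zero, one_mul]
      have : (MvPowerSeries.coeff (Finsupp.single () (m 1))) ((PowerSeries.X : PowerSeries R) ^ (d 1)) = 0 := by
        have := PowerSeries.coeff_X_pow (R := R) (m 1) (d 1)
        rw [if_neg (Ne.symm hd0)] at this
        simpa [PowerSeries.coeff] using this
      rw [this, smul_zero]
    · rw [zero_pow hd1, zero_mul, map_zero, smul_zero]
  · exact MvPowerSeries.HasSubst.zero_X


/-! ### Conjugate laws -/

/-- The series `t⁻¹(F(t X, t Y))`. -/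
def conjLawSeries (F : FormalGroup R) (t : PowerSeries R) : MvPowerSeries (Fin 2) R :=
  PowerSeries.subst (F.toPowerSeries.subst
    ![PowerSeries.subst (MvPowerSeries.X 0 : MvPowerSeries (Fin 2) R) t,
      PowerSeries.subst (MvPowerSeries.X 1 : MvPowerSeries (Fin 2) R) t]) (compInv t)

theorem conj_at (F : FormalGroup R) (t : PowerSeries R) (h0 : PowerSeries.constantCoeff t = 0)
    {σ : Type*} {a b : MvPowerSeries σ R} (ha : MvPowerSeries.constantCoeff a = 0)
    (hb : MvPowerSeries.constantCoeff b = 0) :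
    (conjLawSeries F t).subst ![a, b] =
      PowerSeries.subst (F.toPowerSeries.subst ![PowerSeries.subst a t, PowerSeries.subst b t])
        (compInv t) := by
  have hc := hasSubst_pair ha hb
  rw [conjLawSeries, mv_subst_psubst _ (law_hs F (psubst_X_cc h0 0) (psubst_X_cc h0 1)) hc,
    mv_subst_subst_pair _ (psubst_X_cc h0 0) (psubst_X_cc h0 1) hc,
    mv_subst_psubst_X t 0 hc, mv_subst_psubst_X t 1 hc]
  rfl

theorem conj_cc (F : FormalGroup R) (t : PowerSeries R) (h0 : PowerSeries.constantCoeff t = 0)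
    (hu : IsUnit (PowerSeries.coeff 1 t)) :
    MvPowerSeries.constantCoeff (conjLawSeries F t) = 0 :=
  psubst_cc (constantCoeff_compInv t h0 hu) (law_cc F (psubst_X_cc h0 0) (psubst_X_cc h0 1))

theorem conj_at_cc (F : FormalGroup R) (t : PowerSeries R) (h0 : PowerSeries.constantCoeff t = 0)
    (hu : IsUnit (PowerSeries.coeff 1 t))
    {σ : Type*} {a b : MvPowerSeries σ R} (ha : MvPowerSeries.constantCoeff a = 0)
    (hb : MvPowerSeries.constantCoeff b = 0) :
    MvPowerSeries.constantCoeff ((conjLawSeries F t).subst ![a, b]) = 0 := by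
  rw [conj_at F t h0 ha hb]
  exact psubst_cc (constantCoeff_compInv t h0 hu) (law_cc F (psubst_cc h0 ha) (psubst_cc h0 hb))

/-- `t (t⁻¹ A) = A`. -/
theorem t_conj_at (F : FormalGroup R) (t : PowerSeries R) (h0 : PowerSeries.constantCoeff t = 0)
    (hu : IsUnit (PowerSeries.coeff 1 t))
    {σ : Type*} {a b : MvPowerSeries σ R} (ha : MvPowerSeries.constantCoeff a = 0)
    (hb : MvPowerSeries.constantCoeff b = 0) :
    PowerSeries.subst ((conjLawSeries F t).subst ![a, b]) t =
      F.toPowerSeries.subst ![PowerSeries.subst a t, PowerSeries.subst b t] := by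
  rw [conj_at F t h0 ha hb]
  exact psubst_scomp_of_eq_X (constantCoeff_compInv t h0 hu) (scomp_compInv t h0 hu)
    (law_cc F (psubst_cc h0 ha) (psubst_cc h0 hb))

theorem conj_subst_X_zero (F : FormalGroup R) (t : PowerSeries R)
    (h0 : PowerSeries.constantCoeff t = 0) (hu : IsUnit (PowerSeries.coeff 1 t)) :
    (conjLawSeries F t).subst ![(PowerSeries.X : PowerSeries R), 0] = PowerSeries.X := by
  have hX : MvPowerSeries.constantCoeff (PowerSeries.X : PowerSeries R) = 0 := PowerSeries.constantCoeff_X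
  have h00 : MvPowerSeries.constantCoeff (0 : PowerSeries R) = 0 := map_zero _
  rw [conj_at F t h0 hX h00, PowerSeries.subst_zero_of_constantCoeff_zero h0, PowerSeries.X_subst,
    FormalGroup.add_zero F (PowerSeries.HasSubst.of_constantCoeff_zero' h0)]
  exact compInv_scomp t h0 hu

theorem conj_subst_zero_X (F : FormalGroup R) (t : PowerSeries R)
    (h0 : PowerSeries.constantCoeff t = 0) (hu : IsUnit (PowerSeries.coeff 1 t)) :
    (conjLawSeries F t).subst ![0, (PowerSeries.X : PowerSeries R)] = PowerSeries.X := by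
  have hX : MvPowerSeries.constantCoeff (PowerSeries.X : PowerSeries R) = 0 := PowerSeries.constantCoeff_X
  have h00 : MvPowerSeries.constantCoeff (0 : PowerSeries R) = 0 := map_zero _
  rw [conj_at F t h0 h00 hX, PowerSeries.subst_zero_of_constantCoeff_zero h0, PowerSeries.X_subst,
    FormalGroup.zero_add F (PowerSeries.HasSubst.of_constantCoeff_zero' h0)]
  exact compInv_scomp t h0 hu

/-- The conjugate law `t⁻¹(F(t X, t Y))`. -/
def conjLaw (F : FormalGroup R) (t : PowerSeries R) (h0 : PowerSeries.constantCoeff t = 0)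
    (hu : IsUnit (PowerSeries.coeff 1 t)) : FormalGroup R where
  toPowerSeries := conjLawSeries F t
  zero_constantCoeff := conj_cc F t h0 hu
  lin_coeff_X := by
    rw [coeff_eq_coeff_subst_X_zero _ (Finsupp.single 0 1) (by simp), conj_subst_X_zero F t h0 hu]
    simp
  lin_coeff_Y := by
    rw [coeff_eq_coeff_subst_zero_X _ (Finsupp.single 1 1) (by simp), conj_subst_zero_X F t h0 hu]
    simp
  assoc := by
    have c0 : MvPowerSeries.constantCoeff (MvPowerSeries.X 0 : MvPowerSeries (Fin 3) R) = 0 := cc_X 0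
    have c1 : MvPowerSeries.constantCoeff (MvPowerSeries.X 1 : MvPowerSeries (Fin 3) R) = 0 := cc_X 1
    have c2 : MvPowerSeries.constantCoeff (MvPowerSeries.X 2 : MvPowerSeries (Fin 3) R) = 0 := cc_X 2
    have e1 := conj_at F t h0 (conj_at_cc F t h0 hu c0 c1) c2
    have e2 := conj_at F t h0 c0 (conj_at_cc F t h0 hu c1 c2)
    refine e1.trans (Eq.trans ?_ e2.symm)
    rw [t_conj_at F t h0 hu c0 c1, t_conj_at F t h0 hu c1 c2,
      F.assoc' (PowerSeries.HasSubst.of_constantCoeff_zero (psubst_cc h0 c0))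
        (PowerSeries.HasSubst.of_constantCoeff_zero (psubst_cc h0 c1))
        (PowerSeries.HasSubst.of_constantCoeff_zero (psubst_cc h0 c2))]

theorem conjLaw_hom (F : FormalGroup R) (t : PowerSeries R) (h0 : PowerSeries.constantCoeff t = 0)
    (hu : IsUnit (PowerSeries.coeff 1 t)) : IsFGHom (conjLaw F t h0 hu) F t := by
  refine ⟨h0, ?_⟩
  exact psubst_scomp_of_eq_X (constantCoeff_compInv t h0 hu) (scomp_compInv t h0 hu)
    (law_cc F (psubst_X_cc h0 0) (psubst_X_cc h0 1))

instance conjLaw_isComm (F : FormalGroup R) [F.IsComm] (t : PowerSeries R)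
    (h0 : PowerSeries.constantCoeff t = 0) (hu : IsUnit (PowerSeries.coeff 1 t)) :
    (conjLaw F t h0 hu).IsComm := by
  refine ⟨?_⟩
  change conjLawSeries F t = (conjLawSeries F t).subst _
  rw [conj_at F t h0 (cc_X 1) (cc_X 0), conjLawSeries, law_comm F (psubst_X_cc h0 0) (psubst_X_cc h0 1)]

/-- If `t` is an isomorphism `G → F` then `G` is the conjugate law (uniqueness). -/
theorem eq_conjLaw_of_hom {F G : FormalGroup R} {t : PowerSeries R} (h : IsFGHom G F t)
    (hu : IsUnit (PowerSeries.coeff 1 t)) (h0 : PowerSeries.constantCoeff t = 0) :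
    G = conjLaw F t h0 hu := by
  apply FormalGroup.ext
  change G.toPowerSeries = conjLawSeries F t
  rw [conjLawSeries, ← h.2]
  exact (psubst_scomp_of_eq_X h0 (compInv_scomp t h0 hu) G.zero_constantCoeff).symm

theorem conjLaw_map (F : FormalGroup R) (φ : R →+* S) (t : PowerSeries R)
    (h0 : PowerSeries.constantCoeff t = 0) (hu : IsUnit (PowerSeries.coeff 1 t))
    (h0' : PowerSeries.constantCoeff (PowerSeries.map φ t) = 0)
    (hu' : IsUnit (PowerSeries.coeff 1 (PowerSeries.map φ t))) :
    (conjLaw F t h0 hu).map φ = conjLaw (F.map φ) (PowerSeries.map φ t) h0' hu' := by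
  apply FormalGroup.ext
  change MvPowerSeries.map φ (conjLawSeries F t) = conjLawSeries (F.map φ) (PowerSeries.map φ t)
  rw [conjLawSeries, conjLawSeries, ← map_compInv φ t h0 hu,
    PowerSeries.map_subst (law_hs F (psubst_X_cc h0 0) (psubst_X_cc h0 1)),
    map_law_subst φ _ (psubst_X_cc h0 0) (psubst_X_cc h0 1),
    PowerSeries.map_subst (PowerSeries.HasSubst.X 0), PowerSeries.map_subst (PowerSeries.HasSubst.X 1),
    map_X_mv, map_X_mv]
  rfl

/-! ### `m`-series -/

theorem mulSeries_zero (F : FormalGroup R) : mulSeries F 0 = 0 := rfl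

theorem mulSeries_succ (F : FormalGroup R) (m : ℕ) :
    mulSeries F (m + 1) = F.toPowerSeries.subst ![mulSeries F m, PowerSeries.X] := rfl

theorem constantCoeff_mulSeries (F : FormalGroup R) (m : ℕ) :
    PowerSeries.constantCoeff (mulSeries F m) = 0 := by
  induction m with
  | zero => simp [mulSeries_zero]
  | succ m ih =>
    rw [mulSeries_succ]
    exact law_cc F ih PowerSeries.constantCoeff_X

theorem mulSeries_map (F : FormalGroup R) (φ : R →+* S) (m : ℕ) :
    mulSeries (F.map φ) m = PowerSeries.map φ (mulSeries F m) := by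
  induction m with
  | zero => simp [mulSeries_zero]
  | succ m ih =>
    rw [mulSeries_succ, mulSeries_succ, ih]
    have h := map_law_subst φ F.toPowerSeries (constantCoeff_mulSeries F m) PowerSeries.constantCoeff_X
    have hX : MvPowerSeries.map φ (PowerSeries.X : PowerSeries R) = PowerSeries.X := PowerSeries.map_X φ
    rw [hX] at h
    exact h.symm

/-- Linear coefficient of `F(f,g)`. -/
theorem coeff_one_law (F : FormalGroup R) (f g : PowerSeries R)
    (hf : PowerSeries.constantCoeff f = 0) (hg : PowerSeries.constantCoeff g = 0) :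
    PowerSeries.coeff 1 (F.toPowerSeries.subst ![f, g]) =
      PowerSeries.coeff 1 f + PowerSeries.coeff 1 g := by
  classical
  have hprod : ∀ d : Fin 2 →₀ ℕ, (d.prod fun s e => ((![f, g] : Fin 2 → PowerSeries R) s) ^ e)
      = f ^ (d 0) * g ^ (d 1) := by
    intro d
    rw [Finsupp.prod_fintype _ _ (by simp), Fin.prod_univ_two]
    rfl
  have hfd : (PowerSeries.X : PowerSeries R) ∣ f := PowerSeries.X_dvd_iff.mpr hf
  have hgd : (PowerSeries.X : PowerSeries R) ∣ g := PowerSeries.X_dvd_iff.mpr hg
  have hvan : ∀ d : Fin 2 →₀ ℕ, 2 ≤ d 0 + d 1 → PowerSeries.coeff 1 (f ^ (d 0) * g ^ (d 1)) = 0 := by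
    intro d hd
    have h1 : (PowerSeries.X : PowerSeries R) ^ (d 0 + d 1) ∣ f ^ (d 0) * g ^ (d 1) := by
      rw [pow_add]; exact mul_dvd_mul (pow_dvd_pow_of_dvd hfd _) (pow_dvd_pow_of_dvd hgd _)
    exact PowerSeries.X_pow_dvd_iff.mp h1 1 (by omega)
  have hne : (Finsupp.single (0 : Fin 2) 1 : Fin 2 →₀ ℕ) ≠ Finsupp.single 1 1 := by
    intro h
    have := DFunLike.congr_fun h 0
    simp at this
  have hc : MvPowerSeries.coeff (0 : Fin 2 →₀ ℕ) F.toPowerSeries = 0 := by
    rw [MvPowerSeries.coeff_zero_eq_constantCoeff_apply]; exact F.zero_constantCoeff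
  rw [PowerSeries.coeff, MvPowerSeries.coeff_subst (hasSubst_pair hf hg)]
  rw [finsum_eq_sum_of_support_subset (s := {Finsupp.single 0 1, Finsupp.single 1 1})]
  · rw [Finset.sum_pair hne, hprod, hprod, F.lin_coeff_X, F.lin_coeff_Y]
    simp [PowerSeries.coeff]
  · intro d hd
    simp only [Function.mem_support] at hd
    rw [hprod] at hd
    simp only [Finset.coe_insert, Finset.coe_singleton, Set.mem_insert_iff, Set.mem_singleton_iff]
    by_contra hcon
    push Not at hcon
    apply hd
    rcases Nat.lt_or_ge (d 0 + d 1) 2 with hlt | hge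
    · -- small degree
      have h0 : d = 0 ∨ d = Finsupp.single 0 1 ∨ d = Finsupp.single 1 1 := by
        have : (d 0 = 0 ∧ d 1 = 0) ∨ (d 0 = 1 ∧ d 1 = 0) ∨ (d 0 = 0 ∧ d 1 = 1) := by omega
        rcases this with ⟨a, b⟩ | ⟨a, b⟩ | ⟨a, b⟩
        · left; ext s; fin_cases s <;> simp [a, b]
        · right; left; ext s; fin_cases s <;> simp [a, b]
        · right; right; ext s; fin_cases s <;> simp [a, b]
      rcases h0 with h0 | h0 | h0
      · rw [h0, hc, zero_smul]
      · exact absurd h0 hcon.1
      · exact absurd h0 hcon.2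
    · have := hvan d hge
      have h2 : (MvPowerSeries.coeff (Finsupp.single () 1)) (f ^ d 0 * g ^ d 1) = 0 := this
      rw [h2, smul_zero]

theorem coeff_one_mulSeries (F : FormalGroup R) (m : ℕ) :
    PowerSeries.coeff 1 (mulSeries F m) = (m : R) := by
  induction m with
  | zero => simp [mulSeries_zero]
  | succ m ih =>
    rw [mulSeries_succ, coeff_one_law F _ _ (constantCoeff_mulSeries F m) PowerSeries.constantCoeff_X,
      ih, PowerSeries.coeff_one_X]
    push_cast; rfl

theorem cc_ps_of_cc {f : PowerSeries R} (hf : MvPowerSeries.constantCoeff f = 0) :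
    PowerSeries.constantCoeff f = 0 := hf

/-- `(F(f,g)) ∘ h = F(f ∘ h, g ∘ h)`. -/
theorem scomp_law (F : FormalGroup R) (f g h : PowerSeries R)
    (hf : PowerSeries.constantCoeff f = 0) (hg : PowerSeries.constantCoeff g = 0)
    (hh : PowerSeries.constantCoeff h = 0) :
    scomp (F.toPowerSeries.subst ![f, g]) h = F.toPowerSeries.subst ![scomp f h, scomp g h] :=
  mv_subst_subst_pair F.toPowerSeries hf hg (hasSubst_of_cc hh).const

/-- `mulSeries F (a + b) = F([a], [b])`, commutative case not needed. -/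
theorem mulSeries_add (F : FormalGroup R) (a b : ℕ) :
    mulSeries F (a + b) = F.toPowerSeries.subst ![mulSeries F a, mulSeries F b] := by
  induction b with
  | zero =>
    rw [Nat.add_zero, mulSeries_zero]
    exact (FormalGroup.add_zero F (PowerSeries.HasSubst.of_constantCoeff_zero' (constantCoeff_mulSeries F a))).symm
  | succ b ih =>
    rw [← Nat.add_assoc, mulSeries_succ, ih, mulSeries_succ]
    exact F.assoc' (PowerSeries.HasSubst.of_constantCoeff_zero' (constantCoeff_mulSeries F a))
      (PowerSeries.HasSubst.of_constantCoeff_zero' (constantCoeff_mulSeries F b)) PowerSeries.HasSubst.X'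

theorem mulSeries_mul (F : FormalGroup R) [F.IsComm] (a b : ℕ) :
    mulSeries F (a * b) = scomp (mulSeries F a) (mulSeries F b) := by
  have hb := constantCoeff_mulSeries F b
  induction a with
  | zero =>
    rw [Nat.zero_mul, mulSeries_zero, scomp]
    have : PowerSeries.subst (mulSeries F b) (0 : PowerSeries R) = 0 := by
      rw [← PowerSeries.coe_substAlgHom (hasSubst_of_cc hb), map_zero]
    rw [this]
  | succ a ih =>
    rw [Nat.succ_mul, mulSeries_add, ih, mulSeries_succ, scomp_law F _ _ _ (constantCoeff_mulSeries F a)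
      PowerSeries.constantCoeff_X hb, X_scomp _ hb]

/-- A homomorphism commutes with `m`-series. -/
theorem fgHom_comp_mulSeries {F G : FormalGroup R} {θ : PowerSeries R} (h : IsFGHom F G θ)
    (m : ℕ) : scomp θ (mulSeries F m) = scomp (mulSeries G m) θ := by
  induction m with
  | zero =>
    rw [mulSeries_zero, mulSeries_zero, scomp, scomp, PowerSeries.subst_zero_of_constantCoeff_zero h.1]
    rw [← PowerSeries.coe_substAlgHom (hasSubst_of_cc h.1), map_zero]
  | succ m ih =>
    rw [mulSeries_succ, mulSeries_succ, scomp_law G _ _ _ (constantCoeff_mulSeries G m)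
      PowerSeries.constantCoeff_X h.1, X_scomp _ h.1, ← ih, scomp]
    rw [fgHom_at h (constantCoeff_mulSeries F m) PowerSeries.constantCoeff_X, PowerSeries.X_subst]

/-- A series with zero constant term as a point of `F`. -/
def ptOf (F : FormalGroup R) {σ : Type*} (a : MvPowerSeries σ R)
    (ha : MvPowerSeries.constantCoeff a = 0) : F.Point σ :=
  ⟨a, PowerSeries.HasSubst.of_constantCoeff_zero ha⟩

/-- Multiples in `F.Point`. -/
theorem point_nsmul_val (F : FormalGroup R) {σ : Type*} (a : MvPowerSeries σ R)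
    (ha : MvPowerSeries.constantCoeff a = 0) (m : ℕ) :
    Subtype.val (m • ptOf F a ha) = PowerSeries.subst a (mulSeries F m) := by
  have hs : PowerSeries.HasSubst a := PowerSeries.HasSubst.of_constantCoeff_zero ha
  induction m with
  | zero =>
    rw [zero_nsmul, mulSeries_zero]
    have : PowerSeries.subst a (0 : PowerSeries R) = 0 := by
      rw [← PowerSeries.coe_substAlgHom hs, map_zero]
    rw [this]; rfl
  | succ m ih =>
    have h1 : Subtype.val ((m • ptOf F a ha) + ptOf F a ha) =
        F.toPowerSeries.subst ![Subtype.val (m • ptOf F a ha), a] := rfl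
    rw [succ_nsmul, h1, ih, mulSeries_succ]
    have := mv_subst_subst_pair F.toPowerSeries (σ := Unit) (a := mulSeries F m) (b := PowerSeries.X)
      (constantCoeff_mulSeries F m) PowerSeries.constantCoeff_X hs.const
    have hX : MvPowerSeries.subst (fun _ => a) (PowerSeries.X : PowerSeries R) = a := PowerSeries.subst_X hs
    rw [hX] at this
    exact this.symm

/-- `[m]_F` is a homomorphism of commutative laws. -/
theorem isFGHom_mulSeries (F : FormalGroup R) [F.IsComm] (m : ℕ) : IsFGHom F F (mulSeries F m) := by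
  refine ⟨constantCoeff_mulSeries F m, ?_⟩
  have c0 : MvPowerSeries.constantCoeff (MvPowerSeries.X 0 : MvPowerSeries (Fin 2) R) = 0 := cc_X 0
  have c1 : MvPowerSeries.constantCoeff (MvPowerSeries.X 1 : MvPowerSeries (Fin 2) R) = 0 := cc_X 1
  have cF : MvPowerSeries.constantCoeff (F.toPowerSeries) = 0 := F.zero_constantCoeff
  rw [← point_nsmul_val F _ c0, ← point_nsmul_val F _ c1, ← point_nsmul_val F _ cF]
  have e2 : ptOf F F.toPowerSeries cF = ptOf F _ c0 + ptOf F _ c1 := Subtype.ext (subst_pair_X _).symm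
  rw [e2, nsmul_add, FormalGroup.add_apply]

/-! ### The chain rule for a one-variable outer series and a multivariate inner series -/

section Chain

variable {σ : Type*}

theorem coeff_pow_mul_eq_zero_of_degree_lt (A B : MvPowerSeries σ R)
    (hA : MvPowerSeries.constantCoeff A = 0) (n : σ →₀ ℕ) (m : ℕ) (h : n.degree < m) :
    MvPowerSeries.coeff n (A ^ m * B) = 0 := by
  apply MvPowerSeries.coeff_of_lt_order
  have h1 : ((m : ℕ∞)) ≤ (A ^ m).order := MvPowerSeries.le_order_pow_of_constantCoeff_eq_zero m hA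
  have h2 := MvPowerSeries.le_order_mul (f := A ^ m) (g := B)
  refine lt_of_lt_of_le ?_ h2
  refine lt_of_lt_of_le ?_ (le_trans h1 le_self_add)
  exact_mod_cast h

/-- The chain rule: `∂ᵢ (f ∘ A) = (f' ∘ A) · ∂ᵢ A`. -/
theorem pderiv_psubst (i : σ) (f : PowerSeries R) (A : MvPowerSeries σ R)
    (hA : MvPowerSeries.constantCoeff A = 0) :
    MvPowerSeries.pderiv R i (PowerSeries.subst A f) =
      PowerSeries.subst A (PowerSeries.derivative R f) * MvPowerSeries.pderiv R i A := by
  have hs : PowerSeries.HasSubst A := PowerSeries.HasSubst.of_constantCoeff_zero hA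
  set φ : PowerSeries R →ₐ[R] MvPowerSeries σ R := PowerSeries.substAlgHom hs with hφ
  have hφa : ∀ g : PowerSeries R, PowerSeries.subst A g = φ g := fun g => by
    rw [hφ, PowerSeries.coe_substAlgHom hs]
  set E : PowerSeries R → MvPowerSeries σ R := fun g =>
    MvPowerSeries.pderiv R i (φ g) - φ (PowerSeries.derivative R g) * MvPowerSeries.pderiv R i A
    with hE
  have Emul : ∀ g h, E (g * h) = φ g * E h + φ h * E g := by
    intro g h
    simp only [hE, map_mul, Derivation.leibniz, smul_eq_mul, map_add]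
    ring
  have Eadd : ∀ g h, E (g + h) = E g + E h := by
    intro g h
    simp only [hE, map_add]
    ring
  have EX : E PowerSeries.X = 0 := by
    simp only [hE, PowerSeries.derivative_X, map_one, one_mul]
    rw [← hφa, PowerSeries.subst_X hs, sub_self]
  have EC : ∀ r : R, E (PowerSeries.C r) = 0 := by
    intro r
    have h1 : PowerSeries.C r = algebraMap R (PowerSeries R) r := rfl
    have h2 : φ (PowerSeries.C r) = algebraMap R _ r := by rw [h1, AlgHom.commutes]
    simp only [hE]
    rw [h2]
    have h3 : (PowerSeries.derivative R) (PowerSeries.C r) = 0 := by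
      rw [h1]; exact Derivation.map_algebraMap _ _
    rw [h3, map_zero, zero_mul, sub_zero]
    exact Derivation.map_algebraMap _ _
  have Epow : ∀ n : ℕ, E (PowerSeries.X ^ n) = 0 := by
    intro n
    induction n with
    | zero =>
      have := EC 1
      simpa using this
    | succ n ih => rw [pow_succ, Emul, ih, EX, mul_zero, mul_zero, add_zero]
  have Epoly : ∀ P : Polynomial R, E (P : PowerSeries R) = 0 := by
    intro P
    induction P using Polynomial.induction_on' with
    | add p q hp hq => rw [Polynomial.coe_add, Eadd, hp, hq, add_zero]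
    | monomial n a =>
      rw [Polynomial.coe_monomial, PowerSeries.monomial_eq_C_mul_X_pow, Emul, Epow, EC, mul_zero,
        mul_zero, add_zero]
  have Ekey : ∀ (g : PowerSeries R) (m : ℕ), ∃ B, E g = A ^ m * B := by
    intro g m
    set Q := PowerSeries.mk fun j => PowerSeries.coeff (j + m) g
    refine ⟨E Q, ?_⟩
    have hg : g = PowerSeries.X ^ m * Q + ((g.trunc m : Polynomial R) : PowerSeries R) :=
      PowerSeries.eq_X_pow_mul_shift_add_trunc m g
    have : E g = E (PowerSeries.X ^ m * Q + ((g.trunc m : Polynomial R) : PowerSeries R)) := by rw [← hg]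
    rw [this, Eadd, Epoly, add_zero, Emul, Epow, mul_zero, add_zero, map_pow, ← hφa,
      PowerSeries.subst_X hs]
  have hE0 : E f = 0 := by
    ext n
    obtain ⟨B, hB⟩ := Ekey f (n.degree + 1)
    rw [hB, coeff_pow_mul_eq_zero_of_degree_lt A B hA n _ (Nat.lt_succ_self _), map_zero]
  have := sub_eq_zero.mp hE0
  rw [hφa, hφa]
  exact this

end Chain
/-! ### Characteristic `p`: Frobenius factorisation -/

section CharP

variable (p : ℕ) [Fact p.Prime] [CharP R p]

/-- Coefficientwise Frobenius twist `F^{(p)}`. -/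
abbrev frobLaw (F : FormalGroup R) : FormalGroup R := F.map (frobenius R p)

theorem psubst_X_pow {σ : Type*} {a : MvPowerSeries σ R} (ha : PowerSeries.HasSubst a) (k : ℕ) :
    PowerSeries.subst a ((PowerSeries.X : PowerSeries R) ^ k) = a ^ k := by
  rw [PowerSeries.subst_pow ha, PowerSeries.subst_X ha]

theorem expand_eq_subst_pair (T : MvPowerSeries (Fin 2) R) (k : ℕ) (hk : k ≠ 0) :
    MvPowerSeries.expand k hk T =
      T.subst ![(MvPowerSeries.X 0 : MvPowerSeries (Fin 2) R) ^ k, MvPowerSeries.X 1 ^ k] := by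
  have : ![(MvPowerSeries.X 0 : MvPowerSeries (Fin 2) R) ^ k, MvPowerSeries.X 1 ^ k] =
      fun i => MvPowerSeries.X i ^ k := by
    funext s; fin_cases s <;> rfl
  rw [this, MvPowerSeries.expand, MvPowerSeries.coe_substAlgHom]

/-- `X^p` is a homomorphism `F → F^{(p)}`. -/
theorem isFGHom_X_pow_p (F : FormalGroup R) :
    IsFGHom F (frobLaw p F) (PowerSeries.X ^ p) := by
  have hp : p ≠ 0 := (Fact.out : p.Prime).ne_zero
  have hF : PowerSeries.HasSubst F.toPowerSeries :=
    PowerSeries.HasSubst.of_constantCoeff_zero F.zero_constantCoeff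
  refine ⟨by simp [hp], ?_⟩
  rw [psubst_X_pow hF, psubst_X_pow (PowerSeries.HasSubst.X 0), psubst_X_pow (PowerSeries.HasSubst.X 1),
    ← expand_eq_subst_pair _ p hp]
  change _ = MvPowerSeries.expand p hp (MvPowerSeries.map (frobenius R p) F.toPowerSeries)
  have : ExpChar R p := ExpChar.prime (Fact.out : p.Prime)
  rw [← MvPowerSeries.map_expand, MvPowerSeries.map_frobenius_expand]

omit [Fact p.Prime] [CharP R p] in
theorem law_eq_X_add (G : FormalGroup R) :
    ∃ H : MvPowerSeries (Fin 2) R, G.toPowerSeries = MvPowerSeries.X 0 + MvPowerSeries.X 1 * H := by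
  have hd : (MvPowerSeries.X 1 : MvPowerSeries (Fin 2) R) ∣ G.toPowerSeries - MvPowerSeries.X 0 := by
    rw [MvPowerSeries.X_dvd_iff]
    intro m hm
    have hX : MvPowerSeries.constantCoeff (PowerSeries.X : PowerSeries R) = 0 :=
      PowerSeries.constantCoeff_X
    have h00 : MvPowerSeries.constantCoeff (0 : PowerSeries R) = 0 := map_zero _
    rw [map_sub, sub_eq_zero, coeff_eq_coeff_subst_X_zero _ m hm,
      coeff_eq_coeff_subst_X_zero (MvPowerSeries.X 0) m hm,
      FormalGroup.add_zero G (PowerSeries.HasSubst.of_constantCoeff_zero hX),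
      MvPowerSeries.subst_X (hasSubst_pair hX h00)]
    rfl
  obtain ⟨H, hH⟩ := hd
  exact ⟨H, by rw [← hH]; ring⟩

omit [Fact p.Prime] [CharP R p] in
theorem derivative_eq_zero_of_hom {F G : FormalGroup R} {f : PowerSeries R} (hf : IsFGHom F G f)
    (h1 : PowerSeries.coeff 1 f = 0) : PowerSeries.derivative R f = 0 := by
  classical
  have hX : MvPowerSeries.constantCoeff (PowerSeries.X : PowerSeries R) = 0 :=
    PowerSeries.constantCoeff_X
  have h00 : MvPowerSeries.constantCoeff (0 : PowerSeries R) = 0 := map_zero _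
  have hε : MvPowerSeries.HasSubst ![(PowerSeries.X : PowerSeries R), 0] := hasSubst_pair hX h00
  set ε : MvPowerSeries (Fin 2) R →ₐ[R] PowerSeries R := MvPowerSeries.substAlgHom hε with hεdef
  have hεa : ∀ T, ε T = T.subst ![(PowerSeries.X : PowerSeries R), 0] := fun T => by
    rw [hεdef, MvPowerSeries.coe_substAlgHom hε]
  have εX0 : ε (MvPowerSeries.X 0) = PowerSeries.X := by
    rw [hεa, MvPowerSeries.subst_X hε]; rfl
  have εX1 : ε (MvPowerSeries.X 1) = 0 := by
    rw [hεa, MvPowerSeries.subst_X hε]; rfl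
  set D := MvPowerSeries.pderiv (σ := Fin 2) R 1 with hD
  have f'0 : PowerSeries.constantCoeff (PowerSeries.derivative R f) = 0 := by
    rw [← PowerSeries.coeff_zero_eq_constantCoeff_apply, PowerSeries.coeff_derivative]
    simp [h1]
  have hεb : ∀ g : PowerSeries R, PowerSeries.constantCoeff g = 0 →
      ε (PowerSeries.subst (MvPowerSeries.X 1 : MvPowerSeries (Fin 2) R) g) = 0 := by
    intro g hg
    rw [hεa, mv_subst_psubst_X g 1 hε]
    exact PowerSeries.subst_zero_of_constantCoeff_zero hg
  -- the two sides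
  -- left side
  have hFcc := F.zero_constantCoeff
  have hFX : F.toPowerSeries.subst ![(PowerSeries.X : PowerSeries R), 0] = PowerSeries.X :=
    FormalGroup.add_zero F (PowerSeries.HasSubst.of_constantCoeff_zero hX)
  have hL : ε (D (PowerSeries.subst F.toPowerSeries f)) =
      PowerSeries.derivative R f * ε (D F.toPowerSeries) := by
    rw [hD, pderiv_psubst 1 f _ hFcc, map_mul, hεa (PowerSeries.subst F.toPowerSeries _),
      mv_subst_psubst _ (PowerSeries.HasSubst.of_constantCoeff_zero hFcc) hε, hFX, PowerSeries.X_subst]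
  -- right side
  obtain ⟨H, hH⟩ := law_eq_X_add G
  have ca : MvPowerSeries.constantCoeff (PowerSeries.subst (MvPowerSeries.X 0 : MvPowerSeries (Fin 2) R) f) = 0 :=
    psubst_X_cc hf.1 0
  have cb : MvPowerSeries.constantCoeff (PowerSeries.subst (MvPowerSeries.X 1 : MvPowerSeries (Fin 2) R) f) = 0 :=
    psubst_X_cc hf.1 1
  have hpair := hasSubst_pair ca cb
  have hR : ε (D (G.toPowerSeries.subst ![PowerSeries.subst (MvPowerSeries.X 0 : MvPowerSeries (Fin 2) R) f,
      PowerSeries.subst (MvPowerSeries.X 1 : MvPowerSeries (Fin 2) R) f])) = 0 := by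
    rw [hH, MvPowerSeries.subst_add hpair, MvPowerSeries.subst_mul hpair,
      MvPowerSeries.subst_X hpair, MvPowerSeries.subst_X hpair]
    simp only [Matrix.cons_val_zero, Matrix.cons_val_one, Matrix.cons_val_fin_one]
    rw [map_add, Derivation.leibniz, smul_eq_mul, smul_eq_mul, map_add, map_add, map_mul, map_mul,
      hεb f hf.1]
    have h1 : D (PowerSeries.subst (MvPowerSeries.X 0 : MvPowerSeries (Fin 2) R) f) = 0 := by
      rw [hD, pderiv_psubst 1 f _ (cc_X 0), MvPowerSeries.pderiv_X_of_ne (by decide), mul_zero]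
    have h2 : D (PowerSeries.subst (MvPowerSeries.X 1 : MvPowerSeries (Fin 2) R) f) =
        PowerSeries.subst (MvPowerSeries.X 1 : MvPowerSeries (Fin 2) R) (PowerSeries.derivative R f) := by
      rw [hD, pderiv_psubst 1 f _ (cc_X 1), MvPowerSeries.pderiv_X_self, mul_one]
    rw [h1, h2, hεb _ f'0, map_zero]
    simp
  have main : ε (D (PowerSeries.subst F.toPowerSeries f)) = ε (D (G.toPowerSeries.subst
      ![PowerSeries.subst (MvPowerSeries.X 0 : MvPowerSeries (Fin 2) R) f,
        PowerSeries.subst (MvPowerSeries.X 1 : MvPowerSeries (Fin 2) R) f])) := by rw [hf.2]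
  rw [hL, hR] at main
  -- the unit
  have hu : IsUnit (ε (D F.toPowerSeries)) := by
    rw [PowerSeries.isUnit_iff_constantCoeff, hεa, ← PowerSeries.coeff_zero_eq_constantCoeff_apply]
    have := coeff_eq_coeff_subst_X_zero (D F.toPowerSeries) 0 (by simp)
    simp only [Finsupp.coe_zero, Pi.zero_apply] at this
    rw [← this, hD, MvPowerSeries.coeff_pderiv, zero_add, F.lin_coeff_Y]
    simp
  exact (hu.mul_left_eq_zero).mp main

theorem coeff_eq_zero_of_derivative_eq_zero {f : PowerSeries R}
    (hd : PowerSeries.derivative R f = 0) (j : ℕ) (hj : ¬ p ∣ j) : PowerSeries.coeff j f = 0 := by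
  have hp : p.Prime := Fact.out
  obtain _ | k := j
  · exact absurd (dvd_zero p) hj
  have h := congrArg (PowerSeries.coeff k) hd
  rw [PowerSeries.coeff_derivative, map_zero] at h
  have hc : IsCoprime ((k + 1 : ℕ) : ℤ) (p : ℤ) :=
    Nat.isCoprime_iff_coprime.mpr ((Nat.Prime.coprime_iff_not_dvd hp).mpr hj).symm
  obtain ⟨u, v, huv⟩ := hc
  have huv' := congrArg (Int.cast : ℤ → R) huv
  push_cast at huv'
  rw [CharP.cast_eq_zero R p, mul_zero, add_zero] at huv'
  calc PowerSeries.coeff (k + 1) f
      = PowerSeries.coeff (k + 1) f * ((u : R) * ((k : R) + 1)) := by rw [huv', mul_one]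
    _ = (PowerSeries.coeff (k + 1) f * ((k : R) + 1)) * u := by ring
    _ = 0 := by rw [h, zero_mul]

omit [CharP R p] in
theorem expand_injective_aux (k : ℕ) (hk : k ≠ 0) {φ ψ : MvPowerSeries (Fin 2) R}
    (h : MvPowerSeries.expand k hk φ = MvPowerSeries.expand k hk ψ) : φ = ψ := by
  ext m
  rw [← MvPowerSeries.coeff_expand_smul k hk φ m, ← MvPowerSeries.coeff_expand_smul k hk ψ m, h]

omit [Fact p.Prime] [CharP R p] in
theorem expand_psubst (k : ℕ) (hk : k ≠ 0) (f : PowerSeries R) {A : MvPowerSeries (Fin 2) R}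
    (hA : MvPowerSeries.constantCoeff A = 0) :
    MvPowerSeries.expand k hk (PowerSeries.subst A f) =
      PowerSeries.subst (MvPowerSeries.expand k hk A) f := by
  have hs : PowerSeries.HasSubst A := PowerSeries.HasSubst.of_constantCoeff_zero hA
  exact MvPowerSeries.expand_subst k hk hs.const

/-- A homomorphism with vanishing linear coefficient factors through Frobenius:
`f = f₁(X^p)`, `f₁ : F^{(p)} → G` a homomorphism. Proof: modulo `Y²`,
`f(F(X,Y)) = G(f X, f Y)` gives `F₂(X,0) f'(X) = 0`, so `f' = 0`; so `f` is a series in `X^p`. -/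
theorem hom_frob_factor {F G : FormalGroup R} {f : PowerSeries R} (hf : IsFGHom F G f)
    (h1 : PowerSeries.coeff 1 f = 0) :
    ∃ f₁ : PowerSeries R, f = scomp f₁ (PowerSeries.X ^ p) ∧ IsFGHom (frobLaw p F) G f₁ ∧
      PowerSeries.constantCoeff f₁ = 0 := by
  have hp : p ≠ 0 := (Fact.out : p.Prime).ne_zero
  have hd := derivative_eq_zero_of_hom hf h1
  set f₁ : PowerSeries R := PowerSeries.mk fun k => PowerSeries.coeff (p * k) f with hf₁
  have hexp : f = scomp f₁ (PowerSeries.X ^ p) := by
    rw [scomp, ← PowerSeries.expand_apply p hp]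
    ext n
    rw [PowerSeries.coeff_expand]
    split_ifs with h
    · rw [hf₁, PowerSeries.coeff_mk, Nat.mul_div_cancel' h]
    · exact coeff_eq_zero_of_derivative_eq_zero p hd n h
  have hc : PowerSeries.constantCoeff f₁ = 0 := by
    rw [← PowerSeries.coeff_zero_eq_constantCoeff_apply, hf₁, PowerSeries.coeff_mk, mul_zero,
      PowerSeries.coeff_zero_eq_constantCoeff_apply]
    exact hf.1
  refine ⟨f₁, hexp, ⟨hc, ?_⟩, hc⟩
  have hXp : PowerSeries.HasSubst ((PowerSeries.X : PowerSeries R) ^ p) :=
    hasSubst_of_cc (by simp [hp])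
  have e : ∀ {A : MvPowerSeries (Fin 2) R}, MvPowerSeries.constantCoeff A = 0 →
      PowerSeries.subst (A ^ p) f₁ = PowerSeries.subst A f := by
    intro A hA
    have hs : PowerSeries.HasSubst A := PowerSeries.HasSubst.of_constantCoeff_zero hA
    conv_rhs => rw [hexp]
    rw [scomp, PowerSeries.subst_comp_subst_apply hXp hs, psubst_X_pow hs]
  have hFp := (isFGHom_X_pow_p p F).2
  rw [psubst_X_pow (PowerSeries.HasSubst.of_constantCoeff_zero F.zero_constantCoeff),
    psubst_X_pow (PowerSeries.HasSubst.X 0), psubst_X_pow (PowerSeries.HasSubst.X 1),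
    ← expand_eq_subst_pair _ p hp] at hFp
  have ccF : MvPowerSeries.constantCoeff (frobLaw p F).toPowerSeries = 0 :=
    (frobLaw p F).zero_constantCoeff
  apply expand_injective_aux p hp
  rw [expand_psubst p hp f₁ ccF, ← hFp, e F.zero_constantCoeff, hf.2]
  have ca := psubst_X_cc hc (0 : Fin 2)
  have cb := psubst_X_cc hc (1 : Fin 2)
  rw [MvPowerSeries.expand_subst p hp (hasSubst_pair ca cb)]
  have : (fun i => MvPowerSeries.expand p hp
      ((![PowerSeries.subst (MvPowerSeries.X 0 : MvPowerSeries (Fin 2) R) f₁,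
        PowerSeries.subst (MvPowerSeries.X 1 : MvPowerSeries (Fin 2) R) f₁] : Fin 2 → _) i)) =
      ![PowerSeries.subst (MvPowerSeries.X 0 : MvPowerSeries (Fin 2) R) f,
        PowerSeries.subst (MvPowerSeries.X 1 : MvPowerSeries (Fin 2) R) f] := by
    funext s
    fin_cases s
    · change MvPowerSeries.expand p hp (PowerSeries.subst (MvPowerSeries.X 0 : MvPowerSeries (Fin 2) R) f₁) = _
      rw [expand_psubst p hp f₁ (cc_X 0), MvPowerSeries.expand_X, e (cc_X 0)]
      rfl
    · change MvPowerSeries.expand p hp (PowerSeries.subst (MvPowerSeries.X 1 : MvPowerSeries (Fin 2) R) f₁) = _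
      rw [expand_psubst p hp f₁ (cc_X 1), MvPowerSeries.expand_X, e (cc_X 1)]
      rfl
  rw [this]

end CharP
/-! ### Height ideals over an arbitrary ring -/

/-- The ideals `I_h(F)`, defined as in the Prelude over any ring. -/
def htIdeal (p : ℕ) (F : FormalGroup R) : ℕ → Ideal R
  | 0 => ⊥
  | h + 1 => htIdeal p F h ⊔ Ideal.span {PowerSeries.coeff (p ^ h) (mulSeries F p)}

theorem heightIdeal_eq_htIdeal (p : ℕ) [Fact p.Prime] (n : ℕ) (H : FormalGroup (LTRing p n)) (h : ℕ) :
    heightIdeal p n H h = htIdeal p H h := by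
  induction h with
  | zero => rfl
  | succ h ih => rw [heightIdeal, htIdeal, ih]

theorem htIdeal_map (p : ℕ) (F : FormalGroup R) (φ : R →+* S) (h : ℕ) :
    (htIdeal p F h).map φ = htIdeal p (F.map φ) h := by
  induction h with
  | zero => simp [htIdeal]
  | succ h ih =>
    rw [htIdeal, htIdeal, Ideal.map_sup, ih, Ideal.map_span, Set.image_singleton, mulSeries_map,
      PowerSeries.coeff_map]

theorem htIdeal_mono (p : ℕ) (F : FormalGroup R) {a b : ℕ} (h : a ≤ b) :
    htIdeal p F a ≤ htIdeal p F b := by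
  induction h with
  | refl => exact le_rfl
  | step _ ih => exact ih.trans (by rw [htIdeal]; exact le_sup_left)

theorem coeff_mem_htIdeal (p : ℕ) (F : FormalGroup R) {i h : ℕ} (hi : i < h) :
    PowerSeries.coeff (p ^ i) (mulSeries F p) ∈ htIdeal p F h := by
  refine htIdeal_mono p F (Nat.succ_le_of_lt hi) ?_
  rw [htIdeal]
  exact Ideal.mem_sup_right (Ideal.mem_span_singleton_self _)

/-- Iterated Frobenius factorisation of a homomorphism. -/
theorem hom_frob_factor_iter (p : ℕ) [Fact p.Prime] [CharP R p] {F G : FormalGroup R}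
    {f : PowerSeries R} (hf : IsFGHom F G f) (N : ℕ)
    (h : ∀ i, i < N → PowerSeries.coeff (p ^ i) f = 0) :
    ∃ (F' : FormalGroup R) (f' : PowerSeries R), IsFGHom F' G f' ∧
      f = PowerSeries.expand (p ^ N) (pow_ne_zero N (Fact.out : p.Prime).ne_zero) f' := by
  have hp : p ≠ 0 := (Fact.out : p.Prime).ne_zero
  induction N with
  | zero =>
    refine ⟨F, f, hf, ?_⟩
    rw [PowerSeries.expand_apply]
    simp [PowerSeries.X_subst]
  | succ N ih =>
    obtain ⟨F', f', hf', he⟩ := ih (fun i hi => h i (Nat.lt_succ_of_lt hi))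
    have h1 : PowerSeries.coeff 1 f' = 0 := by
      have := h N (Nat.lt_succ_self N)
      rw [he, PowerSeries.coeff_expand, if_pos (dvd_refl _),
        Nat.div_self (pow_pos (Fact.out : p.Prime).pos N)] at this
      exact this
    obtain ⟨f₁, he₁, hf₁, -⟩ := hom_frob_factor p hf' h1
    refine ⟨frobLaw p F', f₁, hf₁, ?_⟩
    rw [he, he₁, scomp, ← PowerSeries.expand_apply p hp]
    have := PowerSeries.expand_mul (R := R) (p ^ N) (pow_ne_zero N hp) p hp f₁
    exact this.symm

/-- Modulo `I_h(F)` (`h ≥ 1`) the `p`-series is a series in `X^(p^h)`. -/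
theorem coeff_mulSeries_mem_htIdeal (p : ℕ) [Fact p.Prime] (F : FormalGroup R) [F.IsComm] (h j : ℕ)
    (hj : ¬ p ^ h ∣ j) : PowerSeries.coeff j (mulSeries F p) ∈ htIdeal p F h := by
  have hpp : p.Prime := Fact.out
  obtain _ | h := h
  · exact absurd (by simp) hj
  set I := htIdeal p F (h + 1) with hI
  by_cases hI1 : I = ⊤
  · rw [hI1]; trivial
  set π := Ideal.Quotient.mk I with hπ
  have hn : Nontrivial (R ⧸ I) := Ideal.Quotient.nontrivial_iff.mpr hI1
  have hpzero : ((p : ℕ) : R ⧸ I) = 0 := by
    have h1 : (p : R) ∈ I := by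
      have := coeff_mem_htIdeal p F (Nat.succ_pos h)
      rwa [pow_zero, coeff_one_mulSeries] at this
    have := Ideal.Quotient.eq_zero_iff_mem.mpr h1
    simpa using this
  have hch : CharP (R ⧸ I) p := (CharP.charP_iff_prime_eq_zero hpp).mpr hpzero
  have hmap := mulSeries_map F π p
  have hhom : IsFGHom (F.map π) (F.map π) (mulSeries (F.map π) p) := isFGHom_mulSeries _ p
  have hz : ∀ i, i < h + 1 → PowerSeries.coeff (p ^ i) (mulSeries (F.map π) p) = 0 := by
    intro i hi
    rw [hmap, PowerSeries.coeff_map]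
    exact Ideal.Quotient.eq_zero_iff_mem.mpr (coeff_mem_htIdeal p F hi)
  obtain ⟨F', f', -, he⟩ := hom_frob_factor_iter p hhom (h + 1) hz
  have := congrArg (PowerSeries.coeff j) he
  rw [PowerSeries.coeff_expand, if_neg hj, hmap, PowerSeries.coeff_map] at this
  exact Ideal.Quotient.eq_zero_iff_mem.mp this

theorem sup_span_le_of_sub_mem (I : Ideal R) {a b v : R} (h : a - v * b ∈ I) :
    I ⊔ Ideal.span {a} ≤ I ⊔ Ideal.span {b} := by
  refine sup_le le_sup_left ?_
  rw [Ideal.span_singleton_le_iff_mem]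
  have : a = (a - v * b) + v * b := by ring
  rw [this]
  exact Ideal.add_mem _ (Ideal.mem_sup_left h)
    (Ideal.mem_sup_right (Ideal.mul_mem_left _ _ (Ideal.mem_span_singleton_self b)))

/-- `I_h` is an isomorphism invariant. Proof: induction on `h`; modulo `I_h`, compare the coefficient
of `X^(p^h)` in `θ∘[p]_F = [p]_G∘θ`: `c·a_h(F) = a_h(G)·c^(p^h)`, `c` the unit linear coefficient. -/
theorem htIdeal_eq_of_hom (p : ℕ) [Fact p.Prime] {F G : FormalGroup R} [F.IsComm] [G.IsComm]
    {θ : PowerSeries R} (hθ : IsFGHom F G θ) (hu : IsUnit (PowerSeries.coeff 1 θ)) (h : ℕ) :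
    htIdeal p F h = htIdeal p G h := by
  have hpp : p.Prime := Fact.out
  induction h with
  | zero => rfl
  | succ h ih =>
    rw [htIdeal, htIdeal, ← ih]
    set I := htIdeal p F h with hI
    set π := Ideal.Quotient.mk I with hπ
    have hIG : I = htIdeal p G h := ih
    have lowF : ∀ j, j < p ^ h → PowerSeries.coeff j (mulSeries (F.map π) p) = 0 := by
      intro j hj
      rw [mulSeries_map, PowerSeries.coeff_map]
      apply Ideal.Quotient.eq_zero_iff_mem.mpr
      by_cases h0 : j = 0
      · rw [h0, PowerSeries.coeff_zero_eq_constantCoeff_apply, constantCoeff_mulSeries]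
        exact zero_mem _
      · exact coeff_mulSeries_mem_htIdeal p F h j (fun hd => absurd (Nat.le_of_dvd (Nat.pos_of_ne_zero h0) hd) (not_le.mpr hj))
    have lowG : ∀ j, j < p ^ h → PowerSeries.coeff j (mulSeries (G.map π) p) = 0 := by
      intro j hj
      rw [mulSeries_map, PowerSeries.coeff_map]
      apply Ideal.Quotient.eq_zero_iff_mem.mpr
      by_cases h0 : j = 0
      · rw [h0, PowerSeries.coeff_zero_eq_constantCoeff_apply, constantCoeff_mulSeries]
        exact zero_mem _
      · rw [hIG]
        exact coeff_mulSeries_mem_htIdeal p G h j (fun hd => absurd (Nat.le_of_dvd (Nat.pos_of_ne_zero h0) hd) (not_le.mpr hj))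
    have hm := fgHom_map hθ π
    have hcomp := congrArg (PowerSeries.coeff (p ^ h)) (fgHom_comp_mulSeries hm p)
    rw [coeff_scomp_of_order_inner _ _ hm.1 _ (Nat.one_le_pow _ _ hpp.pos) lowF,
      coeff_scomp_of_order _ _ hm.1 _ lowG, mulSeries_map, mulSeries_map, PowerSeries.coeff_map,
      PowerSeries.coeff_map, PowerSeries.coeff_map] at hcomp
    set c := PowerSeries.coeff 1 θ with hc
    obtain ⟨u, hu'⟩ := hu
    -- `π c * π aF = π aG * π c ^ p^h`
    set aF := PowerSeries.coeff (p ^ h) (mulSeries F p) with haF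
    set aG := PowerSeries.coeff (p ^ h) (mulSeries G p) with haG
    have h1 : aF - (((u⁻¹ : Rˣ) : R) * c ^ p ^ h) * aG ∈ I := by
      rw [← Ideal.Quotient.eq_zero_iff_mem, map_sub, map_mul, map_mul, map_pow, sub_eq_zero]
      have : π (((u⁻¹ : Rˣ) : R)) * π c = 1 := by
        rw [← map_mul, ← hu', Units.inv_mul, map_one]
      calc π aF = π (((u⁻¹ : Rˣ) : R)) * π c * π aF := by rw [this, one_mul]
        _ = π (((u⁻¹ : Rˣ) : R)) * (π c * π aF) := by ring
        _ = _ := by rw [hcomp]; ring
    have h2 : aG - (c * ((u⁻¹ : Rˣ) : R) ^ p ^ h) * aF ∈ I := by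
      rw [← Ideal.Quotient.eq_zero_iff_mem, map_sub, map_mul, map_mul, map_pow, sub_eq_zero]
      have : π (((u⁻¹ : Rˣ) : R)) * π c = 1 := by
        rw [← map_mul, ← hu', Units.inv_mul, map_one]
      have h3 : (π (((u⁻¹ : Rˣ) : R))) ^ p ^ h * (π c) ^ p ^ h = 1 := by
        rw [← mul_pow, this, one_pow]
      calc π aG = π aG * ((π (((u⁻¹ : Rˣ) : R))) ^ p ^ h * (π c) ^ p ^ h) := by rw [h3, mul_one]
        _ = (π aG * π c ^ p ^ h) * (π (((u⁻¹ : Rˣ) : R))) ^ p ^ h := by ring
        _ = _ := by rw [← hcomp]; ring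
    exact le_antisymm (sup_span_le_of_sub_mem I h1) (sup_span_le_of_sub_mem I h2)

end

end Crest.Agent.LT
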