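/-
S0351 package HAZEWINKEL: the universal `p`-typical law in Hazewinkel's parameters.
See BLUEPRINT.md §H. The construction is in `LT/Hazewinkel/{Basic,Series,Integrality,Law,Spec,PSer}`.
-/
import Crest.Agent.LT.Hazewinkel.PSer

set_option autoImplicit false

open Crest.LubinTate
open scoped Classical

namespace Crest.Agent.LT

noncomputable section

open MvPowerSeries

variable (p : ℕ) [Fact p.Prime]

section PSeriesCharP

variable {R : Type*} [CommRing R]

/-- The universal form of the `p`-series formula. -/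
private theorem pSeries_universal (N : ℕ) (w : ℕ → UR) (hw : ∀ i, N ≤ i → w i = 0)
    (he : ∀ i, p ^ (i + 1) ≠ 0) :
    ∃ e : PowerSeries UR, PowerSeries.constantCoeff e = 0 ∧
      mulSeries (hzv p w) p = (hzv p w).toPowerSeries.subst
        ![(∑ i ∈ Finset.range N, tokenPt (hzv p w) (w i) (p ^ (i + 1)) (he i) :
            (hzv p w).Point Unit).val,
          (PowerSeries.C (p : UR) * e : PowerSeries UR)] := by
  set ι := URtoUQ with hι
  set v : ℕ → UQ := fun i => ι (w i) with hv
  have hvN : ∀ i, N ≤ i → v i = 0 := fun i hi => by simp [hv, hw i hi]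
  obtain ⟨e, he0, hlogp⟩ := exists_log_p p ι URtoUQ_injective w
  refine ⟨e, he0, ?_⟩
  apply map_URtoUQ_injective
  set F' := hzv p w with hF'
  have hFmap : F'.map ι = hzv p v := hzv_map p ι w
  have hlog : IsLog (F'.map ι) (logOf p v) := by rw [hFmap]; exact isLog_hzv p v
  set S' := (∑ i ∈ Finset.range N, tokenPt F' (w i) (p ^ (i + 1)) (he i) : F'.Point Unit) with hS'
  have hSmap : map ι S'.val =
      (∑ i ∈ Finset.range N, tokenPt (F'.map ι) (ι (w i)) (p ^ (i + 1)) (he i) :
        (F'.map ι).Point Unit).val :=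
    map_point_sum ι _ _ _ (fun i => map_tokenPt F' ι _ _ _)
  have hE : PowerSeries.HasSubst (PowerSeries.C (p : UR) * e : PowerSeries UR) :=
    PowerSeries.HasSubst.of_constantCoeff_zero' (by rw [map_mul, he0, mul_zero])
  have hEm : map ι (PowerSeries.C (p : UR) * e : PowerSeries UR) =
      (PowerSeries.C (p : UQ) * PowerSeries.map ι e : PowerSeries UQ) := by
    change PowerSeries.map ι _ = _
    rw [map_mul, PowerSeries.map_C, map_natCast]
  have hE' : PowerSeries.HasSubst (PowerSeries.C (p : UQ) * PowerSeries.map ι e : PowerSeries UQ) :=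
    hEm ▸ hasSubst_map ι hE
  have hpm : map ι (mulSeries F' p) = mulSeries (F'.map ι) p :=
    (mulSeries_map F' ι p).symm
  rw [hpm, map_subst_two _ _ S'.prop hE, hEm, hSmap]
  change mulSeries (F'.map ι) p = (F'.map ι).toPowerSeries.subst _
  set Sb := (∑ i ∈ Finset.range N, tokenPt (F'.map ι) (ι (w i)) (p ^ (i + 1)) (he i) :
        (F'.map ι).Point Unit) with hSb
  have hSbs : PowerSeries.HasSubst Sb.val := Sb.prop
  apply hlog.inj (PowerSeries.HasSubst.of_constantCoeff_zero' (constantCoeff_mulSeries _ _))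
  · refine IsNilpotent_subst (hasSubst_two hSbs hE') ?_
    rw [(F'.map ι).zero_constantCoeff]; exact IsNilpotent.zero
  rw [hlog.subst_mulSeries, hlog.subst_law hSbs hE', hSb, hlog.subst_point_sum, hlogp]
  have := log_tokens_identity p v N hvN
  have hC : (p : PowerSeries UQ) = PowerSeries.C (p : UQ) := by simp
  rw [hC, ← this]
  rfl

/-- **The `p`-series in characteristic `p`**: if `v i = 0` for `i ≥ N` and `p = 0` in `R` then
`[p]_{F_v}(X) = ∑^{F_v}_{i<N} v_i X^(p^(i+1))` (recall `v i` is `v_{i+1}`).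
Proof: over `ℚ[v]`, `log(∑^F v_i X^{p^i}) = ∑_i log(v_i X^{p^i}) = p log X - p X`, by Hazewinkel's
recursion, so `∑^F v_i X^{p^i} = [p]_F X -_F exp(pX)`, and `exp(pX) ∈ p ℤ[v][[X]]`
(fixed point iteration `Y = pX - ∑_{k≥1} ℓ_k Y^(p^k)`, with `p^(p^k - k - 1) ∈ ℤ`). -/
theorem hzv_pSeries_charP [CharP R p] (v : ℕ → R) (N : ℕ) (hv : ∀ i, N ≤ i → v i = 0) :
    mulSeries (hzv p v) p =
      (∑ i ∈ Finset.range N, tokenPt (hzv p v) (v i) (p ^ (i + 1)) (pow_ne_zero _ (Fact.out : p.Prime).ne_zero) :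
        (hzv p v).Point Unit).val := by
  have hp := (Fact.out : p.Prime)
  set w : ℕ → UR := fun i => if i < N then MvPolynomial.X i else 0 with hw
  have hwN : ∀ i, N ≤ i → w i = 0 := fun i hi => by
    have : ¬ i < N := by omega
    simp [hw, this]
  obtain ⟨e, he0, hU⟩ := pSeries_universal p N w hwN (fun i => pow_ne_zero _ hp.ne_zero)
  set φ : UR →+* R := specHomZ v with hφ
  have hφw : ∀ i, φ (w i) = v i := by
    intro i
    by_cases hi : i < N
    · simp [hw, hi, hφ]
    · simp [hw, hi, hφ]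
      exact (hv i (by omega)).symm
  have hF : (hzv p w).map φ = hzv p v := by
    rw [hzv_map]
    congr
    funext i
    exact hφw i
  have key : ∀ (G : FormalGroup R) [G.IsComm], (hzv p w).map φ = G →
      mulSeries G p = (∑ i ∈ Finset.range N, tokenPt G (φ (w i)) (p ^ (i + 1))
        (pow_ne_zero _ hp.ne_zero) : G.Point Unit).val := by
    intro G _ hG
    subst hG
    have h := congrArg (PowerSeries.map φ) hU
    rw [← mulSeries_map] at h
    rw [h]
    set S := (∑ i ∈ Finset.range N, tokenPt (hzv p w) (w i) (p ^ (i + 1))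
      (pow_ne_zero _ hp.ne_zero) : (hzv p w).Point Unit) with hS
    have hE : PowerSeries.HasSubst (PowerSeries.C (p : UR) * e : PowerSeries UR) :=
      PowerSeries.HasSubst.of_constantCoeff_zero' (by rw [map_mul, he0, mul_zero])
    change map φ (MvPowerSeries.subst _ _) = _
    rw [map_subst_two _ _ S.prop hE]
    have h0 : map φ (PowerSeries.C (p : UR) * e : PowerSeries UR) = 0 := by
      change PowerSeries.map φ _ = _
      rw [map_mul, PowerSeries.map_C, map_natCast, CharP.cast_eq_zero, map_zero, zero_mul]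
    rw [h0]
    have h1 : map φ S.val = (∑ i ∈ Finset.range N, tokenPt ((hzv p w).map φ) (φ (w i)) (p ^ (i + 1))
        (pow_ne_zero _ hp.ne_zero) : ((hzv p w).map φ).Point Unit).val :=
      map_point_sum φ _ _ _ (fun i => map_tokenPt _ φ _ _ _)
    rw [h1]
    exact FormalGroup.add_zero ((hzv p w).map φ) (∑ i ∈ Finset.range N, tokenPt ((hzv p w).map φ)
      (φ (w i)) (p ^ (i + 1)) (pow_ne_zero _ hp.ne_zero) : ((hzv p w).map φ).Point Unit).prop
  have := key (hzv p v) hF
  simpa only [hφw] using this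

/-- The parameter vector `e_h`: `v_h = 1`, other `v_i = 0`. -/
def eParam (h : ℕ) : ℕ → R := fun i => if i + 1 = h then 1 else 0

/-- `[p] = X^(p^h)` for the Honda-type law with parameters `e_h`, in characteristic `p`. -/
theorem hzv_eParam_pSeries [CharP R p] (h : ℕ) (hh : 1 ≤ h) :
    mulSeries (hzv p (eParam h : ℕ → R)) p = PowerSeries.X ^ (p ^ h) := by
  have hp := (Fact.out : p.Prime)
  rw [hzv_pSeries_charP p (eParam h) h (by
    intro i hi
    have : i + 1 ≠ h := by omega
    simp [eParam, this])]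
  rw [Finset.sum_eq_single (h - 1)]
  · rw [hzTokenPt_val]
    have e1 : eParam h (h - 1) = (1 : R) := by
      simp [eParam, show h - 1 + 1 = h by omega]
    rw [e1, map_one, one_mul, show h - 1 + 1 = h by omega]
  · intro i hi hne
    simp only [Finset.mem_range] at hi
    have e1 : eParam h i = (0 : R) := by
      have : i + 1 ≠ h := by omega
      simp [eParam, this]
    apply Subtype.ext
    rw [FormalGroup.zero_apply, hzTokenPt_val, e1, map_zero, zero_mul]
  · intro hn
    exfalso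
    apply hn
    simp only [Finset.mem_range]
    omega

/-- Frobenius twist in characteristic `p`: `F_v^{(p)} = F_{v^p}`. -/
theorem hzv_frob [CharP R p] (v : ℕ → R) :
    (hzv p v).map (frobenius R p) = hzv p (fun i => v i ^ p) := by
  rw [hzv_map]
  rfl

end PSeriesCharP

section Grading

section OverQ

variable {L : Type*} [CommRing L] [Algebra ℚ L]

theorem isUnit_p_of_algebra : IsUnit (p : L) := by
  have hp := (Fact.out : p.Prime)
  have h1 : ((p : ℚ) * (p : ℚ)⁻¹) = 1 := mul_inv_cancel₀ (Nat.cast_ne_zero.mpr hp.ne_zero)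
  have h2 := congrArg (algebraMap ℚ L) h1
  rw [map_mul, map_natCast, map_one] at h2
  exact IsUnit.of_mul_eq_one _ h2

theorem ellOf_scale (v : ℕ → L) (t : L) (k : ℕ) :
    ellOf p (fun i => t ^ (p ^ (i + 1) - 1) * v i) k = t ^ (p ^ k - 1) * ellOf p v k := by
  have hp := (Fact.out : p.Prime)
  induction k using Nat.strong_induction_on with
  | _ k ih =>
    rcases Nat.eq_zero_or_pos k with rfl | hk
    · simp [ellOf_zero]
    apply (isUnit_p_of_algebra (L := L) p).mul_left_cancel
    rw [ellOf_rec p _ k hk, mul_left_comm, ellOf_rec p v k hk, Finset.mul_sum]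
    refine Finset.sum_congr rfl fun i hi => ?_
    simp only [Finset.mem_Icc] at hi
    rw [ih (k - i) (by omega), mul_pow, ← pow_mul, show i - 1 + 1 = i by omega]
    have hk' : p ^ k = p ^ i * p ^ (k - i) := by
      rw [← pow_add]; congr 1; omega
    have ha : 1 ≤ p ^ (k - i) := Nat.one_le_pow _ _ hp.pos
    have hb : 1 ≤ p ^ i := Nat.one_le_pow _ _ hp.pos
    have hexp : p ^ k - 1 = (p ^ (k - i) - 1) + (p ^ i - 1) * p ^ (k - i) := by
      rw [hk']
      obtain ⟨a, ha'⟩ : ∃ a, p ^ (k - i) = a + 1 := ⟨p ^ (k - i) - 1, by omega⟩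
      obtain ⟨b, hb'⟩ : ∃ b, p ^ i = b + 1 := ⟨p ^ i - 1, by omega⟩
      rw [ha', hb']
      simp only [Nat.add_sub_cancel]
      have : (b + 1) * (a + 1) = (a + b * (a + 1)) + 1 := by ring
      rw [this, Nat.add_sub_cancel]
    rw [hexp, pow_add]
    ring

variable {τ : Type*}

theorem subst_C_mul_logOf (v : ℕ → L) (t : L) (u : MvPowerSeries τ L) (hu : constantCoeff u = 0) :
    PowerSeries.subst (C t * u) (logOf p v) =
      C t * PowerSeries.subst u (logOf p (fun i => t ^ (p ^ (i + 1) - 1) * v i)) := by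
  have hp := (Fact.out : p.Prime)
  have hu' : constantCoeff (C t * u) = 0 := by rw [map_mul, hu, mul_zero]
  refine MvPowerSeries.ext fun d => ?_
  have hlt : d.degree < p ^ (d.degree + 1) :=
    lt_trans (Nat.lt_add_one _) (Nat.lt_pow_self hp.one_lt)
  rw [coeff_C_mul, logOf, logOf, coeff_subst_pSeries p _ hu' d _ hlt,
    coeff_subst_pSeries p _ hu d _ hlt, Finset.mul_sum]
  refine Finset.sum_congr rfl fun k _ => ?_
  have h1 : 1 ≤ p ^ k := Nat.one_le_pow _ _ hp.pos
  have hCt : (C t : MvPowerSeries τ L) ^ (p ^ k) = C (t ^ (p ^ k)) := by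
    rw [← _root_.map_pow]
  rw [mul_pow, hCt, coeff_C_mul, ellOf_scale]
  have h2 : t ^ (p ^ k) = t * t ^ (p ^ k - 1) := by
    rw [← pow_succ']; congr 1; omega
  rw [h2]
  ring

theorem grading_Q (v : ℕ → L) (t : L) :
    (hzv p v).toPowerSeries.subst
        ![MvPowerSeries.C t * (MvPowerSeries.X 0 : MvPowerSeries (Fin 2) L),
          MvPowerSeries.C t * MvPowerSeries.X 1] =
      MvPowerSeries.C t * (hzv p (fun i => t ^ (p ^ (i + 1) - 1) * v i)).toPowerSeries := by
  have hlog := isLog_hzv p v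
  have hlog' := isLog_hzv p (fun i => t ^ (p ^ (i + 1) - 1) * v i)
  have hX : ∀ s : Fin 2, constantCoeff (C t * (X s : MvPowerSeries (Fin 2) L)) = 0 := by
    intro s; rw [map_mul, constantCoeff_X, mul_zero]
  have hXs : ∀ s : Fin 2, PowerSeries.HasSubst (C t * (X s : MvPowerSeries (Fin 2) L)) :=
    fun s => PowerSeries.HasSubst.of_constantCoeff_zero (hX s)
  have hF0 : constantCoeff (hzv p (fun i => t ^ (p ^ (i + 1) - 1) * v i)).toPowerSeries = 0 :=
    FormalGroup.zero_constantCoeff _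
  apply hlog.inj
  · refine IsNilpotent_subst (hasSubst_two (hXs 0) (hXs 1)) ?_
    rw [(hzv p v).zero_constantCoeff]; exact IsNilpotent.zero
  · apply PowerSeries.HasSubst.of_constantCoeff_zero
    rw [map_mul, hF0, mul_zero]
  rw [hlog.subst_law (hXs 0) (hXs 1), subst_C_mul_logOf p v t _ (by simp),
    subst_C_mul_logOf p v t _ (by simp), subst_C_mul_logOf p v t _ hF0, hlog'.add, mul_add]

end OverQ

section Transfer

variable {B R : Type*} [CommRing B] [CommRing R]

/-- Statement of the grading identity. -/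
def GradingId (v : ℕ → R) (t : R) : Prop :=
  (hzv p v).toPowerSeries.subst
      ![MvPowerSeries.C t * (MvPowerSeries.X 0 : MvPowerSeries (Fin 2) R),
        MvPowerSeries.C t * MvPowerSeries.X 1] =
    MvPowerSeries.C t * (hzv p (fun i => t ^ (p ^ (i + 1) - 1) * v i)).toPowerSeries

theorem map_hzv_toPowerSeries (φ : B →+* R) (v : ℕ → B) :
    map φ (hzv p v).toPowerSeries = (hzv p (fun i => φ (v i))).toPowerSeries := by
  rw [← hzv_map]
  rfl

theorem gradingId_map_iff (φ : B →+* R) (v : ℕ → B) (t : B) :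
    map φ ((hzv p v).toPowerSeries.subst
      ![MvPowerSeries.C t * (MvPowerSeries.X 0 : MvPowerSeries (Fin 2) B),
        MvPowerSeries.C t * MvPowerSeries.X 1]) =
    (hzv p (fun i => φ (v i))).toPowerSeries.subst
      ![MvPowerSeries.C (φ t) * (MvPowerSeries.X 0 : MvPowerSeries (Fin 2) R),
        MvPowerSeries.C (φ t) * MvPowerSeries.X 1] := by
  have hXs : ∀ s : Fin 2, PowerSeries.HasSubst (C t * (X s : MvPowerSeries (Fin 2) B)) :=
    fun s => PowerSeries.HasSubst.of_constantCoeff_zero (by rw [map_mul, constantCoeff_X, mul_zero])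
  rw [map_subst_two _ _ (hXs 0) (hXs 1), map_hzv_toPowerSeries]
  simp only [_root_.map_mul, map_C, map_X]

theorem map_gradingRHS (φ : B →+* R) (v : ℕ → B) (t : B) :
    map φ (MvPowerSeries.C t * (hzv p (fun i => t ^ (p ^ (i + 1) - 1) * v i)).toPowerSeries) =
      MvPowerSeries.C (φ t) * (hzv p (fun i => (φ t) ^ (p ^ (i + 1) - 1) * φ (v i))).toPowerSeries := by
  rw [_root_.map_mul, map_C, map_hzv_toPowerSeries]
  simp only [_root_.map_mul, _root_.map_pow]

theorem gradingId_map (φ : B →+* R) (v : ℕ → B) (t : B) (h : GradingId p v t) :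
    GradingId p (fun i => φ (v i)) (φ t) := by
  unfold GradingId at *
  rw [← gradingId_map_iff, h, map_gradingRHS]

theorem gradingId_of_injective (φ : B →+* R) (hφ : Function.Injective φ) (v : ℕ → B) (t : B)
    (h : GradingId p (fun i => φ (v i)) (φ t)) : GradingId p v t := by
  unfold GradingId at *
  refine MvPowerSeries.ext fun d => hφ ?_
  rw [← coeff_map, ← coeff_map, gradingId_map_iff, h, map_gradingRHS]

end Transfer

variable {R : Type*} [CommRing R]

/-- Grading: `F_v(tX, tY) = t F_{t*v}(X,Y)`, where `(t*v)_i = t^(p^i - 1) v_i`. Proved over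
`ℚ[v,t]` from `ℓ_k(t*v) = t^(p^k - 1) ℓ_k(v)`. -/
theorem hzv_grading (v : ℕ → R) (t : R) :
    (hzv p v).toPowerSeries.subst
        ![MvPowerSeries.C t * (MvPowerSeries.X 0 : MvPowerSeries (Fin 2) R),
          MvPowerSeries.C t * MvPowerSeries.X 1] =
      MvPowerSeries.C t * (hzv p (fun i => t ^ (p ^ (i + 1) - 1) * v i)).toPowerSeries := by
  -- the universal case
  let ι : Polynomial UR →+* Polynomial UQ := Polynomial.mapRingHom URtoUQ
  have hι : Function.Injective ι := Polynomial.map_injective _ URtoUQ_injective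
  let w : ℕ → Polynomial UR := fun i => Polynomial.C (MvPolynomial.X i)
  have hU : GradingId p w (Polynomial.X : Polynomial UR) :=
    gradingId_of_injective p ι hι w _ (grading_Q p _ _)
  let φ : Polynomial UR →+* R := Polynomial.eval₂RingHom (specHomZ v) t
  have h := gradingId_map p φ w Polynomial.X hU
  have h1 : (fun i => φ (w i)) = v := by
    funext i
    simp [φ, w]
  have h2 : φ Polynomial.X = t := by simp [φ]
  rw [h1, h2] at h
  exact h

/-- In a domain: `t X` is an endomorphism of `F_{e_h}` when `t^(p^h) = t`. -/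
theorem isFGHom_scalar_eParam [IsDomain R] (h : ℕ) (hh : 1 ≤ h) (t : R) (ht : t ^ (p ^ h) = t) :
    IsFGHom (hzv p (eParam h : ℕ → R)) (hzv p (eParam h : ℕ → R))
      (PowerSeries.C t * PowerSeries.X) := by
  have hp := (Fact.out : p.Prime)
  refine ⟨by simp, ?_⟩
  have hsub : ∀ {τ : Type} (a : MvPowerSeries τ R), PowerSeries.HasSubst a →
      PowerSeries.subst a (PowerSeries.C t * PowerSeries.X : PowerSeries R) = C t * a := by
    intro τ a ha
    rw [PowerSeries.subst_mul ha, PowerSeries.subst_C, PowerSeries.subst_X ha]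
  rw [hsub _ (PowerSeries.HasSubst.of_constantCoeff_zero (FormalGroup.zero_constantCoeff _)),
    hsub _ (PowerSeries.HasSubst.X _), hsub _ (PowerSeries.HasSubst.X _)]
  rw [hzv_grading]
  by_cases ht0 : t = 0
  · subst ht0
    simp
  congr 3
  funext i
  by_cases hi : i + 1 = h
  · have h1 : t ^ (p ^ (i + 1) - 1) = 1 := by
      rw [hi]
      have h2 : 1 ≤ p ^ h := Nat.one_le_pow _ _ hp.pos
      have h3 : t ^ (p ^ h - 1) * t = 1 * t := by
        rw [← pow_succ, show p ^ h - 1 + 1 = p ^ h by omega, ht, one_mul]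
      exact mul_right_cancel₀ ht0 h3
    rw [h1, one_mul]
  · simp [eParam, hi]

/-- `X^(p^l)` is an endomorphism of `F_{e_h}` in characteristic `p`. -/
theorem isFGHom_X_pow_eParam [CharP R p] (h l : ℕ) :
    IsFGHom (hzv p (eParam h : ℕ → R)) (hzv p (eParam h : ℕ → R)) (PowerSeries.X ^ (p ^ l)) := by
  have hp := (Fact.out : p.Prime)
  have hfrob : frobLaw p (hzv p (eParam h : ℕ → R)) = hzv p (eParam h : ℕ → R) := by
    rw [frobLaw, hzv_frob]
    congr 1
    funext i
    by_cases hi : i + 1 = h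
    · simp [eParam, hi]
    · simp [eParam, hi, hp.ne_zero]
  have h1 : IsFGHom (hzv p (eParam h : ℕ → R)) (hzv p (eParam h : ℕ → R))
      (PowerSeries.X ^ p : PowerSeries R) := by
    have := isFGHom_X_pow_p (R := R) p (hzv p (eParam h : ℕ → R))
    rwa [hfrob] at this
  induction l with
  | zero =>
    rw [pow_zero, pow_one]
    exact fgHom_id _
  | succ l ih =>
    have h2 := fgHom_comp h1 ih
    have h3 : scomp (PowerSeries.X ^ p : PowerSeries R) (PowerSeries.X ^ (p ^ l)) =
        PowerSeries.X ^ (p ^ (l + 1)) := by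
      rw [scomp, PowerSeries.subst_pow (PowerSeries.HasSubst.X_pow (pow_ne_zero _ hp.ne_zero)),
        PowerSeries.subst_X (PowerSeries.HasSubst.X_pow (pow_ne_zero _ hp.ne_zero)), ← pow_mul, pow_succ]
    rwa [h3] at h2

end Grading

section Typical

variable {R : Type*} [CommRing R]

theorem ptypical_Q {L : Type*} [CommRing L] [Algebra ℚ L] (v : ℕ → L) (l : ℕ) (ζ : L)
    (hζ : ∀ k, ∑ a ∈ Finset.range l, (ζ ^ a) ^ (p ^ k) = 0) :
    (∑ a ∈ Finset.range l, tokenPt (hzv p v) (ζ ^ a) 1 one_ne_zero : (hzv p v).Point Unit).val = 0 := by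
  have hlog := isLog_hzv p v
  set S := (∑ a ∈ Finset.range l, tokenPt (hzv p v) (ζ ^ a) 1 one_ne_zero : (hzv p v).Point Unit) with hS
  have hSs : PowerSeries.HasSubst S.val := S.prop
  have h0 : PowerSeries.HasSubst (0 : PowerSeries L) := PowerSeries.HasSubst.zero'
  apply hlog.inj hSs h0
  rw [hS, hlog.subst_point_sum]
  have h1 : ∀ a, PowerSeries.subst (tokenPt (hzv p v) (ζ ^ a) 1 one_ne_zero).val (logOf p v) =
      pSeries p (fun k => ellOf p v k * (ζ ^ a) ^ (p ^ k)) := by
    intro a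
    have := subst_token_pSeries p (ellOf p v) (ζ ^ a) 0
    simpa [hzTokenPt_val, logOf] using this
  simp only [h1]
  rw [sum_pSeries, PowerSeries.subst_zero_of_constantCoeff_zero hlog.c0]
  have h2 : (fun k => ∑ a ∈ Finset.range l, ellOf p v k * (ζ ^ a) ^ (p ^ k)) = fun _ => 0 := by
    funext k
    rw [← Finset.mul_sum, hζ, mul_zero]
  rw [h2]
  ext m
  by_cases hm : ∃ k, m = p ^ k
  · obtain ⟨k, rfl⟩ := hm
    rw [coeff_pSeries, map_zero]
  · rw [coeff_pSeries_of_not p _ _ hm, map_zero]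

theorem tokenSum_congr {F G : FormalGroup R} [F.IsComm] [G.IsComm] (h : F = G) {ι : Type*}
    (s : Finset ι) (c : ι → R) (e : ι → ℕ) (he : ∀ i, e i ≠ 0) :
    (∑ i ∈ s, tokenPt F (c i) (e i) (he i)).val = (∑ i ∈ s, tokenPt G (c i) (e i) (he i)).val := by
  subst h
  rfl

section Cyclo

variable (ℓ : ℕ) [Fact ℓ.Prime]

/-- `ℤ[ζ_ℓ]`. -/
abbrev CycR : Type := AdjoinRoot (Polynomial.cyclotomic ℓ ℤ)

instance instIsDomainCycR : IsDomain (CycR ℓ) :=
  AdjoinRoot.isDomain_of_prime (Polynomial.cyclotomic.irreducible (Fact.out : ℓ.Prime).pos).prime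

instance instCharZeroCycR : CharZero (CycR ℓ) := by
  have hl := (Fact.out : ℓ.Prime)
  have hdeg : (Polynomial.cyclotomic ℓ ℤ).degree ≠ 0 := by
    rw [Polynomial.degree_cyclotomic]
    have : 0 < Nat.totient ℓ := Nat.totient_pos.mpr hl.pos
    exact_mod_cast this.ne'
  exact charZero_of_injective_ringHom (f := AdjoinRoot.of (Polynomial.cyclotomic ℓ ℤ))
    (AdjoinRoot.of.injective_of_degree_ne_zero hdeg)

/-- `ℚ(ζ_ℓ)`. -/
abbrev CycK : Type := FractionRing (CycR ℓ)

instance instCharZeroCycK : CharZero (CycK ℓ) :=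
  charZero_of_injective_algebraMap (IsFractionRing.injective (CycR ℓ) (CycK ℓ))

theorem eval₂_cyclotomic_prime {S : Type*} [CommRing S] (i : ℤ →+* S) (x : S) :
    Polynomial.eval₂ i x (Polynomial.cyclotomic ℓ ℤ) = ∑ a ∈ Finset.range ℓ, x ^ a := by
  rw [Polynomial.cyclotomic_prime, Polynomial.eval₂_finsetSum]
  simp [Polynomial.eval₂_pow]

theorem sum_root_cyc : ∑ a ∈ Finset.range ℓ, (AdjoinRoot.root (Polynomial.cyclotomic ℓ ℤ)) ^ a = 0 := by
  rw [← eval₂_cyclotomic_prime ℓ (AdjoinRoot.of (Polynomial.cyclotomic ℓ ℤ))]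
  exact AdjoinRoot.eval₂_root _

/-- The primitive root in the fraction field. -/
theorem sum_root_cyc_pow (hℓ : ℓ ≠ p) (k : ℕ) :
    ∑ a ∈ Finset.range ℓ, ((algebraMap (CycR ℓ) (CycK ℓ) (AdjoinRoot.root
      (Polynomial.cyclotomic ℓ ℤ))) ^ a) ^ (p ^ k) = 0 := by
  have hp := (Fact.out : p.Prime)
  have hl := (Fact.out : ℓ.Prime)
  set ξ := algebraMap (CycR ℓ) (CycK ℓ) (AdjoinRoot.root (Polynomial.cyclotomic ℓ ℤ)) with hξ
  have hsum : ∑ a ∈ Finset.range ℓ, ξ ^ a = 0 := by
    have := congrArg (algebraMap (CycR ℓ) (CycK ℓ)) (sum_root_cyc ℓ)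
    rw [map_sum, map_zero] at this
    simpa only [_root_.map_pow] using this
  have hξl : ξ ^ ℓ = 1 := by
    have h := mul_geom_sum ξ ℓ
    rw [hsum, mul_zero] at h
    exact (sub_eq_zero.mp h.symm)
  have hξ1 : ξ ≠ 1 := by
    intro h
    rw [h] at hsum
    simp only [one_pow, Finset.sum_const, Finset.card_range, nsmul_eq_mul, mul_one] at hsum
    exact hl.ne_zero (by exact_mod_cast hsum)
  have hord : orderOf ξ = ℓ := orderOf_eq_prime hξl hξ1
  have hprim : IsPrimitiveRoot ξ ℓ := by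
    have := IsPrimitiveRoot.orderOf ξ
    rwa [hord] at this
  have hcop : (p ^ k).Coprime ℓ := Nat.Coprime.pow_left k ((Nat.coprime_primes hp hl).mpr hℓ.symm)
  have h2 := (hprim.pow_of_coprime (p ^ k) hcop).geom_sum_eq_zero hl.one_lt
  rw [← h2]
  refine Finset.sum_congr rfl fun a _ => ?_
  rw [← pow_mul, ← pow_mul, mul_comm]

end Cyclo

/-- `p`-typicality: for a prime `ℓ ≠ p` and `ζ` with `1 + ζ + … + ζ^(ℓ-1) = 0`:
`∑^{F_v}_{a<ℓ} ζ^a X = 0`. Proved in `ℤ[ζ][v]` (torsion free, use `AdjoinRoot (cyclotomic ℓ ℤ)`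
and its map to `R`): `log` of the sum is `∑_k ℓ_k X^(p^k) ∑_a ζ^(a p^k) = 0`. -/
theorem hzv_ptypical (v : ℕ → R) (ℓ : ℕ) [Fact ℓ.Prime] (hℓ : ℓ ≠ p) (ζ : R)
    (hζ : ∑ a ∈ Finset.range ℓ, ζ ^ a = 0) :
    (∑ a ∈ Finset.range ℓ, tokenPt (hzv p v) (ζ ^ a) 1 one_ne_zero : (hzv p v).Point Unit).val = 0 := by
  let A := MvPolynomial ℕ (CycR ℓ)
  let L := MvPolynomial ℕ (CycK ℓ)
  let ι : A →+* L := MvPolynomial.map (algebraMap (CycR ℓ) (CycK ℓ))
  have hι : Function.Injective ι :=
    MvPolynomial.map_injective _ (IsFractionRing.injective (CycR ℓ) (CycK ℓ))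
  let w : ℕ → A := MvPolynomial.X
  let ζA : A := MvPolynomial.C (AdjoinRoot.root (Polynomial.cyclotomic ℓ ℤ))
  have hQ := ptypical_Q p (fun i => ι (w i)) ℓ (ι ζA) (by
    intro k
    have h := sum_root_cyc_pow p ℓ hℓ k
    have h2 := congrArg (MvPolynomial.C : CycK ℓ → L) h
    rw [map_sum, map_zero] at h2
    rw [← h2]
    refine Finset.sum_congr rfl fun a _ => ?_
    have hζA : ι ζA = MvPolynomial.C (algebraMap (CycR ℓ) (CycK ℓ)
        (AdjoinRoot.root (Polynomial.cyclotomic ℓ ℤ))) := MvPolynomial.map_C _ _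
    rw [hζA, _root_.map_pow, _root_.map_pow])
  -- the universal identity
  have hA : (∑ a ∈ Finset.range ℓ, tokenPt (hzv p w) (ζA ^ a) 1 one_ne_zero :
      (hzv p w).Point Unit).val = 0 := by
    have h1 : map ι (∑ a ∈ Finset.range ℓ, tokenPt (hzv p w) (ζA ^ a) 1 one_ne_zero :
        (hzv p w).Point Unit).val = (∑ a ∈ Finset.range ℓ, tokenPt ((hzv p w).map ι) (ι (ζA ^ a)) 1
          one_ne_zero : ((hzv p w).map ι).Point Unit).val :=
      map_point_sum ι _ _ _ (fun a => map_tokenPt _ ι _ _ _)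
    have h2 := tokenSum_congr (hzv_map p ι w) (Finset.range ℓ) (fun a => ι (ζA ^ a)) (fun _ => 1)
      (fun _ => one_ne_zero)
    refine MvPowerSeries.ext fun d => hι ?_
    rw [← coeff_map, h1, h2]
    simp only [_root_.map_pow]
    rw [hQ]
    simp
  -- specialise
  let lift : CycR ℓ →+* R := AdjoinRoot.lift (Int.castRingHom R) ζ (by
    rw [eval₂_cyclotomic_prime]; exact hζ)
  let φ : A →+* R := MvPolynomial.eval₂Hom lift v
  have hφw : (fun i => φ (w i)) = v := by
    funext i
    exact MvPolynomial.eval₂_X _ _ _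
  have hφζ : φ ζA = ζ :=
    (MvPolynomial.eval₂_C _ _ _).trans (AdjoinRoot.lift_root _)
  have h1 : map φ (∑ a ∈ Finset.range ℓ, tokenPt (hzv p w) (ζA ^ a) 1 one_ne_zero :
      (hzv p w).Point Unit).val = (∑ a ∈ Finset.range ℓ, tokenPt ((hzv p w).map φ) (φ (ζA ^ a)) 1
        one_ne_zero : ((hzv p w).map φ).Point Unit).val :=
    map_point_sum φ _ _ _ (fun a => map_tokenPt _ φ _ _ _)
  have hF : (hzv p w).map φ = hzv p v := by rw [hzv_map, hφw]
  have h2 := tokenSum_congr hF (Finset.range ℓ) (fun a => φ (ζA ^ a)) (fun _ => 1)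
      (fun _ => one_ne_zero)
  rw [hA, _root_.map_zero, h2] at h1
  simp only [_root_.map_pow, hφζ] at h1
  exact h1.symm

end Typical

end

end Crest.Agent.LT
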