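/-
S0351 package TOKENS, first part: the formal inverse `negSeries F` of a formal group law and the group
structure on `F.Point σ`. Split from `Tokens.lean` so that `Eval.lean` can use it.
-/
import Crest.Agent.LT.Defs

set_option autoImplicit false

open Crest.LubinTate

namespace Crest.Agent.LT

noncomputable section

section Ring

variable {R : Type*} [CommRing R]

/-! ### Congruences modulo powers of `X` -/

/-- `a ≡ b` modulo `X ^ K`, as a coefficient statement. -/
def ModX (K : ℕ) (a b : PowerSeries R) : Prop :=
  ∀ i, i < K → PowerSeries.coeff i a = PowerSeries.coeff i b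

theorem ModX.refl (K : ℕ) (a : PowerSeries R) : ModX K a a := fun _ _ => rfl

theorem ModX.symm {K : ℕ} {a b : PowerSeries R} (h : ModX K a b) : ModX K b a :=
  fun i hi => (h i hi).symm

theorem ModX.trans {K : ℕ} {a b c : PowerSeries R} (h : ModX K a b) (h' : ModX K b c) : ModX K a c :=
  fun i hi => (h i hi).trans (h' i hi)

theorem ModX.mono {K L : ℕ} (hL : L ≤ K) {a b : PowerSeries R} (h : ModX K a b) : ModX L a b :=
  fun i hi => h i (hi.trans_le hL)

theorem modX_iff_dvd {K : ℕ} {a b : PowerSeries R} :
    ModX K a b ↔ (PowerSeries.X : PowerSeries R) ^ K ∣ a - b := by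
  rw [PowerSeries.X_pow_dvd_iff]
  constructor
  · intro h i hi
    rw [map_sub, h i hi, sub_self]
  · intro h i hi
    have := h i hi
    rw [map_sub, sub_eq_zero] at this
    exact this

theorem ModX.mul {K : ℕ} {a b c d : PowerSeries R} (h : ModX K a b) (h' : ModX K c d) :
    ModX K (a * c) (b * d) := by
  rw [modX_iff_dvd] at *
  have : a * c - b * d = (a - b) * c + b * (c - d) := by ring
  rw [this]
  exact dvd_add (Dvd.dvd.mul_right h _) (Dvd.dvd.mul_left h' _)

theorem ModX.pow {K : ℕ} {a b : PowerSeries R} (h : ModX K a b) (m : ℕ) :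
    ModX K (a ^ m) (b ^ m) := by
  induction m with
  | zero => simpa using ModX.refl K (1 : PowerSeries R)
  | succ m ih => simpa [pow_succ] using ih.mul h

/-- The point with zero constant coefficient: convenient `HasSubst` for pairs. -/
theorem hasSubst_pairN {σ : Type*} {a b : MvPowerSeries σ R} (ha : PowerSeries.HasSubst a)
    (hb : PowerSeries.HasSubst b) : MvPowerSeries.HasSubst ![a, b] :=
  MvPowerSeries.hasSubst_of_constantCoeff_nilpotent (fun s => by
    fin_cases s
    · simpa using ha
    · simpa using hb)

theorem prod_pair {S : Type*} [CommMonoid S] (a b : S) (d : Fin 2 →₀ ℕ) :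
    (d.prod fun s e => (![a, b] s) ^ e) = a ^ d 0 * b ^ d 1 := by
  rw [Finsupp.prod_fintype _ _ (by intro i; simp)]
  simp [Fin.prod_univ_two]

/-- Congruence for substitution of a pair into a two-variable series. -/
theorem modX_subst_pair (f : MvPowerSeries (Fin 2) R) {K : ℕ} {a a' b b' : PowerSeries R}
    (ha : PowerSeries.HasSubst a) (hb : PowerSeries.HasSubst b)
    (ha' : PowerSeries.HasSubst a') (hb' : PowerSeries.HasSubst b')
    (h : ModX K a a') (h' : ModX K b b') :
    ModX K (f.subst ![a, b]) (f.subst ![a', b']) := by
  intro i hi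
  change MvPowerSeries.coeff _ _ = MvPowerSeries.coeff _ _
  rw [MvPowerSeries.coeff_subst (hasSubst_pairN ha hb),
    MvPowerSeries.coeff_subst (hasSubst_pairN ha' hb')]
  refine finsum_congr fun d => ?_
  rw [prod_pair, prod_pair]
  congr 1
  exact ((h.pow _).mul (h'.pow _)) i hi

/-- Low-degree additivity: on series of order `≥ K ≥ 1`, the coefficient of `X^K` of `F(x,y)` is additive. -/
theorem coeff_law_of_order (F : FormalGroup R) {K : ℕ} (hK : 1 ≤ K) {x y : PowerSeries R}
    (hx : ModX K x 0) (hy : ModX K y 0) :
    PowerSeries.coeff K (F.toPowerSeries.subst ![x, y]) =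
      PowerSeries.coeff K x + PowerSeries.coeff K y := by
  have hx0 : PowerSeries.HasSubst x :=
    PowerSeries.HasSubst.of_constantCoeff_zero' (by simpa using hx 0 (by omega))
  have hy0 : PowerSeries.HasSubst y :=
    PowerSeries.HasSubst.of_constantCoeff_zero' (by simpa using hy 0 (by omega))
  have hdx : (PowerSeries.X : PowerSeries R) ^ K ∣ x := by
    have := modX_iff_dvd.mp hx; simpa using this
  have hdy : (PowerSeries.X : PowerSeries R) ^ K ∣ y := by
    have := modX_iff_dvd.mp hy; simpa using this
  change MvPowerSeries.coeff _ _ = _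
  rw [MvPowerSeries.coeff_subst (hasSubst_pairN hx0 hy0)]
  have hne : (Finsupp.single (0 : Fin 2) 1) ≠ (Finsupp.single (1 : Fin 2) 1) := by
    intro h
    have := DFunLike.congr_fun h 0
    simp at this
  rw [finsum_eq_sum_of_support_subset (s := {Finsupp.single 0 1, Finsupp.single 1 1})]
  · rw [Finset.sum_pair hne, prod_pair, prod_pair, F.lin_coeff_X, F.lin_coeff_Y]
    simp
  · intro d hd
    simp only [Function.mem_support] at hd
    by_contra hmem
    apply hd
    simp only [Finset.coe_insert, Finset.coe_singleton, Set.mem_insert_iff,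
      Set.mem_singleton_iff, not_or] at hmem
    by_cases hd0 : d = 0
    · subst hd0
      have : MvPowerSeries.coeff (0 : Fin 2 →₀ ℕ) F.toPowerSeries = 0 := by
        simpa using F.zero_constantCoeff
      simp [this]
    · have hsum : 2 ≤ d 0 + d 1 := by
        by_contra hlt
        have hcases : d 0 + d 1 = 0 ∨ d 0 + d 1 = 1 := by omega
        rcases hcases with h | h
        · apply hd0
          ext i; fin_cases i <;> simp <;> omega
        · have h01 : (d 0 = 1 ∧ d 1 = 0) ∨ (d 0 = 0 ∧ d 1 = 1) := by omega
          rcases h01 with ⟨h0, h1⟩ | ⟨h0, h1⟩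
          · apply hmem.1
            ext i; fin_cases i <;> simp [h0, h1]
          · apply hmem.2
            ext i; fin_cases i <;> simp [h0, h1]
      rw [prod_pair]
      have hdvd : (PowerSeries.X : PowerSeries R) ^ (K * 2) ∣ x ^ d 0 * y ^ d 1 := by
        have h1 : (PowerSeries.X : PowerSeries R) ^ (K * d 0) ∣ x ^ d 0 := by
          rw [pow_mul]; exact pow_dvd_pow_of_dvd hdx _
        have h2 : (PowerSeries.X : PowerSeries R) ^ (K * d 1) ∣ y ^ d 1 := by
          rw [pow_mul]; exact pow_dvd_pow_of_dvd hdy _
        have h3 := mul_dvd_mul h1 h2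
        rw [← pow_add, ← mul_add] at h3
        exact (pow_dvd_pow _ (Nat.mul_le_mul_left K hsum)).trans h3
      have : PowerSeries.coeff K (x ^ d 0 * y ^ d 1) = 0 :=
        (PowerSeries.X_pow_dvd_iff.mp hdvd) K (by omega)
      change _ • PowerSeries.coeff K (x ^ d 0 * y ^ d 1) = 0
      rw [this, smul_zero]

/-! ### The formal inverse -/

/-- Successive approximations of the formal inverse: `F(X, P_k) ≡ 0` modulo `X^(k+1)`. -/
def negApprox (F : FormalGroup R) : ℕ → PowerSeries R
  | 0 => 0
  | k + 1 => F.toPowerSeries.subst ![negApprox F k,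
      PowerSeries.C (-PowerSeries.coeff (k + 1) (F.toPowerSeries.subst
        ![(PowerSeries.X : PowerSeries R), negApprox F k])) * PowerSeries.X ^ (k + 1)]

theorem constantCoeff_token (c : R) (k : ℕ) :
    PowerSeries.constantCoeff (PowerSeries.C c * PowerSeries.X ^ (k + 1) : PowerSeries R) = 0 := by
  simp

theorem constantCoeff_law (F : FormalGroup R) {a b : PowerSeries R}
    (ha : PowerSeries.constantCoeff a = 0) (hb : PowerSeries.constantCoeff b = 0) :
    PowerSeries.constantCoeff (F.toPowerSeries.subst ![a, b] : PowerSeries R) = 0 := by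
  refine MvPowerSeries.constantCoeff_subst_eq_zero
    (hasSubst_pairN (PowerSeries.HasSubst.of_constantCoeff_zero' ha)
      (PowerSeries.HasSubst.of_constantCoeff_zero' hb)) ?_ F.zero_constantCoeff
  intro i
  fin_cases i
  · exact ha
  · exact hb

theorem constantCoeff_negApprox (F : FormalGroup R) (k : ℕ) :
    PowerSeries.constantCoeff (negApprox F k) = 0 := by
  induction k with
  | zero => simp [negApprox]
  | succ k ih =>
    rw [negApprox]
    exact constantCoeff_law F ih (constantCoeff_token _ _)

theorem hasSubst_negApprox (F : FormalGroup R) (k : ℕ) : PowerSeries.HasSubst (negApprox F k) :=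
  PowerSeries.HasSubst.of_constantCoeff_zero' (constantCoeff_negApprox F k)

theorem hasSubst_token (c : R) (k : ℕ) :
    PowerSeries.HasSubst (PowerSeries.C c * PowerSeries.X ^ (k + 1) : PowerSeries R) :=
  PowerSeries.HasSubst.of_constantCoeff_zero' (constantCoeff_token c k)

theorem modX_token_zero (c : R) (K k : ℕ) (h : K ≤ k) :
    ModX K (PowerSeries.C c * PowerSeries.X ^ k : PowerSeries R) 0 := by
  intro i hi
  simp only [map_zero]
  rw [PowerSeries.coeff_C_mul, PowerSeries.coeff_X_pow, if_neg (by omega), mul_zero]

/-- `P_(k+1) ≡ P_k` modulo `X^(k+1)`. -/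
theorem negApprox_step (F : FormalGroup R) (k : ℕ) :
    ModX (k + 1) (negApprox F (k + 1)) (negApprox F k) := by
  have h := modX_subst_pair F.toPowerSeries (hasSubst_negApprox F k) (hasSubst_token _ k)
    (hasSubst_negApprox F k) PowerSeries.HasSubst.zero' (ModX.refl (k + 1) (negApprox F k))
    (modX_token_zero (-PowerSeries.coeff (k + 1) (F.toPowerSeries.subst
        ![(PowerSeries.X : PowerSeries R), negApprox F k])) (k + 1) (k + 1) le_rfl)
  rw [negApprox]
  rw [show F.toPowerSeries.subst ![negApprox F k, (0 : PowerSeries R)] = negApprox F k from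
    F.add_zero (hasSubst_negApprox F k)] at h
  exact h

/-- `F(X, P_k) ≡ 0` modulo `X^(k+1)`. -/
theorem negApprox_spec (F : FormalGroup R) (k : ℕ) :
    ModX (k + 1) (F.toPowerSeries.subst ![(PowerSeries.X : PowerSeries R), negApprox F k]) 0 := by
  have hX : PowerSeries.HasSubst (PowerSeries.X : PowerSeries R) := PowerSeries.HasSubst.X'
  induction k with
  | zero =>
    intro i hi
    have : i = 0 := by omega
    subst this
    simp only [map_zero]
    simpa using constantCoeff_law F (a := (PowerSeries.X : PowerSeries R)) (b := negApprox F 0)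
      (by simp) (constantCoeff_negApprox F 0)
  | succ k ih =>
    set E := F.toPowerSeries.subst ![(PowerSeries.X : PowerSeries R), negApprox F k] with hE
    set c := -PowerSeries.coeff (k + 1) E with hc
    have hE0 : PowerSeries.HasSubst E :=
      PowerSeries.HasSubst.of_constantCoeff_zero' (constantCoeff_law F (by simp)
        (constantCoeff_negApprox F k))
    have hassoc : F.toPowerSeries.subst ![(PowerSeries.X : PowerSeries R), negApprox F (k + 1)] =
        F.toPowerSeries.subst ![E, (PowerSeries.C c * PowerSeries.X ^ (k + 1) : PowerSeries R)] := by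
      rw [negApprox]
      exact (F.assoc' hX (hasSubst_negApprox F k) (hasSubst_token c k)).symm
    rw [hassoc]
    have htok : ModX (k + 1) (PowerSeries.C c * PowerSeries.X ^ (k + 1) : PowerSeries R) 0 :=
      modX_token_zero c _ _ le_rfl
    intro i hi
    rcases Nat.lt_succ_iff_lt_or_eq.mp hi with hi' | rfl
    · -- lower coefficients: both inputs are `≡ 0`.
      have := modX_subst_pair F.toPowerSeries hE0 (hasSubst_token c k)
        PowerSeries.HasSubst.zero' PowerSeries.HasSubst.zero' ih htok
      rw [show F.toPowerSeries.subst ![(0 : PowerSeries R), (0 : PowerSeries R)] = 0 from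
        F.add_zero PowerSeries.HasSubst.zero'] at this
      exact this i hi'
    · rw [coeff_law_of_order F (by omega) ih htok]
      simp only [map_zero]
      rw [PowerSeries.coeff_C_mul, PowerSeries.coeff_X_pow, if_pos rfl, mul_one, hc]
      ring

theorem negApprox_stable (F : FormalGroup R) (i k : ℕ) (h : i ≤ k) :
    PowerSeries.coeff i (negApprox F k) = PowerSeries.coeff i (negApprox F i) := by
  induction k, h using Nat.le_induction with
  | base => rfl
  | succ k hk ih =>
    rw [negApprox_step F k i (by omega), ih]

/-- Negation series (formal inverse) of a law: `F(X, neg X) = 0`; constructed coefficient by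
coefficient. Compatible with ring maps. -/
def negSeries (F : FormalGroup R) : PowerSeries R :=
  PowerSeries.mk fun i => PowerSeries.coeff i (negApprox F i)

theorem negSeries_modX (F : FormalGroup R) (k : ℕ) :
    ModX (k + 1) (negSeries F) (negApprox F k) := by
  intro i hi
  rw [negSeries, PowerSeries.coeff_mk, negApprox_stable F i k (by omega)]

theorem constantCoeff_negSeries (F : FormalGroup R) : PowerSeries.constantCoeff (negSeries F) = 0 := by
  have := negSeries_modX F 0 0 (by omega)
  simpa [constantCoeff_negApprox] using this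

theorem hasSubst_negSeries (F : FormalGroup R) : PowerSeries.HasSubst (negSeries F) :=
  PowerSeries.HasSubst.of_constantCoeff_zero' (constantCoeff_negSeries F)

theorem coeff_one_negSeries (F : FormalGroup R) : PowerSeries.coeff 1 (negSeries F) = -1 := by
  rw [negSeries_modX F 1 1 (by omega)]
  have hX0 : F.toPowerSeries.subst ![(PowerSeries.X : PowerSeries R), (0 : PowerSeries R)] =
      PowerSeries.X := F.add_zero PowerSeries.HasSubst.X'
  have h1 : negApprox F 1 = PowerSeries.C (-1 : R) * PowerSeries.X ^ 1 := by
    rw [negApprox, negApprox, hX0, PowerSeries.coeff_one_X]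
    exact F.zero_add (hasSubst_token _ 0)
  rw [h1]
  simp

/-- The defining property. -/
theorem subst_negSeries (F : FormalGroup R) :
    F.toPowerSeries.subst ![PowerSeries.X, negSeries F] = (0 : PowerSeries R) := by
  ext i
  have hX : PowerSeries.HasSubst (PowerSeries.X : PowerSeries R) := PowerSeries.HasSubst.X'
  have h := modX_subst_pair F.toPowerSeries hX (hasSubst_negSeries F) hX (hasSubst_negApprox F i)
    (ModX.refl _ _) (negSeries_modX F i)
  rw [h i (by omega)]
  exact negApprox_spec F i i (by omega)

theorem negApprox_map {S : Type*} [CommRing S] (φ : R →+* S) (F : FormalGroup R) (k : ℕ) :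
    negApprox (F.map φ) k = PowerSeries.map φ (negApprox F k) := by
  have hpair : ∀ a b : PowerSeries R, PowerSeries.HasSubst a → PowerSeries.HasSubst b →
      PowerSeries.map φ (F.toPowerSeries.subst ![a, b] : PowerSeries R) =
        (F.map φ).toPowerSeries.subst ![PowerSeries.map φ a, PowerSeries.map φ b] := by
    intro a b ha hb
    have := MvPowerSeries.map_subst (hasSubst_pairN ha hb) (h := φ) F.toPowerSeries
    have h2 : (fun i => MvPowerSeries.map φ (![a, b] i)) =
        ![PowerSeries.map φ a, PowerSeries.map φ b] := by
      ext1 i; fin_cases i <;> rfl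
    rw [h2] at this
    exact this
  induction k with
  | zero => simp [negApprox]
  | succ k ih =>
    rw [negApprox, negApprox, ih, hpair _ _ (hasSubst_negApprox F k) (hasSubst_token _ k)]
    congr 3
    · rw [map_mul, map_pow, PowerSeries.map_C, PowerSeries.map_X]
      congr 2
      rw [map_neg, ← PowerSeries.coeff_map, hpair _ _ PowerSeries.HasSubst.X'
        (hasSubst_negApprox F k), PowerSeries.map_X]

theorem negSeries_map {S : Type*} [CommRing S] (φ : R →+* S) (F : FormalGroup R) :
    negSeries (F.map φ) = PowerSeries.map φ (negSeries F) := by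
  ext i
  rw [PowerSeries.coeff_map, negSeries, negSeries, PowerSeries.coeff_mk, PowerSeries.coeff_mk,
    negApprox_map, PowerSeries.coeff_map]

/-! ### The group of points -/

section Point

variable {σ : Type*}

/-- For a one-variable `u`: `u(x)` has the right constant coefficient. -/
theorem hasSubst_subst {u : PowerSeries R} (hu : PowerSeries.HasSubst u) {x : MvPowerSeries σ R}
    (hx : PowerSeries.HasSubst x) : PowerSeries.HasSubst (PowerSeries.subst x u) := by
  have := PowerSeries.HasSubst.comp hu hx
  rwa [PowerSeries.coe_substAlgHom] at this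

/-- `(f(a,b))(x) = f(a(x), b(x))`. -/
theorem subst_pair_comp (f : MvPowerSeries (Fin 2) R) {a b : PowerSeries R}
    (ha : PowerSeries.HasSubst a) (hb : PowerSeries.HasSubst b) {x : MvPowerSeries σ R}
    (hx : PowerSeries.HasSubst x) :
    PowerSeries.subst x (f.subst ![a, b] : PowerSeries R) =
      f.subst ![PowerSeries.subst x a, PowerSeries.subst x b] := by
  rw [PowerSeries.subst_def, MvPowerSeries.subst_comp_subst_apply (hasSubst_pairN ha hb) hx.const]
  congr 1
  ext1 i
  fin_cases i <;> rfl

/-- Negation on points. -/
instance pointNeg (F : FormalGroup R) (σ : Type*) : Neg (F.Point σ) where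
  neg x := ⟨PowerSeries.subst x.val (negSeries F), hasSubst_subst (hasSubst_negSeries F) x.prop⟩

/-- Group structure on `F.Point σ` (Mathlib only has the monoid). -/
instance pointAddCommGroup (F : FormalGroup R) [F.IsComm] (σ : Type*) : AddCommGroup (F.Point σ) :=
  { (inferInstance : AddCommMonoid (F.Point σ)), pointNeg F σ with
    zsmul := zsmulRec
    neg_add_cancel := fun x => by
      apply Subtype.ext
      change F.toPowerSeries.subst ![PowerSeries.subst x.val (negSeries F), x.val] = 0
      have h1 := hasSubst_subst (hasSubst_negSeries F) x.prop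
      rw [F.comm' h1 x.prop]
      have h2 := subst_pair_comp F.toPowerSeries PowerSeries.HasSubst.X' (hasSubst_negSeries F) x.prop
      rw [subst_negSeries, PowerSeries.subst_X x.prop] at h2
      rw [← h2, ← PowerSeries.coe_substAlgHom x.prop]
      exact map_zero _ }

theorem point_neg_val (F : FormalGroup R) [F.IsComm] (x : F.Point σ) :
    (-x).val = PowerSeries.subst x.val (negSeries F) := rfl

end Point

end Ring

end

end Crest.Agent.LT
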