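/-
S0351 package TOKENS: token expansions. A homomorphism between Hazewinkel laws over a domain with enough roots
of unity is `∑^{F'}_j t_j X^(p^j)`. Shared by the characteristic-`p` and characteristic-`0` parts.
See BLUEPRINT.md §Tok.
-/
import Crest.Agent.LT.Hazewinkel
import Crest.Agent.LT.Eval
import Crest.Agent.LT.NegSeries

set_option autoImplicit false

open Crest.LubinTate

namespace Crest.Agent.LT

noncomputable section

variable (p : ℕ) [Fact p.Prime]

section Ring

variable {R : Type*} [CommRing R]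

/-- Finite token sum `∑^F_{j<N} t_j X^(p^j)`. -/
def tokenSum (F : FormalGroup R) [F.IsComm] (t : ℕ → R) (N : ℕ) : PowerSeries R :=
  (∑ j ∈ Finset.range N, tokenPt F (t j) (p ^ j) (pow_ne_zero _ (Fact.out : p.Prime).ne_zero) :
    F.Point Unit).val

/-! ### The filtration of `F.Point Unit` by order -/

section Fil

variable (F : FormalGroup R) [F.IsComm]

theorem point_add_val (x y : F.Point Unit) :
    (x + y).val = F.toPowerSeries.subst ![x.val, y.val] := rfl

theorem point_modX_add {K : ℕ} {x x' y y' : F.Point Unit} (h : ModX K x.val x'.val)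
    (h' : ModX K y.val y'.val) : ModX K (x + y).val (x' + y').val :=
  modX_subst_pair F.toPowerSeries x.prop y.prop x'.prop y'.prop h h'

theorem point_modX_sub_iff {K : ℕ} (x y : F.Point Unit) :
    ModX K (x - y).val (0 : F.Point Unit).val ↔ ModX K x.val y.val := by
  constructor
  · intro h
    have h1 : x = (x - y) + y := by abel
    have h2 := point_modX_add F h (ModX.refl K y.val)
    rw [← h1, _root_.zero_add] at h2
    exact h2
  · intro h
    have h2 := point_modX_add F h (ModX.refl K (-y).val)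
    rw [← sub_eq_add_neg, add_neg_cancel] at h2
    exact h2

/-- Elements of order `≥ K`. -/
def Fil (K : ℕ) : AddSubgroup (F.Point Unit) where
  carrier := {x | ModX K x.val (0 : F.Point Unit).val}
  zero_mem' := ModX.refl _ _
  add_mem' {x y} hx hy := by
    have := point_modX_add F (K := K) hx hy
    rwa [_root_.add_zero] at this
  neg_mem' {x} hx := by
    have h1 : ModX K (0 - x : F.Point Unit).val (0 : F.Point Unit).val :=
      (point_modX_sub_iff F 0 x).mpr (ModX.symm hx)
    simpa using h1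

theorem mem_Fil {K : ℕ} {x : F.Point Unit} :
    x ∈ Fil F K ↔ ModX K x.val (0 : F.Point Unit).val := Iff.rfl

theorem sub_mem_Fil_iff {K : ℕ} (x y : F.Point Unit) :
    x - y ∈ Fil F K ↔ ModX K x.val y.val := point_modX_sub_iff F x y

theorem coeff_add_of_mem_Fil {K : ℕ} (hK : 1 ≤ K) {x y : F.Point Unit} (hx : x ∈ Fil F K)
    (hy : y ∈ Fil F K) :
    PowerSeries.coeff K (x + y).val = PowerSeries.coeff K x.val + PowerSeries.coeff K y.val :=
  coeff_law_of_order F hK hx hy

theorem coeff_nsmul_of_mem_Fil {K : ℕ} (hK : 1 ≤ K) {x : F.Point Unit} (hx : x ∈ Fil F K) (n : ℕ) :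
    PowerSeries.coeff K (n • x).val = (n : R) * PowerSeries.coeff K x.val := by
  induction n with
  | zero =>
    have : ((0 : F.Point Unit).val : PowerSeries R) = 0 := rfl
    simp [this]
  | succ n ih =>
    rw [succ_nsmul, coeff_add_of_mem_Fil F hK (AddSubgroup.nsmul_mem _ hx n) hx, ih]
    push_cast
    ring

end Fil

/-! ### Tokens and substitutions -/

section Subst

variable (F : FormalGroup R) [F.IsComm]

theorem tokenPt_val (c : R) (e : ℕ) (he : e ≠ 0) :
    (tokenPt F c e he).val = PowerSeries.C c * PowerSeries.X ^ e := rfl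

theorem tokenPt_zero (e : ℕ) (he : e ≠ 0) : tokenPt F (0 : R) e he = 0 := by
  apply Subtype.ext
  rw [tokenPt_val]
  simp only [map_zero, zero_mul]
  rfl

theorem tokenPt_mem_Fil (c : R) (e : ℕ) (he : e ≠ 0) : tokenPt F c e he ∈ Fil F e :=
  modX_token_zero c e e le_rfl

theorem tokenPt_coeff (c : R) (e : ℕ) (he : e ≠ 0) :
    PowerSeries.coeff e (tokenPt F c e he).val = c := by
  rw [tokenPt_val, PowerSeries.coeff_C_mul, PowerSeries.coeff_X_pow, if_pos rfl, mul_one]

/-- Substitution `x ↦ x ∘ h` on points. -/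
def compPt (h : PowerSeries R) (hh : PowerSeries.HasSubst h) : F.Point Unit →+ F.Point Unit where
  toFun x := ⟨PowerSeries.subst h x.val, hasSubst_subst x.prop hh⟩
  map_zero' := by
    apply Subtype.ext
    change PowerSeries.subst h (0 : PowerSeries R) = 0
    rw [← PowerSeries.coe_substAlgHom hh]
    exact map_zero _
  map_add' x y := by
    apply Subtype.ext
    exact subst_pair_comp F.toPowerSeries x.prop y.prop hh

theorem compPt_val (h : PowerSeries R) (hh : PowerSeries.HasSubst h) (x : F.Point Unit) :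
    (compPt F h hh x).val = PowerSeries.subst h x.val := rfl

theorem subst_token_val (h : PowerSeries R) (hh : PowerSeries.HasSubst h) (c : R) (e : ℕ) :
    PowerSeries.subst h (PowerSeries.C c * PowerSeries.X ^ e : PowerSeries R) =
      PowerSeries.C c * h ^ e := by
  rw [PowerSeries.subst_mul hh, PowerSeries.subst_pow hh, PowerSeries.subst_X hh,
    PowerSeries.subst_C]
  rfl

/-- The scaling series `u X`. -/
abbrev scal (u : R) : PowerSeries R := PowerSeries.C u * PowerSeries.X ^ 1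

theorem hasSubst_scal (u : R) : PowerSeries.HasSubst (scal u) :=
  hasSubst_token u 0

theorem coeff_subst_scal (u : R) (f : PowerSeries R) (i : ℕ) :
    PowerSeries.coeff i (PowerSeries.subst (scal u) f) = u ^ i * PowerSeries.coeff i f := by
  have : scal u = (u • PowerSeries.X : PowerSeries R) := by
    rw [scal, pow_one, PowerSeries.smul_eq_C_mul]
  rw [this, ← PowerSeries.rescale_eq_subst, PowerSeries.coeff_rescale]

theorem compPt_scal_mem_Fil (u : R) {K : ℕ} {x : F.Point Unit} (hx : x ∈ Fil F K) :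
    compPt F (scal u) (hasSubst_scal u) x ∈ Fil F K := by
  intro i hi
  rw [compPt_val, coeff_subst_scal, hx i hi]
  change _ * PowerSeries.coeff i (0 : PowerSeries R) = PowerSeries.coeff i (0 : PowerSeries R)
  simp

theorem compPt_tokenPt (h : PowerSeries R) (hh : PowerSeries.HasSubst h) (c : R) (e : ℕ) (he : e ≠ 0) :
    (compPt F h hh (tokenPt F c e he)).val = PowerSeries.C c * h ^ e :=
  subst_token_val h hh c e

end Subst

/-- A homomorphism of laws acts on points. -/
def homPtOf {F G : FormalGroup R} [F.IsComm] [G.IsComm] (θ : PowerSeries R) (hθ : IsFGHom F G θ) :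
    F.Point Unit →+ G.Point Unit where
  toFun x := ⟨PowerSeries.subst x.val θ,
    hasSubst_subst (PowerSeries.HasSubst.of_constantCoeff_zero' hθ.1) x.prop⟩
  map_zero' := by
    apply Subtype.ext
    change PowerSeries.subst (0 : PowerSeries R) θ = 0
    rw [PowerSeries.subst_zero_of_constantCoeff_zero hθ.1]
  map_add' x y := by
    apply Subtype.ext
    change PowerSeries.subst (F.toPowerSeries.subst ![x.val, y.val]) θ =
      G.toPowerSeries.subst ![PowerSeries.subst x.val θ, PowerSeries.subst y.val θ]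
    have hpair := hasSubst_pairN x.prop y.prop
    have h0 : PowerSeries.HasSubst F.toPowerSeries :=
      PowerSeries.HasSubst.of_constantCoeff_zero F.zero_constantCoeff
    have hX (i : Fin 2) : PowerSeries.HasSubst (MvPowerSeries.X i : MvPowerSeries (Fin 2) R) :=
      PowerSeries.HasSubst.X i
    have h1 := congrArg (MvPowerSeries.subst ![x.val, y.val]) hθ.2
    rw [PowerSeries.subst_def, MvPowerSeries.subst_comp_subst_apply h0.const hpair] at h1
    rw [MvPowerSeries.subst_comp_subst_apply (hasSubst_pairN (by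
        exact hasSubst_subst (PowerSeries.HasSubst.of_constantCoeff_zero' hθ.1) (hX 0)) (by
        exact hasSubst_subst (PowerSeries.HasSubst.of_constantCoeff_zero' hθ.1) (hX 1))) hpair] at h1
    have h2 : (fun s : Fin 2 => MvPowerSeries.subst ![x.val, y.val]
        (![PowerSeries.subst (MvPowerSeries.X 0 : MvPowerSeries (Fin 2) R) θ,
          PowerSeries.subst (MvPowerSeries.X 1 : MvPowerSeries (Fin 2) R) θ] s)) =
        ![PowerSeries.subst x.val θ, PowerSeries.subst y.val θ] := by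
      ext1 s
      fin_cases s
      · change MvPowerSeries.subst ![x.val, y.val]
          (PowerSeries.subst (MvPowerSeries.X 0 : MvPowerSeries (Fin 2) R) θ) = _
        rw [PowerSeries.subst_def, MvPowerSeries.subst_comp_subst_apply (hX 0).const hpair]
        simp only [Fin.isValue, MvPowerSeries.subst_X hpair, Matrix.cons_val_zero]
        rfl
      · change MvPowerSeries.subst ![x.val, y.val]
          (PowerSeries.subst (MvPowerSeries.X 1 : MvPowerSeries (Fin 2) R) θ) = _
        rw [PowerSeries.subst_def, MvPowerSeries.subst_comp_subst_apply (hX 1).const hpair]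
        simp only [Fin.isValue, MvPowerSeries.subst_X hpair, Matrix.cons_val_one,
          Matrix.cons_val_fin_one]
        rfl
    rw [h2] at h1
    exact h1

theorem homPtOf_val {F G : FormalGroup R} [F.IsComm] [G.IsComm] (θ : PowerSeries R)
    (hθ : IsFGHom F G θ) (x : F.Point Unit) :
    (homPtOf θ hθ x).val = PowerSeries.subst x.val θ := rfl

/-- The points of a token sum. -/
def tokenSumPt (F : FormalGroup R) [F.IsComm] (t : ℕ → R) (N : ℕ) : F.Point Unit :=
  ∑ j ∈ Finset.range N, tokenPt F (t j) (p ^ j) (pow_ne_zero _ (Fact.out : p.Prime).ne_zero)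

theorem tokenSum_eq_val (F : FormalGroup R) [F.IsComm] (t : ℕ → R) (N : ℕ) :
    tokenSum p F t N = (tokenSumPt p F t N).val := rfl

/-- **Uniqueness of tokens.** Compare lowest-degree differences: `∑^F` of tokens agree modulo `X^(p^N)` only if the
`t_j`, `j<N`, agree (`F(X,Y) = X+Y+...`). -/
theorem tokenSum_unique (F : FormalGroup R) [F.IsComm] (t t' : ℕ → R)
    (h : ∀ N i, i < p ^ N → PowerSeries.coeff i (tokenSum p F t N) = PowerSeries.coeff i (tokenSum p F t' N)) :
    t = t' := by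
  funext j
  induction j using Nat.strong_induction_on with
  | _ j ih =>
    have hp : p.Prime := Fact.out
    have hS : tokenSumPt p F t j = tokenSumPt p F t' j := by
      apply Finset.sum_congr rfl
      intro i hi
      rw [ih i (Finset.mem_range.mp hi)]
    have hlt : p ^ j < p ^ (j + 1) := Nat.pow_lt_pow_right hp.one_lt (Nat.lt_succ_self j)
    have hN : ModX (p ^ j + 1) (tokenSumPt p F t (j + 1)).val (tokenSumPt p F t' (j + 1)).val :=
      fun i hi => h (j + 1) i (by omega)
    rw [← sub_mem_Fil_iff] at hN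
    have he : p ^ j ≠ 0 := pow_ne_zero _ hp.ne_zero
    have hsplit : tokenSumPt p F t (j + 1) - tokenSumPt p F t' (j + 1) =
        tokenPt F (t j) (p ^ j) he - tokenPt F (t' j) (p ^ j) he := by
      simp only [tokenSumPt, Finset.sum_range_succ]
      change tokenSumPt p F t j + _ - (tokenSumPt p F t' j + _) = _
      rw [hS]
      abel
    rw [hsplit, sub_mem_Fil_iff] at hN
    have := hN (p ^ j) (Nat.lt_succ_self _)
    rwa [tokenPt_coeff, tokenPt_coeff] at this

/-! ### Expansion of a homomorphism in tokens -/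

section Expansion

variable (G : FormalGroup R) [G.IsComm] (r : G.Point Unit)

/-- The token `c X^(j+1)`. -/
def tk (c : R) (j : ℕ) : G.Point Unit := tokenPt G c (j + 1) (Nat.succ_ne_zero j)

/-- The partial expansions `∑^G_{j<K} c_j X^(j+1)`. -/
def approxS : ℕ → G.Point Unit
  | 0 => 0
  | K + 1 => approxS K + tk G (PowerSeries.coeff (K + 1) (r - approxS K).val) K

/-- The coefficients of the expansion. -/
def approxC (K : ℕ) : R := PowerSeries.coeff (K + 1) (r - approxS G r K).val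

theorem approxS_succ (K : ℕ) : approxS G r (K + 1) = approxS G r K + tk G (approxC G r K) K := rfl

theorem sub_approxS_mem (hr : r ∈ Fil G 1) (K : ℕ) : r - approxS G r K ∈ Fil G (K + 1) := by
  induction K with
  | zero => simpa [approxS] using hr
  | succ K ih =>
    rw [approxS_succ, ← sub_sub, sub_mem_Fil_iff]
    intro i hi
    rcases Nat.lt_succ_iff_lt_or_eq.mp hi with hi' | rfl
    · rw [ih i hi']
      change PowerSeries.coeff i (0 : PowerSeries R) = _
      have := (tokenPt_mem_Fil G (approxC G r K) (K + 1) (Nat.succ_ne_zero K)) i hi'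
      rw [show (tk G (approxC G r K) K).val = (tokenPt G (approxC G r K) (K + 1) (Nat.succ_ne_zero K)).val from rfl, this]
      rfl
    · rw [show (tk G (approxC G r K) K) = tokenPt G (approxC G r K) (K + 1) (Nat.succ_ne_zero K) from rfl,
        tokenPt_coeff]
      rfl

end Expansion

section Typical

variable [IsDomain R]

/-- Roots of `1 + ζ + … + ζ^(ℓ-1)`: powers prime to `ℓ` are again such. -/
theorem geom_sum_pow_eq_zero {ℓ : ℕ} (hℓ : ℓ.Prime) (hℓ0 : (ℓ : R) ≠ 0) {ζ : R}
    (hζ : ∑ a ∈ Finset.range ℓ, ζ ^ a = 0) {m : ℕ} (hm : ¬ ℓ ∣ m) :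
    ∑ a ∈ Finset.range ℓ, (ζ ^ m) ^ a = 0 := by
  have h1 : ζ ^ ℓ = 1 := by
    have := geom_sum_mul ζ ℓ
    rw [hζ, zero_mul] at this
    exact (sub_eq_zero.mp this.symm)
  have h2 : (ζ ^ m) ^ ℓ = 1 := by rw [← pow_mul, mul_comm, pow_mul, h1, one_pow]
  have h3 := geom_sum_mul (ζ ^ m) ℓ
  rw [h2, sub_self] at h3
  rcases mul_eq_zero.mp h3 with h4 | h4
  · exact h4
  · exfalso
    have h5 : ζ ^ m = 1 := sub_eq_zero.mp h4
    have h6 : orderOf ζ ∣ m := orderOf_dvd_of_pow_eq_one h5
    have h7 : orderOf ζ ∣ ℓ := orderOf_dvd_of_pow_eq_one h1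
    have h8 : Nat.Coprime ℓ m := (Nat.Prime.coprime_iff_not_dvd hℓ).mpr hm
    have h9 : orderOf ζ = 1 := Nat.eq_one_of_dvd_coprimes h8 h7 h6
    have h10 : ζ = 1 := orderOf_eq_one_iff.mp h9
    rw [h10] at hζ
    simp at hζ
    exact hℓ0 hζ

/-- For `ℓ ∣ m`: `(ζ^a)^m = 1`. -/
theorem pow_pow_eq_one_of_dvd {ℓ : ℕ} {ζ : R} (hζ : ∑ a ∈ Finset.range ℓ, ζ ^ a = 0) {m : ℕ}
    (hm : ℓ ∣ m) (a : ℕ) : (ζ ^ a) ^ m = 1 := by
  have h1 : ζ ^ ℓ = 1 := by
    have := geom_sum_mul ζ ℓ
    rw [hζ, zero_mul] at this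
    exact (sub_eq_zero.mp this.symm)
  obtain ⟨k, rfl⟩ := hm
  rw [← pow_mul, mul_comm a, pow_mul, pow_mul, h1, one_pow, one_pow]

variable (v v' : ℕ → R)

local notation "F₁" => hzv p v
local notation "F₂" => hzv p v'

/-- The substitutions `X ↦ ζ^a X`. -/
abbrev sig (ζ : R) (a : ℕ) : (hzv p v').Point Unit →+ (hzv p v').Point Unit :=
  compPt F₂ (scal (ζ ^ a)) (hasSubst_scal _)

theorem sum_sig_token_eq_zero {ℓ : ℕ} [Fact ℓ.Prime] (hℓp : ℓ ≠ p) (hℓ0 : (ℓ : R) ≠ 0) {ζ : R}
    (hζ : ∑ a ∈ Finset.range ℓ, ζ ^ a = 0) (c : R) (j : ℕ) (hj : ¬ ℓ ∣ j + 1) :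
    ∑ a ∈ Finset.range ℓ, sig p v' ζ a (tk F₂ c j) = 0 := by
  have hξ := geom_sum_pow_eq_zero (Fact.out : ℓ.Prime) hℓ0 hζ hj
  have h0 := hzv_ptypical (p := p) v' ℓ hℓp (ζ ^ (j + 1)) hξ
  have h1 : (∑ a ∈ Finset.range ℓ, tokenPt F₂ ((ζ ^ (j + 1)) ^ a) 1 one_ne_zero : (hzv p v').Point Unit) = 0 :=
    Subtype.ext h0
  have hh : PowerSeries.HasSubst (PowerSeries.C c * PowerSeries.X ^ (j + 1) : PowerSeries R) :=
    hasSubst_token c j
  have h2 := congrArg (compPt F₂ _ hh) h1
  rw [map_sum, map_zero] at h2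
  rw [← h2]
  refine Finset.sum_congr rfl fun a _ => ?_
  apply Subtype.ext
  rw [compPt_tokenPt]
  change PowerSeries.subst (scal (ζ ^ a)) (PowerSeries.C c * PowerSeries.X ^ (j + 1)) = _
  rw [subst_token_val _ (hasSubst_scal _), scal, pow_one, pow_one, mul_pow, ← mul_assoc,
    ← map_pow, ← map_mul, ← mul_assoc, ← map_mul]
  congr 2
  ring

theorem sig_token_of_dvd {ℓ : ℕ} {ζ : R} (hζ : ∑ a ∈ Finset.range ℓ, ζ ^ a = 0) (c : R) (j : ℕ)
    (hj : ℓ ∣ j + 1) (a : ℕ) : sig p v' ζ a (tk F₂ c j) = tk F₂ c j := by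
  apply Subtype.ext
  change PowerSeries.subst (scal (ζ ^ a)) (PowerSeries.C c * PowerSeries.X ^ (j + 1)) =
    PowerSeries.C c * PowerSeries.X ^ (j + 1)
  rw [subst_token_val _ (hasSubst_scal _), scal, pow_one, mul_pow, ← map_pow,
    pow_pow_eq_one_of_dvd hζ hj a, map_one, one_mul]

/-- Main vanishing: the coefficients at non-powers of `p` vanish. -/
theorem approxC_eq_zero (hℓ : ∀ ℓ : ℕ, ℓ.Prime → ℓ ≠ p → (ℓ : R) ≠ 0 ∧
      ∃ ζ : R, ∑ a ∈ Finset.range ℓ, ζ ^ a = 0)
    (ϱ : PowerSeries R) (hϱ : IsFGHom F₁ F₂ ϱ) (r : (hzv p v').Point Unit) (hrv : r.val = ϱ)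
    (K : ℕ) (hK : ¬ ∃ m, K + 1 = p ^ m) : approxC F₂ r K = 0 := by
  classical
  have hp : p.Prime := Fact.out
  induction K using Nat.strong_induction_on with
  | _ K IH =>
    -- a prime factor of `K+1` other than `p`
    obtain ⟨ℓ, hlp, hldvd, hlne⟩ : ∃ ℓ : ℕ, ℓ.Prime ∧ ℓ ∣ K + 1 ∧ ℓ ≠ p := by
      by_contra hcon
      push Not at hcon
      exact hK ⟨_, Nat.eq_prime_pow_of_unique_prime_dvd (Nat.succ_ne_zero K)
        (fun {d} hd hdd => hcon d hd hdd)⟩
    have : Fact ℓ.Prime := ⟨hlp⟩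
    obtain ⟨hℓ0, ζ, hζ⟩ := hℓ ℓ hlp hlne
    have hr1 : r ∈ Fil F₂ 1 := by
      intro i hi
      have : i = 0 := by omega
      subst this
      rw [hrv]
      simpa using hϱ.1
    -- Step A
    have hA : ∑ a ∈ Finset.range ℓ, sig p v' ζ a r = 0 := by
      have h0 := hzv_ptypical (p := p) v ℓ hlne ζ hζ
      have h1 : (∑ a ∈ Finset.range ℓ, tokenPt F₁ (ζ ^ a) 1 one_ne_zero : (hzv p v).Point Unit) = 0 :=
        Subtype.ext h0
      have h2 := congrArg (homPtOf ϱ hϱ) h1
      rw [map_sum, map_zero] at h2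
      rw [← h2]
      refine Finset.sum_congr rfl fun a _ => ?_
      apply Subtype.ext
      rw [compPt_val, hrv, homPtOf_val]
      rfl
    -- Step B
    have hB : ∀ N, ∑ a ∈ Finset.range ℓ, sig p v' ζ a (approxS F₂ r N) ∈ Fil F₂ (N + 1) := by
      intro N
      have h1 : ∑ a ∈ Finset.range ℓ, sig p v' ζ a (r - approxS F₂ r N) ∈ Fil F₂ (N + 1) :=
        AddSubgroup.sum_mem _ fun a _ => compPt_scal_mem_Fil _ _ (sub_approxS_mem F₂ r hr1 N)
      simp only [map_sub, Finset.sum_sub_distrib, hA, _root_.zero_sub] at h1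
      simpa using (AddSubgroup.neg_mem_iff _).mp h1
    -- Step D
    have hD : ∀ N, N ≤ K → ∑ a ∈ Finset.range ℓ, sig p v' ζ a (approxS F₂ r N) = 0 := by
      intro N
      induction N with
      | zero =>
        intro _
        simp [approxS]
      | succ N ihN =>
        intro hN
        have hN' : N < K := hN
        rw [approxS_succ]
        simp only [map_add, Finset.sum_add_distrib]
        rw [ihN hN'.le, _root_.zero_add]
        by_cases hdvd : ℓ ∣ N + 1
        · have hc : approxC F₂ r N = 0 := IH N hN' (by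
            rintro ⟨m, hm⟩
            rw [hm] at hdvd
            exact hlne ((Nat.prime_dvd_prime_iff_eq hlp hp).mp (hlp.dvd_of_dvd_pow hdvd)))
          rw [hc, show tk F₂ (0 : R) N = 0 from tokenPt_zero _ _ _]
          simp
        · exact sum_sig_token_eq_zero p v' hlne hℓ0 hζ _ N hdvd
    -- Step E
    have hE := hB (K + 1)
    rw [approxS_succ] at hE
    simp only [map_add, Finset.sum_add_distrib] at hE
    rw [hD K le_rfl, _root_.zero_add] at hE
    have hE2 : ∑ a ∈ Finset.range ℓ, sig p v' ζ a (tk F₂ (approxC F₂ r K) K) =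
        ℓ • tk F₂ (approxC F₂ r K) K := by
      rw [Finset.sum_congr rfl (fun a _ => sig_token_of_dvd p v' hζ _ K hldvd a)]
      simp
    rw [hE2] at hE
    have hE3 := hE (K + 1) (Nat.lt_succ_self _)
    have hmem : tk F₂ (approxC F₂ r K) K ∈ Fil F₂ (K + 1) :=
      tokenPt_mem_Fil F₂ _ (K + 1) (Nat.succ_ne_zero K)
    rw [coeff_nsmul_of_mem_Fil F₂ (by omega) hmem] at hE3
    have hcoef : PowerSeries.coeff (K + 1) (tk F₂ (approxC F₂ r K) K).val = approxC F₂ r K :=
      tokenPt_coeff F₂ _ (K + 1) (Nat.succ_ne_zero K)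
    rw [hcoef] at hE3
    have hE4 : (ℓ : R) * approxC F₂ r K = 0 := hE3
    exact (mul_eq_zero.mp hE4).resolve_left hℓ0

/-- The partial expansion at `p^N - 1` is the token sum. -/
theorem approxS_eq_tokenSumPt (r : (hzv p v').Point Unit)
    (hzero : ∀ K, (¬ ∃ m, K + 1 = p ^ m) → approxC F₂ r K = 0) (N : ℕ) :
    approxS F₂ r (p ^ N - 1) = tokenSumPt p F₂ (fun m => approxC F₂ r (p ^ m - 1)) N := by
  have hp : p.Prime := Fact.out
  induction N with
  | zero => simp [tokenSumPt, approxS]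
  | succ N ih =>
    have hpos : 0 < p ^ N := pow_pos hp.pos _
    have hlt : p ^ N < p ^ (N + 1) := Nat.pow_lt_pow_right hp.one_lt (Nat.lt_succ_self N)
    have hstep : ∀ K, p ^ N ≤ K → K ≤ p ^ (N + 1) - 1 →
        approxS F₂ r K = approxS F₂ r (p ^ N - 1) +
          tk F₂ (approxC F₂ r (p ^ N - 1)) (p ^ N - 1) := by
      intro K hK
      induction K, hK using Nat.le_induction with
      | base =>
        intro _
        have : p ^ N = (p ^ N - 1) + 1 := by omega
        conv_lhs => rw [this, approxS_succ]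
      | succ K hK ih2 =>
        intro hK2
        rw [approxS_succ, ih2 (by omega)]
        have hnot : ¬ ∃ m, K + 1 = p ^ m := by
          rintro ⟨m, hm⟩
          have h1 : p ^ N < p ^ m := by omega
          have h2 : p ^ m < p ^ (N + 1) := by omega
          have h3 := (Nat.pow_lt_pow_iff_right hp.one_lt).mp h1
          have h4 := (Nat.pow_lt_pow_iff_right hp.one_lt).mp h2
          omega
        rw [hzero K hnot, show tk F₂ (0 : R) K = 0 from tokenPt_zero _ _ _, _root_.add_zero]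
    rw [hstep (p ^ (N + 1) - 1) (by omega) le_rfl, ih]
    simp only [tokenSumPt, Finset.sum_range_succ]
    congr 1
    apply Subtype.ext
    change PowerSeries.C _ * PowerSeries.X ^ (p ^ N - 1 + 1) = PowerSeries.C _ * PowerSeries.X ^ (p ^ N)
    rw [Nat.sub_add_cancel hpos]

end Typical

/-- **`p`-typicality of homs.** `R` a domain such that for every prime `ℓ ≠ p`, `ℓ ≠ 0` in `R` and there is `ζ` with
`1 + ζ + … + ζ^(ℓ-1) = 0`. Then every hom. `ϱ : F_v → F_v'` is a (limit) token sum: there is `t`, `t 0` the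
linear coefficient, with `ϱ ≡ ∑^{F_v'}_{j<N} t_j X^(p^j)` modulo `X^(p^N)`.

Proof: expand `ϱ = ∑^{F'}_{k≥1} c_k X^k` (any series has a unique such expansion: induct on degree). Apply `ϱ` to
`hzv_ptypical` for `F_v`: `∑^{F'}_{a<ℓ} ϱ(ζ^a X) = 0`, i.e. `∑^{F'}_k ∑^{F'}_a c_k ζ^(ak) X^k = 0`. If `ℓ ∤ k`
then the inner sum is `0` (`hzv_ptypical` for `F_v'`, `ζ^k` in place of `ζ`, at `Y = c_k X^k`), if `ℓ ∣ k` then it
is `[ℓ]_{F'}(c_k X^k)`. So `∑^{F'}_{ℓ∣k} [ℓ]_{F'}(c_k X^k) = 0` and by lowest degree (`ℓ ≠ 0`) `c_k = 0` if `ℓ ∣ k`. -/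
theorem exists_tokens [IsDomain R] (hℓ : ∀ ℓ : ℕ, ℓ.Prime → ℓ ≠ p → (ℓ : R) ≠ 0 ∧
      ∃ ζ : R, ∑ a ∈ Finset.range ℓ, ζ ^ a = 0)
    (v v' : ℕ → R) (ϱ : PowerSeries R) (hϱ : IsFGHom (hzv p v) (hzv p v') ϱ) :
    ∃ t : ℕ → R, t 0 = PowerSeries.coeff 1 ϱ ∧
      ∀ N i, i < p ^ N → PowerSeries.coeff i ϱ = PowerSeries.coeff i (tokenSum p (hzv p v') t N) := by
  have hp : p.Prime := Fact.out
  let r : (hzv p v').Point Unit := ⟨ϱ, PowerSeries.HasSubst.of_constantCoeff_zero' hϱ.1⟩
  have hr1 : r ∈ Fil (hzv p v') 1 := by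
    intro i hi
    have : i = 0 := by omega
    subst this
    simpa [r] using hϱ.1
  have hzero := fun K hK => approxC_eq_zero p v v' hℓ ϱ hϱ r rfl K hK
  refine ⟨fun m => approxC (hzv p v') r (p ^ m - 1), ?_, ?_⟩
  · change PowerSeries.coeff (0 + 1) (r - approxS (hzv p v') r (p ^ 0 - 1)).val = _
    simp [approxS]
    rfl
  · intro N i hi
    have hpos : 0 < p ^ N := pow_pos hp.pos _
    have h1 := sub_approxS_mem (hzv p v') r hr1 (p ^ N - 1)
    rw [sub_mem_Fil_iff, approxS_eq_tokenSumPt p v' r hzero N] at h1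
    exact h1 i (by omega)

end Ring

section Points

variable {C : Type} [NontriviallyNormedField C] [IsUltrametricDist C] [CompleteSpace C]

/-- The token `c w^e` as a point. -/
def tokPt {F₀ : FormalGroup (OC C)} (F : FormalGroup (OC C)) (c : OC C) (w : LawPt F₀) (e : ℕ) (he : e ≠ 0) :
    LawPt F :=
  LawPt.mk ((c : C) * w.val ^ e) (by
    have h1 : ‖(c : C)‖ ≤ 1 := c.2
    have h2 : ‖w.val‖ < 1 := w.norm_lt
    rw [norm_mul, norm_pow]
    calc ‖(c : C)‖ * ‖w.val‖ ^ e ≤ 1 * ‖w.val‖ ^ e := by gcongr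
      _ = ‖w.val‖ ^ e := one_mul _
      _ < 1 := pow_lt_one₀ (norm_nonneg _) h2 he)

/-- `𝒪_C` satisfies the hypothesis of `exists_tokens` if `C` is algebraically closed of characteristic
`0` or `p`. -/
theorem OC_roots [IsAlgClosed C] (hC : CharP C p ∨ CharZero C) (ℓ : ℕ) (hℓ : ℓ.Prime) (hℓp : ℓ ≠ p) :
    ((ℓ : ℕ) : OC C) ≠ 0 ∧ ∃ ζ : OC C, ∑ a ∈ Finset.range ℓ, ζ ^ a = 0 := by
  have hp : p.Prime := Fact.out
  have h0 : (ℓ : C) ≠ 0 := by
    rcases hC with hC | hC
    · intro h
      have h1 : p ∣ ℓ := (CharP.cast_eq_zero_iff C p ℓ).mp h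
      exact hℓp ((Nat.prime_dvd_prime_iff_eq hp hℓ).mp h1).symm
    · exact Nat.cast_ne_zero.mpr hℓ.ne_zero
  refine ⟨fun h => h0 ?_, ?_⟩
  · have := congrArg (Subtype.val) h
    simpa using this
  · have : Fact ℓ.Prime := ⟨hℓ⟩
    have hdeg : (Polynomial.cyclotomic ℓ C).degree ≠ 0 := by
      rw [Polynomial.degree_cyclotomic, Nat.totient_prime hℓ]
      have := hℓ.two_le
      intro h
      have h2 : ℓ - 1 = 0 := by exact_mod_cast h
      omega
    obtain ⟨ζ, hζ⟩ := IsAlgClosed.exists_root _ hdeg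
    rw [Polynomial.cyclotomic_prime, Polynomial.IsRoot.def, Polynomial.eval_geom_sum] at hζ
    have h1 : ζ ^ ℓ = 1 := by
      have := geom_sum_mul ζ ℓ
      rw [hζ, zero_mul] at this
      exact (sub_eq_zero.mp this.symm)
    have hn : ‖ζ‖ = 1 := by
      have h2 : ‖ζ‖ ^ ℓ = 1 := by rw [← norm_pow, h1, norm_one]
      exact (pow_eq_one_iff_of_nonneg (norm_nonneg _) hℓ.ne_zero).mp h2
    refine ⟨⟨ζ, hn.le⟩, ?_⟩
    apply Subtype.ext
    simpa using hζ

/-- The `ev1` of a token. -/
theorem ev1_token (c : OC C) (e : ℕ) (x : C) :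
    ev1 (PowerSeries.C c * PowerSeries.X ^ e) x = (c : C) * x ^ e := by
  rw [ev1, tsum_eq_single e]
  · rw [PowerSeries.coeff_C_mul, PowerSeries.coeff_X_pow, if_pos rfl, mul_one]
  · intro k hk
    rw [PowerSeries.coeff_C_mul, PowerSeries.coeff_X_pow, if_neg hk, mul_zero]
    simp

/-- Two series agreeing below `X^N` have values `‖x‖^N`-close. -/
theorem norm_ev1_sub_of_modX (f g : PowerSeries (OC C)) (N : ℕ) (h : ModX N f g) (x : C)
    (hx : ‖x‖ < 1) : ‖ev1 f x - ev1 g x‖ ≤ ‖x‖ ^ N := by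
  have ha : ∀ i : Unit, ‖(fun _ : Unit => x) i‖ < 1 := fun _ => hx
  have h1 : evMv (σ := Unit) (f - g) (fun _ => x) =
      evMv (σ := Unit) f (fun _ => x) - evMv (σ := Unit) g (fun _ => x) := by
    rw [← coe_evHom _ ha, ← coe_evHom _ ha, ← coe_evHom _ ha, map_sub]
    rfl
  rw [ev1_eq_evMv, ev1_eq_evMv, ← h1]
  refine norm_evMv_le_of_order (σ := Unit) (f - g) N ?_ (fun _ => x) ‖x‖ hx (norm_nonneg _) (fun _ => le_rfl)
  intro d hd
  have hd' : d = Finsupp.single () (d ()) := by
    ext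
    simp
  have hdeg : d () < N := by
    have : d.degree = d () := by
      rw [hd']
      simp
    omega
  rw [map_sub, sub_eq_zero]
  rw [hd']
  exact h (d ()) hdeg

theorem tokenSumPt_mem_Fil (F : FormalGroup (OC C)) [F.IsComm] (t : ℕ → OC C) (N : ℕ) :
    tokenSumPt p F t N ∈ Fil F 1 := by
  refine AddSubgroup.sum_mem _ fun j _ => ?_
  have hp : p.Prime := Fact.out
  intro i hi
  have hpos : 0 < p ^ j := pow_pos hp.pos _
  exact tokenPt_mem_Fil F (t j) (p ^ j) (pow_ne_zero _ hp.ne_zero) i (by omega)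

/-- Partial sums in `F'(𝔪_C)` are values of the formal token sums. -/
theorem val_sum_tokPt {F : FormalGroup (OC C)} (F' : FormalGroup (OC C)) [F'.IsComm]
    (t : ℕ → OC C) (w : LawPt F) (N : ℕ) :
    (∑ j ∈ Finset.range N, (tokPt F' (t j) w (p ^ j) (pow_ne_zero _ (Fact.out : p.Prime).ne_zero) : LawPt F')).val =
      ev1 (tokenSum p F' t N) w.val := by
  have hp : p.Prime := Fact.out
  induction N with
  | zero =>
    have h0 : tokenSum p F' t 0 = 0 := by
      rw [tokenSum_eq_val]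
      simp only [tokenSumPt, Finset.range_zero, Finset.sum_empty]
      rfl
    rw [h0, Finset.range_zero, Finset.sum_empty, LawPt.val_zero]
    simp [ev1]
  | succ N ih =>
    rw [Finset.sum_range_succ, LawPt.val_add, ih]
    have h1 : tokenSum p F' t (N + 1) = F'.toPowerSeries.subst
        ![tokenSum p F' t N, (PowerSeries.C (t N) * PowerSeries.X ^ (p ^ N) : PowerSeries (OC C))] := by
      rw [tokenSum_eq_val, tokenSum_eq_val]
      simp only [tokenSumPt, Finset.sum_range_succ]
      rfl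
    have hc0 : PowerSeries.constantCoeff (tokenSum p F' t N) = 0 := by
      have := tokenSumPt_mem_Fil (p := p) F' t N 0 (by omega)
      rw [tokenSum_eq_val]
      simpa using this
    have hc1 : PowerSeries.constantCoeff
        (PowerSeries.C (t N) * PowerSeries.X ^ (p ^ N) : PowerSeries (OC C)) = 0 := by
      have hpos : p ^ N ≠ 0 := pow_ne_zero _ hp.ne_zero
      rw [map_mul, map_pow, PowerSeries.constantCoeff_X, zero_pow hpos, mul_zero]
    rw [h1, ev1_lawAdd_subst F' _ _ hc0 hc1 w.val w.norm_lt, ev1_token]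
    rfl

/-- Evaluation of a token expansion: `ϱ(w) = lim_N ∑^{F'}_{j<N} t_j w^(p^j)` in `F'(𝔪_C)`. -/
theorem tendsto_tokens (F F' : FormalGroup (OC C)) [F.IsComm] [F'.IsComm] (ϱ : PowerSeries (OC C))
    (hϱ : IsFGHom F F' ϱ) (t : ℕ → OC C)
    (ht : ∀ N i, i < p ^ N → PowerSeries.coeff i ϱ = PowerSeries.coeff i (tokenSum p F' t N))
    (w : LawPt F) :
    Filter.Tendsto (fun N : ℕ => (∑ j ∈ Finset.range N,
        (tokPt F' (t j) w (p ^ j) (pow_ne_zero _ (Fact.out : p.Prime).ne_zero) : LawPt F')).val)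
      Filter.atTop (nhds (homPt ϱ hϱ w).val) := by
  have hp : p.Prime := Fact.out
  rw [tendsto_iff_norm_sub_tendsto_zero]
  have hlim : Filter.Tendsto (fun N : ℕ => ‖w.val‖ ^ (p ^ N)) Filter.atTop (nhds 0) :=
    (tendsto_pow_atTop_nhds_zero_of_lt_one (norm_nonneg _) w.norm_lt).comp
      (tendsto_pow_atTop_atTop_of_one_lt hp.one_lt)
  refine squeeze_zero (fun _ => norm_nonneg _) (fun N => ?_) hlim
  rw [val_sum_tokPt, homPt_val, norm_sub_rev]
  exact norm_ev1_sub_of_modX ϱ (tokenSum p F' t N) (p ^ N) (ht N) w.val w.norm_lt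

end Points

end

end Crest.Agent.LT
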