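/-
S0351 package E0: the ring `E₀ = W(k)[[u₁..u_{n-1}]]`, the ideals `J_h = (p,u₁..u_{h-1})`,
Hazewinkel's law `HH` over `E₀`. See BLUEPRINT.md §R.
-/
import Crest.Agent.LT.Hazewinkel

set_option autoImplicit false

open Crest.LubinTate

namespace Crest.Agent.LT

noncomputable section

/-! ### Decomposition of power series along a set of variables -/
section Decomp
open MvPowerSeries

variable {σ : Type*} [Fintype σ] [LinearOrder σ] {R : Type*} [CommRing R]

/-- The part of `f` only involving variables outside `S`. -/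
def restrS (S : Finset σ) (f : MvPowerSeries σ R) : MvPowerSeries σ R :=
  fun d => if ∀ i ∈ S, d i = 0 then coeff d f else 0

theorem coeff_restrS (S : Finset σ) (f : MvPowerSeries σ R) (d : σ →₀ ℕ) :
    coeff d (restrS S f) = if ∀ i ∈ S, d i = 0 then coeff d f else 0 := rfl

/-- The cofactor of `X i` for the "first index in `S`" decomposition. -/
def cofS (S : Finset σ) (f : MvPowerSeries σ R) (i : σ) : MvPowerSeries σ R :=
  fun e => if ∀ j ∈ S, j < i → e j = 0 then coeff (e + Finsupp.single i 1) f else 0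

theorem coeff_cofS (S : Finset σ) (f : MvPowerSeries σ R) (i : σ) (e : σ →₀ ℕ) :
    coeff e (cofS S f i) = if ∀ j ∈ S, j < i → e j = 0 then coeff (e + Finsupp.single i 1) f else 0 :=
  rfl

omit [Fintype σ] [LinearOrder σ] in
theorem coeff_X_mul_eq (i : σ) (g : MvPowerSeries σ R) (d : σ →₀ ℕ) :
    coeff d (X i * g) = if 1 ≤ d i then coeff (d - Finsupp.single i 1) g else 0 := by
  classical
  rw [MvPowerSeries.X_def, coeff_monomial_mul]
  have : Finsupp.single i 1 ≤ d ↔ 1 ≤ d i := by simp [Finsupp.single_le_iff]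
  simp [this]

theorem decomp_eq (S : Finset σ) (f : MvPowerSeries σ R) :
    f = (∑ i ∈ S, X i * cofS S f i) + restrS S f := by
  classical
  ext d
  rw [map_add, map_sum, coeff_restrS]
  simp_rw [coeff_X_mul_eq, coeff_cofS]
  by_cases hd : ∀ i ∈ S, d i = 0
  · rw [if_pos hd, Finset.sum_eq_zero, zero_add]
    intro i hi
    rw [if_neg]
    rw [hd i hi]; omega
  · rw [if_neg hd, add_zero]
    push Not at hd
    have hT : (S.filter (fun i => d i ≠ 0)).Nonempty := by
      obtain ⟨i, hi, hdi⟩ := hd
      exact ⟨i, Finset.mem_filter.2 ⟨hi, hdi⟩⟩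
    set i₀ := (S.filter (fun i => d i ≠ 0)).min' hT with hi₀
    have hi₀m := Finset.min'_mem _ hT
    rw [← hi₀, Finset.mem_filter] at hi₀m
    rw [Finset.sum_eq_single i₀]
    · rw [if_pos (by omega), if_pos]
      · have hle : Finsupp.single i₀ 1 ≤ d := by
          simp only [Finsupp.single_le_iff]; omega
        rw [tsub_add_cancel_of_le hle]
      · intro j hj hlt
        have h0 : d j = 0 := by
          by_contra hne
          have := Finset.min'_le (S.filter (fun i => d i ≠ 0)) j (Finset.mem_filter.2 ⟨hj, hne⟩)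
          exact absurd hlt (not_lt.2 this)
        simp [hlt.ne, h0]
    · intro i hi hne
      by_cases h1 : 1 ≤ d i
      · rw [if_pos h1, if_neg]
        intro hall
        have hi₀i : i₀ ≤ i :=
          Finset.min'_le _ i (Finset.mem_filter.2 ⟨hi, by omega⟩)
        have hlt : i₀ < i := lt_of_le_of_ne hi₀i (Ne.symm hne)
        have := hall i₀ hi₀m.1 hlt
        simp [hlt.ne] at this
        exact hi₀m.2 this
      · rw [if_neg h1]
    · intro h; exact absurd hi₀m.1 h

/-- Coefficients of the cofactor are coefficients of `f` or zero. -/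
theorem coeff_cofS_eq (S : Finset σ) (f : MvPowerSeries σ R) (i : σ) (e : σ →₀ ℕ) :
    coeff e (cofS S f i) = 0 ∨ coeff e (cofS S f i) = coeff (e + Finsupp.single i 1) f := by
  rw [coeff_cofS]
  split_ifs
  · exact Or.inr rfl
  · exact Or.inl rfl

end Decomp

/-! ### `F(X,Y) = X + Y + XY·G` and additivity of `F` on series of high order -/
section LawDecomp
open MvPowerSeries

variable {R : Type*} [CommRing R]

theorem law_coeff_single_zero (F : FormalGroup R) (a : ℕ) :
    coeff (Finsupp.single (0 : Fin 2) a) F.toPowerSeries = if a = 1 then 1 else 0 := by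
  have h := congrArg (PowerSeries.coeff a) F.Xzero_eq_X
  rw [PowerSeries.coeff_X] at h
  rw [← h, PowerSeries.coeff, coeff_subst, finsum_eq_single _ (Finsupp.single 0 a)]
  · simp
  · intro d hd
    by_cases hd₁ : d 1 = 0
    · have hd₀ : d 0 ≠ a := by
        intro hc
        apply hd
        ext i
        fin_cases i
        · simpa using hc
        · simpa using hd₁
      simp [hd₁, PowerSeries.coeff_X_pow, Ne.symm hd₀]
    · simp [hd₁]
  · exact HasSubst.X_zero

theorem law_coeff_single_one (F : FormalGroup R) (a : ℕ) :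
    coeff (Finsupp.single (1 : Fin 2) a) F.toPowerSeries = if a = 1 then 1 else 0 := by
  have h := congrArg (PowerSeries.coeff a) F.zeroX_eq_X
  rw [PowerSeries.coeff_X] at h
  rw [← h, PowerSeries.coeff, coeff_subst, finsum_eq_single _ (Finsupp.single 1 a)]
  · simp
  · intro d hd
    by_cases hd₀ : d 0 = 0
    · have hd₁ : d 1 ≠ a := by
        intro hc
        apply hd
        ext i
        fin_cases i
        · simpa using hd₀
        · simpa using hc
      simp [hd₀, PowerSeries.coeff_X_pow, Ne.symm hd₁]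
    · simp [hd₀]
  · exact HasSubst.zero_X

/-- `F = X + Y + XY·G`. -/
theorem law_decomp (F : FormalGroup R) :
    ∃ G : MvPowerSeries (Fin 2) R, F.toPowerSeries = X 0 + X 1 + X 0 * (X 1 * G) := by
  classical
  set P : MvPowerSeries (Fin 2) R := F.toPowerSeries - X 0 - X 1 with hP
  obtain ⟨G, hG⟩ : ∃ G : MvPowerSeries (Fin 2) R, ∀ e,
      coeff e G = coeff (e + Finsupp.single 1 1 + Finsupp.single 0 1) P :=
    ⟨fun e => coeff (e + Finsupp.single 1 1 + Finsupp.single 0 1) P, fun e => rfl⟩
  have h0 : ∀ d : Fin 2 →₀ ℕ, d 0 = 0 → coeff d P = 0 := by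
    intro d hd
    have hd' : d = Finsupp.single 1 (d 1) := by
      ext i; fin_cases i <;> simp [hd]
    rw [hP, map_sub, map_sub, hd', law_coeff_single_one, coeff_X, coeff_X]
    by_cases h1 : d 1 = 1
    · simp [h1, Finsupp.single_left_inj]
    · have h2 : (Finsupp.single (1 : Fin 2) (d 1)) ≠ Finsupp.single 1 1 := by
        intro hc
        apply h1
        simpa using DFunLike.congr_fun hc 1
      have h3 : (Finsupp.single (1 : Fin 2) (d 1)) ≠ Finsupp.single 0 1 := by
        intro hc
        have := DFunLike.congr_fun hc 0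
        simp at this
      simp [h1, h2, h3]
  have h1 : ∀ d : Fin 2 →₀ ℕ, d 1 = 0 → coeff d P = 0 := by
    intro d hd
    have hd' : d = Finsupp.single 0 (d 0) := by
      ext i; fin_cases i <;> simp [hd]
    rw [hP, map_sub, map_sub, hd', law_coeff_single_zero, coeff_X, coeff_X]
    by_cases h1 : d 0 = 1
    · have h3 : (Finsupp.single (0 : Fin 2) 1) ≠ Finsupp.single 1 1 := by
        intro hc
        have := DFunLike.congr_fun hc 0
        simp at this
      simp [h1, h3]
    · have h2 : (Finsupp.single (0 : Fin 2) (d 0)) ≠ Finsupp.single 0 1 := by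
        intro hc
        apply h1
        simpa using DFunLike.congr_fun hc 0
      have h3 : (Finsupp.single (0 : Fin 2) (d 0)) ≠ Finsupp.single 1 1 := by
        intro hc
        have := DFunLike.congr_fun hc 1
        simp at this
      simp [h1, h2, h3]
  refine ⟨G, ?_⟩
  have key : P = X 0 * (X 1 * G) := by
    ext d
    rw [coeff_X_mul_eq, coeff_X_mul_eq]
    by_cases hd0 : 1 ≤ d 0
    · rw [if_pos hd0]
      by_cases hd1 : 1 ≤ (d - Finsupp.single (0 : Fin 2) 1 : Fin 2 →₀ ℕ) 1
      · rw [if_pos hd1, hG]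
        have hd1' : 1 ≤ d 1 := by simpa using hd1
        have heq : d - Finsupp.single (0 : Fin 2) 1 - Finsupp.single (1 : Fin 2) 1 +
            Finsupp.single (1 : Fin 2) 1 + Finsupp.single (0 : Fin 2) 1 = d := by
          ext i
          fin_cases i
          · simp; omega
          · simp; omega
        rw [heq]
      · rw [if_neg hd1]
        have hd1' : d 1 = 0 := by
          have : ¬ 1 ≤ d 1 := by simpa using hd1
          omega
        exact h1 d hd1'
    · rw [if_neg hd0]
      exact h0 d (by omega)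
  rw [← key, hP]
  ring

/-- If `x, y` have order `≥ m ≥ 1`, so has `x +_F y`, and its `m`-th coefficient is additive. -/
theorem point_add_coeff (F : FormalGroup R) (x y : F.Point Unit) (m : ℕ) (hm : 1 ≤ m)
    (hx : (PowerSeries.X ^ m : PowerSeries R) ∣ x.val) (hy : (PowerSeries.X ^ m : PowerSeries R) ∣ y.val) :
    (PowerSeries.X ^ m : PowerSeries R) ∣ (x + y).val ∧
      PowerSeries.coeff m ((x + y).val : PowerSeries R) =
        PowerSeries.coeff m (x.val : PowerSeries R) + PowerSeries.coeff m (y.val : PowerSeries R) := by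
  obtain ⟨G, hG⟩ := law_decomp F
  have hs : HasSubst ![x.val, y.val] :=
    hasSubst_of_constantCoeff_nilpotent fun s => by
      fin_cases s
      · simpa using x.prop
      · simpa using y.prop
  have hval : (x + y).val = x.val + y.val + x.val * (y.val * G.subst ![x.val, y.val]) := by
    rw [FormalGroup.add_apply, hG, subst_add hs, subst_add hs, subst_mul hs, subst_mul hs,
      subst_X hs, subst_X hs]
    simp
  have hxy : (PowerSeries.X ^ (m + m) : PowerSeries R) ∣
      x.val * (y.val * G.subst ![x.val, y.val]) := by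
    rw [pow_add]
    exact mul_dvd_mul hx (Dvd.dvd.mul_right hy _)
  constructor
  · rw [hval]
    refine dvd_add (dvd_add hx hy) (dvd_trans (pow_dvd_pow _ (by omega)) hxy)
  · rw [hval]
    have h0 := (PowerSeries.X_pow_dvd_iff.1 hxy) m (by omega)
    change PowerSeries.coeff m ((x.val : PowerSeries R) + y.val + _) = _
    rw [map_add, map_add]
    rw [show PowerSeries.coeff m (x.val * (y.val * G.subst ![x.val, y.val])) = 0 from h0, add_zero]

end LawDecomp

variable (p : ℕ) [Fact p.Prime] (n : ℕ)

local notation "k" => GaloisField p n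
local notation "W" => WittVector p (GaloisField p n)
local notation "E" => LTRing p n

/-! ### Ring-theoretic facts -/

instance : IsLocalRing E := inferInstance

instance : IsNoetherianRing E := inferInstance

instance : IsDomain E := NoZeroDivisors.to_isDomain _

theorem residue_surjective : Function.Surjective (LTRing.residue p n) := by
  intro x
  obtain ⟨w, hw⟩ := WittVector.constantCoeff_surjective p x
  exact ⟨MvPowerSeries.C w, by simp [LTRing.residue, hw]⟩

theorem ker_residue : RingHom.ker (LTRing.residue p n) = IsLocalRing.maximalIdeal E := by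
  have : (RingHom.ker (LTRing.residue p n)).IsMaximal :=
    RingHom.ker_isMaximal_of_surjective _ (residue_surjective p n)
  exact IsLocalRing.eq_maximalIdeal this

theorem residue_comp_algebraMap :
    (LTRing.residue p n).comp (algebraMap W E) = WittVector.constantCoeff := by
  refine RingHom.ext fun x => ?_
  simp [LTRing.residue, MvPowerSeries.algebraMap_apply]

/-- `x ∈ 𝔪` iff the constant coefficient of `x` is divisible by `p`. -/
theorem mem_maximal_iff (x : E) : x ∈ IsLocalRing.maximalIdeal E ↔
    MvPowerSeries.constantCoeff x ∈ Ideal.span {(p : W)} := by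
  rw [← ker_residue, RingHom.mem_ker, ← WittVector.ker_constantCoeff, RingHom.mem_ker]
  rfl

theorem natCast_p_eq_C : (p : E) = MvPowerSeries.C (p : W) := (map_natCast _ p).symm

theorem natCast_p_mem_maximal : (p : E) ∈ IsLocalRing.maximalIdeal E := by
  rw [mem_maximal_iff, natCast_p_eq_C]
  simpa using Ideal.mem_span_singleton_self (p : W)

theorem X_mem_maximal (j : Fin (n - 1)) :
    (MvPowerSeries.X j : E) ∈ IsLocalRing.maximalIdeal E := by
  rw [mem_maximal_iff]
  simp

/-- Coefficients of elements of `𝔪^N`. -/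
theorem coeff_mem_of_mem_maximal_pow (N : ℕ) (x : E) (hx : x ∈ IsLocalRing.maximalIdeal E ^ N)
    (d : Fin (n - 1) →₀ ℕ) :
    MvPowerSeries.coeff d x ∈ Ideal.span {(p : W)} ^ (N - d.degree) := by
  induction N generalizing x d with
  | zero => simp
  | succ N ih =>
    rw [pow_succ] at hx
    refine Submodule.mul_induction_on hx ?_ ?_
    · intro a ha b hb
      rw [MvPowerSeries.coeff_mul]
      refine Ideal.sum_mem _ ?_
      rintro ⟨u, v⟩ huv
      have huv' : u + v = d := Finset.HasAntidiagonal.mem_antidiagonal.1 huv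
      have hdeg : u.degree + v.degree = d.degree := by
        rw [← huv', map_add]
      have h1 := ih a ha u
      have h2 : MvPowerSeries.coeff v b ∈ Ideal.span {(p : W)} ^ (1 - v.degree) := by
        by_cases hv : v = 0
        · subst hv
          have := (mem_maximal_iff p n b).1 hb
          simpa using this
        · have : v.degree ≠ 0 := by
            simpa [Finsupp.degree_eq_zero_iff] using hv
          have h0 : 1 - v.degree = 0 := by omega
          rw [h0]; simp
      have h3 := Ideal.mul_mem_mul h1 h2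
      rw [← pow_add] at h3
      exact Ideal.pow_le_pow_right (by omega) h3
    · intro a b ha hb
      rw [map_add]
      exact Ideal.add_mem _ ha hb

/-- Converse: coefficient conditions imply membership in `𝔪^N`. -/
theorem mem_maximal_pow_of_coeff (N : ℕ) (x : E)
    (hx : ∀ d : Fin (n - 1) →₀ ℕ,
      MvPowerSeries.coeff d x ∈ Ideal.span {(p : W)} ^ (N - d.degree)) :
    x ∈ IsLocalRing.maximalIdeal E ^ N := by
  classical
  induction N generalizing x with
  | zero => simp
  | succ N ih =>
    rw [decomp_eq Finset.univ x]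
    refine Ideal.add_mem _ (Ideal.sum_mem _ ?_) ?_
    · intro i _
      rw [pow_succ, mul_comm]
      refine Ideal.mul_mem_mul (X_mem_maximal p n i) (ih _ ?_)
      intro e
      rcases coeff_cofS_eq Finset.univ x i e with h | h
      · rw [h]; exact Ideal.zero_mem _
      · rw [h]
        have := hx (e + Finsupp.single i 1)
        have hdeg : (e + Finsupp.single i 1).degree = e.degree + 1 := by
          rw [map_add]; simp
        rw [hdeg] at this
        have h2 : N + 1 - (e.degree + 1) = N - e.degree := by omega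
        rwa [h2] at this
    · have hr : restrS Finset.univ x = MvPowerSeries.C (MvPowerSeries.coeff 0 x) := by
        ext d
        rw [coeff_restrS, MvPowerSeries.coeff_C]
        by_cases hd : d = 0
        · subst hd; simp
        · rw [if_neg hd, if_neg]
          intro hall
          exact hd (Finsupp.ext fun i => by simpa using hall i (Finset.mem_univ i))
      rw [hr]
      have h0 := hx 0
      simp only [map_zero, tsub_zero, Ideal.span_singleton_pow, Ideal.mem_span_singleton] at h0
      obtain ⟨c, hc⟩ := h0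
      rw [hc, map_mul, map_pow, ← natCast_p_eq_C, ← mul_one (MvPowerSeries.C c), mul_comm]
      simp only [mul_assoc]
      have : ((p : E) ^ (N + 1)) ∈ IsLocalRing.maximalIdeal E ^ (N + 1) :=
        Ideal.pow_mem_pow (natCast_p_mem_maximal p n) _
      have h3 := Ideal.mul_mem_left _ (MvPowerSeries.C c * 1 : E) this
      convert h3 using 1
      ring

theorem adicComplete_maximal : IsAdicComplete (IsLocalRing.maximalIdeal E) E := by
  have hne : IsLocalRing.maximalIdeal E ≠ ⊤ := Ideal.IsPrime.ne_top inferInstance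
  haveI hH : IsHausdorff (IsLocalRing.maximalIdeal E) E := by
    refine ⟨fun x hx => ?_⟩
    have hb := Ideal.iInf_pow_eq_bot_of_isLocalRing (IsLocalRing.maximalIdeal E) hne
    have : x ∈ ⨅ i, IsLocalRing.maximalIdeal E ^ i := by
      rw [Ideal.mem_iInf]
      intro i
      have := (hx i)
      simpa [SModEq.zero] using this
    rw [hb] at this
    simpa using this
  haveI hP : IsPrecomplete (IsLocalRing.maximalIdeal E) E := by
    refine ⟨fun f hf => ?_⟩
    have hW := (inferInstance : IsAdicComplete (Ideal.span {(p : W)}) W).toIsPrecomplete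
    have hex : ∀ d : Fin (n - 1) →₀ ℕ, ∃ L : W, ∀ N : ℕ,
        MvPowerSeries.coeff d (f (N + d.degree)) - L ∈ Ideal.span {(p : W)} ^ N := by
      intro d
      obtain ⟨L, hL⟩ := hW.prec' (fun N => MvPowerSeries.coeff d (f (N + d.degree))) (by
        intro a b hab
        have h1 := hf (m := a + d.degree) (n := b + d.degree) (by omega)
        rw [SModEq.sub_mem] at h1 ⊢
        simp only [smul_eq_mul, Ideal.mul_top] at h1 ⊢
        have h2 := coeff_mem_of_mem_maximal_pow p n _ _ h1 d
        rw [map_sub] at h2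
        have h3 : a + d.degree - d.degree = a := by omega
        rwa [h3] at h2)
      refine ⟨L, fun N => ?_⟩
      have := hL N
      rw [SModEq.sub_mem] at this
      simpa only [smul_eq_mul, Ideal.mul_top] using this
    choose L hL using hex
    obtain ⟨y, hy⟩ : ∃ y : E, ∀ d, MvPowerSeries.coeff d y = L d := ⟨L, fun d => rfl⟩
    refine ⟨y, fun m => ?_⟩
    rw [SModEq.sub_mem]
    simp only [smul_eq_mul, Ideal.mul_top]
    refine mem_maximal_pow_of_coeff p n m _ fun d => ?_
    by_cases hdm : d.degree ≤ m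
    · have := hL d (m - d.degree)
      have h2 : m - d.degree + d.degree = m := by omega
      rw [h2] at this
      rwa [map_sub, hy]
    · have h0 : m - d.degree = 0 := by omega
      rw [h0]; simp
  exact ⟨⟩

/-- The parameter `u_i`, `1 ≤ i ≤ n-1` (junk `0` otherwise). -/
def uu (i : ℕ) : E :=
  if h : 1 ≤ i ∧ i < n then MvPowerSeries.X (⟨i - 1, by omega⟩ : Fin (n - 1)) else 0

/-- `J_0 = 0`; `J_h = (p, u₁, …, u_{h-1})` for `h ≥ 1`. -/
def JJ : ℕ → Ideal E
  | 0 => ⊥
  | h + 1 => Ideal.span ({(p : E)} ∪ (uu p n '' Set.Icc 1 h))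

theorem uu_eq_X (j : Fin (n - 1)) : uu p n ((j : ℕ) + 1) = MvPowerSeries.X j := by
  have h : 1 ≤ (j : ℕ) + 1 ∧ (j : ℕ) + 1 < n := by
    have := j.2; omega
  rw [uu, dif_pos h]
  congr 1

theorem uu_of_not (i : ℕ) (h : ¬ (1 ≤ i ∧ i < n)) : uu p n i = 0 := by
  rw [uu, dif_neg h]

theorem uu_mem_maximal (i : ℕ) : uu p n i ∈ IsLocalRing.maximalIdeal E := by
  by_cases h : 1 ≤ i ∧ i < n
  · rw [uu, dif_pos h]; exact X_mem_maximal p n _
  · rw [uu_of_not p n i h]; exact Ideal.zero_mem _

theorem natCast_p_mem_JJ (h : ℕ) : (p : E) ∈ JJ p n (h + 1) :=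
  Ideal.subset_span (Or.inl rfl)

theorem uu_mem_JJ (h i : ℕ) (h1 : 1 ≤ i) (h2 : i ≤ h) : uu p n i ∈ JJ p n (h + 1) :=
  Ideal.subset_span (Or.inr ⟨i, ⟨h1, h2⟩, rfl⟩)

theorem JJ_mono : Monotone (JJ p n) := by
  refine monotone_nat_of_le_succ fun h => ?_
  cases h with
  | zero => exact bot_le
  | succ h =>
    apply Ideal.span_mono
    apply Set.union_subset_union_right
    apply Set.image_mono
    exact Set.Icc_subset_Icc_right (Nat.le_succ h)

/-- A power series whose monomials avoiding the variables `u_1..u_h` have coefficients divisible by `p`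
lies in `J_{h+1}`. -/
theorem mem_JJ_of_coeff (h : ℕ) (x : E)
    (hx : ∀ d : Fin (n - 1) →₀ ℕ, (∀ j : Fin (n - 1), (j : ℕ) + 1 ≤ h → d j = 0) →
      MvPowerSeries.coeff d x ∈ Ideal.span {(p : W)}) : x ∈ JJ p n (h + 1) := by
  classical
  set S : Finset (Fin (n - 1)) := Finset.univ.filter (fun j => (j : ℕ) + 1 ≤ h) with hS
  rw [decomp_eq S x]
  refine Ideal.add_mem _ (Ideal.sum_mem _ ?_) ?_
  · intro i hi
    refine Ideal.mul_mem_right _ _ ?_
    rw [← uu_eq_X]
    exact uu_mem_JJ p n h _ (by omega) (Finset.mem_filter.1 hi).2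
  · have hdvd : ∀ d : Fin (n - 1) →₀ ℕ, ∃ c : W,
        MvPowerSeries.coeff d (restrS S x) = (p : W) * c := by
      intro d
      rw [coeff_restrS]
      split_ifs with hd
      · have := hx d (fun j hj => hd j (Finset.mem_filter.2 ⟨Finset.mem_univ _, hj⟩))
        exact Ideal.mem_span_singleton'.1 this |>.imp fun c hc => by rw [← hc, mul_comm]
      · exact ⟨0, by simp⟩
    choose c hc using hdvd
    obtain ⟨y, hy⟩ : ∃ y : E, ∀ d, MvPowerSeries.coeff d y = c d := ⟨c, fun d => rfl⟩
    have : restrS S x = (p : E) * y := by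
      ext d
      rw [hc d, natCast_p_eq_C, MvPowerSeries.coeff_C_mul, hy]
    rw [this]
    exact Ideal.mul_mem_right _ _ (natCast_p_mem_JJ p n h)

/-- `J_n` is the maximal ideal (for `n ≥ 1`). -/
theorem JJ_n (hn : 1 ≤ n) : JJ p n n = IsLocalRing.maximalIdeal E := by
  obtain ⟨m, rfl⟩ : ∃ m, n = m + 1 := ⟨n - 1, by omega⟩
  apply le_antisymm
  · refine Ideal.span_le.2 ?_
    rintro x (rfl | ⟨i, _, rfl⟩)
    · exact natCast_p_mem_maximal p (m + 1)
    · exact uu_mem_maximal p (m + 1) i
  · intro x hx
    refine mem_JJ_of_coeff p (m + 1) m x fun d hd => ?_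
    have hd0 : d = 0 := by
      ext j
      have hj := j.2
      simpa using hd j (by omega)
    subst hd0
    exact (mem_maximal_iff p (m + 1) x).1 hx

/-- The embedding `T_j ↦ u_{h+j}` of the variables, `h ≥ 1`. -/
def stratEmb (h : ℕ) (h1 : 1 ≤ h) : Fin (n - h) ↪ Fin (n - 1) where
  toFun j := ⟨h + j - 1, by have := j.2; omega⟩
  inj' := by
    intro a b hab
    have := congrArg Fin.val hab
    simp only at this
    ext; omega

/-- The specialisation `E₀ → k[[T_0..T_{n-h-1}]]`, `p ↦ 0`, `u_i ↦ 0` for `i<h`,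
`u_{h+j} ↦ T_j`, for `1 ≤ h ≤ n`. Use `MvPowerSeries.map` and `subst`. -/
def stratumHom (h : ℕ) : E →+* MvPowerSeries (Fin (n - h)) k :=
  if h1 : 1 ≤ h then
    ((MvPowerSeries.killCompl (R := k) (stratEmb n h h1)).toRingHom).comp
      (MvPowerSeries.map (WittVector.constantCoeff : W →+* k))
  else MvPowerSeries.C.comp (LTRing.residue p n)

theorem coeff_stratumHom (h : ℕ) (h1 : 1 ≤ h) (f : E) (e : Fin (n - h) →₀ ℕ) :
    MvPowerSeries.coeff e (stratumHom p n h f) =
      WittVector.constantCoeff (MvPowerSeries.coeff (Finsupp.embDomain (stratEmb n h h1) e) f) := by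
  rw [stratumHom, dif_pos h1]
  simp [MvPowerSeries.coeff_killCompl]

theorem stratumHom_natCast_p (h : ℕ) : stratumHom p n h (p : E) = 0 := by
  rw [map_natCast]
  have : (p : MvPowerSeries (Fin (n - h)) k) = MvPowerSeries.C (p : k) := (map_natCast _ p).symm
  rw [this, CharP.cast_eq_zero, map_zero]

theorem stratumHom_C (h : ℕ) (w : W) :
    stratumHom p n h (MvPowerSeries.C w) = MvPowerSeries.C (WittVector.constantCoeff w) := by
  by_cases h1 : 1 ≤ h
  · rw [stratumHom, dif_pos h1]
    simp
  · rw [stratumHom, dif_neg h1]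
    simp [LTRing.residue]

theorem stratumHom_uu_of_lt (h : ℕ) (h1 : 1 ≤ h) (i : ℕ) (hi : i < h) : stratumHom p n h (uu p n i) = 0 := by
  by_cases hc : 1 ≤ i ∧ i < n
  · rw [uu, dif_pos hc, stratumHom, dif_pos h1]
    simp only [RingHom.coe_comp, Function.comp_apply, MvPowerSeries.map_X]
    refine MvPowerSeries.killCompl_X_eq_zero ?_
    rintro ⟨j, hj⟩
    have := congrArg Fin.val hj
    simp [stratEmb] at this
    omega
  · rw [uu_of_not p n i hc, map_zero]

theorem stratumHom_uu (h : ℕ) (h1 : 1 ≤ h) (j : Fin (n - h)) :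
    stratumHom p n h (uu p n (h + j)) = MvPowerSeries.X j := by
  have hj := j.2
  have hc : 1 ≤ h + (j : ℕ) ∧ h + (j : ℕ) < n := by omega
  rw [uu, dif_pos hc, stratumHom, dif_pos h1]
  simp only [RingHom.coe_comp, Function.comp_apply, MvPowerSeries.map_X]
  have : (⟨h + (j : ℕ) - 1, by omega⟩ : Fin (n - 1)) = stratEmb n h h1 j := rfl
  rw [this]
  exact MvPowerSeries.killCompl_X _

/-- The kernel of `stratumHom` is `J_h`. -/
theorem ker_stratumHom (h : ℕ) (h1 : 1 ≤ h) (hn : h ≤ n) :
    RingHom.ker (stratumHom p n h) = JJ p n h := by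
  obtain ⟨m, rfl⟩ : ∃ m, h = m + 1 := ⟨h - 1, by omega⟩
  apply le_antisymm
  · intro x hx
    refine mem_JJ_of_coeff p n m x fun d hd => ?_
    have hr : d ∈ Set.range (Finsupp.embDomain (stratEmb n (m + 1) h1)) := by
      rw [Finsupp.mem_range_embDomain_iff]
      intro j hj
      have hj0 : d j ≠ 0 := by simpa using hj
      have hm : ¬ ((j : ℕ) + 1 ≤ m) := fun hc => hj0 (hd j hc)
      have hlt := j.2
      refine ⟨⟨(j : ℕ) - m, by omega⟩, ?_⟩
      ext
      simp only [stratEmb, Function.Embedding.coeFn_mk]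
      omega
    obtain ⟨e, rfl⟩ := hr
    have h0 : MvPowerSeries.coeff e (stratumHom p n (m + 1) x) = 0 := by
      rw [RingHom.mem_ker.1 hx, map_zero]
    rw [coeff_stratumHom p n (m + 1) h1] at h0
    rw [← WittVector.ker_constantCoeff, RingHom.mem_ker]
    exact h0
  · refine Ideal.span_le.2 ?_
    rintro x (rfl | ⟨i, hi, rfl⟩)
    · exact stratumHom_natCast_p p n (m + 1)
    · exact stratumHom_uu_of_lt p n (m + 1) h1 i (by have := hi.2; omega)

theorem JJ_prime (h : ℕ) (hn : h ≤ n) (hn1 : 1 ≤ n) : (JJ p n h).IsPrime := by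
  cases h with
  | zero => exact Ideal.isPrime_bot
  | succ h =>
    rw [← ker_stratumHom p n (h + 1) (by omega) hn]
    haveI : IsDomain (MvPowerSeries (Fin (n - (h + 1))) k) := NoZeroDivisors.to_isDomain _
    exact RingHom.ker_isPrime _

/-- A ring map out of `E₀`: `x ∈ 𝔪^N` maps into `r^N`-ball when all of `p, u_i` map into the
`r`-ball: continuity of ring maps into ultrametric fields. -/
theorem norm_le_of_mem_maximal_pow {C : Type} [NormedField C] [IsUltrametricDist C]
    (z : E →+* OC C) (r : ℝ) (hr0 : 0 ≤ r) (hr : ∀ x ∈ IsLocalRing.maximalIdeal E, ‖((z x : OC C) : C)‖ ≤ r)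
    (N : ℕ) (x : E) (hx : x ∈ (IsLocalRing.maximalIdeal E) ^ N) : ‖((z x : OC C) : C)‖ ≤ r ^ N := by
  induction N generalizing x with
  | zero => rw [pow_zero]; exact (z x).2
  | succ N ih =>
    rw [pow_succ] at hx
    refine Submodule.mul_induction_on hx ?_ ?_
    · intro a ha b hb
      rw [map_mul, Subring.coe_mul, norm_mul, pow_succ]
      exact mul_le_mul (ih a ha) (hr b hb) (norm_nonneg _) (pow_nonneg hr0 _)
    · intro a b ha hb
      rw [map_add, Subring.coe_add]
      exact (IsUltrametricDist.norm_add_le_max _ _).trans (max_le ha hb)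

/-! ### Hazewinkel's law over `E₀` -/

/-- Parameters: `v_i = u_i` for `1 ≤ i < n`, `v_n = 1`, `v_i = 0` for `i>n` (`X i ↦ v_{i+1}`). -/
def vE : ℕ → E := fun i => if i + 1 = n then 1 else uu p n (i + 1)

/-- Hazewinkel's deformation. -/
def HH : FormalGroup E := hzv p (vE p n)

instance : (HH p n).IsComm := by unfold HH; infer_instance

/-- The reduction of `HH`: Honda's law over `k`. -/
def Gam0 : FormalGroup k := hzv p (eParam n : ℕ → k)

instance : (Gam0 p n).IsComm := by unfold Gam0; infer_instance

theorem HH_residue (hn : 1 ≤ n) : (HH p n).map (LTRing.residue p n) = Gam0 p n := by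
  unfold HH Gam0
  rw [hzv_map]
  congr 1
  funext i
  simp only [vE, eParam]
  split_ifs with hi
  · simp
  · have h0 : LTRing.residue p n (uu p n (i + 1)) = 0 := by
      have := uu_mem_maximal p n (i + 1)
      rwa [← ker_residue, RingHom.mem_ker] at this
    exact h0

theorem Gam0_pSeries (hn : 1 ≤ n) : mulSeries (Gam0 p n) p = PowerSeries.X ^ (p ^ n) :=
  hzv_eParam_pSeries p n hn


/-! ### The height ideals of `HH` -/

section Tokens

variable {R : Type*} [CommRing R]

/-- A token sum in which all tokens of exponent `< p^h` vanish. -/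
theorem tokenSum_coeff_aux (F : FormalGroup R) [F.IsComm] (w : ℕ → R) (h : ℕ) (hh : 1 ≤ h)
    (hw : ∀ i, i + 1 < h → w i = 0) (N : ℕ) :
    (PowerSeries.X ^ (p ^ h) : PowerSeries R) ∣
      ((∑ i ∈ Finset.range N, tokenPt F (w i) (p ^ (i + 1))
        (pow_ne_zero _ (Fact.out : p.Prime).ne_zero) : F.Point Unit).val) ∧
    PowerSeries.coeff (p ^ h) ((∑ i ∈ Finset.range N, tokenPt F (w i) (p ^ (i + 1))
        (pow_ne_zero _ (Fact.out : p.Prime).ne_zero) : F.Point Unit).val : PowerSeries R) =
      if h - 1 < N then w (h - 1) else 0 := by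
  have hp : 1 < p := (Fact.out : p.Prime).one_lt
  have hpos : 1 ≤ p ^ h := Nat.one_le_pow _ _ (by omega)
  induction N with
  | zero =>
    simp [FormalGroup.zero_apply]
  | succ N ih =>
    rw [Finset.sum_range_succ]
    have htok : (tokenPt F (w N) (p ^ (N + 1)) (pow_ne_zero _ (Fact.out : p.Prime).ne_zero)).val =
        (PowerSeries.C (w N) * PowerSeries.X ^ (p ^ (N + 1)) : PowerSeries R) := rfl
    have hdvd : (PowerSeries.X ^ (p ^ h) : PowerSeries R) ∣
        (tokenPt F (w N) (p ^ (N + 1)) (pow_ne_zero _ (Fact.out : p.Prime).ne_zero)).val := by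
      rw [htok]
      by_cases hN : N + 1 < h
      · rw [hw N hN]; simp
      · exact Dvd.dvd.mul_left (pow_dvd_pow _ (Nat.pow_le_pow_right (by omega) (by omega))) _
    obtain ⟨h1, h2⟩ := point_add_coeff F _ _ (p ^ h) hpos ih.1 hdvd
    refine ⟨h1, ?_⟩
    rw [h2, ih.2, htok, PowerSeries.coeff_C_mul_X_pow]
    by_cases hlt : h - 1 < N
    · have hne : p ^ h ≠ p ^ (N + 1) := by
        intro hc
        have := Nat.pow_right_injective (by omega : 2 ≤ p) hc
        omega
      rw [if_pos hlt, if_neg hne, if_pos (by omega), add_zero]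
    · rw [if_neg hlt, zero_add]
      by_cases hN : N = h - 1
      · subst hN
        rw [if_pos (by congr 2; omega), if_pos (by omega)]
      · have hne : p ^ h ≠ p ^ (N + 1) := by
          intro hc
          have := Nat.pow_right_injective (by omega : 2 ≤ p) hc
          omega
        rw [if_neg hne, if_neg (by omega)]

end Tokens

/-- Modulo `J_h`, `1 ≤ h < n`, the coefficient of `X^(p^h)` in `[p]_HH` is `u_h`. -/
theorem coeff_pSeries_HH_sub_mem (hn : 1 ≤ n) (h : ℕ) (h1 : 1 ≤ h) (hh : h < n) :
    PowerSeries.coeff (p ^ h) (mulSeries (HH p n) p) - uu p n h ∈ JJ p n h := by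
  obtain ⟨m, rfl⟩ : ∃ m, h = m + 1 := ⟨h - 1, by omega⟩
  have hprime : (JJ p n (m + 1)).IsPrime := JJ_prime p n (m + 1) hh.le hn
  set π := Ideal.Quotient.mk (JJ p n (m + 1)) with hπ
  letI : Nontrivial (E ⧸ JJ p n (m + 1)) := Ideal.Quotient.nontrivial_iff.2 hprime.ne_top
  have hp0 : ((p : ℕ) : E ⧸ JJ p n (m + 1)) = 0 := by
    rw [← map_natCast π, Ideal.Quotient.eq_zero_iff_mem]
    exact natCast_p_mem_JJ p n m
  haveI hchar : CharP (E ⧸ JJ p n (m + 1)) p :=
    ringChar.of_eq (CharP.ringChar_of_prime_eq_zero (Fact.out : p.Prime) hp0)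
  set w : ℕ → E ⧸ JJ p n (m + 1) := fun i => π (vE p n i) with hw
  have hmap : (HH p n).map π = hzv p w := by
    unfold HH
    rw [hzv_map]
  have hw0 : ∀ i, n ≤ i → w i = 0 := by
    intro i hi
    have h1 : vE p n i = 0 := by
      simp only [vE]
      rw [if_neg (by omega), uu_of_not p n _ (by omega)]
    simp [hw, h1]
  have hw1 : ∀ i, i + 1 < m + 1 → w i = 0 := by
    intro i hi
    have h1 : vE p n i = uu p n (i + 1) := by
      simp only [vE]
      rw [if_neg (by omega)]
    simp only [hw, h1]
    exact Ideal.Quotient.eq_zero_iff_mem.2 (uu_mem_JJ p n m (i + 1) (by omega) (by omega))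
  have hser := hzv_pSeries_charP p w n hw0
  have haux := (tokenSum_coeff_aux p (hzv p w) w (m + 1) (by omega) hw1 n).2
  rw [← hser, if_pos (by omega)] at haux
  have hcoeff : π (PowerSeries.coeff (p ^ (m + 1)) (mulSeries (HH p n) p)) =
      PowerSeries.coeff (p ^ (m + 1)) (mulSeries (hzv p w) p) := by
    rw [← hmap, mulSeries_map, PowerSeries.coeff_map]
  rw [← Ideal.Quotient.eq_zero_iff_mem, map_sub, sub_eq_zero, hcoeff, haux]
  simp only [hw, Nat.add_sub_cancel]
  simp only [vE]
  rw [if_neg (by omega)]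

/-- `I_h(HH) = J_h`. Modulo `J_h`, `[p]_HH = ∑^HH_{i≥h} v_i X^(p^i)` whose lowest term is `u_h X^(p^h)`. -/
theorem htIdeal_HH (hn : 1 ≤ n) (h : ℕ) (hh : h ≤ n) : htIdeal p (HH p n) h = JJ p n h := by
  induction h with
  | zero => rfl
  | succ h ih =>
    have ih' := ih (by omega)
    rw [htIdeal, ih']
    cases h with
    | zero =>
      have hc : PowerSeries.coeff (p ^ 0) (mulSeries (HH p n) p) = (p : E) := by
        rw [pow_zero, coeff_one_mulSeries]
      rw [hc]
      show ⊥ ⊔ Ideal.span {(p : E)} = Ideal.span ({(p : E)} ∪ (uu p n '' Set.Icc 1 0))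
      simp
    | succ m =>
      have hkey := coeff_pSeries_HH_sub_mem p n hn (m + 1) (by omega) (by omega)
      have hsplit : JJ p n (m + 1 + 1) = JJ p n (m + 1) ⊔ Ideal.span {uu p n (m + 1)} := by
        apply le_antisymm
        · refine Ideal.span_le.2 ?_
          rintro x (rfl | ⟨i, hi, rfl⟩)
          · exact Ideal.mem_sup_left (natCast_p_mem_JJ p n m)
          · by_cases him : i = m + 1
            · subst him
              exact Ideal.mem_sup_right (Ideal.mem_span_singleton_self _)
            · exact Ideal.mem_sup_left (uu_mem_JJ p n m i hi.1 (by have := hi.2; omega))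
        · refine sup_le (JJ_mono p n (by omega)) ?_
          rw [Ideal.span_singleton_le_iff_mem]
          exact uu_mem_JJ p n (m + 1) (m + 1) (by omega) le_rfl
      rw [hsplit]
      set c := PowerSeries.coeff (p ^ (m + 1)) (mulSeries (HH p n) p) with hc
      apply le_antisymm
      · refine sup_le le_sup_left ?_
        rw [Ideal.span_singleton_le_iff_mem]
        have : c = (c - uu p n (m + 1)) + uu p n (m + 1) := by ring
        rw [this]
        exact Ideal.add_mem _ (Ideal.mem_sup_left hkey)
          (Ideal.mem_sup_right (Ideal.mem_span_singleton_self _))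
      · refine sup_le le_sup_left ?_
        rw [Ideal.span_singleton_le_iff_mem]
        have : uu p n (m + 1) = c - (c - uu p n (m + 1)) := by ring
        rw [this]
        exact Ideal.sub_mem _ (Ideal.mem_sup_right (Ideal.mem_span_singleton_self _))
          (Ideal.mem_sup_left hkey)

end

end Crest.Agent.LT
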