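/-
S0351 package TAYLOR: re-expansion of a power series over `𝒪_C` at a point of the open polydisc;
partial derivatives; the identity theorem on the polydisc; evaluation of ring maps out of `E₀`.
See BLUEPRINT.md §T.  (Proved by helper32; statements verbatim from the skeleton.)
-/
import Crest.Agent.LT.Eval
import Crest.Agent.LT.E0

set_option autoImplicit false

open Crest.LubinTate
open Finset.HasAntidiagonal

namespace Crest.Agent.LT

noncomputable section

variable {C : Type} [NontriviallyNormedField C] [IsUltrametricDist C] [CompleteSpace C]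

def mvDeriv {σ R : Type*} [CommRing R] [DecidableEq σ] (i : σ) (f : MvPowerSeries σ R) :
    MvPowerSeries σ R :=
  fun d => ((d i + 1 : ℕ) : R) * MvPowerSeries.coeff (d + Finsupp.single i 1) f

theorem coeff_mvDeriv {σ R : Type*} [CommRing R] [DecidableEq σ] (i : σ) (f : MvPowerSeries σ R)
    (d : σ →₀ ℕ) : MvPowerSeries.coeff d (mvDeriv i f) =
      ((d i + 1 : ℕ) : R) * MvPowerSeries.coeff (d + Finsupp.single i 1) f := rfl

/-- Shift of the antidiagonal. -/
theorem sum_antidiagonal_shift {σ R : Type*} [CommRing R] [DecidableEq σ] (i : σ) (d : σ →₀ ℕ)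
    (G : (σ →₀ ℕ) → (σ →₀ ℕ) → R) :
    ∑ p ∈ antidiagonal (d + Finsupp.single i 1),
        (((p : (σ →₀ ℕ) × (σ →₀ ℕ)).1 i : ℕ) : R) * G p.1 p.2 =
      ∑ q ∈ antidiagonal d, (((q : (σ →₀ ℕ) × (σ →₀ ℕ)).1 i + 1 : ℕ) : R) *
        G (q.1 + Finsupp.single i 1) q.2 := by
  classical
  set E : σ →₀ ℕ := Finsupp.single i 1 with hE
  have key : ∑ p ∈ antidiagonal (d + E), (((p : (σ →₀ ℕ) × (σ →₀ ℕ)).1 i : ℕ) : R) * G p.1 p.2 =
      ∑ p ∈ (antidiagonal (d + E)).filter (fun p : (σ →₀ ℕ) × (σ →₀ ℕ) => 1 ≤ p.1 i),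
        (((p : (σ →₀ ℕ) × (σ →₀ ℕ)).1 i : ℕ) : R) * G p.1 p.2 := by
    symm
    apply Finset.sum_filter_of_ne
    intro p _ hne
    by_contra h
    apply hne
    have h0 : p.1 i = 0 := by omega
    simp [h0]
  rw [key]
  have hsub : ∀ a : σ →₀ ℕ, 1 ≤ a i → a - E + E = a := by
    intro a h1
    ext j
    by_cases hj : j = i
    · subst hj; simp [hE]; omega
    · simp [hE, Ne.symm hj]
  refine Finset.sum_nbij' (fun p => (p.1 - E, p.2)) (fun q => (q.1 + E, q.2)) ?_ ?_ ?_ ?_ ?_
  · intro p hp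
    simp only [Finset.mem_filter, mem_antidiagonal] at hp
    simp only [mem_antidiagonal]
    apply add_right_cancel (b := E)
    rw [add_right_comm, hsub _ hp.2, hp.1]
  · intro q hq
    simp only [mem_antidiagonal] at hq
    simp only [Finset.mem_filter, mem_antidiagonal]
    refine ⟨by rw [add_right_comm, hq], by simp [hE]⟩
  · intro p hp
    simp only [Finset.mem_filter, mem_antidiagonal] at hp
    exact Prod.ext (hsub _ hp.2) rfl
  · intro q _
    exact Prod.ext (by simp) rfl
  · intro p hp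
    simp only [Finset.mem_filter, mem_antidiagonal] at hp
    have h2 := hsub _ hp.2
    have h3 : (p.1 - E) i + 1 = p.1 i := by
      have := congrArg (fun x : σ →₀ ℕ => x i) h2
      simpa [hE] using this
    simp only [h3, h2]

/-- Shift in the second component. -/
theorem sum_antidiagonal_shift' {σ R : Type*} [CommRing R] [DecidableEq σ] (i : σ) (d : σ →₀ ℕ)
    (G : (σ →₀ ℕ) → (σ →₀ ℕ) → R) :
    ∑ p ∈ antidiagonal (d + Finsupp.single i 1),
        (((p : (σ →₀ ℕ) × (σ →₀ ℕ)).2 i : ℕ) : R) * G p.1 p.2 =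
      ∑ q ∈ antidiagonal d, (((q : (σ →₀ ℕ) × (σ →₀ ℕ)).2 i + 1 : ℕ) : R) *
        G q.1 (q.2 + Finsupp.single i 1) := by
  classical
  have h := sum_antidiagonal_shift i d (fun a b => G b a)
  have s1 : ∀ (n : σ →₀ ℕ) (F : (σ →₀ ℕ) × (σ →₀ ℕ) → R),
      ∑ p ∈ antidiagonal n, F p.swap = ∑ p ∈ antidiagonal n, F p := by
    intro n F
    conv_lhs => rw [← map_swap_antidiagonal (n := n), Finset.sum_map]
    simp
  rw [← s1 (d + Finsupp.single i 1), ← s1 d]
  simpa using h

/-- Leibniz rule. -/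
theorem mvDeriv_mul {σ R : Type*} [CommRing R] [DecidableEq σ] (i : σ) (f g : MvPowerSeries σ R) :
    mvDeriv i (f * g) = mvDeriv i f * g + f * mvDeriv i g := by
  classical
  ext d
  rw [coeff_mvDeriv, map_add, MvPowerSeries.coeff_mul, MvPowerSeries.coeff_mul,
    MvPowerSeries.coeff_mul]
  simp only [coeff_mvDeriv]
  have h1 := sum_antidiagonal_shift i d
    (fun a b => MvPowerSeries.coeff a f * MvPowerSeries.coeff b g)
  have h2 := sum_antidiagonal_shift' i d
    (fun a b => MvPowerSeries.coeff a f * MvPowerSeries.coeff b g)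
  have h3 : ∑ q ∈ antidiagonal d,
      (((q : (σ →₀ ℕ) × (σ →₀ ℕ)).1 i + 1 : ℕ) : R) * MvPowerSeries.coeff (q.1 + Finsupp.single i 1) f
        * MvPowerSeries.coeff q.2 g
      = ∑ q ∈ antidiagonal d,
        (((q : (σ →₀ ℕ) × (σ →₀ ℕ)).1 i + 1 : ℕ) : R) *
          (MvPowerSeries.coeff (q.1 + Finsupp.single i 1) f * MvPowerSeries.coeff q.2 g) :=
    Finset.sum_congr rfl (fun _ _ => mul_assoc _ _ _)
  have h4 : ∑ q ∈ antidiagonal d,
      MvPowerSeries.coeff q.1 f * ((((q : (σ →₀ ℕ) × (σ →₀ ℕ)).2 i + 1 : ℕ) : R) *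
        MvPowerSeries.coeff (q.2 + Finsupp.single i 1) g)
      = ∑ q ∈ antidiagonal d,
        (((q : (σ →₀ ℕ) × (σ →₀ ℕ)).2 i + 1 : ℕ) : R) *
          (MvPowerSeries.coeff q.1 f * MvPowerSeries.coeff (q.2 + Finsupp.single i 1) g) :=
    Finset.sum_congr rfl (fun _ _ => mul_left_comm _ _ _)
  rw [h3, h4, ← h1, ← h2, ← Finset.sum_add_distrib, Finset.mul_sum]
  apply Finset.sum_congr rfl
  intro p hp
  have hp' : p.1 + p.2 = d + Finsupp.single i 1 := mem_antidiagonal.mp hp
  have h5 : p.1 i + p.2 i = d i + 1 := by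
    have := congrArg (fun x : σ →₀ ℕ => x i) hp'
    simpa using this
  rw [← add_mul, ← Nat.cast_add, h5]


variable {σ : Type} [Fintype σ] [DecidableEq σ]

/-- Multi-index power (the form used in `evMv`). -/
abbrev mp (a : σ → C) (d : σ →₀ ℕ) : C := d.prod (fun i e => a i ^ e)

theorem mp_eq_prod (a : σ → C) (d : σ →₀ ℕ) : mp a d = ∏ i, a i ^ d i :=
  Finsupp.prod_fintype d _ (fun _ => pow_zero _)

theorem norm_mp_le {a : σ → C} {r : ℝ} (hr0 : 0 ≤ r) (ha : ∀ i, ‖a i‖ ≤ r) (d : σ →₀ ℕ) :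
    ‖mp a d‖ ≤ r ^ d.degree := by
  rw [mp_eq_prod, norm_prod, Finsupp.degree_eq_sum, ← Finset.prod_pow_eq_pow_sum]
  apply Finset.prod_le_prod (fun _ _ => norm_nonneg _)
  intro i _
  rw [norm_pow]
  exact pow_le_pow_left₀ (norm_nonneg _) (ha i) _

/-- A uniform bound below `1` on a finite family. -/
theorem exists_bound_lt_one {ι : Type*} [Finite ι] (u : ι → ℝ) (hu : ∀ i, u i < 1) :
    ∃ r : ℝ, 0 ≤ r ∧ r < 1 ∧ ∀ i, u i ≤ r := by
  classical
  cases nonempty_fintype ι
  have hne : (insert (0 : ℝ) (Finset.univ.image u)).Nonempty := Finset.insert_nonempty _ _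
  refine ⟨(insert (0 : ℝ) (Finset.univ.image u)).max' hne, ?_, ?_, ?_⟩
  · exact Finset.le_max' _ _ (Finset.mem_insert_self _ _)
  · have hm := Finset.max'_mem _ hne
    rcases Finset.mem_insert.mp hm with h | h
    · rw [h]; norm_num
    · obtain ⟨i, _, hi⟩ := Finset.mem_image.mp h
      rw [← hi]; exact hu i
  · intro i
    exact Finset.le_max' _ _ (Finset.mem_insert_of_mem (Finset.mem_image_of_mem _ (Finset.mem_univ _)))

/-- Summability from a bound `r ^ deg` with finite fibres. -/
theorem summable_of_bound {α : Type*} (g : α → C) (deg : α → ℕ)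
    (hfin : ∀ N, {x | deg x ≤ N}.Finite) {r : ℝ} (hr0 : 0 ≤ r) (hr1 : r < 1)
    (hg : ∀ x, ‖g x‖ ≤ r ^ deg x) : Summable g := by
  apply NonarchimedeanAddGroup.summable_of_tendsto_cofinite_zero
  rw [tendsto_zero_iff_norm_tendsto_zero]
  have h1 : Filter.Tendsto deg Filter.cofinite Filter.atTop := by
    rw [Filter.tendsto_atTop]
    intro N
    have := (hfin N).compl_mem_cofinite
    filter_upwards [this, (hfin N).compl_mem_cofinite] with x hx _
    simp only [Set.mem_compl_iff, Set.mem_setOf_eq, not_le] at hx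
    omega
  have h2 : Filter.Tendsto (fun x => r ^ deg x) Filter.cofinite (nhds 0) :=
    (tendsto_pow_atTop_nhds_zero_of_lt_one hr0 hr1).comp h1
  exact squeeze_zero (fun _ => norm_nonneg _) hg h2

/-- The multi-index binomial coefficient `C(β+e, β)`. -/
def mbinom (β e : σ →₀ ℕ) : ℕ := ∏ i, Nat.choose (β i + e i) (β i)

/-- The multi-binomial theorem. -/
theorem mp_add (c a : σ → C) (d : σ →₀ ℕ) :
    mp (c + a) d = ∑ p ∈ antidiagonal d,
      (mbinom (p : (σ →₀ ℕ) × (σ →₀ ℕ)).1 p.2 : C) * mp c p.2 * mp a p.1 := by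
  classical
  rw [mp_eq_prod]
  have h1 : ∀ i, (c + a) i ^ d i = ∑ k ∈ antidiagonal (d i),
      ((Nat.choose ((k : ℕ × ℕ).1 + k.2) k.1 : ℕ) : C) * (c i ^ k.2 * a i ^ k.1) := by
    intro i
    rw [Pi.add_apply, add_comm, (Commute.all (a i) (c i)).add_pow']
    apply Finset.sum_congr rfl
    intro k hk
    have hk' : k.1 + k.2 = d i := mem_antidiagonal.mp hk
    rw [hk', nsmul_eq_mul, mul_comm (a i ^ k.1)]
  simp_rw [h1]
  rw [Finset.prod_univ_sum]
  refine Finset.sum_nbij' (fun x => (Finsupp.equivFunOnFinite.symm (fun i => (x i).1),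
      Finsupp.equivFunOnFinite.symm (fun i => (x i).2)))
    (fun p => fun i => ((p.1 i, p.2 i) : ℕ × ℕ)) ?_ ?_ ?_ ?_ ?_
  · intro x hx
    simp only [Fintype.mem_piFinset, mem_antidiagonal] at hx
    simp only [mem_antidiagonal]
    ext i
    simpa using hx i
  · intro p hp
    simp only [mem_antidiagonal] at hp
    simp only [Fintype.mem_piFinset, mem_antidiagonal]
    intro i
    have := congrArg (fun y : σ →₀ ℕ => y i) hp
    simpa using this
  · intro x _
    funext i
    simp
  · intro p _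
    apply Prod.ext <;> ext i <;> simp
  · intro x _
    simp only [mbinom, mp_eq_prod, Finsupp.equivFunOnFinite_symm_apply_apply, Nat.cast_prod,
      Finset.prod_mul_distrib]
    ring


/-- The terms of the Taylor re-expansion. -/
def taylorTerm (f : MvPowerSeries σ (OC C)) (c : σ → C) (β e : σ →₀ ℕ) : C :=
  cf f (β + e) * (mbinom β e : C) * mp c e

theorem norm_cf_le_one {τ : Type} (f : MvPowerSeries τ (OC C)) (d : τ →₀ ℕ) : ‖cf f d‖ ≤ 1 :=
  (MvPowerSeries.coeff d f : OC C).2

theorem norm_taylorTerm_le (f : MvPowerSeries σ (OC C)) (c : σ → C) {r : ℝ} (hr0 : 0 ≤ r)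
    (hc : ∀ i, ‖c i‖ ≤ r) (β e : σ →₀ ℕ) : ‖taylorTerm f c β e‖ ≤ r ^ e.degree := by
  unfold taylorTerm
  rw [norm_mul, norm_mul]
  calc ‖cf f (β + e)‖ * ‖(mbinom β e : C)‖ * ‖mp c e‖ ≤ 1 * 1 * r ^ e.degree := by
        gcongr
        · exact norm_cf_le_one f _
        · exact IsUltrametricDist.norm_natCast_le_one C _
        · exact norm_mp_le hr0 hc e
    _ = r ^ e.degree := by ring

theorem summable_taylorTerm (f : MvPowerSeries σ (OC C)) (c : σ → C) (hc : ∀ i, ‖c i‖ < 1)
    (β : σ →₀ ℕ) : Summable (fun e => taylorTerm f c β e) := by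
  obtain ⟨r, hr0, hr1, hr⟩ := exists_bound_lt_one (fun i => ‖c i‖) hc
  exact summable_of_bound _ (fun e : σ →₀ ℕ => e.degree) (Finsupp.finite_of_degree_le)
    hr0 hr1 (fun e => norm_taylorTerm_le f c hr0 hr β e)

/-- **Taylor re-expansion at `c`**: `coeff β (taylorAt f c) = ∑'_{e} coeff (β + e) f · C(β+e, β) · c^e`
(the sum converges since `‖c i‖ < 1`, integral since all factors are integral). -/
def taylorAt (f : MvPowerSeries σ (OC C)) (c : σ → C) (hc : ∀ i, ‖c i‖ < 1) :
    MvPowerSeries σ (OC C) := fun β => ⟨∑' e, taylorTerm f c β e, by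
    obtain ⟨r, hr0, hr1, hr⟩ := exists_bound_lt_one (fun i => ‖c i‖) hc
    refine IsUltrametricDist.norm_tsum_le_of_forall_le_of_nonneg zero_le_one (fun e => ?_)
    exact (norm_taylorTerm_le f c hr0 hr β e).trans (pow_le_one₀ hr0 hr1.le)⟩

theorem cf_taylorAt (f : MvPowerSeries σ (OC C)) (c : σ → C) (hc : ∀ i, ‖c i‖ < 1) (β : σ →₀ ℕ) :
    cf (taylorAt f c hc) β = ∑' e, taylorTerm f c β e := rfl

/-- The double family of the re-expansion. -/
def taylorH (f : MvPowerSeries σ (OC C)) (c a : σ → C) (p : (σ →₀ ℕ) × (σ →₀ ℕ)) : C :=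
  taylorTerm f c p.1 p.2 * mp a p.1

theorem summable_taylorH (f : MvPowerSeries σ (OC C)) (c a : σ → C) (hc : ∀ i, ‖c i‖ < 1)
    (ha : ∀ i, ‖a i‖ < 1) : Summable (taylorH f c a) := by
  obtain ⟨r, hr0, hr1, hr⟩ := exists_bound_lt_one (fun i => max ‖c i‖ ‖a i‖)
    (fun i => max_lt (hc i) (ha i))
  have hcr : ∀ i, ‖c i‖ ≤ r := fun i => (le_max_left _ _).trans (hr i)
  have har : ∀ i, ‖a i‖ ≤ r := fun i => (le_max_right _ _).trans (hr i)
  have hHb : ∀ p : (σ →₀ ℕ) × (σ →₀ ℕ), ‖taylorH f c a p‖ ≤ r ^ (p.1.degree + p.2.degree) := by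
    intro p
    unfold taylorH
    rw [norm_mul, pow_add, mul_comm (r ^ p.1.degree)]
    exact mul_le_mul (norm_taylorTerm_le f c hr0 hcr _ _) (norm_mp_le hr0 har _) (norm_nonneg _)
      (pow_nonneg hr0 _)
  have hfin : ∀ N, {x : (σ →₀ ℕ) × (σ →₀ ℕ) | x.1.degree + x.2.degree ≤ N}.Finite := by
    intro N
    apply Set.Finite.subset ((Finsupp.finite_of_degree_le (σ := σ) N).prod
      (Finsupp.finite_of_degree_le (σ := σ) N))
    intro x hx
    simp only [Set.mem_setOf_eq] at hx
    simp only [Set.mem_prod, Set.mem_setOf_eq]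
    omega
  exact summable_of_bound (taylorH f c a) (fun x : (σ →₀ ℕ) × (σ →₀ ℕ) => x.1.degree + x.2.degree) hfin hr0 hr1 hHb

theorem evMv_taylorAt_aux1 (f : MvPowerSeries σ (OC C)) (c a : σ → C) (hc : ∀ i, ‖c i‖ < 1)
    (ha : ∀ i, ‖a i‖ < 1) : evMv (taylorAt f c hc) a = ∑' p, taylorH f c a p := by
  have hS1 : ∀ β, Summable (fun e => taylorH f c a (β, e)) := by
    intro β
    simp only [taylorH]
    exact (summable_taylorTerm f c hc β).mul_right (mp a β)
  rw [(summable_taylorH f c a hc ha).tsum_prod' hS1]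
  unfold evMv
  apply tsum_congr
  intro β
  rw [cf_taylorAt]
  simp only [taylorH]
  exact tsum_mul_right.symm

theorem evMv_taylorAt_aux2 (f : MvPowerSeries σ (OC C)) (c a : σ → C) (d : σ →₀ ℕ) :
    ∑ p ∈ antidiagonal d, taylorH f c a p = cf f d * mp (c + a) d := by
  rw [mp_add, Finset.mul_sum]
  apply Finset.sum_congr rfl
  intro p hp
  have hp' : p.1 + p.2 = d := mem_antidiagonal.mp hp
  unfold taylorH taylorTerm
  rw [hp']
  ring

theorem evMv_taylorAt_aux3 (f : MvPowerSeries σ (OC C)) (c a : σ → C) :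
    ∑' p, taylorH f c a p = ∑' x : (Σ n : σ →₀ ℕ, antidiagonal n),
      taylorH f c a (Finset.HasAntidiagonal.sigmaAntidiagonalEquivProd x) :=
  ((Finset.HasAntidiagonal.sigmaAntidiagonalEquivProd (A := σ →₀ ℕ)).tsum_eq (taylorH f c a)).symm

theorem evMv_taylorAt_aux4 (f : MvPowerSeries σ (OC C)) (c a : σ → C) (d : σ →₀ ℕ) :
    ∑' b : antidiagonal d,
      taylorH f c a (Finset.HasAntidiagonal.sigmaAntidiagonalEquivProd ⟨d, b⟩) =
        cf f d * mp (c + a) d := by
  rw [tsum_fintype (L := .unconditional _), ← evMv_taylorAt_aux2]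
  exact Finset.sum_coe_sort (antidiagonal d) (taylorH f c a)

theorem evMv_taylorAt (f : MvPowerSeries σ (OC C)) (c : σ → C) (hc : ∀ i, ‖c i‖ < 1) (a : σ → C)
    (ha : ∀ i, ‖a i‖ < 1) : evMv (taylorAt f c hc) a = evMv f (c + a) := by
  rw [evMv_taylorAt_aux1 f c a hc ha, evMv_taylorAt_aux3]
  have hS := summable_taylorH f c a hc ha
  have hS' : Summable (taylorH f c a ∘
      (Finset.HasAntidiagonal.sigmaAntidiagonalEquivProd (A := σ →₀ ℕ))) :=
    (Equiv.summable_iff (Finset.HasAntidiagonal.sigmaAntidiagonalEquivProd (A := σ →₀ ℕ))).mpr hS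
  have hfib : ∀ n : σ →₀ ℕ, Summable (fun b : antidiagonal n =>
      (taylorH f c a ∘ (Finset.HasAntidiagonal.sigmaAntidiagonalEquivProd (A := σ →₀ ℕ))) ⟨n, b⟩) :=
    fun n => (hasSum_fintype _).summable
  have h1 := hS'.tsum_sigma' hfib
  refine Eq.trans h1 ?_
  exact tsum_congr (evMv_taylorAt_aux4 f c a)

theorem constantCoeff_taylorAt (f : MvPowerSeries σ (OC C)) (c : σ → C) (hc : ∀ i, ‖c i‖ < 1) :
    ((MvPowerSeries.constantCoeff (taylorAt f c hc) : OC C) : C) = evMv f c := by
  have h := cf_taylorAt f c hc 0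
  rw [← MvPowerSeries.coeff_zero_eq_constantCoeff_apply]
  refine h.trans ?_
  unfold evMv
  apply tsum_congr
  intro e
  simp [taylorTerm, mbinom]

/-- Linear coefficient of the re-expansion. -/
theorem coeff_single_taylorAt (f : MvPowerSeries σ (OC C)) (c : σ → C) (hc : ∀ i, ‖c i‖ < 1) (i : σ) :
    cf (taylorAt f c hc) (Finsupp.single i 1) = evMv (mvDeriv i f) c := by
  rw [cf_taylorAt]
  unfold evMv
  apply tsum_congr
  intro e
  have h1 : mbinom (Finsupp.single i 1) e = e i + 1 := by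
    unfold mbinom
    rw [Finset.prod_eq_single i]
    · simp [add_comm]
    · intro j _ hj
      simp [Ne.symm hj]
    · simp
  simp only [taylorTerm, h1, cf, coeff_mvDeriv]
  rw [add_comm (Finsupp.single i 1) e]
  push_cast
  ring


theorem norm_term_le_taylor (f : MvPowerSeries σ (OC C)) {a : σ → C} {r : ℝ} (hr0 : 0 ≤ r)
    (ha : ∀ i, ‖a i‖ ≤ r) (d : σ →₀ ℕ) : ‖cf f d * mp a d‖ ≤ r ^ d.degree := by
  rw [norm_mul]
  calc ‖cf f d‖ * ‖mp a d‖ ≤ 1 * r ^ d.degree :=
        mul_le_mul (norm_cf_le_one f d) (norm_mp_le hr0 ha d) (norm_nonneg _) zero_le_one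
    _ = _ := one_mul _

/-- Tail estimate used everywhere: if `T` is the truncation of `f` at degree `N` then
`‖f(a) - T(a)‖ ≤ (max ‖a i‖)^(N+1)`. -/
theorem norm_evMv_sub_trunc_le (f : MvPowerSeries σ (OC C)) (N : ℕ) (a : σ → C) (r : ℝ) (hr0 : 0 ≤ r)
    (hr1 : r < 1) (ha : ∀ i, ‖a i‖ ≤ r) :
    ‖evMv f a - ∑ᶠ d ∈ {d : σ →₀ ℕ | d.degree ≤ N}, cf f d * d.prod (fun i e => a i ^ e)‖ ≤
      r ^ (N + 1) := by
  classical
  have hfin := Finsupp.finite_of_degree_le (σ := σ) N
  rw [finsum_mem_eq_finite_toFinset_sum _ hfin]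
  have ha' : ∀ i, ‖a i‖ < 1 := fun i => (ha i).trans_lt hr1
  have hsum := summable_evMv f a ha'
  have h1 := hsum.sum_add_tsum_compl (s := hfin.toFinset)
  have h2 : evMv f a - ∑ d ∈ hfin.toFinset, cf f d * d.prod (fun i e => a i ^ e) =
      ∑' x : ↥((hfin.toFinset : Set (σ →₀ ℕ))ᶜ),
        cf f (x : σ →₀ ℕ) * (x : σ →₀ ℕ).prod (fun i e => a i ^ e) := by
    unfold evMv
    rw [← h1]
    ring
  rw [h2]
  refine IsUltrametricDist.norm_tsum_le_of_forall_le_of_nonneg (pow_nonneg hr0 _) ?_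
  rintro ⟨d, hd⟩
  have hd' : N < d.degree := by
    have : d ∉ hfin.toFinset := hd
    simpa using this
  exact (norm_term_le_taylor f hr0 ha d).trans (pow_le_pow_of_le_one hr0 hr1.le hd')

theorem mp_smul (t : C) (a : σ → C) (d : σ →₀ ℕ) :
    mp (fun i => t * a i) d = t ^ d.degree * mp a d := by
  rw [mp_eq_prod, mp_eq_prod, Finsupp.degree_eq_sum, ← Finset.prod_pow_eq_pow_sum,
    ← Finset.prod_mul_distrib]
  exact Finset.prod_congr rfl (fun i _ => mul_pow _ _ _)

/-- **Identity theorem on the polydisc** (`C` has nontrivial norm, so is infinite): a series vanishing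
on the open polydisc is `0`. Proof: `d = ord f`, `f_d ≠ 0` the leading form; pick `a₀` with
`f_d(a₀) ≠ 0` and `‖a₀‖ < 1`; `f(t a₀) = t^d (f_d(a₀) + O(t))` is nonzero for small `t`. -/
theorem eq_zero_of_evMv_eq_zero (f : MvPowerSeries σ (OC C))
    (h : ∀ a : σ → C, (∀ i, ‖a i‖ < 1) → evMv f a = 0) : f = 0 := by
  classical
  by_contra hf
  obtain ⟨d0, hd0⟩ := (MvPowerSeries.ne_zero_iff_exists_coeff_ne_zero f).mp hf
  have hex : ∃ N, ∃ d : σ →₀ ℕ, d.degree = N ∧ MvPowerSeries.coeff d f ≠ 0 := ⟨_, d0, rfl, hd0⟩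
  obtain ⟨N, ⟨d1, hd1N, hd1⟩, hmin0⟩ : ∃ N, (∃ d : σ →₀ ℕ, d.degree = N ∧ MvPowerSeries.coeff d f ≠ 0) ∧
      ∀ m < N, ¬ ∃ d : σ →₀ ℕ, d.degree = m ∧ MvPowerSeries.coeff d f ≠ 0 :=
    ⟨Nat.find hex, Nat.find_spec hex, fun m hm => Nat.find_min hex hm⟩
  have hmin : ∀ d : σ →₀ ℕ, d.degree < N → cf f d = 0 := by
    intro d hd
    by_contra hne
    refine hmin0 _ hd ⟨d, rfl, ?_⟩
    intro h0
    apply hne
    simp [cf, h0]
  have hTfin := Finsupp.finite_of_degree_eq (σ := σ) N
  let Q : MvPolynomial σ C := ∑ d ∈ hTfin.toFinset, MvPolynomial.monomial d (cf f d)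
  have hQ : Q ≠ 0 := by
    intro h0
    have h1 : MvPolynomial.coeff d1 Q = cf f d1 := by
      simp only [Q, MvPolynomial.coeff_sum, MvPolynomial.coeff_monomial]
      rw [Finset.sum_eq_single d1]
      · simp
      · intro b _ hb
        simp [hb]
      · intro hn
        exact absurd (by simpa using hd1N) hn
    rw [h0] at h1
    simp only [MvPolynomial.coeff_zero] at h1
    apply hd1
    apply Subtype.ext
    exact h1.symm
  obtain ⟨a0, ha0⟩ : ∃ a0 : σ → C, MvPolynomial.eval a0 Q ≠ 0 := by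
    by_contra hh
    push Not at hh
    apply hQ
    apply MvPolynomial.funext
    intro x
    simpa using hh x
  have hQa : MvPolynomial.eval a0 Q = ∑ d ∈ hTfin.toFinset, cf f d * mp a0 d := by
    simp only [Q, map_sum, MvPolynomial.eval_monomial]
  set q := ‖MvPolynomial.eval a0 Q‖ with hq
  have hqpos : 0 < q := norm_pos_iff.mpr ha0
  set M : ℝ := 1 + ∑ i, ‖a0 i‖ with hMdef
  have hM1 : 1 ≤ M := by
    have : 0 ≤ ∑ i, ‖a0 i‖ := Finset.sum_nonneg (fun _ _ => norm_nonneg _)
    linarith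
  have hMi : ∀ i, ‖a0 i‖ ≤ M := by
    intro i
    have := Finset.single_le_sum (f := fun i => ‖a0 i‖) (fun _ _ => norm_nonneg _) (Finset.mem_univ i)
    linarith
  have hMpos : 0 < M := by linarith
  have hε : 0 < min (1 / (2 * M)) (q / M ^ (N + 1)) :=
    lt_min (by positivity) (by positivity)
  obtain ⟨t, ht0, ht⟩ := NormedField.exists_norm_lt C hε
  have ht1 : ‖t‖ < 1 / (2 * M) := ht.trans_le (min_le_left _ _)
  have ht2 : ‖t‖ < q / M ^ (N + 1) := ht.trans_le (min_le_right _ _)
  set r : ℝ := ‖t‖ * M with hr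
  have hr0 : 0 ≤ r := by positivity
  have hr1 : r < 1 := by
    rw [hr]
    have : ‖t‖ * M < 1 / (2 * M) * M := mul_lt_mul_of_pos_right ht1 hMpos
    have h2 : 1 / (2 * M) * M = 1 / 2 := by field_simp
    linarith
  set a : σ → C := fun i => t * a0 i with ha
  have har : ∀ i, ‖a i‖ ≤ r := by
    intro i
    simp only [ha, norm_mul, hr]
    exact mul_le_mul_of_nonneg_left (hMi i) (norm_nonneg _)
  have hvan := h a (fun i => (har i).trans_lt hr1)
  have htr := norm_evMv_sub_trunc_le f N a r hr0 hr1 har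
  rw [hvan, zero_sub, norm_neg] at htr
  have hfin := Finsupp.finite_of_degree_le (σ := σ) N
  rw [finsum_mem_eq_finite_toFinset_sum _ hfin] at htr
  have hsum : ∑ d ∈ hfin.toFinset, cf f d * d.prod (fun i e => a i ^ e) =
      t ^ N * MvPolynomial.eval a0 Q := by
    rw [hQa, Finset.mul_sum]
    have hsub : hTfin.toFinset ⊆ hfin.toFinset := by
      intro d hd
      simp only [Set.Finite.mem_toFinset, Set.mem_setOf_eq] at hd ⊢
      omega
    rw [← Finset.sum_subset hsub]
    · apply Finset.sum_congr rfl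
      intro d hd
      have hd' : d.degree = N := by simpa using hd
      change cf f d * mp (fun i => t * a0 i) d = _
      rw [mp_smul, hd']
      ring
    · intro d hd hd2
      have h1 : d.degree ≤ N := by simpa using hd
      have h2 : d.degree ≠ N := by simpa using hd2
      rw [hmin d (by omega), zero_mul]
  rw [hsum, norm_mul, norm_pow] at htr
  -- `‖t‖^N q ≤ (‖t‖ M)^(N+1)`
  have h3 : ‖t‖ ^ N * q ≤ ‖t‖ ^ N * (‖t‖ * M ^ (N + 1)) := by
    calc ‖t‖ ^ N * q ≤ r ^ (N + 1) := htr
      _ = _ := by rw [hr, mul_pow, pow_succ ‖t‖]; ring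
  have h4 : q ≤ ‖t‖ * M ^ (N + 1) := le_of_mul_le_mul_left h3 (by positivity)
  have h5 : ‖t‖ * M ^ (N + 1) < q := by
    have hpos : 0 < M ^ (N + 1) := by positivity
    rwa [lt_div_iff₀ hpos] at ht2
  linarith

/-- Apply `eq_zero_of_evMv_eq_zero` to `f`: `a = c + (a - c)`, `‖a - c‖ < 1`, `evMv_taylorAt`. -/
theorem taylorAt_ne_zero (f : MvPowerSeries σ (OC C)) (hf : f ≠ 0) (c : σ → C) (hc : ∀ i, ‖c i‖ < 1) :
    taylorAt f c hc ≠ 0 := by
  intro h0
  apply hf
  apply eq_zero_of_evMv_eq_zero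
  intro a ha
  have hsub : ∀ i, ‖(a - c) i‖ < 1 := by
    intro i
    rw [Pi.sub_apply, sub_eq_add_neg]
    exact (IsUltrametricDist.norm_add_le_max _ _).trans_lt
      (max_lt (ha i) (by rw [norm_neg]; exact hc i))
  have h1 := evMv_taylorAt f c hc (a - c) hsub
  rw [add_sub_cancel, h0] at h1
  rw [← h1]
  unfold evMv cf
  simp

/-- If all coefficients of `f` are `P`-th-power fixed and `C` has characteristic `p`, with `P` a
power of `p`, then `f(a^P) = f(a)^P`. -/
theorem evMv_frob_of_rational (p P : ℕ) [Fact p.Prime] [CharP C p] (hP : ∃ e, P = p ^ e)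
    (f : MvPowerSeries σ (OC C)) (hf : ∀ d, cf f d ^ P = cf f d) (a : σ → C) (ha : ∀ i, ‖a i‖ < 1) :
    evMv f (fun i => a i ^ P) = evMv f a ^ P := by
  obtain ⟨e, rfl⟩ := hP
  have : ExpChar C p := ExpChar.prime (Fact.out : p.Prime)
  have hcont : Continuous (iterateFrobenius C p e) := by
    have : (iterateFrobenius C p e : C → C) = fun x => x ^ p ^ e := by
      funext x; exact iterateFrobenius_def p e x
    rw [this]
    exact continuous_pow _
  have hmap := (summable_evMv f a ha).map_tsum (iterateFrobenius C p e) hcont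
  have h1 : evMv f a ^ p ^ e = iterateFrobenius C p e (evMv f a) :=
    (iterateFrobenius_def p e _).symm
  rw [h1]
  unfold evMv
  rw [hmap]
  apply tsum_congr
  intro d
  rw [map_mul, iterateFrobenius_def, hf]
  congr 1
  rw [iterateFrobenius_def]
  change mp (fun i => a i ^ p ^ e) d = (mp a d) ^ p ^ e
  rw [mp_eq_prod, mp_eq_prod, ← Finset.prod_pow]
  exact Finset.prod_congr rfl (fun i _ => pow_right_comm _ _ _)


/-- A power series of order `≥ N` lies in the `N`-th power of the ideal generated by the variables. -/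
theorem mem_span_X_pow_of_order {τ R : Type*} [Fintype τ] [DecidableEq τ] [CommRing R] (N : ℕ) :
    ∀ g : MvPowerSeries τ R, (∀ d : τ →₀ ℕ, d.degree < N → MvPowerSeries.coeff d g = 0) →
      g ∈ (Ideal.span (Set.range (MvPowerSeries.X : τ → MvPowerSeries τ R))) ^ N := by
  classical
  induction N with
  | zero => intro g _; simp
  | succ N ih =>
    intro g hg
    set I := Ideal.span (Set.range (MvPowerSeries.X : τ → MvPowerSeries τ R)) with hI
    -- choose a variable in the support of each nonzero exponent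
    have hch : ∀ e : τ →₀ ℕ, e ≠ 0 → ∃ i, 1 ≤ e i := by
      intro e he
      obtain ⟨i, hi⟩ := Finsupp.ne_iff.mp he
      exact ⟨i, by simp only [Finsupp.coe_zero, Pi.zero_apply] at hi; omega⟩
    let pick : (τ →₀ ℕ) → Option τ := fun e => if h : e ≠ 0 then some (hch e h).choose else none
    have hpick : ∀ e (h : e ≠ 0), ∃ i, pick e = some i ∧ 1 ≤ e i := by
      intro e h
      exact ⟨(hch e h).choose, by simp [pick, h], (hch e h).choose_spec⟩
    let gi : τ → MvPowerSeries τ R := fun i d =>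
      if pick (d + Finsupp.single i 1) = some i then
        MvPowerSeries.coeff (d + Finsupp.single i 1) g else 0
    have hgi_coeff : ∀ i d, MvPowerSeries.coeff d (gi i) =
        if pick (d + Finsupp.single i 1) = some i then
          MvPowerSeries.coeff (d + Finsupp.single i 1) g else 0 := fun _ _ => rfl
    have hdecomp : g = ∑ i, MvPowerSeries.X i * gi i := by
      ext e
      rw [map_sum]
      have hterm : ∀ i, MvPowerSeries.coeff e (MvPowerSeries.X i * gi i) =
          if pick e = some i then MvPowerSeries.coeff e g else 0 := by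
        intro i
        rw [MvPowerSeries.X_def, MvPowerSeries.coeff_monomial_mul]
        by_cases hle : Finsupp.single i 1 ≤ e
        · rw [if_pos hle, one_mul, hgi_coeff, tsub_add_cancel_of_le hle]
        · rw [if_neg hle]
          by_cases hpi : pick e = some i
          · exfalso
            apply hle
            have he0 : e ≠ 0 := by
              rintro rfl
              simp [pick] at hpi
            obtain ⟨j, hj, hj1⟩ := hpick e he0
            rw [hpi] at hj
            obtain rfl : i = j := Option.some.inj hj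
            exact Finsupp.single_le_iff.mpr hj1
          · rw [if_neg hpi]
      simp_rw [hterm]
      by_cases he0 : e = 0
      · subst he0
        have hp0 : pick (0 : τ →₀ ℕ) = none := by simp [pick]
        simp only [hp0, reduceCtorEq, if_false, Finset.sum_const_zero]
        exact hg 0 (by simp)
      · obtain ⟨j, hj, _⟩ := hpick e he0
        rw [Finset.sum_eq_single j]
        · rw [if_pos hj]
        · intro b _ hb
          rw [if_neg]
          rw [hj]
          intro h
          exact hb (Option.some.inj h).symm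
        · intro h
          exact absurd (Finset.mem_univ j) h
    rw [hdecomp, pow_succ']
    apply Ideal.sum_mem
    intro i _
    apply Ideal.mul_mem_mul (Ideal.subset_span (Set.mem_range_self i))
    apply ih
    intro d hd
    rw [hgi_coeff]
    split_ifs
    · apply hg
      rw [map_add, Finsupp.degree_single]
      omega
    · rfl

section EPoints

variable {C : Type} [NontriviallyNormedField C] [IsUltrametricDist C] [CompleteSpace C]
variable (p : ℕ) [Fact p.Prime] (n : ℕ)

local notation "W" => WittVector p (GaloisField p n)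
local notation "E" => LTRing p n

/-- A ring map `Z : E₀ → 𝒪_C` with `Z(𝔪) ⊂ 𝔪_C` is evaluation at `(Z u_i)` of `f` with coefficients mapped along
`Z|_{W(k)}`. Proof: `Z` is continuous for the `𝔪`-adic topology (`norm_le_of_mem_maximal_pow`): compare
`f` with its truncation. `Z'`s with the same restriction to `W` are then compared via `taylorAt`. -/
theorem eval_of_ringHom (Z : E →+* OC C)
    (hZ : ∀ x ∈ IsLocalRing.maximalIdeal E, ‖((Z x : OC C) : C)‖ < 1) (f : E) :
    ((Z f : OC C) : C) = evMv (MvPowerSeries.map (Z.comp (MvPowerSeries.C)) f)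
      (fun i : Fin (n - 1) => ((Z (MvPowerSeries.X i) : OC C) : C)) := by
  classical
  -- uniform bound on the maximal ideal
  obtain ⟨S, hS⟩ : (IsLocalRing.maximalIdeal E).FG := IsNoetherian.noetherian _
  have hSm : ∀ x : (S : Set E), ‖((Z x : OC C) : C)‖ < 1 := by
    intro x
    apply hZ
    rw [← hS]
    exact Ideal.subset_span x.2
  obtain ⟨r, hr0, hr1, hr⟩ := exists_bound_lt_one (ι := (S : Set E))
    (fun x => ‖((Z x : OC C) : C)‖) hSm
  have hrm : ∀ x ∈ IsLocalRing.maximalIdeal E, ‖((Z x : OC C) : C)‖ ≤ r := by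
    intro x hx
    rw [← hS] at hx
    induction hx using Submodule.span_induction with
    | mem y hy => exact hr ⟨y, hy⟩
    | zero => simpa using hr0
    | add y w _ _ hy hw =>
      rw [map_add, Subring.coe_add]
      exact (IsUltrametricDist.norm_add_le_max _ _).trans (max_le hy hw)
    | smul c y _ hy =>
      rw [smul_eq_mul, map_mul, Subring.coe_mul, norm_mul]
      calc _ ≤ 1 * r := mul_le_mul ((Z c : OC C).2) hy (norm_nonneg _) zero_le_one
        _ = r := one_mul _
  -- the variables lie in the maximal ideal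
  have hXm : ∀ i : Fin (n - 1), (MvPowerSeries.X i : E) ∈ IsLocalRing.maximalIdeal E := by
    intro i
    rw [IsLocalRing.mem_maximalIdeal, mem_nonunits_iff]
    intro hu
    have := MvPowerSeries.isUnit_constantCoeff _ hu
    rw [MvPowerSeries.constantCoeff_X] at this
    exact not_isUnit_zero this
  have hIle : Ideal.span (Set.range (MvPowerSeries.X : Fin (n - 1) → E)) ≤
      IsLocalRing.maximalIdeal E := by
    rw [Ideal.span_le]
    rintro _ ⟨i, rfl⟩
    exact hXm i
  set a : Fin (n - 1) → C := fun i => ((Z (MvPowerSeries.X i) : OC C) : C) with ha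
  have har : ∀ i, ‖a i‖ ≤ r := fun i => hrm _ (hXm i)
  set g : MvPowerSeries (Fin (n - 1)) (OC C) := MvPowerSeries.map (Z.comp (MvPowerSeries.C)) f with hg
  have hcf : ∀ d, cf g d = ((Z (MvPowerSeries.C (MvPowerSeries.coeff d f)) : OC C) : C) := by
    intro d
    simp [cf, hg, MvPowerSeries.coeff_map]
  -- the estimate at each truncation level
  have key : ∀ N : ℕ, ‖((Z f : OC C) : C) - evMv g a‖ ≤ r ^ (N + 1) := by
    intro N
    have hfin := Finsupp.finite_of_degree_le (σ := Fin (n - 1)) N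
    set T : E := ∑ d ∈ hfin.toFinset, MvPowerSeries.monomial d (MvPowerSeries.coeff d f) with hT
    have hcoef : ∀ d : Fin (n - 1) →₀ ℕ, d.degree < N + 1 →
        MvPowerSeries.coeff d (f - T) = 0 := by
      intro d hd
      rw [map_sub, hT, map_sum, Finset.sum_eq_single d]
      · rw [MvPowerSeries.coeff_monomial_same, sub_self]
      · intro b _ hb
        exact MvPowerSeries.coeff_monomial_ne (Ne.symm hb) _
      · intro h
        exact absurd (by simpa using (Nat.lt_succ_iff.mp hd)) h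
    have hmem : f - T ∈ (IsLocalRing.maximalIdeal E) ^ (N + 1) :=
      Ideal.pow_right_mono hIle _ (mem_span_X_pow_of_order (N + 1) _ hcoef)
    have h1 := norm_le_of_mem_maximal_pow p n Z r hr0 hrm (N + 1) _ hmem
    have hZT : ((Z T : OC C) : C) =
        ∑ᶠ d ∈ {d : Fin (n - 1) →₀ ℕ | d.degree ≤ N}, cf g d * d.prod (fun i e => a i ^ e) := by
      rw [finsum_mem_eq_finite_toFinset_sum _ hfin, hT, map_sum, AddSubmonoidClass.coe_finset_sum]
      apply Finset.sum_congr rfl
      intro d _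
      rw [MvPowerSeries.monomial_eq', map_mul, Subring.coe_mul, hcf, Finsupp.prod, map_prod]
      congr 1
      rw [Finsupp.prod, SubmonoidClass.coe_finset_prod]
      apply Finset.prod_congr rfl
      intro i _
      rw [map_pow, Subring.coe_pow]
    have h2 := norm_evMv_sub_trunc_le g N a r hr0 hr1 har
    rw [← hZT] at h2
    have h3 : ((Z f : OC C) : C) - evMv g a =
        ((Z (f - T) : OC C) : C) - (evMv g a - ((Z T : OC C) : C)) := by
      rw [map_sub, AddSubgroupClass.coe_sub]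
      ring
    rw [h3, sub_eq_add_neg]
    refine (IsUltrametricDist.norm_add_le_max _ _).trans (max_le h1 ?_)
    rw [norm_neg]
    exact h2
  have hlim : Filter.Tendsto (fun N : ℕ => r ^ (N + 1)) Filter.atTop (nhds 0) :=
    (Filter.tendsto_add_atTop_iff_nat 1).mpr (tendsto_pow_atTop_nhds_zero_of_lt_one hr0 hr1)
  have h0 : ‖((Z f : OC C) : C) - evMv g a‖ ≤ 0 := ge_of_tendsto' hlim key
  exact sub_eq_zero.mp (norm_le_zero_iff.mp h0)

end EPoints

end

end Crest.Agent.LT
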