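/-
S0351 package WEIERSTRASS: zeros in `𝔪_C` of a one-variable series over `𝒪_C`, from Mathlib's Weierstrass
preparation (with `I = (ϖ)`). See BLUEPRINT.md §Wst.
-/
import Crest.Agent.LT.Eval

set_option autoImplicit false

open Crest.LubinTate

namespace Crest.Agent.LT

noncomputable section

variable {C : Type} [NontriviallyNormedField C] [IsUltrametricDist C] [CompleteSpace C]

namespace WeierAux

omit [CompleteSpace C] in
theorem norm_coe_le (x : OC C) : ‖(x : C)‖ ≤ 1 := x.2

omit [CompleteSpace C] in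
theorem mem_pow_iff (ϖ : OC C) (h0 : (ϖ : C) ≠ 0) (n : ℕ) (x : OC C) :
    x ∈ ((Ideal.span {ϖ}) ^ n • ⊤ : Submodule (OC C) (OC C)) ↔ ‖(x : C)‖ ≤ ‖(ϖ : C)‖ ^ n := by
  rw [smul_eq_mul, Ideal.mul_top, Ideal.span_singleton_pow, Ideal.mem_span_singleton]
  constructor
  · rintro ⟨y, rfl⟩
    have hy := norm_coe_le y
    simp only [Subring.coe_mul, Subring.coe_pow, norm_mul, norm_pow]
    exact mul_le_of_le_one_right (by positivity) hy
  · intro h
    have hpos : 0 < ‖(ϖ : C)‖ ^ n := pow_pos (norm_pos_iff.mpr h0) n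
    have hmem : ‖(x : C) / (ϖ : C) ^ n‖ ≤ 1 := by
      rw [norm_div, norm_pow]
      exact (div_le_one hpos).mpr h
    refine ⟨⟨(x : C) / (ϖ : C) ^ n, hmem⟩, ?_⟩
    apply Subtype.ext
    simp only [Subring.coe_mul, Subring.coe_pow]
    field_simp

omit [CompleteSpace C] in
theorem mem_span_iff (ϖ : OC C) (h0 : (ϖ : C) ≠ 0) (x : OC C) :
    x ∈ Ideal.span {ϖ} ↔ ‖(x : C)‖ ≤ ‖(ϖ : C)‖ := by
  have := mem_pow_iff ϖ h0 1 x
  simpa using this

omit [CompleteSpace C] in
theorem isUnit_of_norm_eq_one (x : OC C) (h : ‖(x : C)‖ = 1) : IsUnit x := by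
  have hx : (x : C) ≠ 0 := by
    intro h0
    rw [h0, norm_zero] at h
    exact zero_ne_one h
  have hmem : ‖(x : C)⁻¹‖ ≤ 1 := by
    rw [norm_inv, h, inv_one]
  refine IsUnit.of_mul_eq_one (⟨(x : C)⁻¹, hmem⟩ : OC C) ?_
  apply Subtype.ext
  simp [hx]

omit [CompleteSpace C] in
theorem norm_sum_lt {ι : Type*} (s : Finset ι) (f : ι → C) (r : ℝ) (hr : 0 < r)
    (h : ∀ i ∈ s, ‖f i‖ < r) : ‖∑ i ∈ s, f i‖ < r := by
  rcases s.eq_empty_or_nonempty with rfl | hs
  · simpa using hr
  · obtain ⟨i, hi, hle⟩ := IsUltrametricDist.exists_norm_finsetSum_le_of_nonempty hs f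
    exact hle.trans_lt (h i hi)

omit [CompleteSpace C] in
/-- Choice of the uniformiser-like element `ϖ`. -/
theorem exists_pi (f : PowerSeries (OC C)) (d : ℕ)
    (hlow : ∀ j, j < d → ‖((PowerSeries.coeff j f : OC C) : C)‖ < 1) :
    ∃ ϖ : OC C, (ϖ : C) ≠ 0 ∧ ‖(ϖ : C)‖ < 1 ∧
      ∀ j, j < d → ‖((PowerSeries.coeff j f : OC C) : C)‖ ≤ ‖(ϖ : C)‖ := by
  by_cases hz : ∀ j, j < d → ((PowerSeries.coeff j f : OC C) : C) = 0
  · obtain ⟨x, hx0, hx1⟩ := NormedField.exists_norm_lt_one C
    refine ⟨⟨x, hx1.le⟩, norm_pos_iff.mp hx0, hx1, fun j hj => ?_⟩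
    rw [hz j hj]
    simp
  · push Not at hz
    obtain ⟨j0, hj0, hne⟩ := hz
    obtain ⟨j1, hj1, hmax⟩ := Finset.exists_max_image (Finset.range d)
      (fun j => ‖((PowerSeries.coeff j f : OC C) : C)‖) ⟨j0, Finset.mem_range.2 hj0⟩
    refine ⟨PowerSeries.coeff j1 f, ?_, hlow j1 (Finset.mem_range.1 hj1),
      fun j hj => hmax j (Finset.mem_range.2 hj)⟩
    intro h0
    have := hmax j0 (Finset.mem_range.2 hj0)
    rw [h0, norm_zero] at this
    exact hne (norm_le_zero_iff.mp this)

end WeierAux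

/-- `𝒪_C` is `(ϖ)`-adically complete for `0 < ‖ϖ‖ < 1`. -/
theorem isAdicComplete_OC (ϖ : OC C) (h0 : (ϖ : C) ≠ 0) (h1 : ‖(ϖ : C)‖ < 1) :
    IsAdicComplete (Ideal.span {ϖ}) (OC C) := by
  have hpos : 0 < ‖(ϖ : C)‖ := norm_pos_iff.mpr h0
  have htend : Filter.Tendsto (fun n : ℕ => ‖(ϖ : C)‖ ^ n) Filter.atTop (nhds 0) :=
    tendsto_pow_atTop_nhds_zero_of_lt_one hpos.le h1
  refine { haus' := ?_, prec' := ?_ }
  · intro x hx
    have : ∀ n : ℕ, ‖(x : C)‖ ≤ ‖(ϖ : C)‖ ^ n := fun n => by
      have := (hx n)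
      rw [SModEq.sub_mem] at this
      simpa using (WeierAux.mem_pow_iff ϖ h0 n (x - 0)).mp this
    have hx0 : ‖(x : C)‖ ≤ 0 := ge_of_tendsto' htend this
    apply Subtype.ext
    simpa using hx0
  · intro f hf
    have hcl : ∀ {m k : ℕ}, m ≤ k → ‖(f m : C) - (f k : C)‖ ≤ ‖(ϖ : C)‖ ^ m := by
      intro m k hmk
      have := hf hmk
      rw [SModEq.sub_mem] at this
      simpa using (WeierAux.mem_pow_iff ϖ h0 m (f m - f k)).mp this
    have hcau : CauchySeq (fun k => (f k : C)) := by
      rw [Metric.cauchySeq_iff']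
      intro ε hε
      obtain ⟨N, hN⟩ := ((tendsto_order.1 htend).2 ε hε).exists
      refine ⟨N, fun k hk => ?_⟩
      rw [dist_comm, dist_eq_norm]
      exact (hcl hk).trans_lt hN
    obtain ⟨L, hL⟩ := cauchySeq_tendsto_of_complete hcau
    have hLn : ‖L‖ ≤ 1 := le_of_tendsto' (hL.norm) (fun k => WeierAux.norm_coe_le (f k))
    refine ⟨⟨L, hLn⟩, fun n => ?_⟩
    rw [SModEq.sub_mem, WeierAux.mem_pow_iff ϖ h0]
    have h2 : Filter.Tendsto (fun k => ‖(f n : C) - (f k : C)‖) Filter.atTop
        (nhds ‖(f n : C) - L‖) := ((tendsto_const_nhds).sub hL).norm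
    refine le_of_tendsto h2 ?_
    filter_upwards [Filter.eventually_ge_atTop n] with k hk using hcl hk

namespace WeierAux

theorem ev1_mul (f g : PowerSeries (OC C)) (y : C) (hy : ‖y‖ < 1) :
    ev1 (f * g) y = ev1 f y * ev1 g y := by
  have ha : ∀ _i : Unit, ‖y‖ < 1 := fun _ => hy
  rw [ev1_eq_evMv, ev1_eq_evMv, ev1_eq_evMv, ← coe_evHom _ ha, ← coe_evHom _ ha, ← coe_evHom _ ha]
  have := map_mul (evHom (σ := Unit) (fun _ => y) ha) f g
  rw [this]
  rfl

theorem ev1_add (f g : PowerSeries (OC C)) (y : C) (hy : ‖y‖ < 1) :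
    ev1 (f + g) y = ev1 f y + ev1 g y := by
  have ha : ∀ _i : Unit, ‖y‖ < 1 := fun _ => hy
  rw [ev1_eq_evMv, ev1_eq_evMv, ev1_eq_evMv, ← coe_evHom _ ha, ← coe_evHom _ ha, ← coe_evHom _ ha]
  have := map_add (evHom (σ := Unit) (fun _ => y) ha) f g
  rw [this]
  rfl

theorem ev1_one (y : C) (hy : ‖y‖ < 1) : ev1 (1 : PowerSeries (OC C)) y = 1 := by
  have ha : ∀ _i : Unit, ‖y‖ < 1 := fun _ => hy
  rw [ev1_eq_evMv, ← coe_evHom _ ha]
  have := map_one (evHom (σ := Unit) (fun _ => y) ha)
  rw [this]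
  rfl

omit [CompleteSpace C] in
/-- Evaluation of the series attached to a polynomial. -/
theorem ev1_coe (Q : Polynomial (OC C)) (y : C) :
    ev1 (Q : PowerSeries (OC C)) y = (Q.map (OC C).subtype).eval y := by
  unfold ev1
  rw [Polynomial.eval_map, Polynomial.eval₂_eq_sum_range]
  rw [tsum_eq_sum (s := Finset.range (Q.natDegree + 1))]
  · refine Finset.sum_congr rfl fun k _ => ?_
    rw [Polynomial.coeff_coe]
    rfl
  · intro k hk
    have : Q.natDegree < k := by
      simp only [Finset.mem_range, not_lt] at hk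
      omega
    rw [Polynomial.coeff_coe, Polynomial.coeff_eq_zero_of_natDegree_lt this]
    simp

omit [CompleteSpace C] in
/-- Roots of a monic polynomial with lower coefficients in the maximal ideal lie in the open ball. -/
theorem norm_root_lt (Q : Polynomial (OC C)) (hQ : Q.Monic)
    (hlow : ∀ j, j < Q.natDegree → ‖((Q.coeff j : OC C) : C)‖ < 1) (y : C)
    (hy : (Q.map (OC C).subtype).eval y = 0) : ‖y‖ < 1 := by
  by_contra hge
  push Not at hge
  have hpow : ∀ j, j ≤ Q.natDegree → ‖y‖ ^ j ≤ ‖y‖ ^ Q.natDegree := fun j hj =>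
    pow_le_pow_right₀ hge hj
  have hy0 : 0 < ‖y‖ := lt_of_lt_of_le one_pos hge
  have hd : 0 < ‖y‖ ^ Q.natDegree := pow_pos hy0 _
  rw [Polynomial.eval_map, Polynomial.eval₂_eq_sum_range, Finset.sum_range_succ] at hy
  have hlast : (((Q.coeff Q.natDegree : OC C) : C)) = 1 := by
    have : Q.coeff Q.natDegree = 1 := hQ.coeff_natDegree
    rw [this]
    simp
  simp only [Subring.subtype_apply] at hy
  rw [hlast, one_mul] at hy
  have hs : ‖∑ i ∈ Finset.range Q.natDegree, ((Q.coeff i : OC C) : C) * y ^ i‖ <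
      ‖y‖ ^ Q.natDegree := by
    apply norm_sum_lt _ _ _ hd
    intro i hi
    have hi' := Finset.mem_range.1 hi
    rw [norm_mul, norm_pow]
    calc ‖((Q.coeff i : OC C) : C)‖ * ‖y‖ ^ i < 1 * ‖y‖ ^ i :=
          mul_lt_mul_of_pos_right (hlow i hi') (pow_pos hy0 _)
      _ = ‖y‖ ^ i := one_mul _
      _ ≤ _ := hpow i hi'.le
  have heq : y ^ Q.natDegree = - ∑ i ∈ Finset.range Q.natDegree, ((Q.coeff i : OC C) : C) * y ^ i :=
    eq_neg_of_add_eq_zero_right hy
  have h3 : ‖y‖ ^ Q.natDegree =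
      ‖∑ i ∈ Finset.range Q.natDegree, ((Q.coeff i : OC C) : C) * y ^ i‖ := by
    rw [← norm_pow, heq, norm_neg]
  rw [h3] at hs
  exact lt_irrefl _ hs

/-- The basic factorisation with all needed data. -/
theorem exists_factor (f : PowerSeries (OC C)) (d : ℕ)
    (hlow : ∀ j, j < d → ‖((PowerSeries.coeff j f : OC C) : C)‖ < 1)
    (hd : ‖((PowerSeries.coeff d f : OC C) : C)‖ = 1) :
    ∃ (Q : Polynomial (OC C)) (U : PowerSeries (OC C)), Q.Monic ∧ Q.natDegree = d ∧
      (∀ j, j < d → ‖((Q.coeff j : OC C) : C)‖ < 1) ∧ IsUnit U ∧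
        f = (Q : PowerSeries (OC C)) * U := by
  classical
  obtain ⟨ϖ, h0, h1, hle⟩ := exists_pi f d hlow
  have hcompl : IsAdicComplete (Ideal.span {ϖ}) (OC C) := isAdicComplete_OC ϖ h0 h1
  have hnotI : PowerSeries.coeff d f ∉ Ideal.span {ϖ} := by
    rw [mem_span_iff ϖ h0, hd]
    exact not_le.mpr h1
  have hIne : Ideal.span {ϖ} ≠ ⊤ := by
    intro h
    apply hnotI
    rw [h]
    trivial
  have hord : (f.map (Ideal.Quotient.mk (Ideal.span {ϖ}))).order = d := by
    rw [PowerSeries.order_eq_nat]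
    constructor
    · rw [PowerSeries.coeff_map]
      intro h
      exact hnotI (Ideal.Quotient.eq_zero_iff_mem.mp h)
    · intro i hi
      rw [PowerSeries.coeff_map]
      exact Ideal.Quotient.eq_zero_iff_mem.mpr ((mem_span_iff ϖ h0 _).2 (hle i hi))
  have hordn : (f.map (Ideal.Quotient.mk (Ideal.span {ϖ}))).order.toNat = d := by
    rw [hord]
    rfl
  have hunit : IsUnit (PowerSeries.coeff d f) := isUnit_of_norm_eq_one _ hd
  have H : f.IsWeierstrassDivisorAt (Ideal.span {ϖ}) := by
    unfold PowerSeries.IsWeierstrassDivisorAt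
    rw [hordn]
    exact hunit
  have hdiv := H.isWeierstrassDivisionAt_div_mod (PowerSeries.X ^ d)
  set q := H.div (PowerSeries.X ^ d) with hq
  set r := H.mod (PowerSeries.X ^ d) with hr
  have hdeg : r.degree < (d : WithBot ℕ) := by
    have := hdiv.degree_lt
    rwa [hordn] at this
  have heq : (PowerSeries.X ^ d : PowerSeries (OC C)) = f * q + (r : PowerSeries (OC C)) :=
    hdiv.eq_mul_add
  -- the lower coefficients of `r`
  have hrlow : ∀ j, j < d → r.coeff j ∈ Ideal.span {ϖ} := by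
    intro j hj
    have := hdiv.coeff_f_sub_r_mem (i := j) (by rwa [hordn])
    rw [map_sub, PowerSeries.coeff_X_pow, if_neg hj.ne, zero_sub, neg_mem_iff,
      Polynomial.coeff_coe] at this
    exact this
  -- `q` is a unit
  have hq0 : ‖((PowerSeries.constantCoeff q : OC C) : C)‖ = 1 := by
    by_contra hne
    have hlt : ‖((PowerSeries.constantCoeff q : OC C) : C)‖ < 1 :=
      lt_of_le_of_ne (norm_coe_le _) hne
    have h1eq := congrArg (PowerSeries.coeff d) heq
    rw [PowerSeries.coeff_X_pow_self, map_add, Polynomial.coeff_coe,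
      Polynomial.coeff_eq_zero_of_degree_lt hdeg, add_zero, PowerSeries.coeff_mul] at h1eq
    have h2 := congrArg (fun x : OC C => (x : C)) h1eq
    simp only [Subring.coe_one, AddSubmonoidClass.coe_finsetSum, Subring.coe_mul] at h2
    have h3 : ‖∑ x ∈ Finset.HasAntidiagonal.antidiagonal d,
        ((PowerSeries.coeff x.1 f : OC C) : C) * ((PowerSeries.coeff x.2 q : OC C) : C)‖ < 1 := by
      apply norm_sum_lt _ _ _ one_pos
      rintro ⟨i, j⟩ hij
      have hij' : i + j = d := Finset.HasAntidiagonal.mem_antidiagonal.mp hij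
      rw [norm_mul]
      rcases Nat.lt_or_ge i d with hi | hi
      · calc _ ≤ ‖((PowerSeries.coeff i f : OC C) : C)‖ * 1 :=
              mul_le_mul_of_nonneg_left (norm_coe_le _) (norm_nonneg _)
          _ < 1 := by rw [mul_one]; exact hlow i hi
      · have hi' : i = d := by omega
        have hj' : j = 0 := by omega
        subst hi' hj'
        have hc : ((PowerSeries.coeff 0 q : OC C) : C) =
            ((PowerSeries.constantCoeff q : OC C) : C) := by simp
        rw [hc, hd, one_mul]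
        exact hlt
    rw [← h2] at h3
    simp at h3
  have hqunit : IsUnit q := PowerSeries.isUnit_iff_constantCoeff.mpr (isUnit_of_norm_eq_one _ hq0)
  -- the polynomial
  have hdeg' : r.degree < (Polynomial.X (R := OC C) ^ d).degree := by
    rwa [Polynomial.degree_X_pow]
  have hmon : (Polynomial.X ^ d - r : Polynomial (OC C)).Monic :=
    .sub_of_left (Polynomial.monic_X_pow _) hdeg'
  have hnd : (Polynomial.X ^ d - r : Polynomial (OC C)).natDegree = d := by
    suffices h : (Polynomial.X ^ d - r : Polynomial (OC C)).degree = d by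
      rw [Polynomial.natDegree, h]
      rfl
    rw [Polynomial.degree_sub_eq_left_of_degree_lt hdeg', Polynomial.degree_X_pow]
  refine ⟨Polynomial.X ^ d - r, (hqunit.unit⁻¹ : (PowerSeries (OC C))ˣ).1, hmon, hnd, ?_,
    Units.isUnit _, ?_⟩
  · intro j hj
    rw [Polynomial.coeff_sub, Polynomial.coeff_X_pow, if_neg hj.ne, zero_sub]
    have := (mem_span_iff ϖ h0 _).1 (hrlow j hj)
    simp only [NegMemClass.coe_neg, norm_neg]
    exact this.trans_lt h1
  · have h4 : f * q = (PowerSeries.X ^ d : PowerSeries (OC C)) - (r : PowerSeries (OC C)) := by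
      rw [heq, add_sub_cancel_right]
    have h5 : ((Polynomial.X ^ d - r : Polynomial (OC C)) : PowerSeries (OC C)) =
        (PowerSeries.X ^ d : PowerSeries (OC C)) - (r : PowerSeries (OC C)) := by
      simp
    rw [h5, ← h4, mul_assoc]
    have : q * (hqunit.unit⁻¹ : (PowerSeries (OC C))ˣ).1 = 1 := hqunit.mul_val_inv
    rw [this, mul_one]

/-- Division by `X - y` of a series vanishing at `y`. -/
theorem exists_div (f : PowerSeries (OC C)) (y' : OC C) (hy : ‖(y' : C)‖ < 1)
    (h0 : ev1 f (y' : C) = 0) :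
    ∃ g : PowerSeries (OC C),
      f = ((Polynomial.X - Polynomial.C y' : Polynomial (OC C)) : PowerSeries (OC C)) * g := by
  classical
  set P : Polynomial (OC C) := Polynomial.X - Polynomial.C y' with hP
  have hc0 : PowerSeries.coeff 0 (P : PowerSeries (OC C)) = -y' := by
    rw [Polynomial.coeff_coe, hP]
    simp
  have hc1 : PowerSeries.coeff 1 (P : PowerSeries (OC C)) = 1 := by
    rw [Polynomial.coeff_coe, hP]
    simp
  obtain ⟨ϖ, h0', h1', hle⟩ := exists_pi (P : PowerSeries (OC C)) 1 (by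
    intro j hj
    have hj0 : j = 0 := by omega
    subst hj0
    rw [hc0]
    simpa using hy)
  have hcompl : IsAdicComplete (Ideal.span {ϖ}) (OC C) := isAdicComplete_OC ϖ h0' h1'
  have hnotI : (1 : OC C) ∉ Ideal.span {ϖ} := by
    rw [mem_span_iff ϖ h0']
    simpa using h1'
  have hord : ((P : PowerSeries (OC C)).map (Ideal.Quotient.mk (Ideal.span {ϖ}))).order = (1 : ℕ) := by
    rw [PowerSeries.order_eq_nat]
    constructor
    · rw [PowerSeries.coeff_map, hc1]
      intro h
      exact hnotI (Ideal.Quotient.eq_zero_iff_mem.mp h)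
    · intro i hi
      rw [PowerSeries.coeff_map]
      exact Ideal.Quotient.eq_zero_iff_mem.mpr ((mem_span_iff ϖ h0' _).2 (hle i hi))
  have hordn : ((P : PowerSeries (OC C)).map (Ideal.Quotient.mk (Ideal.span {ϖ}))).order.toNat = 1 := by
    rw [hord]
    rfl
  have H : (P : PowerSeries (OC C)).IsWeierstrassDivisorAt (Ideal.span {ϖ}) := by
    unfold PowerSeries.IsWeierstrassDivisorAt
    rw [hordn, hc1]
    exact isUnit_one
  have hdiv := H.isWeierstrassDivisionAt_div_mod f
  set q := H.div f with hq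
  set r := H.mod f with hr
  have hdeg : r.degree < ((1 : ℕ) : WithBot ℕ) := by
    have := hdiv.degree_lt
    rwa [hordn] at this
  have heq : f = (P : PowerSeries (OC C)) * q + (r : PowerSeries (OC C)) := hdiv.eq_mul_add
  have hr0 : r = Polynomial.C (r.coeff 0) :=
    Polynomial.eq_C_of_degree_le_zero (Nat.WithBot.lt_one_iff_le_zero.mp (by simpa using hdeg))
  have hPy : (P.map (OC C).subtype).eval (y' : C) = 0 := by
    simp [hP]
  have hval : ev1 (r : PowerSeries (OC C)) (y' : C) = 0 := by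
    have h2 := h0
    rw [heq, ev1_add _ _ _ hy, ev1_mul _ _ _ hy, ev1_coe P, hPy, zero_mul, zero_add] at h2
    exact h2
  have hrc : r.coeff 0 = 0 := by
    rw [ev1_coe, hr0] at hval
    simp only [Polynomial.map_C, Polynomial.eval_C] at hval
    apply Subtype.ext
    simpa using hval
  refine ⟨q, ?_⟩
  rw [hr0, hrc] at heq
  simpa using heq

/-- Factoring out finitely many zeros. -/
theorem exists_prod_factor (f : PowerSeries (OC C)) (R : ℝ) (hR0 : 0 ≤ R) (hR1 : R < 1)
    (T : Finset C) (hT : ∀ t ∈ T, ‖t‖ ≤ R ∧ ev1 f t = 0) :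
    ∃ (P : Polynomial (OC C)) (g : PowerSeries (OC C)), f = (P : PowerSeries (OC C)) * g ∧
      (∀ z : C, (P.map (OC C).subtype).eval z = ∏ t ∈ T, (z - t)) ∧
      ∀ j, ‖((P.coeff j : OC C) : C)‖ ≤ R ^ (T.card - j) := by
  classical
  induction T using Finset.induction_on with
  | empty =>
    refine ⟨1, f, by simp, by simp, fun j => ?_⟩
    simp only [Finset.card_empty, Nat.zero_sub, pow_zero]
    exact norm_coe_le _
  | insert a T ha ih =>
    obtain ⟨P, g, hfac, hev, hcoef⟩ := ih (fun t ht => hT t (Finset.mem_insert_of_mem ht))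
    obtain ⟨haR, haz⟩ := hT a (Finset.mem_insert_self a T)
    have ha1 : ‖a‖ < 1 := haR.trans_lt hR1
    have hPa : (P.map (OC C).subtype).eval a ≠ 0 := by
      rw [hev a, Finset.prod_ne_zero_iff]
      intro t ht h0
      rw [sub_eq_zero] at h0
      exact ha (h0 ▸ ht)
    have hga : ev1 g a = 0 := by
      rw [hfac, ev1_mul _ _ _ ha1, ev1_coe] at haz
      exact (mul_eq_zero.mp haz).resolve_left hPa
    let a' : OC C := ⟨a, ha1.le⟩
    obtain ⟨g', hg'⟩ := exists_div g a' ha1 hga
    refine ⟨P * (Polynomial.X - Polynomial.C a'), g', ?_, ?_, ?_⟩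
    · rw [hfac, hg', Polynomial.coe_mul, mul_assoc]
    · intro z
      rw [Finset.prod_insert ha, Polynomial.map_mul, Polynomial.eval_mul, hev z]
      simp only [Polynomial.map_sub, Polynomial.map_X, Polynomial.map_C, Polynomial.eval_sub,
        Polynomial.eval_X, Polynomial.eval_C]
      rw [mul_comm]
      rfl
    · intro j
      rw [Finset.card_insert_of_notMem ha]
      have hle1 : R ≤ 1 := hR1.le
      cases j with
      | zero =>
        rw [Polynomial.mul_coeff_zero]
        simp only [Polynomial.coeff_sub, Polynomial.coeff_X_zero, Polynomial.coeff_C_zero,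
          zero_sub, Subring.coe_mul, NegMemClass.coe_neg, norm_mul, norm_neg, Nat.sub_zero]
        rw [pow_succ]
        have h1 := hcoef 0
        rw [Nat.sub_zero] at h1
        exact mul_le_mul h1 haR (norm_nonneg _) (pow_nonneg hR0 _)
      | succ j =>
        rw [Polynomial.coeff_mul_X_sub_C]
        simp only [AddSubgroupClass.coe_sub, Subring.coe_mul]
        rw [sub_eq_add_neg]
        refine (IsUltrametricDist.norm_add_le_max _ _).trans (max_le ?_ ?_)
        · have h1 := hcoef j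
          have : T.card + 1 - (j + 1) = T.card - j := by omega
          rw [this]
          exact h1
        · have h1 := hcoef (j + 1)
          rw [norm_neg, norm_mul]
          have h2 : ‖((P.coeff (j + 1) : OC C) : C)‖ * ‖((a' : OC C) : C)‖ ≤
              R ^ (T.card - (j + 1)) * R :=
            mul_le_mul h1 haR (norm_nonneg _) (pow_nonneg hR0 _)
          refine h2.trans ?_
          have : T.card + 1 - (j + 1) = T.card - j := by omega
          rw [this]
          by_cases hj : j < T.card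
          · have : T.card - j = T.card - (j + 1) + 1 := by omega
            rw [this, pow_succ]
          · have h3 : T.card - j = 0 := by omega
            have h4 : T.card - (j + 1) = 0 := by omega
            rw [h3, h4]
            simpa using hle1

end WeierAux

/-- **Weierstrass factorisation.** If `coeff j f ∈ 𝔪_C` for `j < d` and `coeff d f` is a unit of `𝒪_C` then
`f = Q * U`, `Q` monic of degree `d` with lower coefficients in `𝔪_C`, `U` a unit. Proof: take `ϖ` with
`‖coeff j f‖ ≤ ‖ϖ‖ < 1` for `j<d` (finitely many conditions, norm nontrivial) and apply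
`Mathlib/RingTheory/PowerSeries/WeierstrassPreparation.lean`. Then lower coefficients of `Q` lie in `(ϖ)`. -/
theorem exists_weierstrass (f : PowerSeries (OC C)) (d : ℕ)
    (hlow : ∀ j, j < d → ‖((PowerSeries.coeff j f : OC C) : C)‖ < 1)
    (hd : ‖((PowerSeries.coeff d f : OC C) : C)‖ = 1) :
    ∃ (Q : Polynomial (OC C)) (U : PowerSeries (OC C)), Q.Monic ∧ Q.natDegree = d ∧
      (∀ j, j < d → ‖((Q.coeff j : OC C) : C)‖ < 1) ∧ IsUnit U ∧ f = (Q : PowerSeries (OC C)) * U :=
  WeierAux.exists_factor f d hlow hd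

/-- A unit series has no zeros on the ball (`ev1` is a ring hom there). -/
theorem ev1_ne_zero_of_isUnit (U : PowerSeries (OC C)) (hU : IsUnit U) (y : C) (hy : ‖y‖ < 1) :
    ev1 U y ≠ 0 := by
  obtain ⟨V, hV⟩ := hU.exists_right_inv
  intro h0
  have := WeierAux.ev1_mul U V y hy
  rw [hV, WeierAux.ev1_one y hy, h0, zero_mul] at this
  exact one_ne_zero this

/-- **Zero count.** Under the Weierstrass hypothesis there are at most `d` zeros in `𝔪_C`. -/
theorem card_zeros_le (f : PowerSeries (OC C)) (d : ℕ)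
    (hlow : ∀ j, j < d → ‖((PowerSeries.coeff j f : OC C) : C)‖ < 1)
    (hd : ‖((PowerSeries.coeff d f : OC C) : C)‖ = 1) :
    {y : C | ‖y‖ < 1 ∧ ev1 f y = 0}.Finite ∧ {y : C | ‖y‖ < 1 ∧ ev1 f y = 0}.ncard ≤ d := by
  classical
  obtain ⟨Q, U, hQ, hnd, hlowQ, hU, hf⟩ := exists_weierstrass f d hlow hd
  set P := Q.map (OC C).subtype with hPdef
  have hP0 : P ≠ 0 := (hQ.map _).ne_zero
  have hsub : {y : C | ‖y‖ < 1 ∧ ev1 f y = 0} ⊆ (P.roots.toFinset : Set C) := by
    rintro y ⟨hy, h0⟩
    simp only [Finset.mem_coe, Multiset.mem_toFinset, Polynomial.mem_roots hP0,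
      Polynomial.IsRoot.def]
    rw [hf, WeierAux.ev1_mul _ _ y hy, WeierAux.ev1_coe] at h0
    exact (mul_eq_zero.mp h0).resolve_right (ev1_ne_zero_of_isUnit U hU y hy)
  refine ⟨(Finset.finite_toSet _).subset hsub, ?_⟩
  calc {y : C | ‖y‖ < 1 ∧ ev1 f y = 0}.ncard ≤ (P.roots.toFinset : Set C).ncard :=
        Set.ncard_le_ncard hsub (Finset.finite_toSet _)
    _ = P.roots.toFinset.card := Set.ncard_coe_finset _
    _ ≤ P.roots.card := Multiset.toFinset_card_le _
    _ ≤ P.natDegree := Polynomial.card_roots' _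
    _ = d := by rw [hPdef, hQ.natDegree_map, hnd]

/-- **Existence of zeros.** `d ≥ 1`, `C` algebraically closed: a zero exists (all roots of `Q` lie in `𝔪_C`
by the ultrametric inequality applied to the monic equation). -/
theorem exists_zero [IsAlgClosed C] (f : PowerSeries (OC C)) (d : ℕ) (hd1 : 1 ≤ d)
    (hlow : ∀ j, j < d → ‖((PowerSeries.coeff j f : OC C) : C)‖ < 1)
    (hd : ‖((PowerSeries.coeff d f : OC C) : C)‖ = 1) : ∃ y : C, ‖y‖ < 1 ∧ ev1 f y = 0 := by
  obtain ⟨Q, U, hQ, hnd, hlowQ, hU, hf⟩ := exists_weierstrass f d hlow hd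
  set P := Q.map (OC C).subtype with hPdef
  have hPnd : P.natDegree = d := by rw [hPdef, hQ.natDegree_map, hnd]
  have hdeg : P.degree ≠ 0 := by
    intro h
    have : P.natDegree = 0 := Polynomial.natDegree_eq_zero_iff_degree_le_zero.mpr h.le
    omega
  obtain ⟨y, hy⟩ := IsAlgClosed.exists_root P hdeg
  have hy0 : P.eval y = 0 := hy
  have hlt := WeierAux.norm_root_lt Q hQ (by rw [hnd]; exact hlowQ) y hy0
  refine ⟨y, hlt, ?_⟩
  rw [hf, WeierAux.ev1_mul _ _ y hlt, WeierAux.ev1_coe, hy0, zero_mul]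

/-- Exact count for simple zeros: if moreover the formal derivative has no zero in `𝔪_C`
then there are exactly `d` zeros. (`Q` has `d` roots with multiplicity, and a multiple root of `Q` is a
zero of `f' = Q' U + Q U'`.) -/
theorem card_zeros_eq [IsAlgClosed C] (f : PowerSeries (OC C)) (d : ℕ)
    (hlow : ∀ j, j < d → ‖((PowerSeries.coeff j f : OC C) : C)‖ < 1)
    (hd : ‖((PowerSeries.coeff d f : OC C) : C)‖ = 1)
    (hsimple : ∀ y : C, ‖y‖ < 1 → ev1 (PowerSeries.derivative (OC C) f) y ≠ 0) :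
    {y : C | ‖y‖ < 1 ∧ ev1 f y = 0}.ncard = d := by
  classical
  obtain ⟨Q, U, hQ, hnd, hlowQ, hU, hf⟩ := exists_weierstrass f d hlow hd
  set P := Q.map (OC C).subtype with hPdef
  have hP0 : P ≠ 0 := (hQ.map _).ne_zero
  have hPnd : P.natDegree = d := by rw [hPdef, hQ.natDegree_map, hnd]
  have hroot : ∀ y : C, P.IsRoot y → ‖y‖ < 1 := fun y hy =>
    WeierAux.norm_root_lt Q hQ (by rw [hnd]; exact hlowQ) y hy
  have hset : {y : C | ‖y‖ < 1 ∧ ev1 f y = 0} = (P.roots.toFinset : Set C) := by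
    ext y
    simp only [Set.mem_ofPred_eq, Finset.mem_coe, Multiset.mem_toFinset, Polynomial.mem_roots hP0]
    constructor
    · rintro ⟨hy, h0⟩
      rw [hf, WeierAux.ev1_mul _ _ y hy, WeierAux.ev1_coe] at h0
      exact (mul_eq_zero.mp h0).resolve_right (ev1_ne_zero_of_isUnit U hU y hy)
    · intro hy
      have hlt := hroot y hy
      refine ⟨hlt, ?_⟩
      have hy0 : P.eval y = 0 := hy
      rw [hf, WeierAux.ev1_mul _ _ y hlt, WeierAux.ev1_coe, hy0, zero_mul]
  have hnodup : P.roots.Nodup := by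
    rw [Multiset.nodup_iff_count_le_one]
    intro a
    rw [Polynomial.count_roots]
    by_contra hgt
    push Not at hgt
    obtain ⟨h1, h2⟩ := (Polynomial.one_lt_rootMultiplicity_iff_isRoot hP0).1 hgt
    have hlt := hroot a h1
    apply hsimple a hlt
    have h1' : P.eval a = 0 := h1
    have h2' : (Polynomial.derivative P).eval a = 0 := h2
    have hder : ev1 ((Polynomial.derivative Q : Polynomial (OC C)) : PowerSeries (OC C)) a = 0 := by
      rw [WeierAux.ev1_coe, ← Polynomial.derivative_map]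
      exact h2'
    have hD : PowerSeries.derivative (OC C) f =
        (Q : PowerSeries (OC C)) * PowerSeries.derivative (OC C) U +
          U * ((Polynomial.derivative Q : Polynomial (OC C)) : PowerSeries (OC C)) := by
      rw [hf, Derivation.leibniz, PowerSeries.derivative_coe]
      simp only [smul_eq_mul]
    rw [hD, WeierAux.ev1_add _ _ _ hlt, WeierAux.ev1_mul _ _ _ hlt, WeierAux.ev1_mul _ _ _ hlt,
      WeierAux.ev1_coe Q, hder, h1']
    simp
  rw [hset, Set.ncard_coe_finset, Multiset.toFinset_card_of_nodup hnodup,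
    ← (IsAlgClosed.splits P).natDegree_eq_card_roots, hPnd]

/-- A nonzero series has finitely many zeros in each closed ball `‖y‖ ≤ R`, `R < 1`. Proof: rescale
`y = a y'` with `R < ‖a‖ < 1`, divide by the coefficient of maximal norm of `f(a Y)` (exists since
the coefficients tend to `0`), apply `card_zeros_le`. -/
theorem finite_zeros_ball (f : PowerSeries (OC C)) (hf : f ≠ 0) (R : ℝ) (hR : R < 1) :
    {y : C | ‖y‖ ≤ R ∧ ev1 f y = 0}.Finite := by
  classical
  by_cases hR0 : R ≤ 0
  · refine (Set.finite_singleton (0 : C)).subset fun y hy => ?_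
    have : ‖y‖ ≤ 0 := hy.1.trans hR0
    simpa using this
  push Not at hR0
  by_contra hinf
  have hinf' : Set.Infinite {y : C | ‖y‖ ≤ R ∧ ev1 f y = 0} := hinf
  obtain ⟨D, hD⟩ : ∃ D, PowerSeries.coeff D f ≠ 0 := by
    by_contra hall
    push Not at hall
    exact hf (PowerSeries.ext fun n => by simpa using hall n)
  have hD' : 0 < ‖((PowerSeries.coeff D f : OC C) : C)‖ := by
    rw [norm_pos_iff]
    intro h0
    exact hD (Subtype.ext h0)
  obtain ⟨K, hK⟩ := exists_pow_lt_of_lt_one hD' hR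
  obtain ⟨T, hTsub, hTcard⟩ := hinf'.exists_subset_card_eq (D + K)
  obtain ⟨P, g, hfac, -, hcoef⟩ :=
    WeierAux.exists_prod_factor f R hR0.le hR T (fun t ht => hTsub ht)
  have hbound : ‖((PowerSeries.coeff D f : OC C) : C)‖ ≤ R ^ K := by
    rw [hfac, PowerSeries.coeff_mul]
    simp only [AddSubmonoidClass.coe_finsetSum, Subring.coe_mul]
    apply IsUltrametricDist.norm_sum_le_of_forall_le_of_nonneg (pow_nonneg hR0.le K)
    rintro ⟨i, j⟩ hij
    have hij' : i + j = D := Finset.HasAntidiagonal.mem_antidiagonal.mp hij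
    rw [norm_mul, Polynomial.coeff_coe]
    calc ‖((P.coeff i : OC C) : C)‖ * ‖((PowerSeries.coeff j g : OC C) : C)‖
        ≤ ‖((P.coeff i : OC C) : C)‖ * 1 :=
          mul_le_mul_of_nonneg_left (WeierAux.norm_coe_le _) (norm_nonneg _)
      _ = ‖((P.coeff i : OC C) : C)‖ := mul_one _
      _ ≤ R ^ (T.card - i) := hcoef i
      _ ≤ R ^ K := pow_le_pow_of_le_one hR0.le hR.le (by omega)
  exact absurd hbound (not_le.mpr hK)

end

end Crest.Agent.LT
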