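/-
S0351 package LOGEVAL: evaluation of Hazewinkel's logarithm on the open unit ball of a complete ultrametric field of
characteristic `0`. Shared by the period field (`Witt`) and by the characteristic-`0` part (`Char0`). See BLUEPRINT.md §LE.
Sorry-free (helper50), modulo the statements of Hazewinkel and Eval.
-/
import Crest.Agent.LT.Hazewinkel
import Crest.Agent.LT.Eval

set_option autoImplicit false
set_option linter.unusedSectionVars false
set_option linter.unusedVariables false

open Crest.LubinTate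

namespace Crest.Agent.LT

noncomputable section

variable (p : ℕ) [Fact p.Prime]
variable {L : Type} [NontriviallyNormedField L] [IsUltrametricDist L] [CompleteSpace L] [CharZero L]

/-- The value of Hazewinkel's `ℓ_K` at parameters `v`. `ℚ`-algebra structure from `CharZero L`. -/
def ellV (v : ℕ → OC L) (K : ℕ) : L :=
  MvPolynomial.aeval (R := ℚ) (fun i => ((v i : OC L) : L)) (hzEll p K)

theorem ellV_zero (v : ℕ → OC L) : ellV p v 0 = 1 := by
  simp [ellV, hzEll_zero]

/-- Recursion `p ℓ_K = ∑_{i=1}^K ℓ_{K-i} v_i^(p^(K-i))`. -/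
theorem ellV_rec (v : ℕ → OC L) (K : ℕ) (hK : 1 ≤ K) :
    (p : L) * ellV p v K =
      ∑ i ∈ Finset.Icc 1 K, ellV p v (K - i) * ((v (i - 1) : OC L) : L) ^ (p ^ (K - i)) := by
  have h := congrArg (MvPolynomial.aeval (R := ℚ) (fun i => ((v i : OC L) : L))) (hzEll_rec p K hK)
  simpa [ellV, map_sum, map_mul, map_pow] using h

private lemma aeval_URtoUQ (v : ℕ → OC L) (c : UR) :
    MvPolynomial.aeval (R := ℚ) (fun i => ((v i : OC L) : L)) (URtoUQ c) =
      ((specHomZ v c : OC L) : L) := by
  induction c using MvPolynomial.induction_on with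
  | C a => simp [URtoUQ, specHomZ]
  | add f g hf hg => simp only [map_add, hf, hg]; rfl
  | mul_X f n hf => simp only [map_mul, hf]; simp [URtoUQ, specHomZ]

/-- `p^K ℓ_K` is an element of `𝒪_L`. -/
theorem exists_pow_mul_ellV (v : ℕ → OC L) (K : ℕ) :
    ∃ c : OC L, (p : L) ^ K * ellV p v K = (c : L) := by
  obtain ⟨c, hc⟩ := hzEll_integral p K
  refine ⟨specHomZ v c, ?_⟩
  rw [← aeval_URtoUQ, ← hc]
  simp [ellV]

/-- `p^K ℓ_K` is integral: `‖ℓ_K‖ ≤ ‖p‖^(-K)`. -/
theorem norm_ellV_le (v : ℕ → OC L) (K : ℕ) : ‖ellV p v K‖ * ‖(p : L)‖ ^ K ≤ 1 := by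
  obtain ⟨c, hc⟩ := exists_pow_mul_ellV p v K
  have h1 : ‖(c : L)‖ ≤ 1 := c.2
  rw [← hc, norm_mul, norm_pow] at h1
  linarith [mul_comm (‖(p : L)‖ ^ K) ‖ellV p v K‖]

/-- The logarithm `log_v(y) = ∑_K ℓ_K y^(p^K)`. -/
def logV (v : ℕ → OC L) (y : L) : L := ∑' K : ℕ, ellV p v K * y ^ (p ^ K)

/-- The elementary limit: `a^K ρ^(p^K) → 0`. -/
private lemma tendsto_pow_mul_pow_pow (a ρ : ℝ) (ha : 0 ≤ a) (hρ0 : 0 ≤ ρ) (hρ1 : ρ < 1) :
    Filter.Tendsto (fun K : ℕ => a ^ K * ρ ^ (p ^ K)) Filter.atTop (nhds 0) := by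
  have hp2 : 2 ≤ p := (Fact.out : p.Prime).two_le
  have h1 : Filter.Tendsto (fun K : ℕ => a * ρ ^ K) Filter.atTop (nhds 0) := by
    simpa using (tendsto_pow_atTop_nhds_zero_of_lt_one hρ0 hρ1).const_mul a
  have h2 : ∀ᶠ K : ℕ in Filter.atTop, a * ρ ^ K ≤ 1 / 2 :=
    h1.eventually_le_const (by norm_num)
  have h3 : ∀ K : ℕ, 4 ≤ K → K * K ≤ 2 ^ K := by
    intro K hK
    induction K, hK using Nat.le_induction with
    | base => norm_num
    | succ K hK ih =>
      rw [pow_succ]
      nlinarith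
  have h4 : Filter.Tendsto (fun K : ℕ => ((1 : ℝ) / 2) ^ K) Filter.atTop (nhds 0) :=
    tendsto_pow_atTop_nhds_zero_of_lt_one (by norm_num) (by norm_num)
  refine squeeze_zero' (Filter.Eventually.of_forall fun K => by positivity) ?_ h4
  filter_upwards [h2, Filter.eventually_ge_atTop 4] with K hK1 hK2
  have h5 : K * K ≤ p ^ K := (h3 K hK2).trans (Nat.pow_le_pow_left hp2 K)
  calc a ^ K * ρ ^ (p ^ K) ≤ a ^ K * ρ ^ (K * K) := by
        gcongr ?_ * ?_
        exact pow_le_pow_of_le_one hρ0 hρ1.le h5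
    _ = (a * ρ ^ K) ^ K := by rw [mul_pow, ← pow_mul]
    _ ≤ (1 / 2) ^ K := by
        gcongr

private lemma natCast_p_ne_zero : (p : L) ≠ 0 :=
  Nat.cast_ne_zero.mpr (Fact.out : p.Prime).ne_zero

/-- Norm of the `K`-th term. -/
private lemma logEval_norm_term_le (v : ℕ → OC L) (K : ℕ) (y : L) :
    ‖ellV p v K * y ^ (p ^ K)‖ ≤ (‖(p : L)‖⁻¹) ^ K * ‖y‖ ^ (p ^ K) := by
  have hp0 : 0 < ‖(p : L)‖ := norm_pos_iff.mpr (natCast_p_ne_zero p)
  rw [norm_mul, norm_pow]
  gcongr
  rw [inv_pow, ← one_div, le_div_iff₀ (by positivity)]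
  exact norm_ellV_le p v K

private lemma tendsto_bound (y : L) (hy : ‖y‖ < 1) :
    Filter.Tendsto (fun K : ℕ => (‖(p : L)‖⁻¹) ^ K * ‖y‖ ^ (p ^ K)) Filter.atTop (nhds 0) :=
  tendsto_pow_mul_pow_pow p _ _ (by positivity) (norm_nonneg _) hy

private lemma tendsto_term (v : ℕ → OC L) (y : L) (hy : ‖y‖ < 1) :
    Filter.Tendsto (fun K : ℕ => ellV p v K * y ^ (p ^ K)) Filter.atTop (nhds 0) := by
  rw [tendsto_zero_iff_norm_tendsto_zero]
  exact squeeze_zero (fun _ => norm_nonneg _) (fun K => logEval_norm_term_le p v K y) (tendsto_bound p y hy)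

theorem summable_logV (v : ℕ → OC L) (hp : (p : L) ≠ 0) (y : L) (hy : ‖y‖ < 1) :
    Summable (fun K : ℕ => ellV p v K * y ^ (p ^ K)) := by
  apply NonarchimedeanAddGroup.summable_of_tendsto_cofinite_zero
  rw [Nat.cofinite_eq_atTop]
  exact tendsto_term p v y hy


/-! ### Formal logarithm over `L` -/

/-- The logarithm series over `L` with parameters `v`. -/
def logS (v : ℕ → OC L) : PowerSeries L :=
  PowerSeries.map (MvPolynomial.aeval (fun i => ((v i : OC L) : L)) : UQ →ₐ[ℚ] L).toRingHom (hzLog p)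

theorem coeff_logS_pow (v : ℕ → OC L) (K : ℕ) :
    PowerSeries.coeff (p ^ K) (logS p v) = ellV p v K := by
  simp [logS, coeff_hzLog, ellV]

theorem coeff_logS_of_not (v : ℕ → OC L) (j : ℕ) (hj : ¬ ∃ K, j = p ^ K) :
    PowerSeries.coeff j (logS p v) = 0 := by
  simp [logS, coeff_hzLog_of_not p j hj]

theorem constantCoeff_logS (v : ℕ → OC L) : PowerSeries.constantCoeff (logS p v) = 0 := by
  have h := coeff_logS_of_not p v 0 (by
    rintro ⟨K, hK⟩
    exact (pow_ne_zero K (Fact.out : p.Prime).ne_zero) hK.symm)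
  simpa using h

private lemma coeff_pow_eq_zero {σ R : Type*} [CommRing R] (a : MvPowerSeries σ R)
    (ha : MvPowerSeries.constantCoeff a = 0) (e : σ →₀ ℕ) (d : ℕ) (h : e.degree < d) :
    MvPowerSeries.coeff e (a ^ d) = 0 := by
  apply MvPowerSeries.coeff_of_lt_order
  exact lt_of_lt_of_le (by exact_mod_cast h)
    (MvPowerSeries.le_order_pow_of_constantCoeff_eq_zero d ha)

private lemma coeff_subst_logS {τ : Type} (v : ℕ → OC L) (a : MvPowerSeries τ L)
    (ha : MvPowerSeries.constantCoeff a = 0) (e : τ →₀ ℕ) (N : ℕ) (he : e.degree < p ^ (N + 1)) :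
    MvPowerSeries.coeff e (PowerSeries.subst a (logS p v)) =
      ∑ K ∈ Finset.range (N + 1), ellV p v K * MvPowerSeries.coeff e (a ^ (p ^ K)) := by
  classical
  have hp1 : 1 < p := (Fact.out : p.Prime).one_lt
  have hinj : Function.Injective (fun K : ℕ => p ^ K) := Nat.pow_right_injective hp1
  rw [PowerSeries.coeff_subst (PowerSeries.HasSubst.of_constantCoeff_zero ha)]
  rw [finsum_eq_sum_of_support_subset (s := (Finset.range (N + 1)).image (fun K : ℕ => p ^ K))]
  · rw [Finset.sum_image (fun _ _ _ _ h => hinj h)]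
    refine Finset.sum_congr rfl fun K _ => ?_
    rw [coeff_logS_pow, smul_eq_mul]
  · intro d hd
    simp only [Function.mem_support, smul_eq_mul, ne_eq] at hd
    simp only [Finset.coe_image, Finset.coe_range, Set.mem_image, Set.mem_Iio]
    by_cases h : ∃ K, d = p ^ K
    · obtain ⟨K, rfl⟩ := h
      refine ⟨K, ?_, rfl⟩
      by_contra hK
      apply hd
      rw [coeff_pow_eq_zero a ha e _ (lt_of_lt_of_le he (Nat.pow_le_pow_right hp1.le (by omega)))]
      simp
    · exact absurd (by rw [coeff_logS_of_not p v d h, zero_mul]) hd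

private lemma hzv_map_coe (v : ℕ → OC L) :
    (hzv p v).map (OC L).subtype = hzv p (fun i => ((v i : OC L) : L)) := hzv_map p _ v

/-- The coefficients of `log` are formally additive below degree `p^(N+1)`. -/
private lemma coeff_log_add (v : ℕ → OC L) (d : Fin 2 →₀ ℕ) (N : ℕ) (hd : d.degree < p ^ (N + 1)) :
    ∑ K ∈ Finset.range (N + 1), ellV p v K *
        (MvPowerSeries.coeff d ((MvPowerSeries.map (OC L).subtype (hzv p v).toPowerSeries) ^ (p ^ K))
          - MvPowerSeries.coeff d ((MvPowerSeries.X 0 : MvPowerSeries (Fin 2) L) ^ (p ^ K))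
          - MvPowerSeries.coeff d ((MvPowerSeries.X 1 : MvPowerSeries (Fin 2) L) ^ (p ^ K))) = 0 := by
  have h := hzv_log p (fun i => ((v i : OC L) : L))
  have hF : (hzv p (fun i => ((v i : OC L) : L))).toPowerSeries =
      MvPowerSeries.map (OC L).subtype (hzv p v).toPowerSeries := by
    rw [← hzv_map_coe]; rfl
  rw [hF] at h
  have hc0 : MvPowerSeries.constantCoeff
      (MvPowerSeries.map (OC L).subtype (hzv p v).toPowerSeries) = 0 := by
    rw [← hF]; exact (hzv p _).zero_constantCoeff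
  have h' := congrArg (MvPowerSeries.coeff d) h
  rw [map_add] at h'
  change MvPowerSeries.coeff d (PowerSeries.subst _ (logS p v)) =
    MvPowerSeries.coeff d (PowerSeries.subst _ (logS p v)) +
      MvPowerSeries.coeff d (PowerSeries.subst _ (logS p v)) at h'
  rw [coeff_subst_logS p v _ hc0 d N hd, coeff_subst_logS p v _ (by simp) d N hd,
    coeff_subst_logS p v _ (by simp) d N hd, ← Finset.sum_add_distrib] at h'
  have : ∀ K, ellV p v K *
        (MvPowerSeries.coeff d ((MvPowerSeries.map (OC L).subtype (hzv p v).toPowerSeries) ^ (p ^ K))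
          - MvPowerSeries.coeff d ((MvPowerSeries.X 0 : MvPowerSeries (Fin 2) L) ^ (p ^ K))
          - MvPowerSeries.coeff d ((MvPowerSeries.X 1 : MvPowerSeries (Fin 2) L) ^ (p ^ K))) =
      ellV p v K * MvPowerSeries.coeff d ((MvPowerSeries.map (OC L).subtype (hzv p v).toPowerSeries) ^ (p ^ K))
      - (ellV p v K * MvPowerSeries.coeff d ((MvPowerSeries.X 0 : MvPowerSeries (Fin 2) L) ^ (p ^ K))
        + ellV p v K * MvPowerSeries.coeff d ((MvPowerSeries.X 1 : MvPowerSeries (Fin 2) L) ^ (p ^ K))) := by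
    intro K; ring
  simp_rw [this]
  rw [Finset.sum_sub_distrib, h', sub_self]

/-- The truncated logarithm defect bound. -/
private lemma norm_partial_defect_le (v : ℕ → OC L) (x y : L) (hx : ‖x‖ < 1) (hy : ‖y‖ < 1) (N : ℕ) :
    ‖∑ K ∈ Finset.range (N + 1), ellV p v K *
        ((lawAdd (hzv p v) x y) ^ (p ^ K) - x ^ (p ^ K) - y ^ (p ^ K))‖ ≤
      (‖(p : L)‖⁻¹) ^ N * (max ‖x‖ ‖y‖) ^ (p ^ (N + 1)) := by
  classical
  have hp0 : (p : L) ≠ 0 := natCast_p_ne_zero p
  have hpn : 0 < ‖(p : L)‖ := norm_pos_iff.mpr hp0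
  have hp1 : ‖(p : L)‖ ≤ 1 := by
    have : ((p : OC L) : L) = (p : L) := by simp
    rw [← this]; exact ((p : OC L)).2
  -- integral coefficients
  choose c hc using exists_pow_mul_ellV p v
  let a : ℕ → OC L := fun K => (p : OC L) ^ (N - K) * c K
  have ha : ∀ K, K ∈ Finset.range (N + 1) → ((a K : OC L) : L) = (p : L) ^ N * ellV p v K := by
    intro K hK
    have hK' : K ≤ N := by simpa [Nat.lt_succ_iff] using hK
    simp only [a, MulMemClass.coe_mul, SubmonoidClass.coe_pow, ← hc K, SubringClass.coe_natCast]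
    rw [← mul_assoc, ← pow_add, Nat.sub_add_cancel hK']
  let F := (hzv p v).toPowerSeries
  let G : MvPowerSeries (Fin 2) (OC L) := ∑ K ∈ Finset.range (N + 1), MvPowerSeries.C (a K) *
    (F ^ (p ^ K) - (MvPowerSeries.X 0) ^ (p ^ K) - (MvPowerSeries.X 1) ^ (p ^ K))
  have hpt : ∀ i, ‖(![x, y] : Fin 2 → L) i‖ < 1 := by
    intro i; fin_cases i <;> simpa
  have hpt' : ∀ i, ‖(![x, y] : Fin 2 → L) i‖ ≤ max ‖x‖ ‖y‖ := by
    intro i; fin_cases i <;> simp
  -- value of `G`
  have hval : evMv G ![x, y] = (p : L) ^ N * ∑ K ∈ Finset.range (N + 1), ellV p v K *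
        ((lawAdd (hzv p v) x y) ^ (p ^ K) - x ^ (p ^ K) - y ^ (p ^ K)) := by
    rw [← coe_evHom ![x, y] hpt G]
    have hC : ∀ u : OC L, evHom ![x, y] hpt (MvPowerSeries.C u) = u := by
      intro u; apply Subtype.ext; rw [coe_evHom, evMv_C _ hpt]
    have hX : ∀ i, ((evHom ![x, y] hpt (MvPowerSeries.X i) : OC L) : L) = (![x, y] : Fin 2 → L) i := by
      intro i; rw [coe_evHom, evMv_X _ hpt]
    have hFv : ((evHom ![x, y] hpt F : OC L) : L) = lawAdd (hzv p v) x y := by
      rw [coe_evHom]; rfl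
    simp only [G, map_sum, map_mul, map_sub, map_pow, hC]
    rw [AddSubmonoidClass.coe_finsetSum, Finset.mul_sum]
    refine Finset.sum_congr rfl fun K hK => ?_
    simp only [MulMemClass.coe_mul, AddSubgroupClass.coe_sub, SubmonoidClass.coe_pow, hFv, hX,
      ha K hK]
    simp only [Matrix.cons_val_zero, Matrix.cons_val_one]
    ring
  -- order of `G`
  have hord : ∀ d : Fin 2 →₀ ℕ, d.degree < p ^ (N + 1) → MvPowerSeries.coeff d G = 0 := by
    intro d hd
    apply Subtype.ext
    have h0 := coeff_log_add p v d N hd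
    have h1 : ((MvPowerSeries.coeff d G : OC L) : L) =
        MvPowerSeries.coeff d (MvPowerSeries.map (OC L).subtype G) := by
      rw [MvPowerSeries.coeff_map]; rfl
    rw [h1]
    simp only [G, map_sum, map_mul, map_sub, map_pow, MvPowerSeries.map_C, MvPowerSeries.map_X,
      MvPowerSeries.coeff_C_mul]
    rw [Subring.coe_zero]
    have h2 : ∀ K ∈ Finset.range (N + 1), (OC L).subtype (a K) *
        (MvPowerSeries.coeff d ((MvPowerSeries.map (OC L).subtype F) ^ (p ^ K))
          - MvPowerSeries.coeff d ((MvPowerSeries.X 0 : MvPowerSeries (Fin 2) L) ^ (p ^ K))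
          - MvPowerSeries.coeff d ((MvPowerSeries.X 1 : MvPowerSeries (Fin 2) L) ^ (p ^ K))) =
       (p : L) ^ N * (ellV p v K *
        (MvPowerSeries.coeff d ((MvPowerSeries.map (OC L).subtype (hzv p v).toPowerSeries) ^ (p ^ K))
          - MvPowerSeries.coeff d ((MvPowerSeries.X 0 : MvPowerSeries (Fin 2) L) ^ (p ^ K))
          - MvPowerSeries.coeff d ((MvPowerSeries.X 1 : MvPowerSeries (Fin 2) L) ^ (p ^ K)))) := by
      intro K hK
      simp only [Subring.subtype_apply, ha K hK]
      ring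
    rw [Finset.sum_congr rfl h2, ← Finset.mul_sum, h0, mul_zero]
  -- conclude
  have hρ1 : max ‖x‖ ‖y‖ < 1 := max_lt hx hy
  have hle := norm_evMv_le_of_order G (p ^ (N + 1)) hord ![x, y] (max ‖x‖ ‖y‖) hρ1
    (le_max_of_le_left (norm_nonneg _)) hpt'
  rw [hval, norm_mul, norm_pow] at hle
  rw [inv_pow, ← div_eq_inv_mul, le_div_iff₀ (by positivity), mul_comm]
  exact hle

/-- **Additivity.** `log_v(x +_v y) = log_v x + log_v y` on the open ball. Proof: the formal identity `hzv_log` + rearrangement: for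
`ρ = max(‖x‖,‖y‖)`, the family (degree `D` in `(x,y)` of `ℓ_K F(x,y)^(p^K)`) has norm `≤ ‖p‖^(-K) ρ^D`, `D ≥ p^K`, which tends to `0`;
an ultrametric summable double family may be rearranged. -/
theorem logV_add (v : ℕ → OC L) (x y : L) (hx : ‖x‖ < 1) (hy : ‖y‖ < 1) :
    logV p v (lawAdd (hzv p v) x y) = logV p v x + logV p v y := by
  have hp0 : (p : L) ≠ 0 := natCast_p_ne_zero p
  have hs : ‖lawAdd (hzv p v) x y‖ < 1 := (norm_lawAdd_le _ x y hx hy).trans_lt (max_lt hx hy)
  have h1 := ((summable_logV p v hp0 _ hs).hasSum.tendsto_sum_nat).comp (Filter.tendsto_add_atTop_nat 1)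
  have h2 := ((summable_logV p v hp0 _ hx).hasSum.tendsto_sum_nat).comp (Filter.tendsto_add_atTop_nat 1)
  have h3 := ((summable_logV p v hp0 _ hy).hasSum.tendsto_sum_nat).comp (Filter.tendsto_add_atTop_nat 1)
  have h4 := (h1.sub h2).sub h3
  have hρ1 : max ‖x‖ ‖y‖ < 1 := max_lt hx hy
  have h5 : Filter.Tendsto (fun N : ℕ => ∑ K ∈ Finset.range (N + 1), ellV p v K *
        ((lawAdd (hzv p v) x y) ^ (p ^ K) - x ^ (p ^ K) - y ^ (p ^ K))) Filter.atTop (nhds 0) := by
    rw [tendsto_zero_iff_norm_tendsto_zero]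
    refine squeeze_zero (fun _ => norm_nonneg _) (fun N => norm_partial_defect_le p v x y hx hy N) ?_
    refine squeeze_zero (fun N => by positivity) (fun N => ?_)
      (tendsto_pow_mul_pow_pow p (‖(p : L)‖⁻¹) (max ‖x‖ ‖y‖) (by positivity)
        (le_max_of_le_left (norm_nonneg _)) hρ1)
    gcongr ?_ * ?_
    apply pow_le_pow_of_le_one (le_max_of_le_left (norm_nonneg _)) hρ1.le
    exact Nat.pow_le_pow_right (Fact.out : p.Prime).pos (Nat.le_succ N)
  have h6 : (fun N : ℕ => ∑ K ∈ Finset.range (N + 1), ellV p v K *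
        ((lawAdd (hzv p v) x y) ^ (p ^ K) - x ^ (p ^ K) - y ^ (p ^ K))) =
      (fun N : ℕ => (∑ K ∈ Finset.range (N + 1), ellV p v K * (lawAdd (hzv p v) x y) ^ (p ^ K))
       - (∑ K ∈ Finset.range (N + 1), ellV p v K * x ^ (p ^ K))
       - (∑ K ∈ Finset.range (N + 1), ellV p v K * y ^ (p ^ K))) := by
    funext N
    rw [← Finset.sum_sub_distrib, ← Finset.sum_sub_distrib]
    exact Finset.sum_congr rfl fun K _ => by ring
  rw [h6] at h5
  have h7 := tendsto_nhds_unique h4 h5
  simp only [logV]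
  linear_combination h7


/-- In an ultrametric field, a null sequence all of whose terms are `< c` has sum `< c`. -/
private lemma norm_tsum_lt (u : ℕ → L) (hu : Filter.Tendsto u Filter.atTop (nhds 0)) (c : ℝ) (hc : 0 < c)
    (h : ∀ K, ‖u K‖ < c) (hs : Summable u) : ‖∑' K, u K‖ < c := by
  have hu' := tendsto_zero_iff_norm_tendsto_zero.mp hu
  obtain ⟨K₀, hK₀⟩ := Filter.eventually_atTop.mp (hu'.eventually_le_const (half_pos hc))
  obtain ⟨K₁, -, hK₁⟩ := Finset.exists_max_image (Finset.range (K₀ + 1)) (fun K => ‖u K‖)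
    ⟨0, by simp⟩
  have hm : max (c / 2) ‖u K₁‖ < c := max_lt (half_lt_self hc) (h K₁)
  refine lt_of_le_of_lt ?_ hm
  have hall : ∀ K, ‖u K‖ ≤ max (c / 2) ‖u K₁‖ := by
    intro K
    by_cases hK : K₀ ≤ K
    · exact (hK₀ K hK).trans (le_max_left _ _)
    · exact (hK₁ K (by simp; omega)).trans (le_max_right _ _)
  have hpart : ∀ N, ‖∑ K ∈ Finset.range N, u K‖ ≤ max (c / 2) ‖u K₁‖ := fun N =>
    IsUltrametricDist.norm_sum_le_of_forall_le_of_nonneg
      (le_max_of_le_left (by positivity)) (fun K _ => hall K)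
  exact le_of_tendsto hs.hasSum.tendsto_sum_nat.norm (Filter.Eventually.of_forall hpart)

/-- Injectivity on a small ball: `log_v(y) = y(1 + small)` if `‖y‖^(p^K - 1) ‖ℓ_K‖ < 1` for all `K ≥ 1`. -/
theorem logV_ne_zero (v : ℕ → OC L) (y : L) (hy0 : y ≠ 0)
    (hsmall : ∀ K, 1 ≤ K → ‖ellV p v K‖ * ‖y‖ ^ (p ^ K - 1) < 1) (hy : ‖y‖ < 1) : logV p v y ≠ 0 := by
  have hp0 : (p : L) ≠ 0 := natCast_p_ne_zero p
  have hypos : 0 < ‖y‖ := norm_pos_iff.mpr hy0
  have hs := summable_logV p v hp0 y hy
  have hsplit : logV p v y = y + ∑' K : ℕ, ellV p v (K + 1) * y ^ (p ^ (K + 1)) := by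
    rw [logV, hs.tsum_eq_zero_add]
    simp [ellV_zero]
  have hlt : ‖∑' K : ℕ, ellV p v (K + 1) * y ^ (p ^ (K + 1))‖ < ‖y‖ := by
    have hb : ∀ K : ℕ, ‖ellV p v (K + 1) * y ^ (p ^ (K + 1))‖ < ‖y‖ := by
      intro K
      have h1 := hsmall (K + 1) (by omega)
      have hpow : 1 ≤ p ^ (K + 1) := Nat.one_le_pow _ _ (Fact.out : p.Prime).pos
      have h2 : ‖y ^ (p ^ (K + 1))‖ = ‖y‖ ^ (p ^ (K + 1) - 1) * ‖y‖ := by
        rw [norm_pow, ← pow_succ, Nat.sub_add_cancel hpow]
      rw [norm_mul, h2, ← mul_assoc]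
      calc _ < 1 * ‖y‖ := by gcongr
        _ = ‖y‖ := one_mul _
    have hs' : Summable (fun K : ℕ => ellV p v (K + 1) * y ^ (p ^ (K + 1))) :=
      (summable_nat_add_iff (f := fun K : ℕ => ellV p v K * y ^ (p ^ K)) 1).mpr hs
    have ht' : Filter.Tendsto (fun K : ℕ => ellV p v (K + 1) * y ^ (p ^ (K + 1)))
        Filter.atTop (nhds 0) :=
      (tendsto_term p v y hy).comp (Filter.tendsto_add_atTop_nat 1)
    exact norm_tsum_lt _ ht' _ hypos hb hs'
  intro h0
  rw [hsplit] at h0
  have : ‖∑' K : ℕ, ellV p v (K + 1) * y ^ (p ^ (K + 1))‖ = ‖y‖ := by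
    rw [eq_neg_of_add_eq_zero_right h0, norm_neg]
  exact absurd this hlt.ne

/-! ### Homomorphisms and logarithms -/

section Additive

variable {τ : Type}

private lemma subst_subst_vec (F : MvPowerSeries (Fin 2) L) (hF : MvPowerSeries.constantCoeff F = 0)
    (b : Fin 2 → MvPowerSeries τ L) (hb : ∀ i, MvPowerSeries.constantCoeff (b i) = 0)
    (D : PowerSeries L) :
    PowerSeries.subst (MvPowerSeries.subst b F) D =
      MvPowerSeries.subst b (PowerSeries.subst F D) := by
  have hb' : MvPowerSeries.HasSubst b := MvPowerSeries.hasSubst_of_constantCoeff_zero hb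
  have hF' : PowerSeries.HasSubst F := PowerSeries.HasSubst.of_constantCoeff_zero hF
  exact (MvPowerSeries.subst_comp_subst_apply hF'.const hb' D).symm

/-- A series additive for the law `F`. -/
private def IsAdd (F : FormalGroup L) (D : PowerSeries L) : Prop :=
  PowerSeries.subst F.toPowerSeries D =
    PowerSeries.subst (MvPowerSeries.X 0 : MvPowerSeries (Fin 2) L) D +
      PowerSeries.subst (MvPowerSeries.X 1 : MvPowerSeries (Fin 2) L) D

private lemma IsAdd.apply {F : FormalGroup L} {D : PowerSeries L} (h : IsAdd F D)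
    (b : Fin 2 → MvPowerSeries τ L) (hb : ∀ i, MvPowerSeries.constantCoeff (b i) = 0) :
    PowerSeries.subst (MvPowerSeries.subst b F.toPowerSeries) D =
      PowerSeries.subst (b 0) D + PowerSeries.subst (b 1) D := by
  have hb' : MvPowerSeries.HasSubst b := MvPowerSeries.hasSubst_of_constantCoeff_zero hb
  rw [subst_subst_vec _ F.zero_constantCoeff b hb, h, MvPowerSeries.subst_add hb',
    ← subst_subst_vec _ (by simp) b hb, ← subst_subst_vec _ (by simp) b hb,
    MvPowerSeries.subst_X hb', MvPowerSeries.subst_X hb']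

private lemma isAdd_sub {F : FormalGroup L} {D E : PowerSeries L} (hD : IsAdd F D) (hE : IsAdd F E) :
    IsAdd F (D - E) := by
  unfold IsAdd at *
  have h0 : PowerSeries.HasSubst F.toPowerSeries :=
    PowerSeries.HasSubst.of_constantCoeff_zero F.zero_constantCoeff
  have h1 : PowerSeries.HasSubst (MvPowerSeries.X 0 : MvPowerSeries (Fin 2) L) :=
    PowerSeries.HasSubst.X 0
  have h2 : PowerSeries.HasSubst (MvPowerSeries.X 1 : MvPowerSeries (Fin 2) L) :=
    PowerSeries.HasSubst.X 1
  rw [PowerSeries.subst_sub h0, PowerSeries.subst_sub h1, PowerSeries.subst_sub h2, hD, hE]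
  ring

private lemma isAdd_C_mul {F : FormalGroup L} {E : PowerSeries L} (hE : IsAdd F E) (c : L) :
    IsAdd F (PowerSeries.C c * E) := by
  unfold IsAdd at *
  have h0 : PowerSeries.HasSubst F.toPowerSeries :=
    PowerSeries.HasSubst.of_constantCoeff_zero F.zero_constantCoeff
  have h1 : PowerSeries.HasSubst (MvPowerSeries.X 0 : MvPowerSeries (Fin 2) L) :=
    PowerSeries.HasSubst.X 0
  have h2 : PowerSeries.HasSubst (MvPowerSeries.X 1 : MvPowerSeries (Fin 2) L) :=
    PowerSeries.HasSubst.X 1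
  rw [PowerSeries.subst_mul h0, PowerSeries.subst_mul h1, PowerSeries.subst_mul h2, hE,
    PowerSeries.subst_C, PowerSeries.subst_C, PowerSeries.subst_C]
  ring

private lemma isAdd_logS (v : ℕ → OC L) :
    IsAdd (hzv p (fun i => ((v i : OC L) : L))) (logS p v) := hzv_log p _

/-- `D ∘ [m]_F = m D`. -/
private lemma scomp_mulSeries {F : FormalGroup L} {D : PowerSeries L} (h : IsAdd F D)
    (hD : PowerSeries.constantCoeff D = 0) (m : ℕ) :
    scomp D (mulSeries F m) = PowerSeries.C (m : L) * D := by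
  induction m with
  | zero =>
    simp only [mulSeries, Nat.cast_zero, map_zero, zero_mul]
    exact PowerSeries.subst_zero_of_constantCoeff_zero hD
  | succ m ih =>
    have hb : ∀ i, MvPowerSeries.constantCoeff ((![mulSeries F m, PowerSeries.X] : Fin 2 → PowerSeries L) i) = 0 := by
      intro i
      fin_cases i
      · exact constantCoeff_mulSeries F m
      · exact PowerSeries.constantCoeff_X
    have h1 := h.apply (τ := Unit) ![mulSeries F m, PowerSeries.X] hb
    simp only [Matrix.cons_val_zero, Matrix.cons_val_one] at h1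
    rw [mulSeries, scomp]
    refine h1.trans ?_
    have h2 : PowerSeries.subst (mulSeries F m) D = PowerSeries.C (m : L) * D := ih
    rw [h2, PowerSeries.X_subst]
    push_cast
    rw [map_add, map_one, add_mul, one_mul]

private lemma coeff_pow_of_coeff_one (a : PowerSeries L) (ha : PowerSeries.constantCoeff a = 0) (m : ℕ) :
    PowerSeries.coeff m (a ^ m) = (PowerSeries.coeff 1 a) ^ m := by
  obtain ⟨b, rfl⟩ := PowerSeries.X_dvd_iff.mpr ha
  rw [mul_pow, PowerSeries.coeff_X_pow_mul', if_pos le_rfl, Nat.sub_self, PowerSeries.coeff_zero_eq_constantCoeff_apply, map_pow]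
  simp [PowerSeries.coeff_succ_X_mul]

private lemma logEval_coeff_scomp_of_order (D a : PowerSeries L) (ha : PowerSeries.constantCoeff a = 0) (m : ℕ)
    (hD : ∀ j, j < m → PowerSeries.coeff j D = 0) :
    PowerSeries.coeff m (scomp D a) = PowerSeries.coeff m D * (PowerSeries.coeff 1 a) ^ m := by
  rw [scomp, PowerSeries.coeff_subst' (PowerSeries.HasSubst.of_constantCoeff_zero' ha)]
  rw [finsum_eq_single _ m]
  · rw [coeff_pow_of_coeff_one a ha, smul_eq_mul]
  · intro d hd
    rcases lt_or_gt_of_ne hd with h | h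
    · rw [hD d h, zero_smul]
    · have : PowerSeries.coeff m (a ^ d) = 0 := by
        have := coeff_pow_eq_zero (σ := Unit) a ha (Finsupp.single () m) d (by simpa using h)
        exact this
      rw [this, smul_zero]

/-- Additive series with vanishing linear term vanish in characteristic `0`. -/
private lemma isAdd_eq_zero {F : FormalGroup L} {D : PowerSeries L} (h : IsAdd F D)
    (hD : PowerSeries.constantCoeff D = 0) (hD1 : PowerSeries.coeff 1 D = 0) : D = 0 := by
  have key : ∀ m j, j < m → PowerSeries.coeff j D = 0 := by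
    intro m
    induction m with
    | zero => intro j hj; omega
    | succ m ih =>
      intro j hj
      rcases Nat.lt_succ_iff_lt_or_eq.mp hj with hj' | rfl
      · exact ih j hj'
      · rcases (by omega : j = 0 ∨ j = 1 ∨ 2 ≤ j) with rfl | rfl | h2
        · simpa using hD
        · exact hD1
        · have h3 := logEval_coeff_scomp_of_order D (mulSeries F 2) (constantCoeff_mulSeries F 2) j ih
          rw [scomp_mulSeries h hD 2, coeff_one_mulSeries, PowerSeries.coeff_C_mul] at h3
          have h4 : ((2 : ℕ) : L) ^ j - (2 : ℕ) ≠ 0 := by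
            have : (2 : ℕ) ^ j ≠ 2 := by
              intro h5
              have : 2 ^ 2 ≤ 2 ^ j := Nat.pow_le_pow_right (by norm_num) h2
              omega
            rw [sub_ne_zero]
            exact_mod_cast this
          have h5 : (((2 : ℕ) : L) ^ j - (2 : ℕ)) * PowerSeries.coeff j D = 0 := by
            linear_combination -h3
          exact (mul_eq_zero.mp h5).resolve_left h4
  ext j
  simpa using key (j + 1) j (Nat.lt_succ_self j)

end Additive

section LogIdentity

variable (v v' : ℕ → OC L) (θ : PowerSeries (OC L))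

private abbrev ιL : OC L →+* L := (OC L).subtype

/-- `log ∘ θ`. -/
private def Hser (θ : PowerSeries (OC L)) : PowerSeries L :=
  scomp (logS p v) (PowerSeries.map ιL θ)

private lemma isAdd_Hser (hθ : IsFGHom (hzv p v') (hzv p v) θ) :
    IsAdd (hzv p (fun i => ((v' i : OC L) : L))) (Hser p v θ) := by
  have hθL := fgHom_map hθ (ιL (L := L))
  rw [hzv_map_coe, hzv_map_coe] at hθL
  obtain ⟨h0, hcomp⟩ := hθL
  have hs : PowerSeries.HasSubst (PowerSeries.map ιL θ : PowerSeries L) :=
    PowerSeries.HasSubst.of_constantCoeff_zero' h0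
  unfold IsAdd Hser scomp
  have hF' : PowerSeries.HasSubst (hzv p (fun i => ((v' i : OC L) : L))).toPowerSeries :=
    PowerSeries.HasSubst.of_constantCoeff_zero (FormalGroup.zero_constantCoeff _)
  have hX0 : PowerSeries.HasSubst (MvPowerSeries.X 0 : MvPowerSeries (Fin 2) L) :=
    PowerSeries.HasSubst.X 0
  have hX1 : PowerSeries.HasSubst (MvPowerSeries.X 1 : MvPowerSeries (Fin 2) L) :=
    PowerSeries.HasSubst.X 1
  rw [PowerSeries.subst_comp_subst_apply hs hF', PowerSeries.subst_comp_subst_apply hs hX0,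
    PowerSeries.subst_comp_subst_apply hs hX1, hcomp]
  have hb : ∀ i, MvPowerSeries.constantCoeff
      ((![PowerSeries.subst (MvPowerSeries.X 0 : MvPowerSeries (Fin 2) L) (PowerSeries.map ιL θ),
          PowerSeries.subst (MvPowerSeries.X 1 : MvPowerSeries (Fin 2) L) (PowerSeries.map ιL θ)] :
          Fin 2 → MvPowerSeries (Fin 2) L) i) = 0 := by
    intro i
    fin_cases i
    · exact PowerSeries.constantCoeff_subst_eq_zero (by simp) _ h0
    · exact PowerSeries.constantCoeff_subst_eq_zero (by simp) _ h0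
  exact (isAdd_logS p v).apply _ hb

/-- Congruent arguments give congruent compositions. -/
private lemma coeff_scomp_congr (f a b : PowerSeries L) (ha : PowerSeries.constantCoeff a = 0)
    (hb : PowerSeries.constantCoeff b = 0) (M : ℕ)
    (hab : ∀ i, i < M → PowerSeries.coeff i a = PowerSeries.coeff i b) (i : ℕ) (hi : i < M) :
    PowerSeries.coeff i (scomp f a) = PowerSeries.coeff i (scomp f b) := by
  rw [scomp, scomp, PowerSeries.coeff_subst' (PowerSeries.HasSubst.of_constantCoeff_zero' ha),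
    PowerSeries.coeff_subst' (PowerSeries.HasSubst.of_constantCoeff_zero' hb)]
  refine finsum_congr fun d => ?_
  have h1 : (PowerSeries.X : PowerSeries L) ^ M ∣ a - b := by
    rw [PowerSeries.X_pow_dvd_iff]
    intro m hm
    rw [map_sub, hab m hm, sub_self]
  have h2 : (PowerSeries.X : PowerSeries L) ^ M ∣ a ^ d - b ^ d := h1.trans (sub_dvd_pow_sub_pow a b d)
  rw [PowerSeries.X_pow_dvd_iff] at h2
  have h3 := h2 i hi
  rw [map_sub, sub_eq_zero] at h3
  rw [h3]

/-- The composition `log ∘ (token sum)` is the sum of the `log ∘ token`. -/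
private lemma scomp_tokenSum (t : ℕ → OC L) (N : ℕ) :
    scomp (logS p v) (PowerSeries.map ιL
        (∑ j ∈ Finset.range N, tokenPt (hzv p v) (t j) (p ^ j)
          (pow_ne_zero _ (Fact.out : p.Prime).ne_zero) : (hzv p v).Point Unit).val) =
      ∑ j ∈ Finset.range N, scomp (logS p v)
        (PowerSeries.C ((t j : OC L) : L) * PowerSeries.X ^ (p ^ j)) ∧
    PowerSeries.constantCoeff (PowerSeries.map ιL
        (∑ j ∈ Finset.range N, tokenPt (hzv p v) (t j) (p ^ j)
          (pow_ne_zero _ (Fact.out : p.Prime).ne_zero) : (hzv p v).Point Unit).val) = 0 := by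
  induction N with
  | zero =>
    constructor
    · simp only [Finset.range_zero, Finset.sum_empty]
      have : ((0 : (hzv p v).Point Unit).val : PowerSeries (OC L)) = 0 := rfl
      rw [this, map_zero]
      exact PowerSeries.subst_zero_of_constantCoeff_zero (constantCoeff_logS p v)
    · simp only [Finset.range_zero, Finset.sum_empty]
      have : ((0 : (hzv p v).Point Unit).val : PowerSeries (OC L)) = 0 := rfl
      rw [this, map_zero, map_zero]
  | succ N ih =>
    obtain ⟨ih1, ih2⟩ := ih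
    set S := (∑ j ∈ Finset.range N, tokenPt (hzv p v) (t j) (p ^ j)
          (pow_ne_zero _ (Fact.out : p.Prime).ne_zero) : (hzv p v).Point Unit) with hS
    have hSval : (PowerSeries.HasSubst S.val) := S.2
    have htok : (PowerSeries.map ιL (PowerSeries.C (t N) * PowerSeries.X ^ (p ^ N)) : PowerSeries L) =
        PowerSeries.C ((t N : OC L) : L) * PowerSeries.X ^ (p ^ N) := by
      simp [ιL]
    have hpne : p ^ N ≠ 0 := pow_ne_zero _ (Fact.out : p.Prime).ne_zero
    have hcc : PowerSeries.constantCoeff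
        (PowerSeries.C ((t N : OC L) : L) * PowerSeries.X ^ (p ^ N) : PowerSeries L) = 0 := by
      rw [map_mul, map_pow, PowerSeries.constantCoeff_X, zero_pow hpne, mul_zero]
    have hval : ((S + tokenPt (hzv p v) (t N) (p ^ N) hpne).val : PowerSeries (OC L)) =
        (hzv p v).toPowerSeries.subst ![S.val, PowerSeries.C (t N) * PowerSeries.X ^ (p ^ N)] := rfl
    have hsum : (∑ j ∈ Finset.range (N + 1), tokenPt (hzv p v) (t j) (p ^ j)
          (pow_ne_zero _ (Fact.out : p.Prime).ne_zero) : (hzv p v).Point Unit) =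
        S + tokenPt (hzv p v) (t N) (p ^ N) hpne := by
      rw [Finset.sum_range_succ]
    have hHas : MvPowerSeries.HasSubst
        (![S.val, PowerSeries.C (t N) * PowerSeries.X ^ (p ^ N)] : Fin 2 → PowerSeries (OC L)) := by
      apply MvPowerSeries.hasSubst_of_constantCoeff_nilpotent
      intro i
      fin_cases i
      · exact S.2
      · change IsNilpotent (PowerSeries.constantCoeff
          (PowerSeries.C (t N) * PowerSeries.X ^ (p ^ N) : PowerSeries (OC L)))
        rw [map_mul, map_pow, PowerSeries.constantCoeff_X, zero_pow hpne, mul_zero]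
        exact IsNilpotent.zero
    have hmap : PowerSeries.map ιL
        ((hzv p v).toPowerSeries.subst ![S.val, PowerSeries.C (t N) * PowerSeries.X ^ (p ^ N)]) =
        MvPowerSeries.subst (![PowerSeries.map ιL S.val,
            PowerSeries.C ((t N : OC L) : L) * PowerSeries.X ^ (p ^ N)] : Fin 2 → PowerSeries L)
          (hzv p (fun i => ((v i : OC L) : L))).toPowerSeries := by
      rw [← hzv_map_coe]
      have := MvPowerSeries.map_subst hHas (h := ιL) (hzv p v).toPowerSeries
      have h2 : (fun i => MvPowerSeries.map ιL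
          ((![S.val, PowerSeries.C (t N) * PowerSeries.X ^ (p ^ N)] : Fin 2 → PowerSeries (OC L)) i)) =
          (![PowerSeries.map ιL S.val,
            PowerSeries.C ((t N : OC L) : L) * PowerSeries.X ^ (p ^ N)] : Fin 2 → PowerSeries L) := by
        funext i
        fin_cases i
        · rfl
        · exact htok
      rw [h2] at this
      exact this
    have hb : ∀ i, MvPowerSeries.constantCoeff ((![PowerSeries.map ιL S.val,
            PowerSeries.C ((t N : OC L) : L) * PowerSeries.X ^ (p ^ N)] : Fin 2 → PowerSeries L) i) = 0 := by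
      intro i
      fin_cases i
      · exact ih2
      · exact hcc
    rw [hsum, hval, hmap]
    constructor
    · have := (isAdd_logS p v).apply (τ := Unit) _ hb
      simp only [Matrix.cons_val_zero, Matrix.cons_val_one] at this
      rw [Finset.sum_range_succ, ← ih1]
      exact this
    · exact MvPowerSeries.constantCoeff_subst_eq_zero
        (MvPowerSeries.hasSubst_of_constantCoeff_zero hb) hb (FormalGroup.zero_constantCoeff _)

/-- The coefficient of `X^(p^K)` of `log(t X^(p^j))`. -/
private lemma coeff_scomp_token (t : L) (j K : ℕ) (hj : j ≤ K) :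
    PowerSeries.coeff (p ^ K) (scomp (logS p v) (PowerSeries.C t * PowerSeries.X ^ (p ^ j))) =
      ellV p v (K - j) * t ^ (p ^ (K - j)) := by
  have hp1 : 1 < p := (Fact.out : p.Prime).one_lt
  have hp0 : 0 < p := (Fact.out : p.Prime).pos
  have hpne : p ^ j ≠ 0 := pow_ne_zero _ (Fact.out : p.Prime).ne_zero
  have hcc : PowerSeries.constantCoeff (PowerSeries.C t * PowerSeries.X ^ (p ^ j) : PowerSeries L) = 0 := by
    rw [map_mul, map_pow, PowerSeries.constantCoeff_X, zero_pow hpne, mul_zero]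
  rw [scomp, PowerSeries.coeff_subst' (PowerSeries.HasSubst.of_constantCoeff_zero' hcc)]
  rw [finsum_eq_single _ (p ^ (K - j))]
  · rw [coeff_logS_pow, smul_eq_mul, mul_pow, ← map_pow, ← pow_mul, PowerSeries.coeff_C_mul,
      ← pow_add, Nat.add_sub_cancel' hj, PowerSeries.coeff_X_pow_self, mul_one] 
  · intro d hd
    rw [mul_pow, ← map_pow, ← pow_mul, PowerSeries.coeff_C_mul, PowerSeries.coeff_X_pow, if_neg,
      mul_zero, smul_zero]
    intro h
    apply hd
    have h2 : p ^ K = p ^ j * p ^ (K - j) := by rw [← pow_add, Nat.add_sub_cancel' hj]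
    rw [h2] at h
    exact (Nat.eq_of_mul_eq_mul_left (Nat.pos_of_ne_zero hpne) h).symm

end LogIdentity

/-- Homomorphisms into characteristic zero: `θ : F_v' → F_v` gives `log_v ∘ θ = c log_v'`, `c = θ_1`. Formally: `log_v ∘ θ ∘ log_v'⁻¹` is
an additive series over the `ℚ`-algebra `L`, so linear. Coefficients: with `θ = ∑^{F_v}_j t_j X^(p^j)`:
`c ℓ_K(v') = ∑_{j+m=K} ℓ_m(v) t_j^(p^m)`. -/
theorem log_identity (v v' : ℕ → OC L) (θ : PowerSeries (OC L)) (hθ : IsFGHom (hzv p v') (hzv p v) θ)
    (t : ℕ → OC L) (ht0 : t 0 = PowerSeries.coeff 1 θ)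
    (ht : ∀ N i, i < p ^ N → PowerSeries.coeff i θ = PowerSeries.coeff i
      ((∑ j ∈ Finset.range N, tokenPt (hzv p v) (t j) (p ^ j) (pow_ne_zero _ (Fact.out : p.Prime).ne_zero) :
        (hzv p v).Point Unit).val)) (K : ℕ) :
    ((t 0 : OC L) : L) * ellV p v' K =
      ∑ j ∈ Finset.range (K + 1), ellV p v (K - j) * ((t j : OC L) : L) ^ (p ^ (K - j)) := by
  have hp1 : 1 < p := (Fact.out : p.Prime).one_lt
  have hθ0 : PowerSeries.constantCoeff (PowerSeries.map ιL θ : PowerSeries L) = 0 := by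
    rw [← PowerSeries.coeff_zero_eq_constantCoeff_apply, PowerSeries.coeff_map,
      PowerSeries.coeff_zero_eq_constantCoeff_apply, hθ.1, map_zero]
  -- The additive series `D = log ∘ θ - c log'`.
  have hadd := isAdd_sub (isAdd_Hser p v v' θ hθ)
    (isAdd_C_mul (isAdd_logS p v') ((t 0 : OC L) : L))
  have hc1 : PowerSeries.coeff 1 (logS p v) = 1 := by
    have := coeff_logS_pow p v 0
    rwa [pow_zero, ellV_zero] at this
  have hc1' : PowerSeries.coeff 1 (logS p v') = 1 := by
    have := coeff_logS_pow p v' 0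
    rwa [pow_zero, ellV_zero] at this
  have hD0 : PowerSeries.constantCoeff
      (Hser p v θ - PowerSeries.C ((t 0 : OC L) : L) * logS p v') = 0 := by
    rw [map_sub, map_mul, constantCoeff_logS, mul_zero, sub_zero]
    exact constantCoeff_scomp _ _ (constantCoeff_logS p v) hθ0
  have hD1 : PowerSeries.coeff 1
      (Hser p v θ - PowerSeries.C ((t 0 : OC L) : L) * logS p v') = 0 := by
    rw [map_sub, PowerSeries.coeff_C_mul, hc1', mul_one, Hser,
      coeff_one_scomp _ _ (constantCoeff_logS p v) hθ0, hc1, one_mul, ht0, PowerSeries.coeff_map]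
    exact sub_self _
  have hD := isAdd_eq_zero hadd hD0 hD1
  -- Take the coefficient of `X^(p^K)`.
  have hco := congrArg (PowerSeries.coeff (p ^ K)) hD
  rw [map_sub, PowerSeries.coeff_C_mul, coeff_logS_pow, map_zero, sub_eq_zero] at hco
  rw [← hco]
  -- Compare with the token sum.
  have hsum := scomp_tokenSum p v t (K + 1)
  have hlt : p ^ K < p ^ (K + 1) := Nat.pow_lt_pow_right hp1 (Nat.lt_succ_self K)
  rw [Hser, coeff_scomp_congr (logS p v) _ _ hθ0 hsum.2 (p ^ (K + 1)) ?_ (p ^ K) hlt, hsum.1, map_sum]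
  · refine Finset.sum_congr rfl fun j hj => ?_
    exact coeff_scomp_token p v _ j K (by simpa [Nat.lt_succ_iff] using hj)
  · intro i hi
    rw [PowerSeries.coeff_map, PowerSeries.coeff_map, ht (K + 1) i hi]

end

end Crest.Agent.LT
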