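/-
S0351 package LAZARD: laws over `𝔽_{p^e}` with `[p] = X^(p^e)` are unique up to isomorphism.
See BLUEPRINT.md §L.
-/
import Crest.Agent.LT.Formal

set_option autoImplicit false

open Crest.LubinTate
open scoped Classical

namespace Crest.Agent.LT

namespace LazardAux


/-- `C(pa, pb) ≡ C(a, b) mod p` (Lucas). -/
theorem choose_mul_cast (p : ℕ) [hp : Fact p.Prime] {K : Type*} [Field K] [CharP K p] (a b : ℕ) :
    ((Nat.choose (p * a) (p * b) : ℕ) : K) = ((Nat.choose a b : ℕ) : K) := by
  have h := Choose.choose_modEq_choose_mod_mul_choose_div_nat (p := p) (n := p * a) (k := p * b)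
  have hp0 : 0 < p := hp.out.pos
  simp only [Nat.mul_mod_right, Nat.mul_div_cancel_left _ hp0, Nat.choose_self, one_mul] at h
  exact (CharP.natCast_eq_natCast K p).2 h

/-- `C(pM + (p-1), p-1) ≡ 1 mod p`. -/
theorem choose_pred_cast (p : ℕ) [hp : Fact p.Prime] {K : Type*} [Field K] [CharP K p] (M : ℕ) :
    ((Nat.choose (p * M + (p - 1)) (p - 1) : ℕ) : K) = 1 := by
  have h := Choose.choose_modEq_choose_mod_mul_choose_div_nat (p := p) (n := p * M + (p - 1))
    (k := p - 1)
  have hp0 : 0 < p := hp.out.pos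
  have h1 : (p * M + (p - 1)) % p = p - 1 := by
    rw [Nat.mul_add_mod]; exact Nat.mod_eq_of_lt (by omega)
  have h2 : (p - 1) % p = p - 1 := Nat.mod_eq_of_lt (by omega)
  have h3 : (p - 1) / p = 0 := Nat.div_eq_of_lt (by omega)
  rw [h1, h2, h3] at h
  simp only [Nat.choose_self, Nat.choose_zero_right, mul_one] at h
  have := (CharP.natCast_eq_natCast K p).2 h
  simpa using this

/-- `C(p^(k+1), p i) ≡ C(p^k, i) mod p^(k+1)`. -/
theorem choose_pow_congr (p : ℕ) [hp : Fact p.Prime] (k i : ℕ) :
    ((p : ℤ) ^ (k + 1)) ∣ (Nat.choose (p ^ (k + 1)) (p * i) : ℤ) - (Nat.choose (p ^ k) i : ℤ) := by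
  have hp0 : 0 < p := hp.out.pos
  -- in `ℤ[X]`: `(1 + X)^p ≡ 1 + X^p mod p`.
  have h1 : ((p : ℕ) : Polynomial ℤ) ∣ (1 + Polynomial.X) ^ p - (1 + Polynomial.X ^ p) := by
    obtain ⟨r, hr⟩ := exists_add_pow_prime_eq (R := Polynomial ℤ) hp.out 1 Polynomial.X
    refine ⟨1 * Polynomial.X * r, ?_⟩
    rw [hr, one_pow]; ring
  have h3 := dvd_sub_pow_of_dvd_sub h1 k
  have h4 : (Polynomial.C ((p : ℤ) ^ (k + 1))) ∣
      ((1 + Polynomial.X) ^ p) ^ p ^ k - (1 + Polynomial.X ^ p) ^ p ^ k := by
    convert h3 using 1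
    simp
  rw [Polynomial.C_dvd_iff_dvd_coeff] at h4
  have h5 := h4 (p * i)
  rw [Polynomial.coeff_sub] at h5
  have h6 : ((1 + Polynomial.X : Polynomial ℤ) ^ p) ^ p ^ k = (1 + Polynomial.X) ^ p ^ (k + 1) := by
    rw [← pow_mul, pow_succ' p k]
  have h7 : (1 + Polynomial.X ^ p : Polynomial ℤ) ^ p ^ k =
      Polynomial.expand ℤ p ((1 + Polynomial.X) ^ p ^ k) := by
    simp
  rw [h6, h7, Polynomial.coeff_expand_mul' hp0, Polynomial.coeff_one_add_X_pow,
    Polynomial.coeff_one_add_X_pow] at h5
  simpa using h5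

/-- The normalising factor `λ(N)`. -/
noncomputable def lam (p N : ℕ) : ℕ := if ∃ k, N = p ^ k then p else 1

/-- `C_N`-coefficient, with the natural-number division of the statement. -/
noncomputable def cN (p N i : ℕ) : ℕ := Nat.choose N i / lam p N

theorem lam_mul (p : ℕ) [hp : Fact p.Prime] {N' : ℕ} (h : 2 ≤ N') : lam p (p * N') = lam p N' := by
  unfold lam
  have hp1 := hp.out
  have : (∃ k, p * N' = p ^ k) ↔ ∃ k, N' = p ^ k := by
    constructor
    · rintro ⟨k, hk⟩
      rcases k with _ | k
      · have : p * N' = 1 := by simpa using hk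
        have h2 := hp1.two_le
        nlinarith
      · refine ⟨k, ?_⟩
        rw [pow_succ'] at hk
        exact Nat.eq_of_mul_eq_mul_left hp1.pos hk
    · rintro ⟨k, hk⟩
      exact ⟨k + 1, by rw [hk, pow_succ']⟩
  simp only [this]

theorem pow_eq_dvd {p N : ℕ} (hN : 2 ≤ N) (h : ∃ k, N = p ^ k) : p ∣ N := by
  obtain ⟨k, rfl⟩ := h
  rcases k with _ | k
  · simp at hN
  · exact dvd_pow_self p (by omega)

/-- The statement, by strong induction on `N`. -/
theorem cocycle_main (p : ℕ) [hp : Fact p.Prime] {K : Type*} [Field K] [CharP K p] (N : ℕ)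
    (hN : 2 ≤ N) (a : ℕ → K) (h0 : a 0 = 0) (hN0 : a N = 0) (hsymm : ∀ i ≤ N, a i = a (N - i))
    (hcoc : ∀ i j, 1 ≤ i → 1 ≤ j → i + j < N →
      a (i + j) * (Nat.choose (i + j) i : K) = a i * (Nat.choose (N - i) j : K)) :
    ∃ c : K, ∀ i, 1 ≤ i → i < N → a i = c * ((cN p N i : ℕ) : K) := by
  induction N using Nat.strong_induction_on generalizing a with
  | _ N ih =>
  have hp1 := hp.out
  have hp2 := hp1.two_le
  -- the relation `(*)`
  have hstar : ∀ m, 1 ≤ m → m < N → (m : K) * a m = a 1 * (Nat.choose (N - 1) (m - 1) : K) := by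
    intro m hm1 hmN
    rcases Nat.lt_or_ge m 2 with hm2 | hm2
    · have : m = 1 := by omega
      subst this; simp
    · have := hcoc 1 (m - 1) le_rfl (by omega) (by omega)
      have e : 1 + (m - 1) = m := by omega
      rw [e] at this
      simpa [mul_comm] using this
  have hcast0 : ∀ m : ℕ, ¬ p ∣ m → (m : K) ≠ 0 := by
    intro m hm h
    exact hm ((CharP.cast_eq_zero_iff K p m).1 h)
  by_cases hpN : p ∣ N
  · by_cases hNp : N = p
    · -- base case `N = p`
      subst hNp
      refine ⟨a 1, fun i hi1 hip => ?_⟩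
      have hlam : lam N N = N := by
        unfold lam; rw [if_pos ⟨1, by simp⟩]
      have hi0 : ¬ N ∣ i := fun h => by
        have := Nat.le_of_dvd (by omega) h; omega
      have hd : N ∣ Nat.choose N i := hp1.dvd_choose_self (by omega) hip
      obtain ⟨B, hB⟩ := hd
      have hcN : cN N N i = B := by
        unfold cN; rw [hlam, hB, Nat.mul_div_cancel_left _ hp1.pos]
      rw [hcN]
      have h1 : i * Nat.choose N i = N * Nat.choose (N - 1) (i - 1) := by
        have := Nat.add_one_mul_choose_eq (N - 1) (i - 1)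
        have e1 : N - 1 + 1 = N := by omega
        have e2 : i - 1 + 1 = i := by omega
        rw [e1, e2] at this
        rw [mul_comm i, ← this]
      rw [hB] at h1
      have h2 : i * B = Nat.choose (N - 1) (i - 1) := by
        apply Nat.eq_of_mul_eq_mul_left hp1.pos
        rw [← h1]; ring
      apply mul_left_cancel₀ (hcast0 i hi0)
      rw [hstar i hi1 hip, ← h2]
      push_cast; ring
    · -- `p ∣ N`, `N ≠ p`
      obtain ⟨N', rfl⟩ := hpN
      have hN'2 : 2 ≤ N' := by
        rcases N' with _ | _ | N'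
        · simp at hN
        · simp at hNp
        · omega
      have hpN' : p < p * N' := by nlinarith
      -- `a 1 = 0`
      have ha1 : a 1 = 0 := by
        have h := hstar p (by omega) hpN'
        have e : p * N' - 1 = p * (N' - 1) + (p - 1) := by
          obtain ⟨M, rfl⟩ : ∃ M, N' = M + 1 := ⟨N' - 1, by omega⟩
          have : p * (M + 1) = p * M + p := by ring
          simp only [Nat.add_sub_cancel, this]
          omega
        rw [e, choose_pred_cast p (N' - 1)] at h
        simpa using h.symm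
      have ham : ∀ m, 1 ≤ m → m < p * N' → ¬ p ∣ m → a m = 0 := by
        intro m hm1 hm2 hm3
        have h := hstar m hm1 hm2
        rw [ha1, zero_mul] at h
        exact (mul_eq_zero.1 h).resolve_left (hcast0 m hm3)
      -- descend
      obtain ⟨c, hc⟩ := ih N' (by nlinarith) hN'2 (fun i => a (p * i)) (by simpa using h0)
        (by simpa using hN0)
        (by
          intro i hi
          have h1 := hsymm (p * i) (Nat.mul_le_mul_left _ hi)
          have e : p * N' - p * i = p * (N' - i) := (Nat.mul_sub p N' i).symm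
          simpa [e] using h1)
        (by
          intro i j hi hj hij
          have h1 := hcoc (p * i) (p * j) (by nlinarith [hp1.pos]) (by nlinarith [hp1.pos])
            (by
              have : p * i + p * j = p * (i + j) := by ring
              rw [this]; exact Nat.mul_lt_mul_of_pos_left hij hp1.pos)
          have e1 : p * i + p * j = p * (i + j) := by ring
          have e2 : p * N' - p * i = p * (N' - i) := (Nat.mul_sub p N' i).symm
          rw [e1, e2, choose_mul_cast p, choose_mul_cast p] at h1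
          exact h1)
      refine ⟨c, fun m hm1 hm2 => ?_⟩
      have hlam := lam_mul p hN'2
      by_cases hpow : ∃ k, N' = p ^ k
      · -- prime power case
        obtain ⟨k, rfl⟩ := hpow
        have hk : 1 ≤ k := by
          rcases k with _ | k
          · simp at hN'2
          · omega
        have hl1 : lam p (p ^ k) = p := by unfold lam; rw [if_pos ⟨k, rfl⟩]
        have hl2 : lam p (p * p ^ k) = p := by rw [hlam, hl1]
        have e3 : p * p ^ k = p ^ (k + 1) := (pow_succ' p k).symm
        by_cases hpm : p ∣ m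
        · obtain ⟨i, rfl⟩ := hpm
          have hi1 : 1 ≤ i := by
            rcases i with _ | i
            · simp at hm1
            · omega
          have hi2 : i < p ^ k := lt_of_mul_lt_mul_left hm2 (Nat.zero_le _)
          have h1 : a (p * i) = c * ((cN p (p ^ k) i : ℕ) : K) := hc i hi1 hi2
          rw [h1]
          congr 1
          unfold cN
          rw [hl1, hl2]
          -- `C(p^(k+1),pi)/p ≡ C(p^k,i)/p`
          have hd1 : p ∣ Nat.choose (p ^ k) i := hp1.dvd_choose_pow (by omega) (by omega)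
          have hd2 : p ∣ Nat.choose (p * p ^ k) (p * i) := by
            rw [e3]
            exact hp1.dvd_choose_pow (by nlinarith [hp1.pos]) (by
              rw [← e3]; omega)
          obtain ⟨x, hx⟩ := hd1
          obtain ⟨y, hy⟩ := hd2
          rw [hx, hy, Nat.mul_div_cancel_left _ hp1.pos, Nat.mul_div_cancel_left _ hp1.pos]
          have hcg := choose_pow_congr p k i
          rw [← e3, hx, hy] at hcg
          have hpk : (p : ℤ) ^ 2 ∣ (p : ℤ) ^ (k + 1) := pow_dvd_pow _ (by omega)
          have hcg2 := hpk.trans hcg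
          have hcg3 : (p : ℤ) ∣ (y : ℤ) - x := by
            have : ((p : ℤ)) * p ∣ (p : ℤ) * ((y : ℤ) - x) := by
              have e : ((p * y : ℕ) : ℤ) - ((p * x : ℕ) : ℤ) = (p : ℤ) * ((y : ℤ) - x) := by
                push_cast; ring
              rw [← e, ← pow_two]; exact hcg2
            exact (mul_dvd_mul_iff_left (by exact_mod_cast hp1.ne_zero)).1 this
          have hcg4 : ((y : ℤ) : K) = ((x : ℤ) : K) := by
            have : (((y : ℤ) - x : ℤ) : K) = 0 := by
              rw [CharP.intCast_eq_zero_iff K p]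
              exact hcg3
            push_cast at this
            push_cast
            exact sub_eq_zero.1 this
          simpa using hcg4.symm
        · rw [ham m hm1 hm2 hpm]
          have : (cN p (p * p ^ k) m : K) = 0 := by
            unfold cN
            rw [hl2, CharP.cast_eq_zero_iff K p]
            -- `p² ∣ C(p^(k+1), m)`
            have h1 : m * Nat.choose (p * p ^ k) m = (p * p ^ k) * Nat.choose (p * p ^ k - 1) (m - 1) := by
              have := Nat.add_one_mul_choose_eq (p * p ^ k - 1) (m - 1)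
              have e1 : p * p ^ k - 1 + 1 = p * p ^ k := by omega
              have e2 : m - 1 + 1 = m := by omega
              rw [e1, e2] at this
              rw [mul_comm m, ← this]
            have h2 : p ^ 2 ∣ m * Nat.choose (p * p ^ k) m := by
              rw [h1]
              exact Dvd.dvd.mul_right (by rw [e3]; exact pow_dvd_pow _ (by omega)) _
            have hcop : Nat.Coprime (p ^ 2) m :=
              Nat.Coprime.pow_left 2 ((Nat.Prime.coprime_iff_not_dvd hp1).2 hpm)
            have h3 : p ^ 2 ∣ Nat.choose (p * p ^ k) m := hcop.dvd_of_dvd_mul_left h2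
            obtain ⟨z, hz⟩ := h3
            rw [hz, pow_two, mul_assoc, Nat.mul_div_cancel_left _ hp1.pos]
            exact dvd_mul_right _ _
          rw [this, mul_zero]
      · -- not a prime power
        have hl1 : lam p N' = 1 := by unfold lam; rw [if_neg hpow]
        have hl2 : lam p (p * N') = 1 := by rw [hlam, hl1]
        by_cases hpm : p ∣ m
        · obtain ⟨i, rfl⟩ := hpm
          have hi1 : 1 ≤ i := by
            rcases i with _ | i
            · simp at hm1
            · omega
          have hi2 : i < N' := lt_of_mul_lt_mul_left hm2 (Nat.zero_le _)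
          have h1 : a (p * i) = c * ((cN p N' i : ℕ) : K) := hc i hi1 hi2
          rw [h1]
          congr 1
          unfold cN
          rw [hl1, hl2, Nat.div_one, Nat.div_one, choose_mul_cast]
        · rw [ham m hm1 hm2 hpm]
          have : (cN p (p * N') m : K) = 0 := by
            unfold cN
            rw [hl2, Nat.div_one, CharP.cast_eq_zero_iff K p]
            have h1 : m * Nat.choose (p * N') m = (p * N') * Nat.choose (p * N' - 1) (m - 1) := by
              have := Nat.add_one_mul_choose_eq (p * N' - 1) (m - 1)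
              have e1 : p * N' - 1 + 1 = p * N' := by omega
              have e2 : m - 1 + 1 = m := by omega
              rw [e1, e2] at this
              rw [mul_comm m, ← this]
            have h2 : p ∣ m * Nat.choose (p * N') m := by
              rw [h1, mul_assoc]; exact dvd_mul_right _ _
            exact (hp1.dvd_mul.1 h2).resolve_left hpm
          rw [this, mul_zero]
  · -- `p ∤ N`
    have hlam : lam p N = 1 := by
      unfold lam
      rw [if_neg]
      intro h
      exact hpN (pow_eq_dvd hN h)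
    have hNK : (N : K) ≠ 0 := hcast0 N hpN
    refine ⟨a 1 / N, ?_⟩
    have key : ∀ i, 1 ≤ i → i < N → ¬ p ∣ i → a i = a 1 / N * ((cN p N i : ℕ) : K) := by
      intro i hi1 hiN hpi
      have h1 : i * Nat.choose N i = N * Nat.choose (N - 1) (i - 1) := by
        have := Nat.add_one_mul_choose_eq (N - 1) (i - 1)
        have e1 : N - 1 + 1 = N := by omega
        have e2 : i - 1 + 1 = i := by omega
        rw [e1, e2] at this
        rw [mul_comm i, ← this]
      have h1' : (i : K) * (Nat.choose N i : K) = (N : K) * (Nat.choose (N - 1) (i - 1) : K) := by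
        have := congrArg (Nat.cast : ℕ → K) h1
        push_cast at this
        exact this
      apply mul_left_cancel₀ (hcast0 i hpi)
      unfold cN
      rw [hlam, Nat.div_one, hstar i hi1 hiN]
      field_simp
      linear_combination (- a 1) * h1'
    intro i hi1 hiN
    by_cases hpi : p ∣ i
    · have h1 : ¬ p ∣ N - i := by
        intro h
        apply hpN
        have := Nat.dvd_add h hpi
        rwa [Nat.sub_add_cancel hiN.le] at this
      have h2 := key (N - i) (by omega) (by omega) h1
      rw [hsymm i hiN.le, h2]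
      unfold cN
      rw [Nat.choose_symm hiN.le]
    · exact key i hi1 hiN hpi


open MvPowerSeries


section OrdGE

variable {R : Type*} [CommRing R] {σ τ : Type*}

/-- All coefficients of total degree `< N` vanish. -/
def OrdGE (N : ℕ) (f : MvPowerSeries σ R) : Prop :=
  ∀ d : σ →₀ ℕ, d.degree < N → coeff d f = 0

theorem OrdGE.mono {N M : ℕ} {f : MvPowerSeries σ R} (h : OrdGE N f) (hM : M ≤ N) : OrdGE M f :=
  fun d hd => h d (lt_of_lt_of_le hd hM)

theorem OrdGE.add {N : ℕ} {f g : MvPowerSeries σ R} (hf : OrdGE N f) (hg : OrdGE N g) :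
    OrdGE N (f + g) := fun d hd => by simp [hf d hd, hg d hd]

theorem OrdGE.sub {N : ℕ} {f g : MvPowerSeries σ R} (hf : OrdGE N f) (hg : OrdGE N g) :
    OrdGE N (f - g) := fun d hd => by simp [hf d hd, hg d hd]

theorem OrdGE.neg {N : ℕ} {f : MvPowerSeries σ R} (hf : OrdGE N f) :
    OrdGE N (-f) := fun d hd => by simp [hf d hd]

theorem ordGE_zero (N : ℕ) : OrdGE N (0 : MvPowerSeries σ R) := fun d _ => by simp

theorem OrdGE.mul {N M : ℕ} {f g : MvPowerSeries σ R} (hf : OrdGE N f) (hg : OrdGE M g) :
    OrdGE (N + M) (f * g) := by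
  intro d hd
  rw [coeff_mul]
  refine Finset.sum_eq_zero fun x hx => ?_
  have hx' : x.1 + x.2 = d := Finset.HasAntidiagonal.mem_antidiagonal.1 hx
  have hdeg : x.1.degree + x.2.degree = d.degree := by rw [← hx', map_add]
  rcases Nat.lt_or_ge x.1.degree N with h | h
  · rw [hf _ h, zero_mul]
  · have : x.2.degree < M := by omega
    rw [hg _ this, mul_zero]

theorem ordGE_one_iff {f : MvPowerSeries σ R} : OrdGE 1 f ↔ constantCoeff f = 0 := by
  constructor
  · intro h
    have := h 0 (by simp)
    simpa using this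
  · intro h d hd
    have : d = 0 := by
      have : d.degree = 0 := by omega
      exact (Finsupp.degree_eq_zero_iff d).1 this
    subst this
    simpa using h

theorem ordGE_zero' (f : MvPowerSeries σ R) : OrdGE 0 f := fun d hd => absurd hd (by omega)

theorem OrdGE.pow {N : ℕ} {f : MvPowerSeries σ R} (hf : OrdGE N f) (k : ℕ) :
    OrdGE (k * N) (f ^ k) := by
  induction k with
  | zero => simpa using ordGE_zero' _
  | succ k ih =>
    rw [pow_succ, Nat.succ_mul]
    exact ih.mul hf

/-- `a^k - b^k` for `a ≡ b` modulo order `M`. -/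
theorem ordGE_pow_sub {M : ℕ} {a b : MvPowerSeries σ R} (h : OrdGE M (a - b)) (ha : OrdGE 1 a)
    (hb : OrdGE 1 b) (k : ℕ) (hk : 1 ≤ k) : OrdGE (M + k - 1) (a ^ k - b ^ k) := by
  induction k, hk using Nat.le_induction with
  | base => simpa using h
  | succ k hk ih =>
    have e : a ^ (k + 1) - b ^ (k + 1) = (a ^ k - b ^ k) * a + b ^ k * (a - b) := by ring
    rw [e]
    apply OrdGE.add
    · have := ih.mul ha
      convert this using 1
      omega
    · have := (hb.pow k).mul h
      convert this using 1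
      omega

/-- Monomial products. -/
theorem ordGE_prod [Fintype τ] (a : τ → MvPowerSeries σ R) (ha : ∀ s, OrdGE 1 (a s)) (e : τ →₀ ℕ) :
    OrdGE e.degree (e.prod fun s k => a s ^ k) := by
  rw [Finsupp.prod_fintype _ _ (fun _ => pow_zero _), Finsupp.degree_eq_sum]
  induction (Finset.univ : Finset τ) using Finset.induction_on with
  | empty => simpa using ordGE_zero' _
  | insert s S hs ih =>
    rw [Finset.prod_insert hs, Finset.sum_insert hs]
    have := ((ha s).pow (e s)).mul ih
    simpa using this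

/-- Difference of monomial products. -/
theorem ordGE_prod_sub [Fintype τ] (a b : τ → MvPowerSeries σ R) (ha : ∀ s, OrdGE 1 (a s))
    (hb : ∀ s, OrdGE 1 (b s)) {M : ℕ} (hM : 1 ≤ M) (h : ∀ s, OrdGE M (a s - b s)) (e : τ →₀ ℕ)
    (_he : e ≠ 0) :
    OrdGE (M + e.degree - 1) ((e.prod fun s k => a s ^ k) - (e.prod fun s k => b s ^ k)) := by
  rw [Finsupp.prod_fintype _ _ (fun _ => pow_zero _), Finsupp.prod_fintype _ _ (fun _ => pow_zero _),
    Finsupp.degree_eq_sum]
  have key : ∀ S : Finset τ, OrdGE (M + ∑ i ∈ S, e i - 1)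
      ((∏ i ∈ S, a i ^ e i) - ∏ i ∈ S, b i ^ e i) := by
    intro S
    induction S using Finset.induction_on with
    | empty => simp [ordGE_zero]
    | insert s S hs ih =>
      rw [Finset.prod_insert hs, Finset.prod_insert hs, Finset.sum_insert hs]
      have e1 : a s ^ e s * ∏ i ∈ S, a i ^ e i - b s ^ e s * ∏ i ∈ S, b i ^ e i =
          a s ^ e s * ((∏ i ∈ S, a i ^ e i) - ∏ i ∈ S, b i ^ e i) +
            (a s ^ e s - b s ^ e s) * ∏ i ∈ S, b i ^ e i := by ring
      rw [e1]
      apply OrdGE.add
      · have := ((ha s).pow (e s)).mul ih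
        apply this.mono
        simp only [mul_one]
        omega
      · rcases Nat.eq_zero_or_pos (e s) with h0 | h0
        · rw [h0]; simp [ordGE_zero]
        · have h2 : OrdGE (∑ i ∈ S, e i) (∏ i ∈ S, b i ^ e i) := by
            have : ∀ S : Finset τ, OrdGE (∑ i ∈ S, e i) (∏ i ∈ S, b i ^ e i) := by
              intro S
              induction S using Finset.induction_on with
              | empty => simpa using ordGE_zero' _
              | insert s S hs ih =>
                rw [Finset.prod_insert hs, Finset.sum_insert hs]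
                have := ((hb s).pow (e s)).mul ih
                simpa using this
            exact this S
          have := (ordGE_pow_sub (h s) (ha s) (hb s) (e s) h0).mul h2
          apply this.mono
          omega
  exact key _

/-- The coefficient of a substitution. -/
theorem coeff_subst_congr [Fintype τ] (P Q : MvPowerSeries τ R) (a b : τ → MvPowerSeries σ R)
    (ha : ∀ s, constantCoeff (a s) = 0) (hb : ∀ s, constantCoeff (b s) = 0) (d : σ →₀ ℕ)
    (h : ∀ e : τ →₀ ℕ, coeff e P • coeff d (e.prod fun s k => a s ^ k) =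
      coeff e Q • coeff d (e.prod fun s k => b s ^ k)) :
    coeff d (P.subst a) = coeff d (Q.subst b) := by
  rw [coeff_subst (hasSubst_of_constantCoeff_zero ha), coeff_subst (hasSubst_of_constantCoeff_zero hb)]
  exact finsum_congr h

/-- `OrdGE N P ⟹ OrdGE N (P.subst a)`. -/
theorem OrdGE.subst [Fintype τ] {N : ℕ} {P : MvPowerSeries τ R} (hP : OrdGE N P)
    (a : τ → MvPowerSeries σ R) (ha : ∀ s, constantCoeff (a s) = 0) : OrdGE N (P.subst a) := by
  intro d hd
  rw [coeff_subst (hasSubst_of_constantCoeff_zero ha)]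
  apply finsum_eq_zero_of_forall_eq_zero
  intro e
  rcases Nat.lt_or_ge e.degree N with h | h
  · rw [hP e h, zero_smul]
  · rw [ordGE_prod a (fun s => ordGE_one_iff.2 (ha s)) e d (lt_of_lt_of_le hd h), smul_zero]

/-- Perturbation of the arguments: `P` of order `≥ k ≥ 1`, `a ≡ b` modulo order `M ≥ 1`. -/
theorem OrdGE.subst_sub [Fintype τ] {k M : ℕ} {P : MvPowerSeries τ R} (hP : OrdGE k P) (hk : 1 ≤ k)
    (hM : 1 ≤ M) (a b : τ → MvPowerSeries σ R) (ha : ∀ s, constantCoeff (a s) = 0)
    (hb : ∀ s, constantCoeff (b s) = 0) (h : ∀ s, OrdGE M (a s - b s)) :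
    OrdGE (M + k - 1) (P.subst a - P.subst b) := by
  intro d hd
  rw [map_sub, sub_eq_zero]
  apply coeff_subst_congr P P a b ha hb d
  intro e
  rcases Nat.lt_or_ge e.degree k with h1 | h1
  · rw [hP e h1, zero_smul, zero_smul]
  · congr 1
    have he : e ≠ 0 := by
      rintro rfl
      simp at h1
      omega
    have := ordGE_prod_sub a b (fun s => ordGE_one_iff.2 (ha s)) (fun s => ordGE_one_iff.2 (hb s))
      hM h e he d (by omega)
    rw [map_sub, sub_eq_zero] at this
    exact this

end OrdGE

section FG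

variable {R : Type*} [CommRing R] {σ : Type*}

/-- `F - X₀ - X₁` has order `≥ 2`. -/
theorem ordGE_two_sub (F : FormalGroup R) :
    OrdGE 2 (F.toPowerSeries - X (0 : Fin 2) - X (1 : Fin 2)) := by
  intro d hd
  have h2 : d.degree = d 0 + d 1 := by
    rw [Finsupp.degree_eq_sum]; simp
  have e : d = Finsupp.single 0 (d 0) + Finsupp.single 1 (d 1) := by
    ext i; fin_cases i <;> simp
  rw [h2] at hd
  rcases (by omega : (d 0 = 0 ∧ d 1 = 0) ∨ (d 0 = 1 ∧ d 1 = 0) ∨ (d 0 = 0 ∧ d 1 = 1)) with
    ⟨h0, h1⟩ | ⟨h0, h1⟩ | ⟨h0, h1⟩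
  · rw [h0, h1] at e
    simp only [Finsupp.single_zero, add_zero] at e
    subst e
    simp [F.zero_constantCoeff]
  · rw [h0, h1] at e
    simp only [Finsupp.single_zero, add_zero] at e
    subst e
    simp [F.lin_coeff_X, coeff_X, Finsupp.single_left_inj]
  · rw [h0, h1] at e
    simp only [Finsupp.single_zero, zero_add] at e
    subst e
    simp [F.lin_coeff_Y, coeff_X, Finsupp.single_left_inj]

/-- The expansion `F(a) = a₀ + a₁ + H(a)`. -/
theorem subst_eq_add (F : FormalGroup R) (a : Fin 2 → MvPowerSeries σ R)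
    (ha : ∀ s, constantCoeff (a s) = 0) :
    F.toPowerSeries.subst a = a 0 + a 1 + (F.toPowerSeries - X 0 - X 1).subst a := by
  have hs := hasSubst_of_constantCoeff_zero ha
  rw [subst_sub hs, subst_sub hs, subst_X hs, subst_X hs]
  ring

/-- `F(a) ≡ a₀ + a₁` modulo order `2`. -/
theorem ordGE_subst_sub (F : FormalGroup R) (a : Fin 2 → MvPowerSeries σ R)
    (ha : ∀ s, constantCoeff (a s) = 0) :
    OrdGE 2 (F.toPowerSeries.subst a - (a 0 + a 1)) := by
  rw [subst_eq_add F a ha, add_sub_cancel_left]
  exact (ordGE_two_sub F).subst a ha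

/-- First-order expansion of a law. -/
theorem firstOrder (F : FormalGroup R) {M : ℕ} (hM : 1 ≤ M) (a b : Fin 2 → MvPowerSeries σ R)
    (ha : ∀ s, constantCoeff (a s) = 0) (hb : ∀ s, constantCoeff (b s) = 0)
    (h : ∀ s, OrdGE M (a s - b s)) :
    OrdGE (M + 1) (F.toPowerSeries.subst a - F.toPowerSeries.subst b - (a 0 - b 0) - (a 1 - b 1)) := by
  rw [subst_eq_add F a ha, subst_eq_add F b hb]
  have := (ordGE_two_sub F).subst_sub (by omega) hM a b ha hb h
  have e : a 0 + a 1 + (F.toPowerSeries - X 0 - X 1).subst a -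
        (b 0 + b 1 + (F.toPowerSeries - X 0 - X 1).subst b) - (a 0 - b 0) - (a 1 - b 1) =
      (F.toPowerSeries - X 0 - X 1).subst a - (F.toPowerSeries - X 0 - X 1).subst b := by ring
  rw [e]
  exact this.mono (by omega)

theorem constantCoeff_law_subst (F : FormalGroup R) (a : Fin 2 → MvPowerSeries σ R)
    (ha : ∀ s, constantCoeff (a s) = 0) : constantCoeff (F.toPowerSeries.subst a) = 0 :=
  constantCoeff_subst_eq_zero (hasSubst_of_constantCoeff_zero ha) ha F.zero_constantCoeff

end FG


section Expansion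

variable {R : Type*} [CommRing R] {σ : Type*}

/-- `G(a) - F(b)` to first order, for `G - F` of order `≥ N`. -/
theorem expansion (F G : FormalGroup R) {N : ℕ} (hN : 1 ≤ N)
    (hFG : OrdGE N (G.toPowerSeries - F.toPowerSeries)) (a b c : Fin 2 → MvPowerSeries σ R)
    (ha : ∀ s, constantCoeff (a s) = 0) (hb : ∀ s, constantCoeff (b s) = 0)
    (hc : ∀ s, constantCoeff (c s) = 0) (hab : ∀ s, OrdGE N (a s - b s))
    (hac : ∀ s, OrdGE 2 (a s - c s)) :
    OrdGE (N + 1) (G.toPowerSeries.subst a - F.toPowerSeries.subst b - (a 0 - b 0) - (a 1 - b 1) -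
      (G.toPowerSeries - F.toPowerSeries).subst c) := by
  have hsa := hasSubst_of_constantCoeff_zero ha
  have e : G.toPowerSeries.subst a = F.toPowerSeries.subst a +
      (G.toPowerSeries - F.toPowerSeries).subst a := by
    rw [subst_sub hsa]; ring
  have h1 := firstOrder F hN a b ha hb hab
  have h2 := hFG.subst_sub hN (by norm_num : 1 ≤ 2) a c ha hc hac
  have h3 := h1.add (h2.mono (by omega : N + 1 ≤ 2 + N - 1))
  convert h3 using 1
  rw [e]; ring

/-- `bi i j = X^i Y^j`, as an exponent. -/
noncomputable def bi (i j : ℕ) : Fin 2 →₀ ℕ := Finsupp.single 0 i + Finsupp.single 1 j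

@[simp] theorem bi_zero (i j : ℕ) : bi i j 0 = i := by simp [bi]
@[simp] theorem bi_one (i j : ℕ) : bi i j 1 = j := by simp [bi]

theorem eq_bi (e : Fin 2 →₀ ℕ) : e = bi (e 0) (e 1) := by
  ext s; fin_cases s <;> simp

theorem degree_bi (i j : ℕ) : (bi i j).degree = i + j := by
  rw [Finsupp.degree_eq_sum]; simp

theorem degree_eq (e : Fin 2 →₀ ℕ) : e.degree = e 0 + e 1 := by
  rw [Finsupp.degree_eq_sum]; simp

theorem bi_inj {i j i' j' : ℕ} : bi i j = bi i' j' ↔ i = i' ∧ j = j' := by
  constructor
  · intro h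
    have h0 := DFunLike.congr_fun h 0
    have h1 := DFunLike.congr_fun h 1
    simpa using And.intro h0 h1
  · rintro ⟨rfl, rfl⟩; rfl

/-- `tri i j l = X^i Y^j Z^l`, as an exponent. -/
noncomputable def tri (i j l : ℕ) : Fin 3 →₀ ℕ :=
  Finsupp.single 0 i + Finsupp.single 1 j + Finsupp.single 2 l

@[simp] theorem tri_zero (i j l : ℕ) : tri i j l 0 = i := by simp [tri]
@[simp] theorem tri_one (i j l : ℕ) : tri i j l 1 = j := by simp [tri]
@[simp] theorem tri_two (i j l : ℕ) : tri i j l 2 = l := by simp [tri]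

theorem tri_inj {i j l i' j' l' : ℕ} : tri i j l = tri i' j' l' ↔ i = i' ∧ j = j' ∧ l = l' := by
  constructor
  · intro h
    have h0 := DFunLike.congr_fun h 0
    have h1 := DFunLike.congr_fun h 1
    have h2 := DFunLike.congr_fun h 2
    simp only [tri_zero, tri_one, tri_two] at h0 h1 h2
    exact ⟨h0, h1, h2⟩
  · rintro ⟨rfl, rfl, rfl⟩; rfl

theorem degree_tri (i j l : ℕ) : (tri i j l).degree = i + j + l := by
  rw [Finsupp.degree_eq_sum]; simp [Fin.sum_univ_three]

local notation "Y₀" => (X (0 : Fin 3) : MvPowerSeries (Fin 3) R)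
local notation "Y₁" => (X (1 : Fin 3) : MvPowerSeries (Fin 3) R)
local notation "Y₂" => (X (2 : Fin 3) : MvPowerSeries (Fin 3) R)

theorem mono_tri (u v w : ℕ) :
    (Y₀ ^ u * Y₁ ^ v * Y₂ ^ w : MvPowerSeries (Fin 3) R) = monomial (tri u v w) (1 : R) := by
  simp only [X_pow_eq, monomial_mul_monomial, one_mul, tri]

theorem coeff_mono_tri (i j l u v w : ℕ) :
    coeff (tri i j l) (Y₀ ^ u * Y₁ ^ v * Y₂ ^ w : MvPowerSeries (Fin 3) R) =
      if u = i ∧ v = j ∧ w = l then 1 else 0 := by
  rw [mono_tri, coeff_monomial]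
  simp only [tri_inj]
  by_cases h : i = u ∧ j = v ∧ l = w
  · obtain ⟨rfl, rfl, rfl⟩ := h; simp
  · rw [if_neg h, if_neg]
    rintro ⟨rfl, rfl, rfl⟩
    exact h ⟨rfl, rfl, rfl⟩

theorem coeff_add_pow_mul (i j l u w : ℕ) :
    coeff (tri i j l) ((Y₀ + Y₁) ^ u * Y₂ ^ w : MvPowerSeries (Fin 3) R) =
      if u = i + j ∧ w = l then (Nat.choose u i : R) else 0 := by
  rw [add_pow, Finset.sum_mul, map_sum]
  have h : ∀ k ∈ Finset.range (u + 1),
      coeff (tri i j l) (Y₀ ^ k * Y₁ ^ (u - k) * (Nat.choose u k : MvPowerSeries (Fin 3) R) * Y₂ ^ w) =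
        (if k = i ∧ u - k = j ∧ w = l then (Nat.choose u k : R) else 0) := by
    intro k _
    have e : (Y₀ ^ k * Y₁ ^ (u - k) * (Nat.choose u k : MvPowerSeries (Fin 3) R) * Y₂ ^ w) =
        C (Nat.choose u k : R) * (Y₀ ^ k * Y₁ ^ (u - k) * Y₂ ^ w) := by
      simp only [map_natCast]; ring
    rw [e, coeff_C_mul, coeff_mono_tri]
    split_ifs <;> simp
  rw [Finset.sum_congr rfl h]
  by_cases hc : u = i + j ∧ w = l
  · rw [if_pos hc]
    obtain ⟨rfl, rfl⟩ := hc
    rw [Finset.sum_eq_single i]
    · simp
    · intro b _ hb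
      rw [if_neg]; rintro ⟨rfl, _⟩; exact hb rfl
    · intro hi; simp at hi
  · rw [if_neg hc]
    apply Finset.sum_eq_zero
    intro k hk
    rw [if_neg]
    rintro ⟨rfl, h2, h3⟩
    apply hc
    have := Finset.mem_range.1 hk
    exact ⟨by omega, h3⟩

theorem coeff_mul_add_pow (i j l u w : ℕ) :
    coeff (tri i j l) (Y₀ ^ w * (Y₁ + Y₂) ^ u : MvPowerSeries (Fin 3) R) =
      if u = j + l ∧ w = i then (Nat.choose u j : R) else 0 := by
  rw [add_pow, Finset.mul_sum, map_sum]
  have h : ∀ k ∈ Finset.range (u + 1),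
      coeff (tri i j l) (Y₀ ^ w * (Y₁ ^ k * Y₂ ^ (u - k) * (Nat.choose u k : MvPowerSeries (Fin 3) R))) =
        (if w = i ∧ k = j ∧ u - k = l then (Nat.choose u k : R) else 0) := by
    intro k _
    have e : (Y₀ ^ w * (Y₁ ^ k * Y₂ ^ (u - k) * (Nat.choose u k : MvPowerSeries (Fin 3) R))) =
        C (Nat.choose u k : R) * (Y₀ ^ w * Y₁ ^ k * Y₂ ^ (u - k)) := by
      simp only [map_natCast]; ring
    rw [e, coeff_C_mul, coeff_mono_tri]
    split_ifs <;> simp
  rw [Finset.sum_congr rfl h]
  by_cases hc : u = j + l ∧ w = i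
  · rw [if_pos hc]
    obtain ⟨rfl, rfl⟩ := hc
    rw [Finset.sum_eq_single j]
    · simp
    · intro b _ hb
      rw [if_neg]; rintro ⟨_, rfl, _⟩; exact hb rfl
    · intro hi; simp at hi
  · rw [if_neg hc]
    apply Finset.sum_eq_zero
    intro k hk
    rw [if_neg]
    rintro ⟨rfl, rfl, h3⟩
    apply hc
    have := Finset.mem_range.1 hk
    exact ⟨by omega, rfl⟩

theorem prod_two {A : Type*} [CommMonoid A] (a : Fin 2 → A) (e : Fin 2 →₀ ℕ) :
    (e.prod fun s k => a s ^ k) = a 0 ^ e 0 * a 1 ^ e 1 := by
  rw [Finsupp.prod_fintype _ _ (fun _ => pow_zero _), Fin.prod_univ_two]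

/-- Coefficient of `D(X+Y, Z)`. -/
theorem coeff_D_left (D : MvPowerSeries (Fin 2) R) (i j l : ℕ) :
    coeff (tri i j l) (D.subst ![Y₀ + Y₁, Y₂]) = coeff (bi (i + j) l) D * (Nat.choose (i + j) i : R) := by
  have hs : HasSubst ![(Y₀ + Y₁ : MvPowerSeries (Fin 3) R), Y₂] :=
    hasSubst_of_constantCoeff_zero (by intro s; fin_cases s <;> simp)
  rw [coeff_subst hs, finsum_eq_single _ (bi (i + j) l)]
  · simp only [prod_two, Matrix.cons_val_zero, Matrix.cons_val_one, smul_eq_mul, bi_zero, bi_one,
      coeff_add_pow_mul]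
    simp
  · intro e he
    simp only [prod_two, Matrix.cons_val_zero, Matrix.cons_val_one, smul_eq_mul, coeff_add_pow_mul]
    rw [if_neg, mul_zero]
    rintro ⟨h1, h2⟩
    apply he
    rw [eq_bi e, h1, h2]

/-- Coefficient of `D(X, Y+Z)`. -/
theorem coeff_D_right (D : MvPowerSeries (Fin 2) R) (i j l : ℕ) :
    coeff (tri i j l) (D.subst ![Y₀, Y₁ + Y₂]) = coeff (bi i (j + l)) D * (Nat.choose (j + l) j : R) := by
  have hs : HasSubst ![(Y₀ : MvPowerSeries (Fin 3) R), Y₁ + Y₂] :=
    hasSubst_of_constantCoeff_zero (by intro s; fin_cases s <;> simp)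
  rw [coeff_subst hs, finsum_eq_single _ (bi i (j + l))]
  · simp only [prod_two, Matrix.cons_val_zero, Matrix.cons_val_one, smul_eq_mul, bi_zero, bi_one,
      coeff_mul_add_pow]
    simp
  · intro e he
    simp only [prod_two, Matrix.cons_val_zero, Matrix.cons_val_one, smul_eq_mul, coeff_mul_add_pow]
    rw [if_neg, mul_zero]
    rintro ⟨h1, h2⟩
    apply he
    rw [eq_bi e, h1, h2]

/-- `D(X,Y)` has no `Z`. -/
theorem coeff_D_XY (D : MvPowerSeries (Fin 2) R) (i j l : ℕ) (hl : 1 ≤ l) :
    coeff (tri i j l) (D.subst ![Y₀, Y₁]) = 0 := by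
  have hs : HasSubst ![(Y₀ : MvPowerSeries (Fin 3) R), Y₁] := HasSubst.X_X
  rw [coeff_subst hs]
  apply finsum_eq_zero_of_forall_eq_zero
  intro e
  simp only [prod_two, Matrix.cons_val_zero, Matrix.cons_val_one, smul_eq_mul]
  have := coeff_mono_tri (R := R) i j l (e 0) (e 1) 0
  simp only [pow_zero, mul_one] at this
  rw [this, if_neg, mul_zero]
  rintro ⟨_, _, h⟩; omega

/-- `D(Y,Z)` has no `X`. -/
theorem coeff_D_YZ (D : MvPowerSeries (Fin 2) R) (i j l : ℕ) (hi : 1 ≤ i) :
    coeff (tri i j l) (D.subst ![Y₁, Y₂]) = 0 := by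
  have hs : HasSubst ![(Y₁ : MvPowerSeries (Fin 3) R), Y₂] := HasSubst.X_X
  rw [coeff_subst hs]
  apply finsum_eq_zero_of_forall_eq_zero
  intro e
  simp only [prod_two, Matrix.cons_val_zero, Matrix.cons_val_one, smul_eq_mul]
  have := coeff_mono_tri (R := R) i j l 0 (e 0) (e 1)
  simp only [pow_zero, one_mul] at this
  rw [this, if_neg, mul_zero]
  rintro ⟨h, _, _⟩; omega

/-- The cocycle condition for the first difference of two laws. -/
theorem cocycle_series (F G : FormalGroup R) {N : ℕ} (hN : 1 ≤ N)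
    (hFG : OrdGE N (G.toPowerSeries - F.toPowerSeries)) :
    OrdGE (N + 1) ((G.toPowerSeries - F.toPowerSeries).subst ![Y₀, Y₁] +
        (G.toPowerSeries - F.toPowerSeries).subst ![Y₀ + Y₁, Y₂] -
        (G.toPowerSeries - F.toPowerSeries).subst ![Y₁, Y₂] -
        (G.toPowerSeries - F.toPowerSeries).subst ![Y₀, Y₁ + Y₂]) := by
  set D := G.toPowerSeries - F.toPowerSeries with hD
  have hc : ∀ {i : Fin 3}, constantCoeff (X i : MvPowerSeries (Fin 3) R) = 0 := by
    intro i; simp
  have hXX : ∀ i j : Fin 3, ∀ s, constantCoeff ((![X i, X j] : Fin 2 → MvPowerSeries (Fin 3) R) s) = 0 := by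
    intro i j s; fin_cases s <;> simp
  -- the left-hand associativity
  have hL : OrdGE (N + 1) (G.toPowerSeries.subst ![G.toPowerSeries.subst ![Y₀, Y₁], Y₂] -
      F.toPowerSeries.subst ![F.toPowerSeries.subst ![Y₀, Y₁], Y₂] -
      D.subst ![Y₀, Y₁] - D.subst ![Y₀ + Y₁, Y₂]) := by
    have h := expansion F G hN hFG ![G.toPowerSeries.subst ![Y₀, Y₁], Y₂]
      ![F.toPowerSeries.subst ![Y₀, Y₁], Y₂] ![Y₀ + Y₁, Y₂]
      (by
        intro s; fin_cases s
        · exact constantCoeff_law_subst G _ (hXX 0 1)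
        · simp)
      (by
        intro s; fin_cases s
        · exact constantCoeff_law_subst F _ (hXX 0 1)
        · simp)
      (by intro s; fin_cases s <;> simp)
      (by
        intro s; fin_cases s
        · have := hFG.subst ![Y₀, Y₁] (hXX 0 1)
          simp only [Matrix.cons_val_zero, Fin.zero_eta]
          rw [← subst_sub HasSubst.X_X]
          exact this
        · simp [ordGE_zero])
      (by
        intro s; fin_cases s
        · have := ordGE_subst_sub G ![Y₀, Y₁] (hXX 0 1)
          simpa using this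
        · simp [ordGE_zero])
    simp only [Matrix.cons_val_zero, Matrix.cons_val_one, sub_self, sub_zero] at h
    rw [← subst_sub (HasSubst.X_X)] at h
    exact h
  have hR : OrdGE (N + 1) (G.toPowerSeries.subst ![Y₀, G.toPowerSeries.subst ![Y₁, Y₂]] -
      F.toPowerSeries.subst ![Y₀, F.toPowerSeries.subst ![Y₁, Y₂]] -
      D.subst ![Y₁, Y₂] - D.subst ![Y₀, Y₁ + Y₂]) := by
    have h := expansion F G hN hFG ![Y₀, G.toPowerSeries.subst ![Y₁, Y₂]]
      ![Y₀, F.toPowerSeries.subst ![Y₁, Y₂]] ![Y₀, Y₁ + Y₂]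
      (by
        intro s; fin_cases s
        · simp
        · exact constantCoeff_law_subst G _ (hXX 1 2))
      (by
        intro s; fin_cases s
        · simp
        · exact constantCoeff_law_subst F _ (hXX 1 2))
      (by intro s; fin_cases s <;> simp)
      (by
        intro s; fin_cases s
        · simp [ordGE_zero]
        · have := hFG.subst ![Y₁, Y₂] (hXX 1 2)
          simp only [Matrix.cons_val_one, Fin.mk_one, Matrix.cons_val_fin_one]
          rw [← subst_sub HasSubst.X_X]
          exact this)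
      (by
        intro s; fin_cases s
        · simp [ordGE_zero]
        · have := ordGE_subst_sub G ![Y₁, Y₂] (hXX 1 2)
          simpa using this)
    simp only [Matrix.cons_val_zero, Matrix.cons_val_one, sub_self, sub_zero] at h
    rw [← subst_sub (HasSubst.X_X)] at h
    exact h
  have hFa : F.toPowerSeries.subst ![F.toPowerSeries.subst ![Y₀, Y₁], Y₂] =
      F.toPowerSeries.subst ![Y₀, F.toPowerSeries.subst ![Y₁, Y₂]] := F.assoc
  have hGa : G.toPowerSeries.subst ![G.toPowerSeries.subst ![Y₀, Y₁], Y₂] =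
      G.toPowerSeries.subst ![Y₀, G.toPowerSeries.subst ![Y₁, Y₂]] := G.assoc
  have h3 := hR.sub hL
  rw [hFa, hGa] at h3
  convert h3 using 1
  ring

end Expansion


section Diff

variable {R : Type*} [CommRing R]

local notation "X₀'" => (X (0 : Fin 2) : MvPowerSeries (Fin 2) R)
local notation "X₁'" => (X (1 : Fin 2) : MvPowerSeries (Fin 2) R)

/-- The difference coefficients of two laws in degree `N`. -/
noncomputable def diffA (F G : FormalGroup R) (N i : ℕ) : R :=
  coeff (bi i (N - i)) (G.toPowerSeries - F.toPowerSeries)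

theorem diffA_cocycle (F G : FormalGroup R) {N : ℕ} (hN : 1 ≤ N)
    (hFG : OrdGE N (G.toPowerSeries - F.toPowerSeries)) (i j : ℕ) (hi : 1 ≤ i) (hj : 1 ≤ j)
    (hij : i + j < N) :
    diffA F G N (i + j) * (Nat.choose (i + j) i : R) =
      diffA F G N i * (Nat.choose (N - i) j : R) := by
  obtain ⟨l, hl, rfl⟩ : ∃ l, 1 ≤ l ∧ N = i + j + l := ⟨N - (i + j), by omega, by omega⟩
  have h := cocycle_series F G hN hFG (tri i j l) (by rw [degree_tri]; omega)
  simp only [map_sub, map_add] at h
  have h1 := coeff_D_XY (R := R) (G.toPowerSeries - F.toPowerSeries) i j l hl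
  have h2 := coeff_D_left (R := R) (G.toPowerSeries - F.toPowerSeries) i j l
  have h3 := coeff_D_YZ (R := R) (G.toPowerSeries - F.toPowerSeries) i j l hi
  have h4 := coeff_D_right (R := R) (G.toPowerSeries - F.toPowerSeries) i j l
  unfold diffA
  have e1 : i + j + l - (i + j) = l := by omega
  have e2 : i + j + l - i = j + l := by omega
  rw [e1, e2]
  rw [h1, h2, h3, h4] at h
  linear_combination h

theorem mono_bi (u v : ℕ) :
    (X₀' ^ u * X₁' ^ v : MvPowerSeries (Fin 2) R) = monomial (bi u v) (1 : R) := by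
  simp only [X_pow_eq, monomial_mul_monomial, one_mul, bi]

theorem coeff_mono_bi (i j u v : ℕ) :
    coeff (bi i j) (X₀' ^ u * X₁' ^ v : MvPowerSeries (Fin 2) R) =
      if u = i ∧ v = j then 1 else 0 := by
  rw [mono_bi, coeff_monomial]
  simp only [bi_inj]
  by_cases h : i = u ∧ j = v
  · obtain ⟨rfl, rfl⟩ := h; simp
  · rw [if_neg h, if_neg]
    rintro ⟨rfl, rfl⟩
    exact h ⟨rfl, rfl⟩

theorem coeff_add_pow_bi (i j u : ℕ) :
    coeff (bi i j) ((X₀' + X₁') ^ u : MvPowerSeries (Fin 2) R) =
      if u = i + j then (Nat.choose u i : R) else 0 := by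
  rw [add_pow, map_sum]
  have h : ∀ k ∈ Finset.range (u + 1),
      coeff (bi i j) (X₀' ^ k * X₁' ^ (u - k) * (Nat.choose u k : MvPowerSeries (Fin 2) R)) =
        (if k = i ∧ u - k = j then (Nat.choose u k : R) else 0) := by
    intro k _
    have e : (X₀' ^ k * X₁' ^ (u - k) * (Nat.choose u k : MvPowerSeries (Fin 2) R)) =
        C (Nat.choose u k : R) * (X₀' ^ k * X₁' ^ (u - k)) := by
      simp only [map_natCast]; ring
    rw [e, coeff_C_mul, coeff_mono_bi]
    split_ifs <;> simp
  rw [Finset.sum_congr rfl h]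
  by_cases hc : u = i + j
  · rw [if_pos hc]
    subst hc
    rw [Finset.sum_eq_single i]
    · simp
    · intro b _ hb
      rw [if_neg]; rintro ⟨rfl, _⟩; exact hb rfl
    · intro hi; simp at hi
  · rw [if_neg hc]
    apply Finset.sum_eq_zero
    intro k hk
    rw [if_neg]
    rintro ⟨rfl, h2⟩
    apply hc
    have := Finset.mem_range.1 hk
    omega

/-- Symmetry of the coefficients of a commutative law. -/
theorem coeff_bi_comm (F : FormalGroup R) [hF : F.IsComm] (i j : ℕ) :
    coeff (bi i j) F.toPowerSeries = coeff (bi j i) F.toPowerSeries := by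
  have h : F.toPowerSeries = subst ![X₁', X₀'] F.toPowerSeries := hF.comm
  conv_lhs => rw [h]
  have hs : HasSubst ![X₁', X₀'] := HasSubst.X_X
  rw [coeff_subst hs, finsum_eq_single _ (bi j i)]
  · simp only [prod_two, Matrix.cons_val_zero, Matrix.cons_val_one, smul_eq_mul, bi_zero, bi_one]
    rw [mul_comm (X₁' ^ j), coeff_mono_bi]
    simp
  · intro e he
    simp only [prod_two, Matrix.cons_val_zero, Matrix.cons_val_one, smul_eq_mul]
    rw [mul_comm (X₁' ^ _), coeff_mono_bi, if_neg, mul_zero]
    rintro ⟨h1, h2⟩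
    apply he
    rw [eq_bi e, h1, h2]

/-- `F(X, 0) = X` in coefficients. -/
theorem coeff_bi_zero (F : FormalGroup R) {n : ℕ} (hn : 2 ≤ n) :
    coeff (bi n 0) F.toPowerSeries = 0 := by
  have h : subst ![PowerSeries.X (R := R), 0] F.toPowerSeries = PowerSeries.X := F.Xzero_eq_X
  have h2 := congrArg (PowerSeries.coeff n) h
  rw [PowerSeries.coeff_X, if_neg (by omega)] at h2
  have hs : HasSubst ![PowerSeries.X (R := R), 0] := HasSubst.X_zero
  change coeff (Finsupp.single () n) _ = 0 at h2
  rw [coeff_subst hs, finsum_eq_single _ (bi n 0)] at h2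
  · simpa [prod_two, PowerSeries.coeff_X_pow] using h2
  · intro e he
    simp only [prod_two, Matrix.cons_val_zero, Matrix.cons_val_one, smul_eq_mul]
    rcases Nat.eq_zero_or_pos (e 1) with h1 | h1
    · rw [h1, pow_zero, mul_one]
      have : coeff (Finsupp.single () n) (PowerSeries.X (R := R) ^ e 0) = 0 := by
        change PowerSeries.coeff n (PowerSeries.X ^ e 0) = 0
        rw [PowerSeries.coeff_X_pow, if_neg]
        intro h3
        apply he
        rw [eq_bi e, h1, ← h3]
      rw [this, mul_zero]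
    · rw [zero_pow (by omega), mul_zero, map_zero, mul_zero]

theorem coeff_zero_bi (F : FormalGroup R) [F.IsComm] {n : ℕ} (hn : 2 ≤ n) :
    coeff (bi 0 n) F.toPowerSeries = 0 := by
  rw [coeff_bi_comm, coeff_bi_zero F hn]

theorem diffA_zero (F G : FormalGroup R) [F.IsComm] [G.IsComm] {N : ℕ} (hN : 2 ≤ N) :
    diffA F G N 0 = 0 := by
  unfold diffA
  rw [Nat.sub_zero, map_sub, coeff_zero_bi G hN, coeff_zero_bi F hN, sub_zero]

theorem diffA_top (F G : FormalGroup R) {N : ℕ} (hN : 2 ≤ N) :
    diffA F G N N = 0 := by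
  unfold diffA
  rw [Nat.sub_self, map_sub, coeff_bi_zero G hN, coeff_bi_zero F hN, sub_zero]

theorem diffA_symm (F G : FormalGroup R) [F.IsComm] [G.IsComm] {N : ℕ} (i : ℕ) (hi : i ≤ N) :
    diffA F G N i = diffA F G N (N - i) := by
  unfold diffA
  have e : N - (N - i) = i := by omega
  rw [e, map_sub, map_sub, coeff_bi_comm G, coeff_bi_comm F]

end Diff


section Tee

variable {R : Type*} [CommRing R] {σ : Type*}

/-- The coordinate change `X + c X^N`. -/
noncomputable def tee (c : R) (N : ℕ) : PowerSeries R :=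
  PowerSeries.X + PowerSeries.C c * PowerSeries.X ^ N

theorem constantCoeff_tee (c : R) {N : ℕ} (hN : 2 ≤ N) :
    PowerSeries.constantCoeff (tee c N) = 0 := by
  unfold tee
  simp [zero_pow (by omega : N ≠ 0)]

theorem coeff_one_tee (c : R) {N : ℕ} (hN : 2 ≤ N) : PowerSeries.coeff 1 (tee c N) = 1 := by
  unfold tee
  rw [map_add, PowerSeries.coeff_C_mul, PowerSeries.coeff_X_pow, if_neg (by omega)]
  simp [PowerSeries.coeff_one_X]

theorem subst_tee (c : R) (N : ℕ) (f : MvPowerSeries σ R) (hf : constantCoeff f = 0) :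
    PowerSeries.subst f (tee c N) = f + C c * f ^ N := by
  have hs : PowerSeries.HasSubst f := PowerSeries.HasSubst.of_constantCoeff_zero hf
  unfold tee
  rw [PowerSeries.subst_add hs, PowerSeries.subst_mul hs, PowerSeries.subst_pow hs,
    PowerSeries.subst_X hs, PowerSeries.subst_C]

theorem ordGE_X_pow (s : σ) (N : ℕ) : OrdGE N ((X s : MvPowerSeries σ R) ^ N) := by
  have h : OrdGE 1 (X s : MvPowerSeries σ R) := ordGE_one_iff.2 (by simp)
  simpa using h.pow N

theorem OrdGE.C_mul {N : ℕ} {f : MvPowerSeries σ R} (h : OrdGE N f) (c : R) :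
    OrdGE N (C c * f) := fun d hd => by rw [coeff_C_mul, h d hd, mul_zero]

theorem subst_X_X (P : MvPowerSeries (Fin 2) R) :
    P.subst ![(X 0 : MvPowerSeries (Fin 2) R), X 1] = P := by
  have e : ![(X 0 : MvPowerSeries (Fin 2) R), X 1] = X := by
    funext s; fin_cases s <;> rfl
  rw [e, subst_self]; rfl

/-- Exactly the shape of a degree `N` exponent. -/
theorem eq_bi_of_degree {d : Fin 2 →₀ ℕ} {N : ℕ} (hd : d.degree = N) :
    d = bi (d 0) (N - d 0) := by
  have h := degree_eq d
  have : d 1 = N - d 0 := by omega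
  rw [← this]; exact eq_bi d

/-- The new law agrees with `F` one degree further. -/
theorem conj_agree (F L L' : FormalGroup R) {N : ℕ} (hN : 2 ≤ N) (c : R)
    (hFL : OrdGE N (L.toPowerSeries - F.toPowerSeries))
    (hL' : IsFGHom L' L (tee c N))
    (h0 : diffA F L N 0 = 0) (hN0 : diffA F L N N = 0)
    (ha : ∀ i, 1 ≤ i → i < N → diffA F L N i = c * (Nat.choose N i : R)) :
    OrdGE (N + 1) (L'.toPowerSeries - F.toPowerSeries) := by
  set X0 := (X 0 : MvPowerSeries (Fin 2) R) with hX0
  set X1 := (X 1 : MvPowerSeries (Fin 2) R) with hX1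
  have hX0c : constantCoeff X0 = 0 := by simp [hX0]
  have hX1c : constantCoeff X1 = 0 := by simp [hX1]
  have hhom := hL'.2
  rw [subst_tee c N _ L'.zero_constantCoeff, subst_tee c N _ hX0c, subst_tee c N _ hX1c] at hhom
  -- first order expansion of the right-hand side
  have hfo := firstOrder L (by omega : 1 ≤ N) ![X0 + C c * X0 ^ N, X1 + C c * X1 ^ N] ![X0, X1]
    (by
      intro s; fin_cases s <;> simp [hX0c, hX1c, zero_pow (by omega : N ≠ 0)])
    (by intro s; fin_cases s <;> simp [hX0c, hX1c])
    (by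
      intro s; fin_cases s
      · simpa using (ordGE_X_pow (R := R) (0 : Fin 2) N).C_mul c
      · simpa using (ordGE_X_pow (R := R) (1 : Fin 2) N).C_mul c)
  rw [subst_X_X] at hfo
  simp only [Matrix.cons_val_zero, Matrix.cons_val_one, add_sub_cancel_left] at hfo
  -- `L'^N ≡ (X₀+X₁)^N`
  have hpow := ordGE_pow_sub (M := 2) (a := L'.toPowerSeries) (b := X0 + X1)
    (by
      have := ordGE_two_sub L'
      convert this using 1
      ring)
    (ordGE_one_iff.2 L'.zero_constantCoeff)
    (ordGE_one_iff.2 (by simp [hX0c, hX1c])) N (by omega)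
  have hpow' : OrdGE (N + 1) (L'.toPowerSeries ^ N - (X0 + X1) ^ N) := hpow.mono (by omega)
  -- the main congruence
  have hR : OrdGE (N + 1) (L'.toPowerSeries - L.toPowerSeries - C c * X0 ^ N - C c * X1 ^ N +
      C c * (X0 + X1) ^ N) := by
    have e : L'.toPowerSeries - L.toPowerSeries - C c * X0 ^ N - C c * X1 ^ N +
        C c * (X0 + X1) ^ N =
      (L.toPowerSeries.subst ![X0 + C c * X0 ^ N, X1 + C c * X1 ^ N] - L.toPowerSeries -
        C c * X0 ^ N - C c * X1 ^ N) - C c * (L'.toPowerSeries ^ N - (X0 + X1) ^ N) := by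
      rw [← hhom]; ring
    rw [e]
    exact hfo.sub (hpow'.C_mul c)
  intro d hd
  have hdec : L'.toPowerSeries - F.toPowerSeries =
      (L'.toPowerSeries - L.toPowerSeries - C c * X0 ^ N - C c * X1 ^ N + C c * (X0 + X1) ^ N) +
        (L.toPowerSeries - F.toPowerSeries) +
        C c * (X0 ^ N + X1 ^ N - (X0 + X1) ^ N) := by ring
  rw [hdec, map_add, map_add, hR d hd, zero_add, coeff_C_mul]
  rcases Nat.lt_or_ge d.degree N with hlt | hge
  · rw [hFL d hlt, zero_add]
    have h1 : OrdGE N (X0 ^ N + X1 ^ N - (X0 + X1) ^ N : MvPowerSeries (Fin 2) R) := by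
      apply OrdGE.sub (OrdGE.add (ordGE_X_pow _ N) (ordGE_X_pow _ N))
      have : OrdGE 1 (X0 + X1 : MvPowerSeries (Fin 2) R) := ordGE_one_iff.2 (by simp [hX0c, hX1c])
      simpa using this.pow N
    rw [h1 d hlt, mul_zero]
  · have hdN : d.degree = N := by omega
    have hbi := eq_bi_of_degree hdN
    have hle : d 0 ≤ N := by have := degree_eq d; omega
    rw [hbi]
    change diffA F L N (d 0) + _ = 0
    have hX0N : coeff (bi (d 0) (N - d 0)) (X0 ^ N : MvPowerSeries (Fin 2) R) =
        if d 0 = N then 1 else 0 := by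
      have := coeff_mono_bi (R := R) (d 0) (N - d 0) N 0
      simp only [pow_zero, mul_one] at this
      rw [hX0, this]
      by_cases h : d 0 = N
      · rw [if_pos ⟨h.symm, by omega⟩, if_pos h]
      · rw [if_neg (fun h' => h h'.1.symm), if_neg h]
    have hX1N : coeff (bi (d 0) (N - d 0)) (X1 ^ N : MvPowerSeries (Fin 2) R) =
        if d 0 = 0 then 1 else 0 := by
      have := coeff_mono_bi (R := R) (d 0) (N - d 0) 0 N
      simp only [pow_zero, one_mul] at this
      rw [hX1, this]
      by_cases h : d 0 = 0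
      · rw [if_pos ⟨h.symm, by omega⟩, if_pos h]
      · rw [if_neg (fun h' => h h'.1.symm), if_neg h]
    have hadd : coeff (bi (d 0) (N - d 0)) ((X0 + X1) ^ N : MvPowerSeries (Fin 2) R) =
        (Nat.choose N (d 0) : R) := by
      have := coeff_add_pow_bi (R := R) (d 0) (N - d 0) N
      rw [if_pos (by omega)] at this
      exact this
    rw [map_sub, map_add, hX0N, hX1N, hadd]
    rcases Nat.eq_zero_or_pos (d 0) with h00 | h00
    · rw [h00, h0, if_neg (by omega : (0 : ℕ) ≠ N), if_pos rfl]
      simp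
    · rcases Nat.lt_or_ge (d 0) N with h01 | h01
      · rw [ha _ h00 h01, if_neg (by omega), if_neg (by omega)]
        ring
      · have : d 0 = N := by omega
        rw [this, hN0, if_pos rfl, if_neg (by omega : N ≠ 0)]
        simp

end Tee

section PSeries

variable (p : ℕ) [hp : Fact p.Prime] {K : Type*} [Field K] [CharP K p]

/-- `t^q = t ∘ X^q` when the coefficient `c` is fixed by `q`-th power. -/
theorem tee_pow (e : ℕ) (c : K) (hc : c ^ (p ^ e) = c) (N : ℕ) :
    (tee c N) ^ (p ^ e) = PowerSeries.subst ((PowerSeries.X : PowerSeries K) ^ (p ^ e)) (tee c N) := by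
  have : CharP (PowerSeries K) p :=
    charP_of_injective_ringHom (f := (PowerSeries.C : K →+* PowerSeries K)) PowerSeries.C_injective p
  rw [subst_tee c N _ (by
    change PowerSeries.constantCoeff _ = 0
    simp [zero_pow (pow_ne_zero e hp.out.ne_zero)])]
  unfold tee
  rw [add_pow_char_pow, mul_pow, ← map_pow, hc, ← pow_mul, ← pow_mul, mul_comm N]
  rfl

/-- The coordinate change preserves `[p] = X^q`. -/
theorem conj_pSeries (e : ℕ) (c : K) (hc : c ^ (p ^ e) = c) {N : ℕ} (hN : 2 ≤ N)
    (L L' : FormalGroup K) (hL' : IsFGHom L' L (tee c N))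
    (hp' : mulSeries L p = PowerSeries.X ^ (p ^ e)) :
    mulSeries L' p = PowerSeries.X ^ (p ^ e) := by
  have h1 := fgHom_comp_mulSeries hL' p
  rw [hp'] at h1
  have hX : PowerSeries.HasSubst (tee c N) :=
    PowerSeries.HasSubst.of_constantCoeff_zero' (constantCoeff_tee c hN)
  have h2 : scomp ((PowerSeries.X : PowerSeries K) ^ (p ^ e)) (tee c N) = (tee c N) ^ (p ^ e) := by
    unfold scomp
    rw [PowerSeries.subst_pow hX, PowerSeries.subst_X hX]
  rw [h2, tee_pow p e c hc N] at h1
  have hu : IsUnit (PowerSeries.coeff 1 (tee c N)) := by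
    rw [coeff_one_tee c hN]; exact isUnit_one
  have h0 := constantCoeff_tee c hN
  -- cancel `t`
  have hcancel : ∀ A : PowerSeries K, PowerSeries.constantCoeff A = 0 →
      scomp (compInv (tee c N)) (scomp (tee c N) A) = A := by
    intro A hA
    rw [← scomp_assoc _ _ _ h0 hA, compInv_scomp _ h0 hu]
    unfold scomp
    exact PowerSeries.subst_X (PowerSeries.HasSubst.of_constantCoeff_zero' hA)
  have hqc : PowerSeries.constantCoeff ((PowerSeries.X : PowerSeries K) ^ (p ^ e)) = 0 := by
    simp [zero_pow (pow_ne_zero e hp.out.ne_zero)]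
  rw [← hcancel _ (constantCoeff_mulSeries L' p), ← hcancel _ hqc]
  congr 1

end PSeries


section Compare

variable {R : Type*} [CommRing R]

theorem ordGE_ps_iff {N : ℕ} {f : PowerSeries R} :
    OrdGE N f ↔ ∀ j, j < N → PowerSeries.coeff j f = 0 := by
  constructor
  · intro h j hj
    exact h (Finsupp.single () j) (by simpa using hj)
  · intro h d hd
    have e : d = Finsupp.single () (d ()) := by
      ext; simp
    rw [e] at hd ⊢
    exact h (d ()) (by simpa using hd)

theorem coeff_line (D : MvPowerSeries (Fin 2) R) (N : ℕ) (m : R) :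
    PowerSeries.coeff N (D.subst ![PowerSeries.C m * PowerSeries.X, PowerSeries.X]) =
      ∑ i ∈ Finset.range (N + 1), coeff (bi i (N - i)) D * m ^ i := by
  have hs : HasSubst ![(PowerSeries.C m * PowerSeries.X : PowerSeries R), PowerSeries.X] := by
    apply hasSubst_of_constantCoeff_zero
    intro s; fin_cases s
    · change PowerSeries.constantCoeff (PowerSeries.C m * PowerSeries.X) = 0
      simp
    · change PowerSeries.constantCoeff (PowerSeries.X : PowerSeries R) = 0
      simp
  change coeff (Finsupp.single () N) _ = _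
  rw [coeff_subst hs]
  have hterm : ∀ e : Fin 2 →₀ ℕ, coeff (Finsupp.single () N)
      (e.prod fun s k => (![(PowerSeries.C m * PowerSeries.X : PowerSeries R), PowerSeries.X] s) ^ k) =
      if e 0 + e 1 = N then m ^ e 0 else 0 := by
    intro e
    rw [prod_two]
    simp only [Matrix.cons_val_zero, Matrix.cons_val_one]
    have : (PowerSeries.C m * PowerSeries.X : PowerSeries R) ^ e 0 * PowerSeries.X ^ e 1 =
        PowerSeries.C (m ^ e 0) * PowerSeries.X ^ (e 0 + e 1) := by
      rw [mul_pow, ← map_pow, pow_add, mul_assoc]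
    rw [this]
    change PowerSeries.coeff N _ = _
    rw [PowerSeries.coeff_C_mul, PowerSeries.coeff_X_pow]
    by_cases h : e 0 + e 1 = N
    · rw [if_pos h, if_pos h.symm, mul_one]
    · rw [if_neg h, if_neg (fun h' => h h'.symm), mul_zero]
  simp only [hterm, smul_eq_mul]
  rw [finsum_eq_sum_of_support_subset (s := (Finset.range (N + 1)).image fun i => bi i (N - i))]
  · rw [Finset.sum_image]
    · apply Finset.sum_congr rfl
      intro i hi
      have hi' : i ≤ N := Nat.lt_succ_iff.1 (Finset.mem_range.1 hi)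
      simp only [bi_zero, bi_one]
      rw [if_pos (by omega)]
    · intro x _ y _ h
      exact (bi_inj.1 h).1
  · intro e he
    simp only [Function.mem_support, ne_eq] at he
    by_cases h : e 0 + e 1 = N
    · simp only [Finset.coe_image, Set.mem_image, Finset.coe_range, Set.mem_Iio]
      refine ⟨e 0, by omega, ?_⟩
      have : N - e 0 = e 1 := by omega
      rw [this]; exact (eq_bi e).symm
    · rw [if_neg h, mul_zero] at he
      exact absurd rfl he

theorem mulSeries_diff (F L : FormalGroup R) {N : ℕ} (hN : 2 ≤ N)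
    (hFL : OrdGE N (L.toPowerSeries - F.toPowerSeries)) (m : ℕ) :
    OrdGE N (mulSeries L m - mulSeries F m) ∧
      PowerSeries.coeff N (mulSeries L m - mulSeries F m) =
        ∑ s ∈ Finset.range m, ∑ i ∈ Finset.range (N + 1), diffA F L N i * (s : R) ^ i := by
  induction m with
  | zero =>
    simp [mulSeries, ordGE_zero]
  | succ m ih =>
    obtain ⟨ih1, ih2⟩ := ih
    have hX : (MvPowerSeries.constantCoeff (PowerSeries.X : PowerSeries R)) = 0 := by
      change PowerSeries.constantCoeff (PowerSeries.X : PowerSeries R) = 0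
      simp
    have hexp := expansion (σ := Unit) F L (by omega : 1 ≤ N) hFL
      ![mulSeries L m, PowerSeries.X] ![mulSeries F m, PowerSeries.X]
      ![PowerSeries.C (m : R) * PowerSeries.X, PowerSeries.X]
      (by
        intro s; fin_cases s
        · exact constantCoeff_mulSeries L m
        · exact hX)
      (by
        intro s; fin_cases s
        · exact constantCoeff_mulSeries F m
        · exact hX)
      (by
        intro s; fin_cases s
        · change PowerSeries.constantCoeff (PowerSeries.C (m : R) * PowerSeries.X) = 0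
          simp
        · exact hX)
      (by
        intro s; fin_cases s
        · exact ih1
        · simp [ordGE_zero])
      (by
        intro s; fin_cases s
        · apply ordGE_ps_iff.2
          intro j hj
          simp only [Fin.zero_eta, Matrix.cons_val_zero, map_sub]
          rcases (by omega : j = 0 ∨ j = 1) with rfl | rfl
          · have := constantCoeff_mulSeries L m
            simpa using this
          · rw [coeff_one_mulSeries, PowerSeries.coeff_C_mul, PowerSeries.coeff_one_X]
            simp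
        · simp [ordGE_zero])
    simp only [Matrix.cons_val_zero, Matrix.cons_val_one, sub_self, sub_zero] at hexp
    have hsucc : ∀ H : FormalGroup R, mulSeries H (m + 1) =
        H.toPowerSeries.subst ![mulSeries H m, PowerSeries.X] := fun H => rfl
    rw [← hsucc L, ← hsucc F] at hexp
    have hline := (hFL.subst (σ := Unit) ![PowerSeries.C (m : R) * PowerSeries.X, PowerSeries.X] (by
        intro s; fin_cases s
        · change PowerSeries.constantCoeff (PowerSeries.C (m : R) * PowerSeries.X) = 0
          simp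
        · exact hX))
    have hdec : mulSeries L (m + 1) - mulSeries F (m + 1) =
        (mulSeries L (m + 1) - mulSeries F (m + 1) - (mulSeries L m - mulSeries F m) -
          (L.toPowerSeries - F.toPowerSeries).subst
            ![PowerSeries.C (m : R) * PowerSeries.X, PowerSeries.X]) +
        (mulSeries L m - mulSeries F m) + (L.toPowerSeries - F.toPowerSeries).subst
            ![PowerSeries.C (m : R) * PowerSeries.X, PowerSeries.X] := by ring
    constructor
    · rw [hdec]
      exact ((hexp.mono (by omega)).add ih1).add hline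
    · rw [hdec, map_add, map_add, ih2, Finset.sum_range_succ, coeff_line]
      have h0 := (ordGE_ps_iff.1 hexp) N (by omega)
      rw [h0, zero_add]
      rfl

end Compare

section NatId

/-- The integer identity behind `[p]`-comparison. -/
theorem nat_identity (p : ℕ) [hp : Fact p.Prime] {N : ℕ} (hN : 2 ≤ N) (hpow : ∃ k, N = p ^ k) :
    (∑ s ∈ Finset.range p, ∑ i ∈ Finset.range (N + 1),
      (if 1 ≤ i ∧ i < N then cN p N i else 0) * s ^ i) + 1 = p ^ (N - 1) := by
  have hp1 := hp.out
  have hl : lam p N = p := by unfold lam; rw [if_pos hpow]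
  obtain ⟨k, hk⟩ := hpow
  have hterm : ∀ (s i : ℕ), i ∈ Finset.range (N + 1) →
      s ^ i * 1 ^ (N - i) * Nat.choose N i =
        p * ((if 1 ≤ i ∧ i < N then cN p N i else 0) * s ^ i) + (if i = 0 then 1 else 0) +
          (if i = N then s ^ N else 0) := by
    intro s i hi
    have hi' : i ≤ N := Nat.lt_succ_iff.1 (Finset.mem_range.1 hi)
    rcases Nat.eq_zero_or_pos i with rfl | hi0
    · simp [show (0 : ℕ) ≠ N by omega]
    · rcases Nat.lt_or_ge i N with hiN | hiN
      · rw [if_pos ⟨hi0, hiN⟩, if_neg (by omega), if_neg (by omega)]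
        have hd : p ∣ Nat.choose N i := by
          rw [hk]
          exact hp1.dvd_choose_pow (by omega) (by omega)
        unfold cN
        rw [hl, one_pow, mul_one, add_zero, add_zero, ← mul_assoc, Nat.mul_div_cancel' hd]
        ring
      · have : i = N := by omega
        subst this
        simp [show i ≠ 0 by omega]
  have hs : ∀ s : ℕ, (s + 1) ^ N = p * (∑ i ∈ Finset.range (N + 1),
      (if 1 ≤ i ∧ i < N then cN p N i else 0) * s ^ i) + 1 + s ^ N := by
    intro s
    rw [add_pow]
    simp only [Nat.cast_id]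
    rw [Finset.sum_congr rfl (hterm s), Finset.sum_add_distrib, Finset.sum_add_distrib,
      Finset.mul_sum]
    congr 1
    · congr 1
      rw [Finset.sum_ite_eq' (Finset.range (N + 1)) 0]
      simp
    · rw [Finset.sum_ite_eq' (Finset.range (N + 1)) N]
      simp
  have hsum : ∑ s ∈ Finset.range p, (s + 1) ^ N + 0 ^ N = ∑ s ∈ Finset.range p, s ^ N + p ^ N := by
    have h1 := Finset.sum_range_succ (fun s : ℕ => s ^ N) p
    have h2 := Finset.sum_range_succ' (fun s : ℕ => s ^ N) p
    simpa using h2.symm.trans h1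
  rw [Finset.sum_congr rfl (fun s _ => hs s), zero_pow (by omega), Finset.sum_add_distrib,
    Finset.sum_add_distrib, ← Finset.mul_sum] at hsum
  simp only [Finset.sum_const, Finset.card_range, smul_eq_mul, mul_one, add_zero] at hsum
  have h3 : p * ((∑ s ∈ Finset.range p, ∑ i ∈ Finset.range (N + 1),
      (if 1 ≤ i ∧ i < N then cN p N i else 0) * s ^ i) + 1) = p * p ^ (N - 1) := by
    have e : p * p ^ (N - 1) = p ^ N := by
      rw [← pow_succ']; congr 1; omega
    rw [e, mul_add, mul_one]
    omega
  exact Nat.eq_of_mul_eq_mul_left hp1.pos h3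

end NatId


section Step

variable (p : ℕ) [hp : Fact p.Prime] {K : Type*} [Field K] [CharP K p]

/-- Comparison of `[p]` forces the coefficient `c` to vanish when `N` is a power of `p`. -/
theorem c_eq_zero (F L : FormalGroup K) [F.IsComm] [L.IsComm] {N : ℕ} (hN : 2 ≤ N)
    (hpow : ∃ k, N = p ^ k) (hFL : OrdGE N (L.toPowerSeries - F.toPowerSeries))
    (hp' : mulSeries L p = mulSeries F p) (c : K)
    (hc : ∀ i, 1 ≤ i → i < N → diffA F L N i = c * ((cN p N i : ℕ) : K)) : c = 0 := by
  have hp1 := hp.out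
  have h := (mulSeries_diff F L hN hFL p).2
  rw [hp', sub_self, map_zero] at h
  have hterm : ∀ s ∈ Finset.range p, ∀ i ∈ Finset.range (N + 1),
      diffA F L N i * (s : K) ^ i =
        c * (((if 1 ≤ i ∧ i < N then cN p N i else 0) * s ^ i : ℕ) : K) := by
    intro s _ i hi
    have hi' : i ≤ N := Nat.lt_succ_iff.1 (Finset.mem_range.1 hi)
    rcases Nat.eq_zero_or_pos i with rfl | hi0
    · rw [diffA_zero F L hN]; simp
    · rcases Nat.lt_or_ge i N with hiN | hiN
      · rw [hc i hi0 hiN, if_pos ⟨hi0, hiN⟩]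
        push_cast; ring
      · have : i = N := by omega
        subst this
        rw [diffA_top F L hN]; simp
  have h2 : (0 : K) = c * ((∑ s ∈ Finset.range p, ∑ i ∈ Finset.range (N + 1),
      (if 1 ≤ i ∧ i < N then cN p N i else 0) * s ^ i : ℕ) : K) := by
    rw [h]
    push_cast
    rw [Finset.mul_sum]
    apply Finset.sum_congr rfl
    intro s hs
    rw [Finset.mul_sum]
    apply Finset.sum_congr rfl
    intro i hi
    have := hterm s hs i hi
    rw [this]
    push_cast
    rfl
  have h3 := nat_identity p hN hpow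
  have h4 := congrArg (Nat.cast : ℕ → K) h3
  push_cast at h4
  have hp0 : ((p : ℕ) : K) = 0 := CharP.cast_eq_zero K p
  rw [hp0, zero_pow (by omega)] at h4
  have h5 : ((∑ s ∈ Finset.range p, ∑ i ∈ Finset.range (N + 1),
      (if 1 ≤ i ∧ i < N then cN p N i else 0) * s ^ i : ℕ) : K) = -1 := by
    push_cast
    linear_combination h4
  rw [h5] at h2
  linear_combination h2

/-- Degree `< N+1` agreement from agreement below `N` and vanishing of the difference coefficients. -/
theorem agree_of_diffA {F L : FormalGroup K} {N : ℕ}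
    (hFL : OrdGE N (L.toPowerSeries - F.toPowerSeries)) (h : ∀ i, i ≤ N → diffA F L N i = 0) :
    OrdGE (N + 1) (L.toPowerSeries - F.toPowerSeries) := by
  intro d hd
  rcases Nat.lt_or_ge d.degree N with hlt | hge
  · exact hFL d hlt
  · have hdN : d.degree = N := by omega
    have hbi := eq_bi_of_degree hdN
    have hle : d 0 ≤ N := by have := degree_eq d; omega
    rw [hbi]
    exact h _ hle

/-- The inductive step. -/
theorem step (e : ℕ) (hK : ∀ x : K, x ^ (p ^ e) = x) (F L : FormalGroup K) [F.IsComm] [L.IsComm]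
    {N : ℕ} (hN : 2 ≤ N) (hF : mulSeries F p = PowerSeries.X ^ (p ^ e))
    (hL : mulSeries L p = PowerSeries.X ^ (p ^ e))
    (hFL : OrdGE N (L.toPowerSeries - F.toPowerSeries)) :
    ∃ (L' : FormalGroup K) (t : PowerSeries K), L'.IsComm ∧
      mulSeries L' p = PowerSeries.X ^ (p ^ e) ∧
      OrdGE (N + 1) (L'.toPowerSeries - F.toPowerSeries) ∧
      IsFGHom L' L t ∧ PowerSeries.coeff 1 t = 1 ∧
      ∀ j, j < N → PowerSeries.coeff j t = PowerSeries.coeff j PowerSeries.X := by
  obtain ⟨c, hc⟩ := cocycle_main p N hN (diffA F L N) (diffA_zero F L hN) (diffA_top F L hN)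
    (fun i hi => diffA_symm F L i hi)
    (fun i j hi hj hij => diffA_cocycle F L (by omega) hFL i j hi hj hij)
  by_cases hpow : ∃ k, N = p ^ k
  · have hc0 : c = 0 := c_eq_zero p F L hN hpow hFL (by rw [hF, hL]) c hc
    refine ⟨L, PowerSeries.X, inferInstance, hL, ?_, fgHom_id L, PowerSeries.coeff_one_X, fun _ _ => rfl⟩
    apply agree_of_diffA hFL
    intro i hi
    rcases Nat.eq_zero_or_pos i with rfl | hi0
    · exact diffA_zero F L hN
    · rcases Nat.lt_or_ge i N with hiN | hiN
      · rw [hc i hi0 hiN, hc0, zero_mul]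
      · have : i = N := by omega
        subst this
        exact diffA_top F L hN
  · have hl : lam p N = 1 := by unfold lam; rw [if_neg hpow]
    have hc' : ∀ i, 1 ≤ i → i < N → diffA F L N i = c * (Nat.choose N i : K) := by
      intro i hi hi'
      rw [hc i hi hi']
      unfold cN
      rw [hl, Nat.div_one]
    have h0 := constantCoeff_tee c hN
    have hu : IsUnit (PowerSeries.coeff 1 (tee c N)) := by
      rw [coeff_one_tee c hN]; exact isUnit_one
    have hhom := conjLaw_hom L (tee c N) h0 hu
    refine ⟨conjLaw L (tee c N) h0 hu, tee c N, inferInstance,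
      conj_pSeries p e c (hK c) hN L _ hhom hL,
      conj_agree F L _ hN c hFL hhom (diffA_zero F L hN) (diffA_top F L hN) hc', hhom,
      coeff_one_tee c hN, ?_⟩
    intro j hj
    unfold tee
    rw [map_add, PowerSeries.coeff_C_mul, PowerSeries.coeff_X_pow, if_neg (by omega), mul_zero,
      add_zero]

/-- A stage of the construction. -/
structure Stage (F G : FormalGroup K) (q N : ℕ) where
  L : FormalGroup K
  comm : L.IsComm
  hq : mulSeries L p = PowerSeries.X ^ q
  agree : OrdGE N (L.toPowerSeries - F.toPowerSeries)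
  φ : PowerSeries K
  hom : IsFGHom L G φ
  one : PowerSeries.coeff 1 φ = 1

variable {p}

/-- Composition with a series close to `X`. -/
theorem coeff_scomp_of_close (φ t : PowerSeries K) {N : ℕ} (hN : 1 ≤ N)
    (h0 : PowerSeries.constantCoeff φ = 0) (ht0 : PowerSeries.constantCoeff t = 0)
    (ht : ∀ j, j < N → PowerSeries.coeff j t = PowerSeries.coeff j PowerSeries.X)
    (j : ℕ) (hj : j < N) : PowerSeries.coeff j (scomp φ t) = PowerSeries.coeff j φ := by
  have hclose : OrdGE N (t - PowerSeries.X) := by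
    apply ordGE_ps_iff.2
    intro i hi
    rw [map_sub, ht i hi, sub_self]
  have hφ : OrdGE 1 (φ : MvPowerSeries Unit K) := ordGE_one_iff.2 h0
  have h := hφ.subst_sub (le_refl 1) hN (fun _ => t) (fun _ => (PowerSeries.X : PowerSeries K))
    (fun _ => ht0) (fun _ => by
      change PowerSeries.constantCoeff (PowerSeries.X : PowerSeries K) = 0
      simp) (fun _ => hclose)
  have h2 := (ordGE_ps_iff.1 h) j (by omega)
  rw [map_sub, sub_eq_zero] at h2
  have e1 : MvPowerSeries.subst (fun _ => t) (φ : MvPowerSeries Unit K) = scomp φ t := rfl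
  have e2 : MvPowerSeries.subst (fun _ => (PowerSeries.X : PowerSeries K)) (φ : MvPowerSeries Unit K) =
      φ := PowerSeries.X_subst φ
  rw [e1, e2] at h2
  exact h2

theorem stage_step (e : ℕ) (hK : ∀ x : K, x ^ (p ^ e) = x) (F G : FormalGroup K) [F.IsComm]
    (hF : mulSeries F p = PowerSeries.X ^ (p ^ e)) {N : ℕ} (hN : 2 ≤ N)
    (S : Stage p F G (p ^ e) N) :
    ∃ S' : Stage p F G (p ^ e) (N + 1), ∀ j, j < N →
      PowerSeries.coeff j S'.φ = PowerSeries.coeff j S.φ := by
  have := S.comm
  obtain ⟨L', t, hc, hq, hag, hhom, h1, hclose⟩ := step p e hK F S.L hN hF S.hq S.agree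
  refine ⟨⟨L', hc, hq, hag, scomp S.φ t, fgHom_comp S.hom hhom, ?_⟩, ?_⟩
  · rw [coeff_one_scomp _ _ S.hom.1 hhom.1, S.one, h1, one_mul]
  · intro j hj
    exact coeff_scomp_of_close S.φ t (by omega) S.hom.1 hhom.1 hclose j hj

theorem exists_seq {α : ℕ → Type*} (base : α 0) (r : ∀ n, α n → α (n + 1) → Prop)
    (step : ∀ n (s : α n), ∃ s', r n s s') :
    ∃ f : ∀ n, α n, ∀ n, r n (f n) (f (n + 1)) := by
  refine ⟨fun n => Nat.rec base (fun n s => Classical.choose (step n s)) n, fun n => ?_⟩
  exact Classical.choose_spec (step n _)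

/-- Agreement below `2` of two laws. -/
theorem agree_two (F G : FormalGroup K) : OrdGE 2 (G.toPowerSeries - F.toPowerSeries) := by
  have h := (ordGE_two_sub G).sub (ordGE_two_sub F)
  convert h using 1
  ring

end Step


end LazardAux

noncomputable section

/-- Lazard's symmetric 2-cocycle lemma in the form needed, in characteristic `p`, in terms of the
coefficients: a homogeneous degree-`N` polynomial `∑ a_i X^i Y^(N-i)` (`a_0 = a_N = 0`, `N ≥ 2`)
with `a_i = a_{N-i}` and `a_{i+j} C(i+j,i) = a_i C(N-i,j)` (`i,j ≥ 1`, `i+j<N`) is `c·C_N`,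
`C_N = ((X+Y)^N - X^N - Y^N)/λ(N)`, `λ(N) = p` if `N` is a power of `p`, else `1`.
Paper proof: `∂_Y D = a_{N-1}((X+Y)^(N-1) - Y^(N-1))`.
If `p ∤ N`, `D - (a_{N-1}/N)((X+Y)^N-X^N-Y^N)` has zero partials and degree prime to `p`, so is `0`.
If `p | N`, `N>p`: the coefficient of `X^(N-p) Y^(p-1)` in `∂_Y D` must vanish and
`C(N-1,p-1) ≡ 1`, so `a_{N-1} = 0`; then `D = D'(X^p,Y^p)`, induct.
If `N = p`: `D - a_{p-1} C_p` has zero partials, and no pure terms. -/
theorem lazard_cocycle (p : ℕ) [Fact p.Prime] {K : Type*} [Field K] [CharP K p] (N : ℕ) (hN : 2 ≤ N)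
    (a : ℕ → K) (h0 : a 0 = 0) (hN0 : a N = 0) (hsymm : ∀ i ≤ N, a i = a (N - i))
    (hcoc : ∀ i j, 1 ≤ i → 1 ≤ j → i + j < N →
      a (i + j) * (Nat.choose (i + j) i : K) = a i * (Nat.choose (N - i) j : K)) :
    ∃ c : K, ∀ i, 1 ≤ i → i < N →
      a i = c * (((Nat.choose N i) / (if ∃ k, N = p ^ k then p else 1) : ℕ) : K) :=
  LazardAux.cocycle_main p N hN a h0 hN0 hsymm hcoc

/-- **Uniqueness**: two commutative laws over a field `K` of characteristic `p` in which `x^(p^e) = x`,
both with `[p] = X^(p^e)`, are isomorphic. Induct on the degree `N` of first difference: the degree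
`N` part of `G - F` is a symmetric 2-cocycle, so `= c C_N`. If `N` is not a power of `p`, the change of
coordinates `X + (c/…) X^N` (coefficients in `K`, hence commuting with `X^(p^e)`, so preserving
`[p] = X^(p^e)`) raises `N`. If `N` is a power of `p`, compare `[p]`: `[p]_G - [p]_F ≡ c ((p^N-p)/p) X^N
≡ -c X^N`, so `c = 0`. The iso is the `X`-adic limit of the composites. -/
theorem lazard_unique (p : ℕ) [Fact p.Prime] {K : Type*} [Field K] [CharP K p] (e : ℕ) (he : 1 ≤ e)
    (hK : ∀ x : K, x ^ (p ^ e) = x) (F G : FormalGroup K) [F.IsComm] [G.IsComm]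
    (hF : mulSeries F p = PowerSeries.X ^ (p ^ e)) (hG : mulSeries G p = PowerSeries.X ^ (p ^ e)) :
    ∃ ι : PowerSeries K, IsFGHom F G ι ∧ PowerSeries.coeff 1 ι = 1 := by
  open LazardAux MvPowerSeries in
  -- the stages
  let base : Stage p F G (p ^ e) (0 + 2) :=
    ⟨G, inferInstance, hG, agree_two F G, PowerSeries.X, fgHom_id G, PowerSeries.coeff_one_X⟩
  obtain ⟨f, hf⟩ := exists_seq (α := fun n => Stage p F G (p ^ e) (n + 2)) base
    (fun n s s' => ∀ j, j < n + 2 → PowerSeries.coeff j s'.φ = PowerSeries.coeff j s.φ)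
    (fun n s => stage_step e hK F G hF (by omega) s)
  let ι : PowerSeries K := PowerSeries.mk fun j => PowerSeries.coeff j (f j).φ
  have hι : ∀ n j, j ≤ n → PowerSeries.coeff j ι = PowerSeries.coeff j (f n).φ := by
    intro n j hj
    rw [PowerSeries.coeff_mk]
    induction n, hj using Nat.le_induction with
    | base => rfl
    | succ n hn ih => rw [ih, hf n j (by omega)]
  have hι0 : PowerSeries.constantCoeff ι = 0 := by
    have := hι 0 0 le_rfl
    rw [PowerSeries.coeff_zero_eq_constantCoeff_apply, PowerSeries.coeff_zero_eq_constantCoeff_apply,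
      (f 0).hom.1] at this
    exact this
  have hι1 : PowerSeries.coeff 1 ι = 1 := by
    rw [hι 1 1 le_rfl, (f 1).one]
  refine ⟨ι, ⟨hι0, ?_⟩, hι1⟩
  ext d
  set n := d.degree with hn
  set S := f n with hS
  have hS0 : PowerSeries.constantCoeff S.φ = 0 := S.hom.1
  -- `ι ≡ φ` modulo order `n + 1`
  have hdiff : OrdGE (n + 1) ((ι : MvPowerSeries Unit K) - S.φ) := by
    apply ordGE_ps_iff.2
    intro j hj
    rw [map_sub, hι n j (by omega), sub_self]
  have hιc : MvPowerSeries.constantCoeff (ι : MvPowerSeries Unit K) = 0 := hι0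
  have hφc : MvPowerSeries.constantCoeff (S.φ : MvPowerSeries Unit K) = 0 := hS0
  -- step (i)
  have h1 : OrdGE (n + 1) (PowerSeries.subst F.toPowerSeries ι - PowerSeries.subst F.toPowerSeries S.φ) := by
    have hs : PowerSeries.HasSubst F.toPowerSeries :=
      PowerSeries.HasSubst.of_constantCoeff_zero F.zero_constantCoeff
    rw [← PowerSeries.subst_sub hs]
    exact hdiff.subst (fun _ => F.toPowerSeries) (fun _ => F.zero_constantCoeff)
  -- step (ii)
  have h2 : OrdGE (n + 1) (PowerSeries.subst F.toPowerSeries S.φ - PowerSeries.subst S.L.toPowerSeries S.φ) := by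
    have := (ordGE_one_iff.2 hφc).subst_sub (le_refl 1) (by omega : 1 ≤ n + 2)
      (fun _ => F.toPowerSeries) (fun _ => S.L.toPowerSeries) (fun _ => F.zero_constantCoeff)
      (fun _ => S.L.zero_constantCoeff) (fun _ => by
        have := S.agree
        have h3 : S.L.toPowerSeries - F.toPowerSeries = -(F.toPowerSeries - S.L.toPowerSeries) := by ring
        rw [h3] at this
        have h4 := this.neg
        rwa [neg_neg] at h4)
    exact this.mono (by omega)
  -- step (iv)
  have hXs : ∀ s : Fin 2, PowerSeries.HasSubst (X s : MvPowerSeries (Fin 2) K) :=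
    fun s => PowerSeries.HasSubst.X s
  have hcX : ∀ (φ : PowerSeries K), PowerSeries.constantCoeff φ = 0 → ∀ s : Fin 2,
      constantCoeff (PowerSeries.subst (X s : MvPowerSeries (Fin 2) K) φ) = 0 := by
    intro φ hφ s
    exact PowerSeries.constantCoeff_subst_eq_zero (by simp) _ hφ
  have h4 : OrdGE (n + 1) (G.toPowerSeries.subst
        ![PowerSeries.subst (X 0 : MvPowerSeries (Fin 2) K) S.φ,
          PowerSeries.subst (X 1 : MvPowerSeries (Fin 2) K) S.φ] -
      G.toPowerSeries.subst ![PowerSeries.subst (X 0 : MvPowerSeries (Fin 2) K) ι,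
          PowerSeries.subst (X 1 : MvPowerSeries (Fin 2) K) ι]) := by
    have := (ordGE_one_iff.2 G.zero_constantCoeff).subst_sub (le_refl 1) (by omega : 1 ≤ n + 1)
      ![PowerSeries.subst (X 0 : MvPowerSeries (Fin 2) K) S.φ,
          PowerSeries.subst (X 1 : MvPowerSeries (Fin 2) K) S.φ]
      ![PowerSeries.subst (X 0 : MvPowerSeries (Fin 2) K) ι,
          PowerSeries.subst (X 1 : MvPowerSeries (Fin 2) K) ι]
      (by
        intro s; fin_cases s
        · exact hcX _ hS0 0
        · exact hcX _ hS0 1)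
      (by
        intro s; fin_cases s
        · exact hcX _ hι0 0
        · exact hcX _ hι0 1)
      (by
        intro s
        have key : ∀ s : Fin 2, OrdGE (n + 1) (PowerSeries.subst (X s : MvPowerSeries (Fin 2) K) S.φ -
            PowerSeries.subst (X s : MvPowerSeries (Fin 2) K) ι) := by
          intro s
          rw [← PowerSeries.subst_sub (hXs s)]
          have h5 : S.φ - ι = -((ι : MvPowerSeries Unit K) - S.φ) := by ring
          rw [h5]
          exact (hdiff.neg).subst (fun _ => (X s : MvPowerSeries (Fin 2) K)) (fun _ => by simp)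
        fin_cases s
        · exact key 0
        · exact key 1)
    exact this.mono (by omega)
  have h3 := S.hom.2
  have hfin := (h1.add h2).add h4
  have h6 := hfin d (by omega)
  rw [h3] at h6
  simp only [sub_add_sub_cancel, map_sub, sub_eq_zero] at h6
  exact h6

end

end Crest.Agent.LT
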