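/-
S0351 package UNIVERSAL: consequences of universality; reduction of the theorem to the two cores.
See BLUEPRINT.md §U.
-/
import Crest.Agent.LT.E0
import Crest.Agent.LT.Lazard

set_option autoImplicit false

open Crest.LubinTate

namespace Crest.Agent.LT

noncomputable section

variable (p : ℕ) [Fact p.Prime] (n : ℕ)

local notation "k" => GaloisField p n
local notation "W" => WittVector p (GaloisField p n)
local notation "E" => LTRing p n

/-- `g ≡ X mod X^M` (the condition in the Prelude). -/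
abbrev CongX {R : Type*} [CommRing R] (g : PowerSeries R) (M : ℕ) : Prop :=
  ∀ i : ℕ, i < M → PowerSeries.coeff i g = PowerSeries.coeff i PowerSeries.X

/-! ### Auxiliary: lifting, composition -/

omit [Fact p.Prime] in
private theorem scomp_X_right' {R : Type*} [CommRing R] (f : PowerSeries R) : scomp f PowerSeries.X = f :=
  PowerSeries.X_subst f

private theorem scomp_X_left' {R : Type*} [CommRing R] (f : PowerSeries R)
    (hf : PowerSeries.constantCoeff f = 0) : scomp PowerSeries.X f = f := by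
  unfold scomp
  exact PowerSeries.subst_X (PowerSeries.HasSubst.of_constantCoeff_zero' hf)

/-- Lifting a series over `k` with zero constant term and unit linear term to `E₀`. -/
private theorem exists_lift (g : PowerSeries k) (hg0 : PowerSeries.constantCoeff g = 0)
    (hg1 : IsUnit (PowerSeries.coeff 1 g)) :
    ∃ t : PowerSeries E, PowerSeries.constantCoeff t = 0 ∧ IsUnit (PowerSeries.coeff 1 t) ∧
      PowerSeries.map (LTRing.residue p n) t = g := by
  classical
  have hs := residue_surjective p n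
  let t : PowerSeries E := PowerSeries.mk fun j =>
    if j = 0 then 0 else Function.surjInv hs (PowerSeries.coeff j g)
  have hcoeff : ∀ j, j ≠ 0 → LTRing.residue p n (PowerSeries.coeff j t) = PowerSeries.coeff j g := by
    intro j hj
    simp only [t, PowerSeries.coeff_mk, if_neg hj]
    exact Function.surjInv_eq hs _
  refine ⟨t, ?_, ?_, ?_⟩
  · rw [← PowerSeries.coeff_zero_eq_constantCoeff_apply]
    simp [t]
  · by_contra hnu
    have hm : PowerSeries.coeff 1 t ∈ IsLocalRing.maximalIdeal E :=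
      (IsLocalRing.mem_maximalIdeal _).2 hnu
    rw [← ker_residue p n, RingHom.mem_ker, hcoeff 1 one_ne_zero] at hm
    rw [hm] at hg1
    exact not_isUnit_zero hg1
  · ext j
    by_cases hj : j = 0
    · subst hj
      rw [PowerSeries.coeff_map]
      simp [t, hg0]
    · rw [PowerSeries.coeff_map, hcoeff j hj]

/-- Universal property in the form used for `B = E₀`: for a law `G` over `E₀` reducing to `Γ`. -/
private theorem univ_apply (Γ : FormalGroup k) (H : FormalGroup E)
    (hH : IsUniversalDeformation p n Γ H) (G : FormalGroup E) (hG : G.map (LTRing.residue p n) = Γ) :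
    ∃ φ : E →ₐ[W] E, (LTRing.residue p n).comp φ.toRingHom = LTRing.residue p n ∧
      ∃ θ : PowerSeries E, IsFGHom (H.map φ.toRingHom) G θ ∧
        PowerSeries.map (LTRing.residue p n) θ = PowerSeries.X :=
  (hH.2 E (adicComplete_maximal p n) (LTRing.residue p n) (residue_surjective p n)
    (ker_residue p n) (residue_comp_algebraMap p n) G hG).exists

/-! ### Existence of stabiliser maps -/

/-- Existence of realisations: for `g ∈ Aut Γ`, lift `g` to `g̃` over `E₀`, apply universality to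
the conjugate law `g̃⁻¹ H g̃`, compose. -/
theorem exists_stabilizerMap (Γ : FormalGroup k) [Γ.IsComm] (H : FormalGroup E) [H.IsComm]
    (hH : IsUniversalDeformation p n Γ H) (_hn : 1 ≤ n) (g : PowerSeries k) (hg : IsFGAut Γ g) :
    ∃ φ : E →ₐ[W] E, IsStabilizerMap p n H g φ := by
  obtain ⟨t, ht0, ht1, htg⟩ := exists_lift p n g hg.1.1 hg.2
  have hG : (conjLaw H t ht0 ht1).map (LTRing.residue p n) = Γ := by
    have h0' : PowerSeries.constantCoeff (PowerSeries.map (LTRing.residue p n) t) = 0 := by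
      rw [htg]; exact hg.1.1
    have hu' : IsUnit (PowerSeries.coeff 1 (PowerSeries.map (LTRing.residue p n) t)) := by
      rw [htg]; exact hg.2
    rw [conjLaw_map H (LTRing.residue p n) t ht0 ht1 h0' hu']
    have hH0 : H.map (LTRing.residue p n) = Γ := hH.1
    subst hH0
    have := eq_conjLaw_of_hom hg.1 hg.2 hg.1.1
    conv_rhs => rw [this]
    congr 1
  obtain ⟨φ, hφ, θ, hθ, hθX⟩ := univ_apply p n Γ H hH _ hG
  refine ⟨φ, hφ, scomp t θ, fgHom_comp (conjLaw_hom H t ht0 ht1) hθ, ?_⟩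
  rw [map_scomp _ _ _ hθ.1, htg, hθX]
  exact PowerSeries.X_subst g


/-! ### Bijectivity of residue-compatible maps -/

local notation "𝔪" => IsLocalRing.maximalIdeal (LTRing p n)

private theorem exists_sub_algebraMap_mem (x : E) :
    ∃ a : W, x - algebraMap W E a ∈ 𝔪 := by
  refine ⟨MvPowerSeries.constantCoeff x, ?_⟩
  rw [← ker_residue p n, RingHom.mem_ker, map_sub]
  have h := congrFun (congrArg DFunLike.coe (residue_comp_algebraMap p n))
    (MvPowerSeries.constantCoeff x)
  simp only [RingHom.comp_apply] at h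
  rw [h, sub_eq_zero]
  rfl

private theorem adic_limit (s : ℕ → E) (hs : ∀ j, s (j + 1) - s j ∈ 𝔪 ^ j) :
    ∃ L : E, ∀ j, s j - L ∈ 𝔪 ^ j := by
  have hc := adicComplete_maximal p n
  have hmono : ∀ {a b : ℕ}, a ≤ b → s a - s b ∈ 𝔪 ^ a := by
    intro a b hab
    induction b, hab using Nat.le_induction with
    | base => simp
    | succ b hab ih =>
      have h1 : s (b + 1) - s b ∈ 𝔪 ^ a := Ideal.pow_le_pow_right hab (hs b)
      have := (𝔪 ^ a).sub_mem ih h1
      convert this using 1
      ring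
  obtain ⟨L, hL⟩ := IsPrecomplete.prec hc.toIsPrecomplete (f := s) (fun {a b} hab => by
    rw [SModEq.sub_mem]
    simpa [smul_eq_mul, Ideal.mul_top] using hmono hab)
  refine ⟨L, fun j => ?_⟩
  have := hL j
  rw [SModEq.sub_mem] at this
  simpa [smul_eq_mul, Ideal.mul_top] using this

private theorem adic_sep (x : E) (hx : ∀ j, x ∈ 𝔪 ^ j) : x = 0 := by
  have hc := adicComplete_maximal p n
  refine IsHausdorff.haus hc.toIsHausdorff x fun j => ?_
  rw [SModEq.sub_mem]
  simpa [smul_eq_mul, Ideal.mul_top] using hx j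

/-- A surjective endomorphism of a Noetherian ring is injective. -/
private theorem injective_of_surjective_ringHom {A : Type*} [CommRing A] [IsNoetherianRing A]
    (f : A →+* A) (hf : Function.Surjective f) : Function.Injective f := by
  let K : ℕ → Ideal A := fun i => RingHom.ker (f ^ i)
  have hK : ∀ i x, x ∈ K i ↔ f^[i] x = 0 := by
    intro i x
    simp only [K, RingHom.mem_ker, RingHom.coe_pow]
  have hmono : Monotone K := by
    refine monotone_nat_of_le_succ fun i x hx => ?_
    rw [hK] at hx ⊢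
    rw [Function.iterate_succ_apply', hx, map_zero]
  obtain ⟨i, hi⟩ := monotone_stabilizes_iff_noetherian.mpr inferInstance ⟨K, hmono⟩
  rw [injective_iff_map_eq_zero]
  intro x hx
  obtain ⟨y, rfl⟩ := (hf.iterate i) x
  have hy : y ∈ K (i + 1) := by
    rw [hK, Function.iterate_succ_apply']
    exact hx
  have h2 : K i = K (i + 1) := hi (i + 1) (Nat.le_succ i)
  rw [← h2, hK] at hy
  exact hy

/-- The general bijectivity criterion. -/
theorem bijective_of_map_maximal (φ : E →ₐ[W] E) (hm : Ideal.map φ.toRingHom 𝔪 = 𝔪) :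
    Function.Bijective φ := by
  -- `φ` preserves powers of `𝔪`
  have hpow : ∀ j, Ideal.map φ.toRingHom (𝔪 ^ j) = 𝔪 ^ j := by
    intro j; rw [Ideal.map_pow, hm]
  have hφmem : ∀ j a, a ∈ 𝔪 ^ j → φ a ∈ 𝔪 ^ j := by
    intro j a ha
    rw [← hpow j]
    exact Ideal.mem_map_of_mem φ.toRingHom ha
  have hA : ∀ j, ∀ x ∈ 𝔪 ^ j, ∃ a ∈ 𝔪 ^ j, x - φ a ∈ 𝔪 ^ (j + 1) := by
    intro j x hx
    rw [← hpow j] at hx
    have key : x ∈ 𝔪 ^ j ∧ ∃ a ∈ 𝔪 ^ j, x - φ a ∈ 𝔪 ^ (j + 1) := by
      refine Submodule.span_induction (p := fun x _ => x ∈ 𝔪 ^ j ∧ ∃ a ∈ 𝔪 ^ j, x - φ a ∈ 𝔪 ^ (j + 1))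
        ?_ ?_ ?_ ?_ hx
      · rintro _ ⟨a, ha, rfl⟩
        exact ⟨hφmem j a ha, a, ha, by simp⟩
      · exact ⟨Ideal.zero_mem _, 0, Ideal.zero_mem _, by simp⟩
      · rintro y z - - ⟨hy, a, ha, hya⟩ ⟨hz, b, hb, hzb⟩
        refine ⟨Ideal.add_mem _ hy hz, a + b, Ideal.add_mem _ ha hb, ?_⟩
        have := Ideal.add_mem _ hya hzb
        convert this using 1
        rw [map_add]; ring
      · rintro e y - ⟨hy, a, ha, hya⟩
        refine ⟨Ideal.mul_mem_left _ e hy, ?_⟩
        obtain ⟨b, hb⟩ := exists_sub_algebraMap_mem p n e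
        refine ⟨algebraMap W E b * a, Ideal.mul_mem_left _ _ ha, ?_⟩
        have h1 : (e - algebraMap W E b) * y ∈ 𝔪 ^ (j + 1) := by
          rw [pow_succ']
          exact Ideal.mul_mem_mul hb hy
        have h2 := Ideal.mul_mem_left (𝔪 ^ (j + 1)) (algebraMap W E b) hya
        have := Ideal.add_mem _ h1 h2
        convert this using 1
        rw [map_mul, AlgHom.commutes, smul_eq_mul]
        ring
    exact key.2
  have hsurj : Function.Surjective φ := by
    intro x
    have step : ∀ j (s : E), x - φ s ∈ 𝔪 ^ j →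
        ∃ s' : E, x - φ s' ∈ 𝔪 ^ (j + 1) ∧ s' - s ∈ 𝔪 ^ j := by
      intro j s hs
      obtain ⟨a, ha, hxa⟩ := hA j _ hs
      refine ⟨s + a, ?_, by simpa using ha⟩
      convert hxa using 1
      rw [map_add]; ring
    choose nxt hnxt using step
    let S : ∀ j, {s : E // x - φ s ∈ 𝔪 ^ j} := fun j =>
      Nat.rec ⟨0, by simp⟩ (fun j s => ⟨nxt j s.1 s.2, (hnxt j s.1 s.2).1⟩) j
    obtain ⟨L, hL⟩ := adic_limit p n (fun j => (S j).1) (fun j => (hnxt j (S j).1 (S j).2).2)
    refine ⟨L, ?_⟩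
    have := adic_sep p n (x - φ L) (fun j => by
      have h1 := (S j).2
      have h2 := hφmem j _ (hL j)
      have := Ideal.add_mem _ h1 h2
      convert this using 1
      rw [map_sub]; ring)
    exact (sub_eq_zero.1 this).symm
  exact ⟨injective_of_surjective_ringHom (φ.toRingHom) hsurj, hsurj⟩

private theorem isUnit_of_residue (x : E) (hx : IsUnit (LTRing.residue p n x)) : IsUnit x := by
  by_contra hnu
  have hm : x ∈ 𝔪 := (IsLocalRing.mem_maximalIdeal _).2 hnu
  rw [← ker_residue p n, RingHom.mem_ker] at hm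
  rw [hm] at hx
  exact not_isUnit_zero hx

private theorem map_maximal_le (φ : E →+* E)
    (hres : (LTRing.residue p n).comp φ = LTRing.residue p n) : Ideal.map φ 𝔪 ≤ 𝔪 := by
  rw [Ideal.map_le_iff_le_comap]
  intro x hx
  rw [← ker_residue p n, RingHom.mem_ker] at hx
  rw [Ideal.mem_comap, ← ker_residue p n, RingHom.mem_ker]
  have := congrFun (congrArg DFunLike.coe hres) x
  simp only [RingHom.comp_apply] at this
  rw [this, hx]

/-- Any realisation `φ` is bijective (`I_n` is invariant: `φ(𝔪)E₀ = 𝔪`), for `H` with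
`I_n(H) = 𝔪`, and it maps `I_h(H)` onto itself. -/
theorem stabilizerMap_bijective (H : FormalGroup E) [H.IsComm] (_hn : 1 ≤ n)
    (hI : htIdeal p H n = IsLocalRing.maximalIdeal E) (g : PowerSeries k)
    (φ : E →ₐ[W] E) (hφ : IsStabilizerMap p n H g φ) (hu : IsUnit (PowerSeries.coeff 1 g)) :
    Function.Bijective φ := by
  obtain ⟨hres, θ, hθ, hθg⟩ := hφ
  have hu' : IsUnit (PowerSeries.coeff 1 θ) := by
    apply isUnit_of_residue
    rw [← hθg, PowerSeries.coeff_map] at hu
    exact hu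
  have h1 := htIdeal_eq_of_hom p hθ hu' n
  have h2 := htIdeal_map p H φ.toRingHom n
  apply bijective_of_map_maximal
  rw [h1, hI] at h2
  exact h2

/-! ### Transfer to `HH` -/

/-- **Transfer.** There are a `W`-algebra automorphism `φ₀` of `E₀`, `ι : Γ → Gam0` iso, `Θ : H^{φ₀} → HH`
iso lifting `ι`. Proof: `ι` from `lazard_unique`; lift to `ι̃`; apply universality of `H` to
`ι̃⁻¹ HH ι̃`. `φ₀` bijective as `φ₀(I_n H)E₀ = I_n(HH) = 𝔪`. -/
theorem exists_transfer (Γ : FormalGroup k) [Γ.IsComm]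
    (hΓ : mulSeries Γ p = PowerSeries.X ^ (p ^ n)) (H : FormalGroup E) [H.IsComm]
    (hH : IsUniversalDeformation p n Γ H) (hn : 1 ≤ n) :
    ∃ (φ₀ : E ≃ₐ[W] E) (ι : PowerSeries k) (Θ : PowerSeries E),
      IsFGHom Γ (Gam0 p n) ι ∧ PowerSeries.coeff 1 ι = 1 ∧
      (LTRing.residue p n).comp φ₀.toAlgHom.toRingHom = LTRing.residue p n ∧
      IsFGHom (H.map φ₀.toAlgHom.toRingHom) (HH p n) Θ ∧
      PowerSeries.map (LTRing.residue p n) Θ = ι := by
  have hk : ∀ x : k, x ^ (p ^ n) = x := by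
    intro x
    have hc : Nat.card k = p ^ n := GaloisField.card p n (by omega)
    have : Finite k := Nat.finite_of_card_ne_zero (by
      rw [hc]; exact pow_ne_zero _ (Fact.out : p.Prime).ne_zero)
    letI : Fintype k := Fintype.ofFinite k
    have := FiniteField.pow_card x
    rwa [← Nat.card_eq_fintype_card, hc] at this
  obtain ⟨ι, hι, hι1⟩ := lazard_unique p n hn hk Γ (Gam0 p n) hΓ (Gam0_pSeries p n hn)
  have hιu : IsUnit (PowerSeries.coeff 1 ι) := by rw [hι1]; exact isUnit_one
  obtain ⟨t, ht0, ht1, htg⟩ := exists_lift p n ι hι.1 hιu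
  have hG : (conjLaw (HH p n) t ht0 ht1).map (LTRing.residue p n) = Γ := by
    have h0' : PowerSeries.constantCoeff (PowerSeries.map (LTRing.residue p n) t) = 0 := by
      rw [htg]; exact hι.1
    have hu' : IsUnit (PowerSeries.coeff 1 (PowerSeries.map (LTRing.residue p n) t)) := by
      rw [htg]; exact hιu
    rw [conjLaw_map (HH p n) (LTRing.residue p n) t ht0 ht1 h0' hu']
    have hH0 : (HH p n).map (LTRing.residue p n) = Gam0 p n := HH_residue p n hn
    rw [hH0]
    have := eq_conjLaw_of_hom hι hιu hι.1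
    conv_rhs => rw [this]
    congr 1
  obtain ⟨φ, hφ, θ, hθ, hθX⟩ := univ_apply p n Γ H hH _ hG
  have hΘ : IsFGHom (H.map φ.toRingHom) (HH p n) (scomp t θ) :=
    fgHom_comp (conjLaw_hom (HH p n) t ht0 ht1) hθ
  have hΘι : PowerSeries.map (LTRing.residue p n) (scomp t θ) = ι := by
    rw [map_scomp _ _ _ hθ.1, htg, hθX]
    exact PowerSeries.X_subst ι
  have hΘu : IsUnit (PowerSeries.coeff 1 (scomp t θ)) := by
    apply isUnit_of_residue
    rw [← PowerSeries.coeff_map, hΘι]
    exact hιu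
  -- bijectivity
  have h1 := htIdeal_eq_of_hom p hΘ hΘu n
  have h2 := htIdeal_map p H φ.toRingHom n
  rw [h1, htIdeal_HH p n hn n le_rfl, JJ_n p n hn] at h2
  have hle : htIdeal p H n ≤ 𝔪 := by
    apply IsLocalRing.le_maximalIdeal
    intro htop
    rw [htop, Ideal.map_top] at h2
    exact Ideal.IsPrime.ne_top inferInstance h2.symm
  have hm : Ideal.map φ.toRingHom 𝔪 = 𝔪 :=
    le_antisymm (map_maximal_le p n φ.toRingHom hφ) (by
      calc 𝔪 = Ideal.map φ.toRingHom (htIdeal p H n) := h2.symm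
        _ ≤ Ideal.map φ.toRingHom 𝔪 := Ideal.map_mono hle)
  have hbij := bijective_of_map_maximal p n φ hm
  let φ₀ : E ≃ₐ[W] E := AlgEquiv.ofBijective φ hbij
  have hcoe : φ₀.toAlgHom.toRingHom = φ.toRingHom := RingHom.ext fun _ => rfl
  refine ⟨φ₀, ι, scomp t θ, hι, hι1, ?_, ?_, hΘι⟩
  · rw [hcoe]; exact hφ
  · rw [hcoe]; exact hΘ

/-- Height ideals via transfer: `I_h(H) = φ₀⁻¹ J_h`. -/
theorem heightIdeal_of_transfer (H : FormalGroup E) [H.IsComm] (hn : 1 ≤ n)
    (φ₀ : E ≃ₐ[W] E) (Θ : PowerSeries E) (hΘ : IsFGHom (H.map φ₀.toAlgHom.toRingHom) (HH p n) Θ)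
    (hu : IsUnit (PowerSeries.coeff 1 Θ)) (h : ℕ) (hh : h ≤ n) :
    heightIdeal p n H h = Ideal.comap φ₀.toAlgHom.toRingHom (JJ p n h) := by
  have h1 := htIdeal_eq_of_hom p hΘ hu h
  have h2 := htIdeal_map p H φ₀.toAlgHom.toRingHom h
  rw [h1, htIdeal_HH p n hn h hh] at h2
  rw [← h2, heightIdeal_eq_htIdeal, Ideal.comap_map_of_bijective]
  exact φ₀.bijective


/-! ### Truncated congruences of power series -/

/-- Series whose coefficients below `K` lie in `I`. -/
private def tIdeal {R : Type*} [CommRing R] (I : Ideal R) (K : ℕ) : Ideal (PowerSeries R) where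
  carrier := {a | ∀ j, j < K → PowerSeries.coeff j a ∈ I}
  add_mem' := by
    intro a b ha hb j hj
    rw [map_add]
    exact I.add_mem (ha j hj) (hb j hj)
  zero_mem' := by
    intro j _
    simp
  smul_mem' := by
    intro c a ha j hj
    rw [smul_eq_mul, PowerSeries.coeff_mul]
    refine I.sum_mem fun x hx => I.mul_mem_left _ (ha _ ?_)
    have := Finset.HasAntidiagonal.mem_antidiagonal.1 hx
    omega

private theorem mem_tIdeal {R : Type*} [CommRing R] {I : Ideal R} {K : ℕ} {a : PowerSeries R} :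
    a ∈ tIdeal I K ↔ ∀ j, j < K → PowerSeries.coeff j a ∈ I := Iff.rfl

private theorem tIdeal_mul {R : Type*} [CommRing R] {I J : Ideal R} {K : ℕ} {a b : PowerSeries R}
    (ha : a ∈ tIdeal I K) (hb : b ∈ tIdeal J K) : a * b ∈ tIdeal (I * J) K := by
  intro j hj
  rw [PowerSeries.coeff_mul]
  refine Ideal.sum_mem _ fun x hx => Ideal.mul_mem_mul (ha _ ?_) (hb _ ?_) <;>
  · have := Finset.HasAntidiagonal.mem_antidiagonal.1 hx
    omega

private theorem tIdeal_mono {R : Type*} [CommRing R] {I J : Ideal R} {K : ℕ} (h : I ≤ J) :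
    tIdeal I K ≤ tIdeal J K := fun _ ha j hj => h (ha j hj)

private theorem coeff_pow_eq_zero' {R : Type*} [CommRing R] (a : PowerSeries R)
    (ha : PowerSeries.constantCoeff a = 0) {m d : ℕ} (h : m < d) :
    PowerSeries.coeff m (a ^ d) = 0 := by
  have h1 : (PowerSeries.X : PowerSeries R) ∣ a := PowerSeries.X_dvd_iff.2 ha
  exact PowerSeries.X_pow_dvd_iff.1 (pow_dvd_pow_of_dvd h1 d) m h

/-- Finite formula for the coefficients of a composition. -/
private theorem coeff_scomp_sum {R : Type*} [CommRing R] (e a : PowerSeries R)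
    (ha : PowerSeries.constantCoeff a = 0) (m : ℕ) :
    PowerSeries.coeff m (scomp e a) =
      ∑ j ∈ Finset.range (m + 1), PowerSeries.coeff j e * PowerSeries.coeff m (a ^ j) := by
  unfold scomp
  rw [PowerSeries.coeff_subst' (PowerSeries.HasSubst.of_constantCoeff_zero' ha)]
  rw [finsum_eq_sum_of_support_subset]
  · exact Finset.sum_congr rfl fun _ _ => rfl
  · intro j hj
    simp only [Function.mem_support] at hj
    simp only [Finset.coe_range, Set.mem_Iio]
    by_contra hlt
    exact hj (by rw [coeff_pow_eq_zero' a ha (by omega), smul_zero])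

private theorem scomp_sub_mem {R : Type*} [CommRing R] (e a b : PowerSeries R)
    (ha : PowerSeries.constantCoeff a = 0) (hb : PowerSeries.constantCoeff b = 0)
    (A : Ideal R) (K : ℕ)
    (h : ∀ j m, m < K → j ≤ m → PowerSeries.coeff j e * PowerSeries.coeff m (a ^ j - b ^ j) ∈ A) :
    scomp e a - scomp e b ∈ tIdeal A K := by
  intro m hm
  rw [map_sub, coeff_scomp_sum e a ha, coeff_scomp_sum e b hb, ← Finset.sum_sub_distrib]
  refine A.sum_mem fun j hj => ?_
  have := h j m hm (by simpa [Nat.lt_succ_iff] using hj)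
  rw [map_sub, mul_sub] at this
  exact this

private theorem scomp_left_sub_mem {R : Type*} [CommRing R] (a b c : PowerSeries R)
    (hc : PowerSeries.constantCoeff c = 0) (I : Ideal R) (K : ℕ)
    (h : a - b ∈ tIdeal I K) : scomp a c - scomp b c ∈ tIdeal I K := by
  intro m hm
  rw [map_sub, coeff_scomp_sum a c hc, coeff_scomp_sum b c hc, ← Finset.sum_sub_distrib]
  refine I.sum_mem fun j hj => ?_
  have hj' : j < K := by
    have : j ≤ m := by simpa [Nat.lt_succ_iff] using hj
    omega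
  have := h j hj'
  rw [map_sub] at this
  rw [← sub_mul]
  exact I.mul_mem_right _ this

private theorem pow_sub_pow_mem {R : Type*} [CommRing R] {a b : PowerSeries R} {I : Ideal R} {K : ℕ}
    (h : a - b ∈ tIdeal I K) (j : ℕ) : a ^ j - b ^ j ∈ tIdeal I K := by
  obtain ⟨c, hc⟩ := sub_dvd_pow_sub_pow a b j
  rw [hc]
  exact Ideal.mul_mem_right _ _ h

private theorem map_map_series {A B D : Type*} [CommRing A] [CommRing B] [CommRing D] (f : B →+* D)
    (g : A →+* B) (a : PowerSeries A) :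
    PowerSeries.map f (PowerSeries.map g a) = PowerSeries.map (f.comp g) a := by
  ext j
  simp [PowerSeries.coeff_map]

/-- `CongX` as a membership. -/
private theorem congX_iff {R : Type*} [CommRing R] (g : PowerSeries R) (M : ℕ) :
    CongX g M ↔ g - PowerSeries.X ∈ tIdeal (⊥ : Ideal R) M := by
  constructor
  · intro h j hj
    rw [map_sub, h j hj, sub_self]
    exact Ideal.zero_mem _
  · intro h j hj
    have := h j hj
    rw [map_sub, Ideal.mem_bot, sub_eq_zero] at this
    exact this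

/-- Conjugation preserves congruence to `X`. -/
private theorem congX_conj {R : Type*} [CommRing R] (g ι ιi : PowerSeries R)
    (hι0 : PowerSeries.constantCoeff ι = 0)
    (hinv : scomp ιi ι = PowerSeries.X) (hg0 : PowerSeries.constantCoeff g = 0) (M : ℕ)
    (h : CongX g M) : CongX (scomp ιi (scomp g ι)) M := by
  rw [congX_iff] at h ⊢
  have h1 : scomp g ι - ι ∈ tIdeal (⊥ : Ideal R) M := by
    have := scomp_left_sub_mem g PowerSeries.X ι hι0 ⊥ M h
    rwa [scomp_X_left' ι hι0] at this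
  have h2 : scomp ιi (scomp g ι) - scomp ιi ι ∈ tIdeal (⊥ : Ideal R) M := by
    apply scomp_sub_mem _ _ _ (constantCoeff_scomp g ι hg0 hι0) hι0
    intro j m hm _
    have := pow_sub_pow_mem h1 j m hm
    rw [Ideal.mem_bot] at this ⊢
    rw [this, mul_zero]
  rwa [hinv] at h2

/-! ### `DeepStable` -/

/-- The hypothesis of the two cores: `P` is preserved by realisations of every `g ≡ X mod X^M`,
for `HH`. -/
def DeepStable (M : ℕ) (P : Ideal E) : Prop :=
  ∀ g : PowerSeries k, IsFGAut (Gam0 p n) g → CongX g M →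
    ∃ (φ : E →ₐ[W] E) (θ : PowerSeries E),
      (LTRing.residue p n).comp φ.toRingHom = LTRing.residue p n ∧
      IsFGHom ((HH p n).map φ.toRingHom) (HH p n) θ ∧
      PowerSeries.map (LTRing.residue p n) θ = g ∧
      Ideal.comap φ.toRingHom P = P

/-- `P` stable for `H` at level `M` ⟹ `φ₀(P)` is `DeepStable` for `HH` at level `M`. -/
theorem deepStable_of_stable (Γ : FormalGroup k) [Γ.IsComm] (H : FormalGroup E) [H.IsComm]
    (hH : IsUniversalDeformation p n Γ H) (hn : 1 ≤ n)
    (φ₀ : E ≃ₐ[W] E) (ι : PowerSeries k) (Θ : PowerSeries E)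
    (hι : IsFGHom Γ (Gam0 p n) ι) (hι1 : PowerSeries.coeff 1 ι = 1)
    (hφ₀ : (LTRing.residue p n).comp φ₀.toAlgHom.toRingHom = LTRing.residue p n)
    (hΘ : IsFGHom (H.map φ₀.toAlgHom.toRingHom) (HH p n) Θ)
    (hΘι : PowerSeries.map (LTRing.residue p n) Θ = ι)
    (M : ℕ) (P : Ideal E) (hP : IsStableIdeal p n Γ H M P) :
    DeepStable p n M (Ideal.comap φ₀.symm.toAlgHom.toRingHom P) := by
  intro g hg hgX
  have hι0 : PowerSeries.constantCoeff ι = 0 := hι.1
  have hιu : IsUnit (PowerSeries.coeff 1 ι) := by rw [hι1]; exact isUnit_one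
  have hg0 : PowerSeries.constantCoeff g = 0 := hg.1.1
  have hιi0 : PowerSeries.constantCoeff (compInv ι) = 0 := constantCoeff_compInv ι hι0 hιu
  have hιiu : IsUnit (PowerSeries.coeff 1 (compInv ι)) := isUnit_coeff_one_compInv ι hι0 hιu
  -- the transported automorphism of `Γ`
  let g' : PowerSeries k := scomp (compInv ι) (scomp g ι)
  have hgι0 : PowerSeries.constantCoeff (scomp g ι) = 0 := constantCoeff_scomp g ι hg0 hι0
  have hg'hom : IsFGHom Γ Γ g' := fgHom_comp (fgHom_inv hι hιu) (fgHom_comp hg.1 hι)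
  have hg'u : IsUnit (PowerSeries.coeff 1 g') := by
    change IsUnit (PowerSeries.coeff 1 (scomp (compInv ι) (scomp g ι)))
    rw [coeff_one_scomp _ _ hιi0 hgι0, coeff_one_scomp _ _ hg0 hι0]
    exact hιiu.mul (hg.2.mul hιu)
  have hg'X : ∀ i : ℕ, i < M → PowerSeries.coeff i g' = PowerSeries.coeff i PowerSeries.X :=
    congX_conj g ι (compInv ι) hι0 (compInv_scomp ι hι0 hιu) hg0 M hgX
  obtain ⟨φ', hres', θ', hθ', hθ'g⟩ :=
    exists_stabilizerMap p n Γ H hH hn g' ⟨hg'hom, hg'u⟩
  have hcomap : Ideal.comap φ'.toRingHom P = P :=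
    hP g' φ' ⟨hg'hom, hg'u⟩ hg'X ⟨hres', θ', hθ', hθ'g⟩
  -- the conjugated map
  let φ : E →ₐ[W] E := φ₀.toAlgHom.comp (φ'.comp φ₀.symm.toAlgHom)
  have hφφ₀ : φ.toRingHom.comp φ₀.toAlgHom.toRingHom = φ₀.toAlgHom.toRingHom.comp φ'.toRingHom := by
    ext x
    simp [φ]
  have hres₀inv : (LTRing.residue p n).comp φ₀.symm.toAlgHom.toRingHom = LTRing.residue p n := by
    apply RingHom.ext
    intro x
    have := congrFun (congrArg DFunLike.coe hφ₀) (φ₀.symm x)
    simpa using this.symm
  have hres : (LTRing.residue p n).comp φ.toRingHom = LTRing.residue p n := by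
    apply RingHom.ext
    intro x
    have h1 := congrFun (congrArg DFunLike.coe hφ₀) (φ' (φ₀.symm x))
    have h2 := congrFun (congrArg DFunLike.coe hres') (φ₀.symm x)
    have h3 := congrFun (congrArg DFunLike.coe hres₀inv) x
    simp only [RingHom.comp_apply] at h1 h2 h3 ⊢
    change LTRing.residue p n (φ₀ (φ' (φ₀.symm x))) = _
    refine Eq.trans h1 (Eq.trans h2 h3)
  -- the hom
  have hΘu : IsUnit (PowerSeries.coeff 1 Θ) := by
    apply isUnit_of_residue
    rw [← PowerSeries.coeff_map, hΘι]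
    exact hιu
  have hΘ0 : PowerSeries.constantCoeff Θ = 0 := hΘ.1
  have hΘφ : IsFGHom ((H.map φ₀.toAlgHom.toRingHom).map φ.toRingHom) ((HH p n).map φ.toRingHom)
      (PowerSeries.map φ.toRingHom Θ) := fgHom_map hΘ φ.toRingHom
  have hΘφ0 : PowerSeries.constantCoeff (PowerSeries.map φ.toRingHom Θ) = 0 := hΘφ.1
  have hΘφu : IsUnit (PowerSeries.coeff 1 (PowerSeries.map φ.toRingHom Θ)) := by
    rw [PowerSeries.coeff_map]
    exact hΘu.map _
  have h1 : IsFGHom ((HH p n).map φ.toRingHom) ((H.map φ₀.toAlgHom.toRingHom).map φ.toRingHom)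
      (compInv (PowerSeries.map φ.toRingHom Θ)) := fgHom_inv hΘφ hΘφu
  have hlaw : (H.map φ₀.toAlgHom.toRingHom).map φ.toRingHom =
      (H.map φ'.toRingHom).map φ₀.toAlgHom.toRingHom := by
    rw [map_map_law, map_map_law, hφφ₀]
  rw [hlaw] at h1
  have h2 : IsFGHom ((H.map φ'.toRingHom).map φ₀.toAlgHom.toRingHom) (H.map φ₀.toAlgHom.toRingHom)
      (PowerSeries.map φ₀.toAlgHom.toRingHom θ') := fgHom_map hθ' _
  have h3 := fgHom_comp hΘ (fgHom_comp h2 h1)
  refine ⟨φ, _, hres, h3, ?_, ?_⟩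
  · -- reduction
    have hA : PowerSeries.map (LTRing.residue p n) (PowerSeries.map φ₀.toAlgHom.toRingHom θ') = g' := by
      rw [← hθ'g, map_map_series, hφ₀]
    have hB : PowerSeries.map (LTRing.residue p n) (compInv (PowerSeries.map φ.toRingHom Θ)) =
        compInv ι := by
      rw [map_compInv _ _ hΘφ0 hΘφu, map_map_series, hres, hΘι]
    have hC0 : PowerSeries.constantCoeff (compInv (PowerSeries.map φ.toRingHom Θ)) = 0 :=
      constantCoeff_compInv _ hΘφ0 hΘφu
    have h20 : PowerSeries.constantCoeff (PowerSeries.map φ₀.toAlgHom.toRingHom θ') = 0 := h2.1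
    rw [map_scomp _ _ _ (constantCoeff_scomp _ _ h20 hC0), hΘι, map_scomp _ _ _ hC0, hA, hB]
    -- `ι ∘ ((ι⁻¹ ∘ (g ∘ ι)) ∘ ι⁻¹) = g`
    change scomp ι (scomp (scomp (compInv ι) (scomp g ι)) (compInv ι)) = g
    rw [scomp_assoc _ _ _ hgι0 hιi0, scomp_assoc _ _ _ hι0 hιi0, scomp_compInv ι hι0 hιu,
      scomp_X_right', ← scomp_assoc _ _ _ hιi0 hg0, scomp_compInv ι hι0 hιu]
    exact scomp_X_left' g hg0
  · -- stability
    have : (φ₀.symm.toAlgHom.toRingHom).comp φ.toRingHom = φ'.toRingHom.comp φ₀.symm.toAlgHom.toRingHom := by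
      ext x
      simp [φ]
    rw [Ideal.comap_comap, this, ← Ideal.comap_comap, hcomap]


/-! ### Continuity -/

private theorem natCast_p_mem : (p : E) ∈ 𝔪 := by
  rw [← ker_residue p n, RingHom.mem_ker, map_natCast]
  exact CharP.cast_eq_zero k p

/-- The key congruence: `φ f - f + ε(X^q) ≡ 0` modulo `(𝔪^(N+1), X^K')` where `θ = X + ε`. -/
private theorem continuity_key (F : FormalGroup E) [F.IsComm] (hn : 1 ≤ n)
    (hF : PowerSeries.map (LTRing.residue p n) (mulSeries F p) = PowerSeries.X ^ (p ^ n))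
    (N K' : ℕ) (hN : 1 ≤ N) (φ : E →ₐ[W] E)
    (hres : (LTRing.residue p n).comp φ.toRingHom = LTRing.residue p n)
    (θ : PowerSeries E) (hθ : IsFGHom (F.map φ.toRingHom) F θ)
    (hθK : ∀ j, j < K' → PowerSeries.coeff j θ - PowerSeries.coeff j PowerSeries.X ∈ 𝔪 ^ N)
    (r : ℕ) (hr : r < K') :
    φ (PowerSeries.coeff r (mulSeries F p)) - PowerSeries.coeff r (mulSeries F p) +
      (if p ^ n ∣ r then PowerSeries.coeff (r / p ^ n) θ -
          PowerSeries.coeff (r / p ^ n) PowerSeries.X else 0) ∈ 𝔪 ^ (N + 1) := by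
  set f := mulSeries F p with hf
  set q := p ^ n with hq
  have hp : p.Prime := Fact.out
  have hq2 : 2 ≤ q := by
    calc 2 ≤ p := hp.two_le
      _ = p ^ 1 := (pow_one p).symm
      _ ≤ p ^ n := Nat.pow_le_pow_right hp.pos hn
  have hq0 : q ≠ 0 := by omega
  let Φ : E →+* E := φ.toRingHom
  set ε : PowerSeries E := θ - PowerSeries.X with hε
  have hθε : θ = PowerSeries.X + ε := by rw [hε]; ring
  have hεT : ε ∈ tIdeal (𝔪 ^ N) K' := by
    intro j hj
    rw [hε, map_sub]
    exact hθK j hj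
  have hf0 : PowerSeries.constantCoeff f = 0 := constantCoeff_mulSeries F p
  have hθ0 : PowerSeries.constantCoeff θ = 0 := hθ.1
  have hX0 : PowerSeries.constantCoeff (PowerSeries.X : PowerSeries E) = 0 := by simp
  have hφf0 : PowerSeries.constantCoeff (PowerSeries.map Φ f) = 0 := by
    rw [← PowerSeries.coeff_zero_eq_constantCoeff_apply, PowerSeries.coeff_map,
      PowerSeries.coeff_zero_eq_constantCoeff_apply, hf0, map_zero]
  have hXq0 : PowerSeries.constantCoeff ((PowerSeries.X : PowerSeries E) ^ q) = 0 := by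
    simp [hq0]
  have hmulmem : ∀ {A B : Ideal E}, A * B ≤ A ⊓ B := fun {A B} => Ideal.mul_le_inf
  have hmN : 𝔪 * 𝔪 ^ N = 𝔪 ^ (N + 1) := (pow_succ' _ _).symm
  -- the functional equation
  have hfe : scomp θ (PowerSeries.map Φ f) = scomp f θ := by
    have := fgHom_comp_mulSeries hθ p
    rwa [mulSeries_map] at this
  have hL : scomp θ (PowerSeries.map Φ f) = PowerSeries.map Φ f + scomp ε (PowerSeries.map Φ f) := by
    have hs := PowerSeries.HasSubst.of_constantCoeff_zero' hφf0
    rw [hθε]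
    unfold scomp
    rw [PowerSeries.subst_add hs, PowerSeries.subst_X hs]
  -- coefficients of `h' = f - X^q` are in `𝔪`
  set h' : PowerSeries E := f - PowerSeries.X ^ q with hh'
  have hh'm : ∀ j, PowerSeries.coeff j h' ∈ 𝔪 := by
    intro j
    rw [← ker_residue p n, RingHom.mem_ker, hh', map_sub, map_sub,
      ← PowerSeries.coeff_map, hF, PowerSeries.coeff_X_pow, PowerSeries.coeff_X_pow]
    split_ifs <;> simp
  have hfsplit : f = PowerSeries.X ^ q + h' := by rw [hh']; ring
  -- (I): `f ∘ θ ≡ f`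
  have hI : scomp f θ - f ∈ tIdeal (𝔪 ^ (N + 1)) K' := by
    have hs := PowerSeries.HasSubst.of_constantCoeff_zero' hθ0
    have e1 : scomp f θ = θ ^ q + scomp h' θ := by
      conv_lhs => rw [hfsplit]
      unfold scomp
      rw [PowerSeries.subst_add hs, PowerSeries.subst_pow hs, PowerSeries.subst_X hs]
    have e2 : f = PowerSeries.X ^ q + scomp h' PowerSeries.X := by
      rw [scomp_X_right']; exact hfsplit
    have e3 : scomp f θ - f = (θ ^ q - PowerSeries.X ^ q) + (scomp h' θ - scomp h' PowerSeries.X) := by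
      conv_lhs => rw [e1, e2]
      ring
    rw [e3]
    refine Ideal.add_mem _ ?_ ?_
    · -- `θ^q - X^q`
      obtain ⟨c, hc⟩ := exists_add_pow_prime_pow_eq hp (PowerSeries.X : PowerSeries E) ε n
      have e4 : θ ^ q - PowerSeries.X ^ q = ε ^ q + (p : PowerSeries E) * ε * (PowerSeries.X * c) := by
        rw [hθε, hc]; ring
      rw [e4]
      refine Ideal.add_mem _ ?_ ?_
      · -- `ε^q`
        obtain ⟨q', hq'⟩ : ∃ q', q = q' + 2 := ⟨q - 2, by omega⟩
        have hfact : ε ^ q = ε ^ q' * (ε * ε) := by rw [hq']; ring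
        rw [hfact]
        apply Ideal.mul_mem_left
        refine tIdeal_mono ?_ (tIdeal_mul hεT hεT)
        rw [← pow_add]
        exact Ideal.pow_le_pow_right (by omega)
      · apply Ideal.mul_mem_right
        have hpm : (p : PowerSeries E) ∈ tIdeal 𝔪 K' := by
          intro j _
          rw [show (p : PowerSeries E) = PowerSeries.C (p : E) by simp, PowerSeries.coeff_C]
          split_ifs
          · exact natCast_p_mem p n
          · exact Ideal.zero_mem _
        have := tIdeal_mul hpm hεT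
        rwa [hmN] at this
    · apply scomp_sub_mem _ _ _ hθ0 hX0
      intro j m hm _
      rw [← hmN]
      refine Ideal.mul_mem_mul (hh'm j) ?_
      have : θ - PowerSeries.X ∈ tIdeal (𝔪 ^ N) K' := hεT
      exact pow_sub_pow_mem this j m hm
  -- (II): `ε ∘ φf ≡ ε ∘ X^q`
  have hII : scomp ε (PowerSeries.map Φ f) - scomp ε (PowerSeries.X ^ q) ∈ tIdeal (𝔪 ^ (N + 1)) K' := by
    apply scomp_sub_mem _ _ _ hφf0 hXq0
    intro j m hm hjm
    rw [pow_succ]
    refine Ideal.mul_mem_mul (hεT j (by omega)) ?_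
    have hall : PowerSeries.map Φ f - PowerSeries.X ^ q ∈ tIdeal 𝔪 (m + 1) := by
      intro i _
      rw [← ker_residue p n, RingHom.mem_ker, map_sub, map_sub, PowerSeries.coeff_map]
      have h1 := congrFun (congrArg DFunLike.coe hres) (PowerSeries.coeff i f)
      simp only [RingHom.comp_apply] at h1
      rw [show Φ = φ.toRingHom from rfl, h1, ← PowerSeries.coeff_map, hF, PowerSeries.coeff_X_pow,
        PowerSeries.coeff_X_pow]
      split_ifs <;> simp
    exact pow_sub_pow_mem hall j m (by omega)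
  -- conclusion
  have hIr := hI r hr
  have hIIr := hII r hr
  rw [map_sub] at hIr hIIr
  rw [← hfe, hL, map_add, PowerSeries.coeff_map] at hIr
  have hfin : PowerSeries.coeff r (scomp ε ((PowerSeries.X : PowerSeries E) ^ q)) =
      if q ∣ r then PowerSeries.coeff (r / q) θ - PowerSeries.coeff (r / q) PowerSeries.X else 0 := by
    unfold scomp
    rw [PowerSeries.coeff_subst_X_pow hq0]
    simp [hε]
  rw [← hfin]
  have := Ideal.sub_mem _ hIr hIIr
  convert this using 1
  change φ (PowerSeries.coeff r f) - _ + _ = Φ (PowerSeries.coeff r f) + _ - _ - _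
  rw [show Φ (PowerSeries.coeff r f) = φ (PowerSeries.coeff r f) from rfl]
  ring

/-- **Continuity.** For a commutative law `F` over `E₀` with `[p]_F ≡ X^q mod 𝔪` and `I_n(F) = 𝔪`:
for all `N, K` there is `M'` such that if `θ : F^φ → F` lifts `g ≡ X mod X^M'`, `φ` a `W`-algebra
map compatible with residue, then `φ ≡ id mod 𝔪^N` and `θ ≡ X mod (𝔪^N, X^K)`.
Proof: induct on `N`, `θ = X + ε`: `f∘θ ≡ f`, `θ∘φf ≡ φf + ε(X^q)`, so `φ(a_j) ≡ a_j`, `ε(X^q) ≡ 0`. -/
theorem continuity (F : FormalGroup E) [F.IsComm] (hn : 1 ≤ n)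
    (hF : PowerSeries.map (LTRing.residue p n) (mulSeries F p) = PowerSeries.X ^ (p ^ n))
    (hI : htIdeal p F n = IsLocalRing.maximalIdeal E) (N K : ℕ) :
    ∃ M' : ℕ, ∀ (g : PowerSeries k) (φ : E →ₐ[W] E) (θ : PowerSeries E), CongX g M' →
      (LTRing.residue p n).comp φ.toRingHom = LTRing.residue p n →
      IsFGHom (F.map φ.toRingHom) F θ → PowerSeries.map (LTRing.residue p n) θ = g →
      (∀ x : E, φ x - x ∈ (IsLocalRing.maximalIdeal E) ^ N) ∧
      (∀ j, j < K → PowerSeries.coeff j θ - PowerSeries.coeff j PowerSeries.X ∈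
        (IsLocalRing.maximalIdeal E) ^ N) := by
  have hp : p.Prime := Fact.out
  -- `N = 0`
  rcases Nat.eq_zero_or_pos N with rfl | hNpos
  · exact ⟨0, fun _ _ _ _ _ _ _ => ⟨fun _ => by simp, fun _ _ => by simp⟩⟩
  obtain ⟨N, rfl⟩ : ∃ N', N = N' + 1 := ⟨N - 1, by omega⟩
  clear hNpos
  induction N generalizing K with
  | zero =>
    refine ⟨K, fun g φ θ hgX hres hθ hθg => ⟨fun x => ?_, fun j hj => ?_⟩⟩
    · rw [zero_add, pow_one, ← ker_residue p n, RingHom.mem_ker, map_sub, sub_eq_zero]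
      exact congrFun (congrArg DFunLike.coe hres) x
    · rw [zero_add, pow_one, ← ker_residue p n, RingHom.mem_ker, map_sub, sub_eq_zero,
        ← PowerSeries.coeff_map, hθg, hgX j hj, ← PowerSeries.coeff_map, PowerSeries.map_X]
  | succ N ih =>
    obtain ⟨M', hM'⟩ := ih (p ^ n * (K + 1))
    refine ⟨M', fun g φ θ hgX hres hθ hθg => ?_⟩
    obtain ⟨h1, h2⟩ := hM' g φ θ hgX hres hθ hθg
    have hq0 : p ^ n ≠ 0 := pow_ne_zero _ hp.ne_zero
    have hqpos : 0 < p ^ n := Nat.pos_of_ne_zero hq0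
    have key := continuity_key p n F hn hF (N + 1) (p ^ n * (K + 1)) (by omega) φ hres θ hθ h2
    set f := mulSeries F p with hf
    -- `a_h ∈ 𝔪`
    have hresφ : ∀ x, LTRing.residue p n (φ x) = LTRing.residue p n x := fun x =>
      congrFun (congrArg DFunLike.coe hres) x
    have hcoeffm : ∀ j, j ≠ p ^ n → PowerSeries.coeff j f ∈ 𝔪 := by
      intro j hj
      rw [← ker_residue p n, RingHom.mem_ker, ← PowerSeries.coeff_map, hF, PowerSeries.coeff_X_pow,
        if_neg hj]
    -- for `h<n`, the coefficient `a_h` is almost fixed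
    have hah : ∀ h, h < n → φ (PowerSeries.coeff (p ^ h) f) - PowerSeries.coeff (p ^ h) f ∈ 𝔪 ^ (N + 1 + 1) := by
      intro h hh
      have hlt : p ^ h < p ^ n := Nat.pow_lt_pow_right hp.one_lt hh
      have hlt' : p ^ h < p ^ n * (K + 1) := by
        calc p ^ h < p ^ n := hlt
          _ = p ^ n * 1 := (mul_one _).symm
          _ ≤ p ^ n * (K + 1) := Nat.mul_le_mul_left _ (by omega)
      have := key (p ^ h) hlt'
      have hnd : ¬ p ^ n ∣ p ^ h := fun hd => absurd (Nat.le_of_dvd (pow_pos hp.pos h) hd) (by omega)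
      rw [if_neg hnd, add_zero] at this
      exact this
    -- the ideal argument
    have hT : ∀ h, h ≤ n → ∀ x ∈ htIdeal p F h, x ∈ 𝔪 ∧ φ x - x ∈ 𝔪 ^ (N + 1 + 1) := by
      intro h
      induction h with
      | zero =>
        intro _ x hx
        have : x = 0 := by simpa [htIdeal] using hx
        subst this
        simp
      | succ h ihh =>
        intro hh x hx
        have hhn : h < n := by omega
        simp only [htIdeal] at hx
        obtain ⟨y, hy, z, hz, rfl⟩ := Submodule.mem_sup.1 hx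
        obtain ⟨b, rfl⟩ := Ideal.mem_span_singleton'.1 hz
        obtain ⟨hy1, hy2⟩ := ihh (by omega) y hy
        have ha1 : PowerSeries.coeff (p ^ h) f ∈ 𝔪 :=
          hcoeffm _ (fun he => absurd (Nat.pow_lt_pow_right hp.one_lt hhn) (by omega))
        have ha2 : φ (PowerSeries.coeff (p ^ h) f) ∈ 𝔪 := by
          rw [← ker_residue p n, RingHom.mem_ker, hresφ]
          rw [← ker_residue p n, RingHom.mem_ker] at ha1
          exact ha1
        refine ⟨Ideal.add_mem _ hy1 (Ideal.mul_mem_left _ _ ha1), ?_⟩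
        have h3 : (φ b - b) * φ (PowerSeries.coeff (p ^ h) f) ∈ 𝔪 ^ (N + 1 + 1) := by
          rw [pow_succ _ (N + 1)]
          exact Ideal.mul_mem_mul (h1 b) ha2
        have h4 := Ideal.mul_mem_left (𝔪 ^ (N + 1 + 1)) b (hah h hhn)
        have := Ideal.add_mem _ (Ideal.add_mem _ hy2 h3) h4
        convert this using 1
        rw [map_add, map_mul]
        ring
    have hφm : ∀ x ∈ 𝔪, φ x - x ∈ 𝔪 ^ (N + 1 + 1) := by
      intro x hx
      rw [← hI] at hx
      exact (hT n le_rfl x hx).2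
    have hφall : ∀ x : E, φ x - x ∈ 𝔪 ^ (N + 1 + 1) := by
      intro x
      obtain ⟨a, ha⟩ := exists_sub_algebraMap_mem p n x
      have := hφm _ ha
      convert this using 1
      rw [map_sub, AlgHom.commutes]
      ring
    refine ⟨hφall, fun j hj => ?_⟩
    have hjlt : p ^ n * j < p ^ n * (K + 1) := Nat.mul_lt_mul_of_pos_left (by omega) hqpos
    have := key (p ^ n * j) hjlt
    rw [if_pos (Dvd.intro _ rfl), Nat.mul_div_cancel_left _ hqpos] at this
    have h5 := Ideal.sub_mem _ this (hφall (PowerSeries.coeff (p ^ n * j) f))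
    convert h5 using 1
    ring

end

end Crest.Agent.LT
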