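/-
S0351 package VALUEDPOINT: a Noetherian local domain with a nonzero non-unit `w` maps to the
integers of a complete algebraically closed ultrametric field, locally, with `w ↦ ≠ 0`.
See BLUEPRINT.md §V.  All sorry-free (helper56).
-/
import Crest.Agent.LT.Defs

set_option autoImplicit false
set_option linter.style.haveILetI false
set_option linter.unusedSectionVars false
set_option linter.unusedVariables false

namespace Crest.Agent.LT

noncomputable section

namespace ValuedPointAux

/-- In a Noetherian domain where every nonzero prime contains `w ≠ 0`, every prime containing `w`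
is minimal over `(w)` (Krull's Hauptidealsatz + prime avoidance). -/
theorem mem_minimalPrimes_span {B : Type*} [CommRing B] [IsDomain B] [IsNoetherianRing B]
    (w : B) (hw : w ≠ 0) (hall : ∀ P : Ideal B, P.IsPrime → P ≠ ⊥ → w ∈ P)
    (Q : Ideal B) [hQ : Q.IsPrime] (hwQ : w ∈ Q) : Q ∈ (Ideal.span {w}).minimalPrimes := by
  classical
  by_contra hnot
  have hle : Ideal.span {w} ≤ Q := (Ideal.span_singleton_le_iff_mem _).2 hwQ
  obtain ⟨P₀, hP₀, hP₀Q⟩ := Ideal.exists_minimalPrimes_le hle
  have hP₀ne : P₀ ≠ Q := fun h => hnot (h ▸ hP₀)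
  have hlt : P₀ < Q := lt_of_le_of_ne hP₀Q hP₀ne
  have hfin : (Ideal.span {w}).minimalPrimes.Finite :=
    Ideal.finite_minimalPrimes_of_isNoetherianRing _ _
  have hav : ¬ ((Q : Set B) ⊆ ⋃ P ∈ (↑hfin.toFinset : Set (Ideal B)), ((id P : Ideal B) : Set B)) := by
    intro hsub
    rw [Ideal.subset_union_prime (f := id) ⊥ ⊥] at hsub
    · obtain ⟨P, hP, hQP⟩ := hsub
      have hP' : P ∈ (Ideal.span {w}).minimalPrimes := by simpa using hP
      have hQP' : Q ≤ P := hQP
      have h1 : P ≤ P₀ := hP'.2 hP₀.1 (hP₀Q.trans hQP')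
      exact absurd (hlt.trans_le (hQP'.trans h1)) (lt_irrefl _)
    · intro P hP _ _
      have hP' : P ∈ (Ideal.span {w}).minimalPrimes := by simpa using hP
      exact hP'.1.1
  rw [Set.not_subset] at hav
  obtain ⟨y, hyQ, hy⟩ := hav
  have hyP : ∀ P ∈ (Ideal.span {w}).minimalPrimes, y ∉ P := by
    intro P hP hyP
    apply hy
    simp only [Set.mem_iUnion]
    exact ⟨P, by simpa using hP, hyP⟩
  have hy0 : y ≠ 0 := by
    rintro rfl
    exact hyP P₀ hP₀ (Ideal.zero_mem _)
  have hle' : Ideal.span {y} ≤ Q := (Ideal.span_singleton_le_iff_mem _).2 hyQ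
  obtain ⟨Q', hQ', -⟩ := Ideal.exists_minimalPrimes_le hle'
  have hQ'p : Q'.IsPrime := hQ'.1.1
  have hyQ' : y ∈ Q' := hQ'.1.2 (Ideal.mem_span_singleton_self y)
  have hQ'0 : Q' ≠ ⊥ := by
    rintro rfl
    exact hy0 (by simpa using hyQ')
  have hwQ' : w ∈ Q' := hall Q' hQ'p hQ'0
  have hle'' : Ideal.span {w} ≤ Q' := (Ideal.span_singleton_le_iff_mem _).2 hwQ'
  obtain ⟨P, hP, hPQ'⟩ := Ideal.exists_minimalPrimes_le hle''
  have hPp : P.IsPrime := hP.1.1
  have hPlt : P < Q' := lt_of_le_of_ne hPQ' (fun h => hyP P hP (h ▸ hyQ'))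
  have hP0 : (⊥ : Ideal B) < P := by
    refine bot_lt_iff_ne_bot.2 ?_
    rintro rfl
    exact hw (by simpa using hP.1.2 (Ideal.mem_span_singleton_self w))
  have h1 : (Ideal.span {y}).IsPrincipal := ⟨⟨y, rfl⟩⟩
  have hht : Q'.height ≤ 1 := Ideal.height_le_one_of_isPrincipal_of_mem_minimalPrimes _ _ hQ'
  have h2 : (⊥ : Ideal B).height + 1 ≤ P.height := Ideal.height_add_one_le_of_lt_of_isPrime hP0
  have h3 : P.height + 1 ≤ Q'.height := Ideal.height_add_one_le_of_lt_of_isPrime hPlt
  rw [Ideal.height_bot] at h2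
  have h4 : (2 : ℕ∞) ≤ Q'.height := by
    calc (2 : ℕ∞) = 0 + 1 + 1 := by norm_num
      _ ≤ P.height + 1 := by gcongr
      _ ≤ Q'.height := h3
  have : (2 : ℕ∞) ≤ 1 := h4.trans hht
  norm_num at this

/-- From minimality: `t ∈ Q` minimal over `(w)` gives `s ∉ Q`, `b` with `s t^b ∈ (w)`. -/
theorem exists_mul_pow_mem {B : Type*} [CommRing B] (I Q : Ideal B)
    (hQ : Q ∈ I.minimalPrimes) (t : B) (ht : t ∈ Q) : ∃ s ∉ Q, ∃ b : ℕ, s * t ^ b ∈ I := by
  classical
  by_contra hcon
  push Not at hcon
  have hQp : Q.IsPrime := hQ.1.1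
  let S : Submonoid B :=
    { carrier := {x | ∃ s ∉ Q, ∃ b : ℕ, x = s * t ^ b}
      mul_mem' := by
        rintro _ _ ⟨s, hs, b, rfl⟩ ⟨s', hs', b', rfl⟩
        refine ⟨s * s', fun h => (hQp.mem_or_mem h).elim hs hs', b + b', ?_⟩
        ring
      one_mem' := ⟨1, fun h => hQp.ne_top ((Ideal.eq_top_iff_one _).2 h), 0, by simp⟩ }
  have hdisj : Disjoint (I : Set B) S := by
    rw [Set.disjoint_left]
    rintro x hxI ⟨s, hs, b, rfl⟩
    exact hcon s hs b hxI
  obtain ⟨P, hPp, hIP, hPS⟩ := Ideal.exists_le_prime_disjoint I S hdisj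
  have hPQ : P ≤ Q := by
    intro x hx
    by_contra hxQ
    exact (Set.disjoint_left.1 hPS hx) ⟨x, hxQ, 0, by simp⟩
  have hQP : Q ≤ P := hQ.2 ⟨hPp, hIP⟩ hPQ
  have htS : t ∈ S := ⟨1, fun h => hQp.ne_top ((Ideal.eq_top_iff_one _).2 h), 1, by simp⟩
  exact (Set.disjoint_left.1 hPS (hQP ht)) htS

/-- Existence of a prime maximal among the primes not containing `w`. -/
theorem exists_max_prime {R : Type*} [CommRing R] [IsDomain R] [IsNoetherianRing R]
    (w : R) (hw : w ≠ 0) :
    ∃ q : Ideal R, q.IsPrime ∧ w ∉ q ∧ ∀ P : Ideal R, P.IsPrime → q < P → w ∈ P := by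
  classical
  have hne : {P : Ideal R | P.IsPrime ∧ w ∉ P}.Nonempty :=
    ⟨⊥, Ideal.isPrime_bot, by simpa using hw⟩
  obtain ⟨q, hq, hmax⟩ := (wellFounded_gt (α := Ideal R)).has_min _ hne
  refine ⟨q, hq.1, hq.2, fun P hP hqP => ?_⟩
  by_contra hwP
  exact hmax P ⟨hP, hwP⟩ hqP


section Val

variable {A K : Type*} [CommRing A] [IsDomain A] [IsNoetherianRing A] [Field K] [Algebra A K]
  [IsFractionRing A K]

/-- **Rank one**: if every nonzero prime of `A` contains `w`, the powers of any `t ∈ 𝔪_V` go below `w`.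
Apply `mem_minimalPrimes_span` to the Noetherian domain `A[t]`, at `Q = 𝔪_V ∩ A[t]`. -/
theorem exists_pow_le (w : A) (hw : w ≠ 0) (hall : ∀ P : Ideal A, P.IsPrime → P ≠ ⊥ → w ∈ P)
    (V : ValuationSubring K) (hA : ∀ x : A, algebraMap A K x ∈ V)
    (hwV : V.valuation (algebraMap A K w) < 1) (t : K) (ht : V.valuation t < 1) :
    ∃ b : ℕ, V.valuation t ^ b ≤ V.valuation (algebraMap A K w) := by
  classical
  let B : Subalgebra A K := Algebra.adjoin A {t}
  have htB : t ∈ B := Algebra.self_mem_adjoin_singleton A t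
  have htV : t ∈ V := (V.valuation_le_one_iff t).1 ht.le
  have hBV : ∀ b : B, (b : K) ∈ V := by
    rintro ⟨b, hb⟩
    refine Algebra.adjoin_induction (p := fun x _ => x ∈ V) ?_ ?_ ?_ ?_ hb
    · rintro x rfl; exact htV
    · exact hA
    · intro x y _ _ hx hy; exact V.add_mem _ _ hx hy
    · intro x y _ _ hx hy; exact V.mul_mem _ _ hx hy
  haveI : Algebra.FiniteType A B :=
    (Subalgebra.fg_iff_finiteType _).1 (by simpa using Subalgebra.fg_adjoin_finset (R := A) ({t} : Finset K))
  haveI : IsNoetherianRing B := Algebra.FiniteType.isNoetherianRing A B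
  haveI : IsDomain B := inferInstance
  -- the prime `Q`
  let f : B →+* V := RingHom.codRestrict (B.val : B →+* K) V.toSubring (fun b => hBV b)
  let Q : Ideal B := Ideal.comap f (IsLocalRing.maximalIdeal V)
  have hQmem : ∀ b : B, b ∈ Q ↔ V.valuation (b : K) < 1 := by
    intro b
    change f b ∈ IsLocalRing.maximalIdeal V ↔ _
    rw [ValuationSubring.valuation_lt_one_iff]
    rfl
  haveI hQp : Q.IsPrime := Ideal.comap_isPrime _ _
  let w' : B := algebraMap A B w
  have hw'K : (w' : K) = algebraMap A K w := rfl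
  have hinj : Function.Injective (algebraMap A K) := IsFractionRing.injective A K
  have hw' : w' ≠ 0 := by
    intro h
    have : algebraMap A K w = 0 := by rw [← hw'K, h]; rfl
    exact hw (hinj (by simpa using this))
  have hallB : ∀ P : Ideal B, P.IsPrime → P ≠ ⊥ → w' ∈ P := by
    intro P hP hP0
    obtain ⟨b, hbP, hb0⟩ := Submodule.exists_mem_ne_zero_of_ne_bot hP0
    obtain ⟨c, y, hy, hcy⟩ := IsFractionRing.div_surjective (A := A) (b : K)
    have hy0 : algebraMap A K y ≠ 0 := by
      intro h
      exact (nonZeroDivisors.ne_zero hy) (hinj (by simpa using h))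
    have hc : algebraMap A B c = b * algebraMap A B y := by
      apply Subtype.ext
      change algebraMap A K c = (b : K) * algebraMap A K y
      rw [← hcy]
      field_simp
    have hcP : algebraMap A B c ∈ P := by rw [hc]; exact P.mul_mem_right _ hbP
    have hc0 : c ≠ 0 := by
      rintro rfl
      have : (b : K) = 0 := by rw [← hcy]; simp
      exact hb0 (Subtype.ext this)
    have hPA : (Ideal.comap (algebraMap A B) P).IsPrime := Ideal.comap_isPrime _ _
    have hne : Ideal.comap (algebraMap A B) P ≠ ⊥ := by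
      intro h
      have : c ∈ Ideal.comap (algebraMap A B) P := hcP
      rw [h] at this
      exact hc0 (by simpa using this)
    exact hall _ hPA hne
  have hw'Q : w' ∈ Q := (hQmem w').2 hwV
  have hmin := mem_minimalPrimes_span w' hw' hallB Q hw'Q
  have ht'Q : (⟨t, htB⟩ : B) ∈ Q := (hQmem _).2 ht
  obtain ⟨s, hs, b, hsb⟩ := exists_mul_pow_mem _ Q hmin _ ht'Q
  obtain ⟨c, hc⟩ := Ideal.mem_span_singleton'.1 hsb
  have hs1 : V.valuation (s : K) = 1 := by
    have h1 : V.valuation (s : K) ≤ 1 := (V.valuation_le_one_iff _).2 (hBV s)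
    have h2 : ¬ V.valuation (s : K) < 1 := fun h => hs ((hQmem s).2 h)
    exact le_antisymm h1 (not_lt.1 h2)
  have hc1 : V.valuation (c : K) ≤ 1 := (V.valuation_le_one_iff _).2 (hBV c)
  refine ⟨b, ?_⟩
  have hK : (c : K) * algebraMap A K w = (s : K) * t ^ b := by
    have := congrArg (Subtype.val) hc
    simpa [w'] using this
  have := congrArg V.valuation hK
  rw [map_mul, map_mul, hs1, one_mul, map_pow] at this
  rw [← this]
  calc V.valuation (c : K) * V.valuation (algebraMap A K w)
      ≤ 1 * V.valuation (algebraMap A K w) := by gcongr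
    _ = _ := one_mul _

/-- Every element of `K` is below a negative power of `w`. -/
theorem exists_mul_pow_le_one (w : A) (hw : w ≠ 0) (hall : ∀ P : Ideal A, P.IsPrime → P ≠ ⊥ → w ∈ P)
    (V : ValuationSubring K) (hA : ∀ x : A, algebraMap A K x ∈ V) (x : K) :
    ∃ a : ℕ, V.valuation x * V.valuation (algebraMap A K w) ^ a ≤ 1 := by
  classical
  have hinj : Function.Injective (algebraMap A K) := IsFractionRing.injective A K
  obtain ⟨c, y, hy, rfl⟩ := IsFractionRing.div_surjective (A := A) x
  have hy0 : y ≠ 0 := nonZeroDivisors.ne_zero hy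
  have hyK : algebraMap A K y ≠ 0 := by
    intro h; exact hy0 (hinj (by simpa using h))
  have hrad : w ∈ (Ideal.span {y}).radical := by
    rw [Ideal.radical_eq_sInf, Ideal.mem_sInf]
    rintro P ⟨hle, hP⟩
    refine hall P hP ?_
    rintro rfl
    exact hy0 (by simpa using hle (Ideal.mem_span_singleton_self y))
  obtain ⟨a, ha⟩ := hrad
  obtain ⟨e, he⟩ := Ideal.mem_span_singleton'.1 ha
  refine ⟨a, ?_⟩
  have hval : ∀ z : A, V.valuation (algebraMap A K z) ≤ 1 := fun z =>
    (V.valuation_le_one_iff _).2 (hA z)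
  have : algebraMap A K c / algebraMap A K y * algebraMap A K w ^ a =
      algebraMap A K c * algebraMap A K e := by
    rw [← map_pow, ← he, map_mul]
    field_simp
  rw [← map_pow, ← map_mul, this, map_mul]
  exact mul_le_one' (hval c) (hval e)

/-- The value group is multiplicatively archimedean. -/
theorem mulArchimedean_valueGroup (w : A) (hw : w ≠ 0)
    (hall : ∀ P : Ideal A, P.IsPrime → P ≠ ⊥ → w ∈ P)
    (V : ValuationSubring K) (hA : ∀ x : A, algebraMap A K x ∈ V)
    (hwV : V.valuation (algebraMap A K w) < 1) : MulArchimedean V.ValueGroup := by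
  refine ⟨fun g {h} hh => ?_⟩
  obtain ⟨x, rfl⟩ := V.valuation_surjective g
  obtain ⟨y, rfl⟩ := V.valuation_surjective h
  have hy0 : y ≠ 0 := by
    rintro rfl
    simp at hh
  have hyv0 : V.valuation y ≠ 0 := (Valuation.ne_zero_iff _).2 hy0
  have ht : V.valuation y⁻¹ < 1 := by
    rw [map_inv₀]
    exact inv_lt_one_of_one_lt₀ hh
  obtain ⟨b, hb⟩ := exists_pow_le w hw hall V hA hwV y⁻¹ ht
  obtain ⟨a, ha⟩ := exists_mul_pow_le_one w hw hall V hA x
  refine ⟨b * a, ?_⟩
  rw [map_inv₀] at hb
  have h1 : (V.valuation y)⁻¹ ^ (b * a) ≤ V.valuation (algebraMap A K w) ^ a := by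
    rw [pow_mul]
    exact pow_le_pow_left' hb a
  have hpos : 0 < V.valuation y ^ (b * a) := zero_lt_iff.2 (pow_ne_zero _ hyv0)
  calc V.valuation x = V.valuation x * ((V.valuation y)⁻¹ ^ (b * a) * V.valuation y ^ (b * a)) := by
        rw [inv_pow, inv_mul_cancel₀ (pow_ne_zero _ hyv0), mul_one]
    _ ≤ V.valuation x * (V.valuation (algebraMap A K w) ^ a * V.valuation y ^ (b * a)) := by
        gcongr
    _ = (V.valuation x * V.valuation (algebraMap A K w) ^ a) * V.valuation y ^ (b * a) := by
        rw [mul_assoc]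
    _ ≤ 1 * V.valuation y ^ (b * a) := by gcongr
    _ = _ := one_mul _

end Val


section Norm

/-- A multiplicatively archimedean valuation subring gives a real nonarchimedean absolute value. -/
theorem exists_absoluteValue {K : Type*} [Field K] (V : ValuationSubring K)
    [MulArchimedean V.ValueGroup] :
    ∃ N : AbsoluteValue K ℝ, (∀ x y, N (x + y) ≤ max (N x) (N y)) ∧
      (∀ x, N x ≤ 1 ↔ V.valuation x ≤ 1) ∧ (∀ x, N x < 1 ↔ V.valuation x < 1) := by
  classical
  obtain ⟨f, hf⟩ := Archimedean.exists_orderAddMonoidHom_real_injective (Additive V.ValueGroupˣ)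
  let F : V.ValueGroupˣ → ℝ := fun u => f (Additive.ofMul u)
  have hFm : StrictMono F := by
    intro u u' huu
    have h1 : f (Additive.ofMul u) ≤ f (Additive.ofMul u') := OrderHomClass.mono f huu.le
    refine lt_of_le_of_ne h1 (fun h => huu.ne ?_)
    exact Additive.ofMul.injective (hf h)
  have hFmul : ∀ u u', F (u * u') = F u + F u' := fun u u' => map_add f _ _
  have hF1 : F 1 = 0 := map_zero f
  have hv0 : ∀ {x : K}, x ≠ 0 → V.valuation x ≠ 0 := fun h => (Valuation.ne_zero_iff _).2 h
  let N0 : K → ℝ := fun x => if h : x = 0 then 0 else Real.exp (F (Units.mk0 _ (hv0 h)))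
  have hN00 : N0 0 = 0 := by simp [N0]
  have hNne : ∀ {x : K} (h : x ≠ 0), N0 x = Real.exp (F (Units.mk0 _ (hv0 h))) := fun h => by
    simp [N0, h]
  have hNpos : ∀ {x : K}, x ≠ 0 → 0 < N0 x := fun h => by rw [hNne h]; exact Real.exp_pos _
  have hNnn : ∀ x : K, 0 ≤ N0 x := fun x => by
    by_cases h : x = 0
    · rw [h, hN00]
    · exact (hNpos h).le
  have hmono : ∀ x y : K, V.valuation x ≤ V.valuation y → N0 x ≤ N0 y := by
    intro x y hxy
    by_cases hx : x = 0
    · rw [hx, hN00]; exact hNnn y
    have hy : y ≠ 0 := by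
      rintro rfl
      rw [map_zero, le_zero_iff] at hxy
      exact hv0 hx hxy
    rw [hNne hx, hNne hy]
    apply Real.exp_le_exp.2
    exact hFm.monotone (by simpa [← Units.val_le_val] using hxy)
  have hstrict : ∀ x y : K, V.valuation x < V.valuation y → N0 x < N0 y := by
    intro x y hxy
    have hy : y ≠ 0 := by
      rintro rfl
      simp at hxy
    by_cases hx : x = 0
    · rw [hx, hN00]; exact hNpos hy
    rw [hNne hx, hNne hy]
    apply Real.exp_lt_exp.2
    exact hFm (by simpa [← Units.val_lt_val] using hxy)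
  have hN1 : N0 1 = 1 := by
    rw [hNne (one_ne_zero)]
    have : Units.mk0 (V.valuation (1 : K)) (hv0 one_ne_zero) = 1 := by
      ext; simp
    rw [this, hF1, Real.exp_zero]
  have hmax : ∀ x y : K, N0 (x + y) ≤ max (N0 x) (N0 y) := by
    intro x y
    rcases le_max_iff.1 (V.valuation.map_add x y) with h | h
    · exact (hmono _ _ h).trans (le_max_left _ _)
    · exact (hmono _ _ h).trans (le_max_right _ _)
  let N : AbsoluteValue K ℝ :=
    { toFun := N0
      map_mul' := by
        intro x y
        by_cases hx : x = 0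
        · simp [hx, hN00]
        by_cases hy : y = 0
        · simp [hy, hN00]
        rw [hNne hx, hNne hy, hNne (mul_ne_zero hx hy), ← Real.exp_add, ← hFmul]
        congr 2
        ext
        simp
      nonneg' := hNnn
      eq_zero' := by
        intro x
        constructor
        · intro h
          by_contra hx
          exact (hNpos hx).ne' h
        · rintro rfl; exact hN00
      add_le' := by
        intro x y
        refine (hmax x y).trans (max_le ?_ ?_)
        · linarith [hNnn y]
        · linarith [hNnn x] }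
  refine ⟨N, hmax, ?_, ?_⟩
  · intro x
    change N0 x ≤ 1 ↔ _
    constructor
    · intro h
      by_contra hc
      have := hstrict 1 x (by simpa using not_le.1 hc)
      rw [hN1] at this
      exact absurd h (not_le.2 this)
    · intro h
      have := hmono x 1 (by simpa using h)
      rwa [hN1] at this
  · intro x
    change N0 x < 1 ↔ _
    constructor
    · intro h
      by_contra hc
      have := hmono 1 x (by simpa using not_lt.1 hc)
      rw [hN1] at this
      exact absurd h (not_lt.2 this)
    · intro h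
      have := hstrict x 1 (by simpa using h)
      rwa [hN1] at this

end Norm

section AlgClosed

open Polynomial

/-- The completion of an algebraically closed ultrametric field is algebraically closed, in any
characteristic (Mathlib's `IsAlgClosed.of_denseRange` assumes characteristic zero): roots of
approximating polynomials form a Cauchy sequence by continuity of roots. -/
theorem isAlgClosed_of_dense {K L : Type*} [Field K] [NontriviallyNormedField L] [CompleteSpace L]
    [IsUltrametricDist L] [Algebra K L] (hi : DenseRange (algebraMap K L)) [IsAlgClosed K] :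
    IsAlgClosed L := by
  classical
  apply IsAlgClosed.of_exists_root
  intro f hfm hfirr
  have hd1 : f.natDegree ≠ 0 := (Irreducible.natDegree_pos hfirr).ne'
  set d := f.natDegree with hd
  have hdR : (0 : ℝ) < (d : ℝ) + 1 := by positivity
  let δ : ℕ → ℝ := fun n => (1 / 2 : ℝ) ^ n
  have hδ0 : ∀ n, 0 < δ n := fun n => by positivity
  have hδ1 : ∀ n, δ n ≤ 1 := fun n => pow_le_one₀ (by norm_num) (by norm_num)
  have hδanti : ∀ n, δ (n + 1) ≤ δ n := fun n => by
    change (1 / 2 : ℝ) ^ (n + 1) ≤ (1 / 2 : ℝ) ^ n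
    exact pow_le_pow_of_le_one (by norm_num) (by norm_num) (Nat.le_succ n)
  let ε : ℕ → ℝ := fun n => δ n ^ d / (2 * ((d : ℝ) + 1))
  have hε : ∀ n, 0 < ε n := fun n => div_pos (pow_pos (hδ0 n) d) (by positivity)
  have hεanti : ∀ n, ε (n + 1) ≤ ε n := fun n => by
    apply div_le_div_of_nonneg_right _ (by positivity)
    exact pow_le_pow_left₀ (hδ0 _).le (hδanti n) d
  choose g hgm hgd hgc using fun n =>
    Polynomial.exists_monic_and_natDegree_eq_and_norm_map_algebraMap_coeff_sub_lt hi hfm (hε n)
  let G : ℕ → L[X] := fun n => (g n).map (algebraMap K L)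
  have hGm : ∀ n, (G n).Monic := fun n => (hgm n).map _
  have hGd : ∀ n, (G n).natDegree = d := fun n => by
    change ((g n).map (algebraMap K L)).natDegree = d
    rw [(hgm n).natDegree_map, ← hgd n]
  have hGs : ∀ n, (G n).Splits := fun n => (IsAlgClosed.splits (g n)).map _
  have hGc : ∀ n i, ‖(G n).coeff i - f.coeff i‖ < ε n := hgc
  have step : ∀ n (a : L), (G n).eval a = 0 →
      ∃ b, (G (n + 1)).eval b = 0 ∧ ‖a - b‖ < δ n * max ‖a‖ 1 := by
    intro n a ha
    have hc : ∀ i, ‖(G (n + 1)).coeff i - (G n).coeff i‖ < 2 * ε n := by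
      intro i
      have h1 := hGc (n + 1) i
      have h2 := hGc n i
      have h3 : (G (n + 1)).coeff i - (G n).coeff i =
          ((G (n + 1)).coeff i - f.coeff i) - ((G n).coeff i - f.coeff i) := by ring
      rw [h3]
      refine (norm_sub_le _ _).trans_lt ?_
      have := hεanti n
      linarith
    have hpos : 0 < 2 * ε n := by have := hε n; linarith
    obtain ⟨b, hb, hab⟩ := Polynomial.exists_roots_norm_sub_lt_of_norm_coeff_sub_lt hpos ha
      (hGm n) (hGm (n + 1)) ((hGd _).trans (hGd _).symm) hc (hGs (n + 1))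
    refine ⟨b, (Polynomial.mem_roots (hGm (n + 1)).ne_zero).1 hb, ?_⟩
    have h4 : ((((G n).natDegree : ℝ) + 1) * (2 * ε n)) ^ (((G n).natDegree : ℝ)⁻¹) = δ n := by
      rw [hGd n]
      have : ((d : ℝ) + 1) * (2 * ε n) = δ n ^ d := by
        change ((d : ℝ) + 1) * (2 * (δ n ^ d / (2 * ((d : ℝ) + 1)))) = δ n ^ d
        field_simp
      rw [this]
      exact Real.pow_rpow_inv_natCast (hδ0 n).le hd1
    rw [h4] at hab
    exact hab
  obtain ⟨r₀, hr₀⟩ := IsAlgClosed.exists_root (g 0) (by
    intro h
    apply hd1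
    rw [hd, hgd 0]
    exact Polynomial.natDegree_eq_zero_iff_degree_le_zero.2 h.le)
  have h₀ : (G 0).eval (algebraMap K L r₀) = 0 := by
    change ((g 0).map (algebraMap K L)).eval _ = 0
    rw [Polynomial.eval_map_algebraMap]
    rw [Polynomial.IsRoot] at hr₀
    rw [Polynomial.aeval_algebraMap_apply]
    simp [Polynomial.aeval_def, Polynomial.eval₂_eq_eval_map, hr₀]
  let a : (n : ℕ) → {x : L // (G n).eval x = 0} := fun n =>
    Nat.rec (motive := fun n => {x : L // (G n).eval x = 0}) ⟨_, h₀⟩
      (fun n an => ⟨(step n an.1 an.2).choose, (step n an.1 an.2).choose_spec.1⟩) n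
  have hstep : ∀ n, ‖(a n).1 - (a (n + 1)).1‖ < δ n * max ‖(a n).1‖ 1 := fun n =>
    (step n (a n).1 (a n).2).choose_spec.2
  let M : ℝ := max ‖(a 0).1‖ 1
  have hM1 : 1 ≤ M := le_max_right _ _
  have hM : ∀ n, max ‖(a n).1‖ 1 ≤ M := by
    intro n
    induction n with
    | zero => exact le_rfl
    | succ n ih =>
      refine max_le ?_ hM1
      have h1 : (a (n + 1)).1 = (a n).1 + -((a n).1 - (a (n + 1)).1) := by ring
      rw [h1]
      refine (IsUltrametricDist.norm_add_le_max _ _).trans (max_le ?_ ?_)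
      · exact (le_max_left _ _).trans ih
      · rw [norm_neg]
        refine (hstep n).le.trans ?_
        calc δ n * max ‖(a n).1‖ 1 ≤ 1 * max ‖(a n).1‖ 1 := by
              gcongr
              exact hδ1 n
          _ = _ := one_mul _
          _ ≤ M := ih
  have hdist : ∀ n, dist (a n).1 (a (n + 1)).1 ≤ M * (1 / 2 : ℝ) ^ n := by
    intro n
    rw [dist_eq_norm]
    refine (hstep n).le.trans ?_
    rw [mul_comm]
    gcongr
    exact hM n
  have hC : CauchySeq (fun n => (a n).1) := cauchySeq_of_le_geometric (1 / 2) M (by norm_num) hdist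
  obtain ⟨x, hx⟩ := cauchySeq_tendsto_of_complete hC
  refine ⟨x, ?_⟩
  -- bound on `f(a n)`
  have hbound : ∀ n, ‖f.eval (a n).1‖ ≤ ε n * (((d : ℝ) + 1) * M ^ d) := by
    intro n
    have h1 : f.eval (a n).1 = f.eval (a n).1 - (G n).eval (a n).1 := by
      rw [(a n).2, sub_zero]
    have hfn : f.natDegree < d + 1 := by omega
    have hGn : (G n).natDegree < d + 1 := by rw [hGd]; omega
    rw [h1, Polynomial.eval_eq_sum_range' hfn, Polynomial.eval_eq_sum_range' hGn,
      ← Finset.sum_sub_distrib]
    refine (norm_sum_le _ _).trans ?_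
    have hterm : ∀ i ∈ Finset.range (d + 1),
        ‖f.coeff i * (a n).1 ^ i - (G n).coeff i * (a n).1 ^ i‖ ≤ ε n * M ^ d := by
      intro i hi
      have hi' : i ≤ d := Nat.lt_succ_iff.1 (Finset.mem_range.1 hi)
      rw [← sub_mul, norm_mul, norm_pow, norm_sub_rev]
      have h2 : ‖(a n).1‖ ≤ M := (le_max_left _ _).trans (hM n)
      have h3 : ‖(a n).1‖ ^ i ≤ M ^ d :=
        (pow_le_pow_left₀ (norm_nonneg _) h2 i).trans (pow_le_pow_right₀ hM1 hi')
      exact mul_le_mul (hGc n i).le h3 (by positivity) (hε n).le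
    calc _ ≤ ∑ _i ∈ Finset.range (d + 1), ε n * M ^ d := Finset.sum_le_sum hterm
      _ = _ := by
        rw [Finset.sum_const, Finset.card_range, nsmul_eq_mul]
        push_cast
        ring
  have hεle : ∀ n, ε n * (((d : ℝ) + 1) * M ^ d) ≤ (1 / 2 : ℝ) ^ n * M ^ d := by
    intro n
    have hδd : δ n ^ d ≤ δ n := by
      calc δ n ^ d ≤ δ n ^ 1 := pow_le_pow_of_le_one (hδ0 n).le (hδ1 n) (Nat.one_le_iff_ne_zero.2 hd1)
        _ = δ n := pow_one _
    have hMd : 0 ≤ M ^ d := by positivity
    have : ε n * (((d : ℝ) + 1) * M ^ d) = δ n ^ d / 2 * M ^ d := by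
      change δ n ^ d / (2 * ((d : ℝ) + 1)) * (((d : ℝ) + 1) * M ^ d) = _
      field_simp
    rw [this]
    have h5 : δ n ^ d / 2 ≤ δ n := by
      have := pow_pos (hδ0 n) d
      linarith
    exact mul_le_mul_of_nonneg_right h5 hMd
  have hlim : Filter.Tendsto (fun n : ℕ => (1 / 2 : ℝ) ^ n * M ^ d) Filter.atTop (nhds 0) := by
    have := (tendsto_pow_atTop_nhds_zero_of_lt_one (r := (1 / 2 : ℝ)) (by norm_num) (by norm_num)).mul_const (M ^ d)
    simpa using this
  have hlim2 : Filter.Tendsto (fun n => ‖f.eval (a n).1‖) Filter.atTop (nhds ‖f.eval x‖) :=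
    ((f.continuous.tendsto x).comp hx).norm
  have : ‖f.eval x‖ ≤ 0 :=
    le_of_tendsto_of_tendsto' hlim2 hlim (fun n => (hbound n).trans (hεle n))
  exact norm_le_zero_iff.1 this

end AlgClosed


section Closure

open UniformSpace

/-- Completion of a nontrivially normed field. -/
@[reducible] def nnfCompletion (K : Type) [NontriviallyNormedField K] :
    NontriviallyNormedField (Completion K) :=
  { (inferInstance : NormedField (Completion K)) with
    non_trivial := by
      obtain ⟨x, hx⟩ := NontriviallyNormedField.non_trivial (α := K)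
      exact ⟨(x : Completion K), by rwa [Completion.norm_coe]⟩ }

theorem ultrametric_completion (K : Type) [NontriviallyNormedField K] [IsUltrametricDist K] :
    IsUltrametricDist (Completion K) :=
  IsUltrametricDist.of_normedAlgebra K

/-- Complete algebraically closed ultrametric field containing `K`, isometrically. -/
theorem exists_closure (K : Type) [Field K] (N : AbsoluteValue K ℝ)
    (hna : ∀ x y, N (x + y) ≤ max (N x) (N y)) (hnt : ∃ x, x ≠ 0 ∧ N x ≠ 1) :
    ∃ (C : Type) (_ : NontriviallyNormedField C) (_ : IsUltrametricDist C) (_ : CompleteSpace C)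
      (_ : IsAlgClosed C) (i : K →+* C), ∀ x, ‖i x‖ = N x := by
  classical
  letI nf : NormedField K := N.toNormedField
  have hnorm : ∀ x : K, ‖x‖ = N x := fun _ => rfl
  letI nnf : NontriviallyNormedField K :=
    { nf with
      non_trivial := by
        obtain ⟨x, hx0, hx⟩ := hnt
        rcases lt_or_gt_of_ne hx with h | h
        · refine ⟨x⁻¹, ?_⟩
          change N x⁻¹ > 1
          rw [map_inv₀]
          exact (one_lt_inv₀ (N.pos hx0)).2 h
        · exact ⟨x, h⟩ }
  haveI hK : IsUltrametricDist K :=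
    IsUltrametricDist.isUltrametricDist_of_forall_norm_add_le_max_norm hna
  -- first completion
  letI nnfL : NontriviallyNormedField (Completion K) := nnfCompletion K
  haveI hL : IsUltrametricDist (Completion K) := ultrametric_completion K
  haveI : CompleteSpace (Completion K) := inferInstance
  -- algebraic closure
  let L := Completion K
  let Lb := AlgebraicClosure L
  letI nnfLb : NontriviallyNormedField Lb := spectralNorm.nontriviallyNormedField L Lb
  haveI hLb : IsUltrametricDist Lb :=
    IsUltrametricDist.isUltrametricDist_of_forall_norm_add_le_max_norm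
      (isNonarchimedean_spectralNorm (K := L) (L := Lb))
  -- second completion
  letI nnfC : NontriviallyNormedField (Completion Lb) := nnfCompletion Lb
  haveI hC : IsUltrametricDist (Completion Lb) := ultrametric_completion Lb
  haveI : IsAlgClosed Lb := inferInstance
  haveI hAC : IsAlgClosed (Completion Lb) :=
    isAlgClosed_of_dense (K := Lb) (L := Completion Lb) Completion.denseRange_coe
  let i₁ : K →+* L := Completion.coeRingHom
  let i₂ : L →+* Lb := algebraMap L Lb
  let i₃ : Lb →+* Completion Lb := Completion.coeRingHom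
  refine ⟨Completion Lb, nnfC, hC, inferInstance, hAC, i₃.comp (i₂.comp i₁), ?_⟩
  intro x
  change ‖((algebraMap L Lb (x : L) : Lb) : Completion Lb)‖ = N x
  rw [Completion.norm_coe]
  change spectralNorm L Lb (algebraMap L Lb (x : L)) = N x
  rw [spectralNorm_extends, Completion.norm_coe]
  exact hnorm x

end Closure

end ValuedPointAux

/-- **Valued points.** (1) Choose a prime `𝔮` maximal among primes not containing `w`. `A = R/𝔮`: every
nonzero prime contains `w`. (2) A valuation subring `V` of `Frac A` dominating `A`. (3) `V` has rank one: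
for `t ∈ 𝔪_V`, apply Krull's Hauptidealsatz and prime avoidance in the Noetherian domain `A[t]`
(every nonzero prime of `A[t]` contains `w`) to get that `𝔪_V ∩ A[t]` is minimal over `w`, so some power
of `t` is below `w` in `V` (`exists_pow_le`). So the value group is archimedean, and embeds in `ℝ`.
(4) Completion of `Frac A`, algebraic closure with the spectral norm, completion: algebraically closed in
all characteristics by continuity of roots (`isAlgClosed_of_dense`). -/
theorem exists_valued_point (R : Type) [CommRing R] [IsLocalRing R] [IsNoetherianRing R] [IsDomain R]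
    (w : R) (hw0 : w ≠ 0) (hwm : w ∈ IsLocalRing.maximalIdeal R) :
    ∃ (C : Type) (_ : NontriviallyNormedField C) (_ : IsUltrametricDist C) (_ : CompleteSpace C)
      (_ : IsAlgClosed C) (z : R →+* OC C),
      z w ≠ 0 ∧ ∀ x ∈ IsLocalRing.maximalIdeal R, ‖((z x : OC C) : C)‖ < 1 := by
  classical
  obtain ⟨q, hq, hwq, hmaxq⟩ := ValuedPointAux.exists_max_prime w hw0
  let A := R ⧸ q
  haveI : IsDomain A := Ideal.Quotient.isDomain q
  haveI : IsLocalRing A :=
    IsLocalRing.of_surjective' (Ideal.Quotient.mk q) Ideal.Quotient.mk_surjective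
  haveI : IsNoetherianRing A := inferInstance
  let K := FractionRing A
  let π : R →+* A := Ideal.Quotient.mk q
  let w' : A := π w
  have hw' : w' ≠ 0 := by
    intro h
    exact hwq (Ideal.Quotient.eq_zero_iff_mem.1 h)
  have hall : ∀ P : Ideal A, P.IsPrime → P ≠ ⊥ → w' ∈ P := by
    intro P hP hP0
    have hP' : (Ideal.comap π P).IsPrime := Ideal.comap_isPrime _ _
    have hlt : q < Ideal.comap π P := by
      refine lt_of_le_of_ne ?_ ?_
      · intro x hx
        change π x ∈ P
        have : π x = 0 := Ideal.Quotient.eq_zero_iff_mem.2 hx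
        rw [this]; exact P.zero_mem
      · intro h
        obtain ⟨y, hyP, hy0⟩ := Submodule.exists_mem_ne_zero_of_ne_bot hP0
        obtain ⟨y', rfl⟩ := Ideal.Quotient.mk_surjective y
        have : y' ∈ Ideal.comap π P := hyP
        rw [← h] at this
        exact hy0 (Ideal.Quotient.eq_zero_iff_mem.2 this)
    exact hmaxq _ hP' hlt
  have hnonunit : ∀ x ∈ IsLocalRing.maximalIdeal R, ¬ IsUnit (π x) := by
    intro x hx hu
    obtain ⟨y, hy⟩ := isUnit_iff_exists_inv.1 hu
    obtain ⟨y', rfl⟩ := Ideal.Quotient.mk_surjective y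
    have h1 : π (1 - x * y') = 0 := by
      rw [map_sub, map_mul, map_one]
      change 1 - π x * π y' = 0
      rw [hy, sub_self]
    have h2 : (1 - x * y') ∈ q := Ideal.Quotient.eq_zero_iff_mem.1 h1
    have h3 : (1 - x * y') ∈ IsLocalRing.maximalIdeal R := IsLocalRing.le_maximalIdeal hq.ne_top h2
    have h4 : x * y' ∈ IsLocalRing.maximalIdeal R := Ideal.mul_mem_right _ _ hx
    have h5 : (1 : R) ∈ IsLocalRing.maximalIdeal R := by
      have := Ideal.add_mem _ h3 h4
      rwa [sub_add_cancel] at this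
    exact (IsLocalRing.maximalIdeal.isMaximal R).ne_top ((Ideal.eq_top_iff_one _).2 h5)
  obtain ⟨V, hV, hloc⟩ := IsLocalRing.exists_factor_valuationRing (algebraMap A K)
  have hVle : ∀ x : A, V.valuation (algebraMap A K x) ≤ 1 := fun x =>
    (V.valuation_le_one_iff _).2 (hV x)
  have hVlt : ∀ x : A, ¬ IsUnit x → V.valuation (algebraMap A K x) < 1 := by
    intro x hx
    refine lt_of_le_of_ne (hVle x) (fun h1 => hx ?_)
    have ha0 : algebraMap A K x ≠ 0 := by
      intro h0
      rw [h0, map_zero] at h1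
      exact zero_ne_one h1
    have hinv : (algebraMap A K x)⁻¹ ∈ V := by
      rw [← V.valuation_le_one_iff, map_inv₀, h1, inv_one]
    have hu : IsUnit ((algebraMap A K).codRestrict V.toSubring hV x) :=
      isUnit_iff_exists_inv.2 ⟨⟨_, hinv⟩, Subtype.ext (mul_inv_cancel₀ ha0)⟩
    exact hloc.map_nonunit x hu
  have hwV : V.valuation (algebraMap A K w') < 1 := hVlt _ (hnonunit w hwm)
  haveI : MulArchimedean V.ValueGroup :=
    ValuedPointAux.mulArchimedean_valueGroup w' hw' hall V hV hwV
  obtain ⟨N, hna, hN1, hN2⟩ := ValuedPointAux.exists_absoluteValue V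
  have hinj : Function.Injective (algebraMap A K) := IsFractionRing.injective A K
  have hwK : algebraMap A K w' ≠ 0 := fun h => hw' (hinj (by simpa using h))
  have hnt : ∃ x : K, x ≠ 0 ∧ N x ≠ 1 := ⟨_, hwK, ((hN2 _).2 hwV).ne⟩
  obtain ⟨C, nnf, hu, hc, ha, i, hi⟩ := ValuedPointAux.exists_closure K N hna hnt
  let z₀ : R →+* C := i.comp ((algebraMap A K).comp π)
  have hz₀ : ∀ x, ‖z₀ x‖ = N (algebraMap A K (π x)) := fun x => hi _
  have hz : ∀ x, z₀ x ∈ OC C := by
    intro x
    change ‖z₀ x‖ ≤ 1
    rw [hz₀]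
    exact (hN1 _).2 (hVle _)
  refine ⟨C, nnf, hu, hc, ha, RingHom.codRestrict z₀ (OC C) hz, ?_, ?_⟩
  · intro h
    have h0 : z₀ w = 0 := congrArg Subtype.val h
    have h1 : N (algebraMap A K (π w)) = 0 := by rw [← hz₀, h0, norm_zero]
    exact hwK ((map_eq_zero N).1 h1)
  · intro x hx
    change ‖z₀ x‖ < 1
    rw [hz₀]
    exact (hN2 _).2 (hVlt _ (hnonunit x hx))

end

end Crest.Agent.LT
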