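/-
S0351 package MAIN: the theorem from the two cores. See BLUEPRINT.md §M. `Crest/Agent/S0351.lean` should be created only when this file is free of `sorry`
(it just applies `main_S0351`).
-/
import Crest.Agent.LT.CharP.Core
import Crest.Agent.LT.Char0.Core

set_option autoImplicit false

open Crest.LubinTate

namespace Crest.Agent.LT

noncomputable section

variable (p : ℕ) [Fact p.Prime] (n : ℕ)

local notation "k" => GaloisField p n
local notation "E" => LTRing p n

/-- An element with unit residue is a unit. -/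
theorem isUnit_of_residue_isUnit (x : E) (h : IsUnit (LTRing.residue p n x)) : IsUnit x := by
  by_contra hx
  have hm : x ∈ IsLocalRing.maximalIdeal E := (IsLocalRing.mem_maximalIdeal x).mpr hx
  rw [← ker_residue, RingHom.mem_ker] at hm
  rw [hm] at h
  exact not_isUnit_zero h

/-- The linear coefficient of a series with unit reduction is a unit. -/
theorem isUnit_coeff_one_of_map (θ : PowerSeries E) (g : PowerSeries k)
    (hθ : PowerSeries.map (LTRing.residue p n) θ = g) (hg : IsUnit (PowerSeries.coeff 1 g)) :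
    IsUnit (PowerSeries.coeff 1 θ) := by
  apply isUnit_of_residue_isUnit
  have : PowerSeries.coeff 1 (PowerSeries.map (LTRing.residue p n) θ) =
      LTRing.residue p n (PowerSeries.coeff 1 θ) := PowerSeries.coeff_map _ _ _
  rw [← this, hθ]
  exact hg

/-- Stability of height ideals: `comap φ (I_h H) = I_h H` for `φ` realising an automorphism. `I_h(H^φ) = map φ (I_h H)` (`htIdeal_map`), and `I_h(H^φ) = I_h(H)` by `htIdeal_eq_of_hom` (`θ` has unit linear coefficient, since it reduces to `g`). `φ` is bijective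
(`stabilizerMap_bijective`). -/
theorem heightIdeal_stable (H : FormalGroup E) [H.IsComm] (hn : 1 ≤ n)
    (hI : htIdeal p H n = IsLocalRing.maximalIdeal E) (g : PowerSeries k) (hg : IsUnit (PowerSeries.coeff 1 g))
    (φ : E →ₐ[WittVector p k] E) (hφ : IsStabilizerMap p n H g φ) (h : ℕ) :
    Ideal.comap φ.toRingHom (heightIdeal p n H h) = heightIdeal p n H h := by
  obtain ⟨_, θ, hθ, hθg⟩ := id hφ
  have hu := isUnit_coeff_one_of_map p n θ g hθg hg
  have hbij : Function.Bijective φ := stabilizerMap_bijective p n H hn hI g φ hφ hg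
  have hbij' : Function.Bijective φ.toRingHom := hbij
  rw [heightIdeal_eq_htIdeal]
  have h1 : (htIdeal p H h).map φ.toRingHom = htIdeal p H h := by
    rw [htIdeal_map, htIdeal_eq_of_hom p hθ hu h]
  conv_lhs => rw [← h1]
  exact Ideal.comap_map_of_bijective _ hbij'

/-- **Prime classification for `HH`**: `P` prime and deep-stable at some level: `P = J_h` for some `h ≤ n`. `h` = first index with `u_h ∉ P` where `u_0 = p`, `u_n = 1`. -/
theorem prime_classification (hn : 1 ≤ n) (P : Ideal E) (hP : P.IsPrime) (M : ℕ)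
    (hst : DeepStable p n M P) : ∃ h, h ≤ n ∧ P = JJ p n h := by
  by_cases hp : (p : E) ∈ P
  · by_cases hall : ∀ i, 1 ≤ i → i < n → uu p n i ∈ P
    · -- all parameters in `P`: `P` is the maximal ideal
      refine ⟨n, le_rfl, ?_⟩
      have hle : JJ p n n ≤ P := by
        obtain ⟨n', rfl⟩ : ∃ n', n = n' + 1 := ⟨n - 1, by omega⟩
        apply Ideal.span_le.mpr
        rintro x (rfl | ⟨i, hi, rfl⟩)
        · exact hp
        · by_cases hin : i < n' + 1
          · exact hall i hi.1 hin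
          · have := hi.2
            omega
      rw [JJ_n p n hn] at hle ⊢
      exact le_antisymm (IsLocalRing.le_maximalIdeal hP.ne_top) hle
    · -- the smallest index
      push Not at hall
      classical
      have hex : ∃ i, 1 ≤ i ∧ i < n ∧ uu p n i ∉ P := by
        obtain ⟨i, h1, h2, h3⟩ := hall
        exact ⟨i, h1, h2, h3⟩
      let h := Nat.find hex
      obtain ⟨h1, h2, h3⟩ := Nat.find_spec hex
      have hmin : ∀ i, i < h → ¬ (1 ≤ i ∧ i < n ∧ uu p n i ∉ P) := fun i hi => Nat.find_min hex hi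
      have hle : JJ p n h ≤ P := by
        obtain ⟨h', hh'⟩ : ∃ h', h = h' + 1 := ⟨h - 1, by omega⟩
        rw [hh']
        apply Ideal.span_le.mpr
        rintro x (rfl | ⟨i, hi, rfl⟩)
        · exact hp
        · have hih : i < h := by
            have := hi.2
            omega
          have := hmin i hih
          by_contra hcon
          exact this ⟨hi.1, by omega, hcon⟩
      exact ⟨h, by omega, coreCharP p n h h1 h2 P hP hle h3 M hst⟩
  · exact ⟨0, by omega, coreCharZero p n P hP hp hn M hst⟩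

/-- An automorphism preserves the maximal ideal. -/
theorem comap_maximal_equiv (φ₀ : E ≃ₐ[WittVector p k] E) :
    Ideal.comap φ₀.toAlgHom.toRingHom (IsLocalRing.maximalIdeal E) = IsLocalRing.maximalIdeal E := by
  ext x
  simp only [Ideal.mem_comap, IsLocalRing.mem_maximalIdeal, mem_nonunits_iff]
  show ¬ IsUnit (φ₀ x) ↔ ¬ IsUnit x
  rw [isUnit_map_iff]

/-- Krull separation: for a proper prime `Q`, `x ∉ Q`, there is `N` with `x ∉ Q ⊔ 𝔪^N`. -/
theorem exists_not_mem_sup_pow (Q : Ideal E) (hQ : Q.IsPrime) (x : E) (hx : x ∉ Q) :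
    ∃ N : ℕ, x ∉ Q ⊔ (IsLocalRing.maximalIdeal E) ^ N := by
  have : IsLocalRing (E ⧸ Q) := IsLocalRing.of_surjective' (Ideal.Quotient.mk Q)
    Ideal.Quotient.mk_surjective
  set I := (IsLocalRing.maximalIdeal E).map (Ideal.Quotient.mk Q) with hI
  have hItop : I ≠ ⊤ := by
    intro htop
    have h1 : Ideal.comap (Ideal.Quotient.mk Q) I = IsLocalRing.maximalIdeal E := by
      rw [hI, Ideal.comap_map_of_surjective _ Ideal.Quotient.mk_surjective,
        ← RingHom.ker_eq_comap_bot, Ideal.mk_ker]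
      exact sup_eq_left.mpr (IsLocalRing.le_maximalIdeal hQ.ne_top)
    rw [htop, Ideal.comap_top] at h1
    exact (IsLocalRing.maximalIdeal.isMaximal E).ne_top h1.symm
  have hbot := Ideal.iInf_pow_eq_bot_of_isLocalRing I hItop
  have hx' : Ideal.Quotient.mk Q x ≠ 0 := by
    rwa [Ne, Ideal.Quotient.eq_zero_iff_mem]
  have : Ideal.Quotient.mk Q x ∉ ⨅ i : ℕ, I ^ i := by
    rw [hbot]
    simpa using hx'
  rw [Ideal.mem_iInf] at this
  push Not at this
  obtain ⟨N, hN⟩ := this
  refine ⟨N, fun hmem => hN ?_⟩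
  have h1 : Ideal.Quotient.mk Q x ∈ (Q ⊔ (IsLocalRing.maximalIdeal E) ^ N).map (Ideal.Quotient.mk Q) :=
    Ideal.mem_map_of_mem _ hmem
  rw [Ideal.map_sup, Ideal.map_quotient_self, bot_sup_eq, Ideal.map_pow] at h1
  exact h1

/-- **Radical part.** `J` radical, stable at level `M`, `J ≠ ⊤`. `Q_1..Q_t` the minimal primes (finite: Noetherian). `φ` permutes them. By `Ideal.iInf`/Krull intersection choose `N` with `Q_j ⊄ Q_i + 𝔪^N` for `i ≠ j`; `continuity` gives `M' ≥ M` with `φ ≡ id mod 𝔪^N` for `g ≡ X mod X^M'`: such `φ` fix each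
`Q_i`. By the prime part (at level `M'`) each `Q_i` is a height ideal; height ideals form a chain, minimal primes are incomparable: `t = 1`, `J = Q_1`. -/
theorem radical_classification (Γ : FormalGroup k) [Γ.IsComm] (hΓ : mulSeries Γ p = PowerSeries.X ^ (p ^ n))
    (H : FormalGroup E) [H.IsComm] (hH : IsUniversalDeformation p n Γ H) (hn : 1 ≤ n) (M : ℕ)
    (J : Ideal E) (hJ : J.IsRadical) (hst : IsStableIdeal p n Γ H M J) (hJ1 : J ≠ ⊤)
    (hprime : ∀ (M' : ℕ) (P : Ideal E), P.IsPrime → IsStableIdeal p n Γ H M' P →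
      ∃ h, h ≤ n ∧ P = heightIdeal p n H h) :
    ∃ h, h ≤ n ∧ J = heightIdeal p n H h := by
  classical
  -- `I_n(H)` is the maximal ideal
  obtain ⟨φ₀, ι, Θ, hι, hι1, hφ₀, hΘ, hΘι⟩ := exists_transfer p n Γ hΓ H hH hn
  have hΘu : IsUnit (PowerSeries.coeff 1 Θ) :=
    isUnit_coeff_one_of_map p n Θ ι hΘι (by rw [hι1]; exact isUnit_one)
  have hI : htIdeal p H n = IsLocalRing.maximalIdeal E := by
    rw [← heightIdeal_eq_htIdeal, heightIdeal_of_transfer p n H hn φ₀ Θ hΘ hΘu n le_rfl, JJ_n p n hn]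
    exact comap_maximal_equiv p n φ₀
  have hF : PowerSeries.map (LTRing.residue p n) (mulSeries H p) = PowerSeries.X ^ (p ^ n) := by
    rw [← mulSeries_map, hH.1, hΓ]
  -- minimal primes
  have hfin : J.minimalPrimes.Finite := Ideal.finite_minimalPrimes_of_isNoetherianRing _ J
  -- separation exponent
  obtain ⟨N, hN⟩ : ∃ N : ℕ, ∀ Q ∈ J.minimalPrimes, ∀ Q' ∈ J.minimalPrimes,
      Q' ≤ Q ⊔ (IsLocalRing.maximalIdeal E) ^ N → Q' = Q := by
    have hpair : ∀ Q ∈ J.minimalPrimes, ∀ Q' ∈ J.minimalPrimes, ∃ N : ℕ,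
        ¬ (Q' ≤ Q ⊔ (IsLocalRing.maximalIdeal E) ^ N) ∨ Q' = Q := by
      intro Q hQ Q' hQ'
      by_cases hle : Q' ≤ Q
      · exact ⟨0, Or.inr (le_antisymm hle (hQ.2 ⟨hQ'.1.1, hQ'.1.2⟩ hle))⟩
      · obtain ⟨x, hxQ', hxQ⟩ := SetLike.not_le_iff_exists.mp hle
        obtain ⟨N, hNx⟩ := exists_not_mem_sup_pow p n Q hQ.1.1 x hxQ
        exact ⟨N, Or.inl (fun hcon => hNx (hcon hxQ'))⟩
    choose! N hN using hpair
    -- take the supremum over the finite set
    let S := hfin.toFinset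
    let Nmax := (S ×ˢ S).sup (fun q => N q.1 q.2)
    refine ⟨Nmax, fun Q hQ Q' hQ' hle => ?_⟩
    have hQS : Q ∈ S := hfin.mem_toFinset.mpr hQ
    have hQ'S : Q' ∈ S := hfin.mem_toFinset.mpr hQ'
    have hNle : N Q Q' ≤ Nmax := Finset.le_sup (f := fun q : Ideal E × Ideal E => N q.1 q.2)
      (show (Q, Q') ∈ S ×ˢ S from Finset.mem_product.mpr ⟨hQS, hQ'S⟩)
    rcases hN Q hQ Q' hQ' with h | h
    · exfalso
      apply h
      refine hle.trans (sup_le_sup_left ?_ _)
      exact Ideal.pow_le_pow_right hNle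
    · exact h
  obtain ⟨M₀, hM₀⟩ := continuity p n H hn hF hI N 0
  set M' := max M M₀ with hM'
  -- each minimal prime is stable at level `M'`
  have hQstable : ∀ Q ∈ J.minimalPrimes, IsStableIdeal p n Γ H M' Q := by
    intro Q hQ g φ hg hgM hφ
    have hgM1 : ∀ i : ℕ, i < M → PowerSeries.coeff i g = PowerSeries.coeff i PowerSeries.X :=
      fun i hi => hgM i (lt_of_lt_of_le hi (le_max_left _ _))
    have hgM2 : ∀ i : ℕ, i < M₀ → PowerSeries.coeff i g = PowerSeries.coeff i PowerSeries.X :=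
      fun i hi => hgM i (lt_of_lt_of_le hi (le_max_right _ _))
    have hbij : Function.Bijective φ := stabilizerMap_bijective p n H hn hI g φ hφ hg.2
    have hsurj : Function.Surjective φ.toRingHom := hbij.2
    have hcomap := hst g φ hg hgM1 hφ
    have hmem : Ideal.comap φ.toRingHom Q ∈ J.minimalPrimes := by
      have := Ideal.minimalPrimes_comap_of_surjective hsurj hQ
      rwa [hcomap] at this
    apply hN Q hQ _ hmem
    obtain ⟨hres, θ, hθ, hθg⟩ := id hφ
    have hcont := hM₀ g φ θ hgM2 hres hθ hθg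
    intro x hx
    have h1 : φ.toRingHom x ∈ Q := hx
    have h2 : φ x - x ∈ (IsLocalRing.maximalIdeal E) ^ N := hcont.1 x
    have h3 : x = φ x + -(φ x - x) := by ring
    rw [h3]
    exact Ideal.add_mem _ (Ideal.mem_sup_left h1) (Ideal.mem_sup_right (Ideal.neg_mem_iff _ |>.mpr h2))
  -- the chain of height ideals
  have hchain : ∀ a b : ℕ, a ≤ b → heightIdeal p n H a ≤ heightIdeal p n H b := by
    intro a b hab
    induction hab with
    | refl => exact le_rfl
    | step _ ih => exact ih.trans le_sup_left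
  obtain ⟨⟨Q₀, hQ₀⟩⟩ := Ideal.nonempty_minimalPrimes hJ1
  obtain ⟨h₀, hh₀, hQ₀h⟩ := hprime M' Q₀ hQ₀.1.1 (hQstable Q₀ hQ₀)
  refine ⟨h₀, hh₀, ?_⟩
  rw [← hQ₀h]
  have huniq : ∀ Q ∈ J.minimalPrimes, Q = Q₀ := by
    intro Q hQ
    obtain ⟨h₁, _, hQh⟩ := hprime M' Q hQ.1.1 (hQstable Q hQ)
    rcases le_total h₀ h₁ with hle | hle
    · have h2 : Q₀ ≤ Q := by rw [hQ₀h, hQh]; exact hchain _ _ hle
      exact (le_antisymm h2 (hQ.2 ⟨hQ₀.1.1, hQ₀.1.2⟩ h2)).symm
    · have h2 : Q ≤ Q₀ := by rw [hQ₀h, hQh]; exact hchain _ _ hle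
      exact le_antisymm h2 (hQ₀.2 ⟨hQ.1.1, hQ.1.2⟩ h2)
  have hrad : J.radical = J := hJ.radical
  rw [← hrad, ← Ideal.sInf_minimalPrimes]
  apply le_antisymm
  · exact sInf_le hQ₀
  · apply le_sInf
    intro Q hQ
    rw [huniq Q hQ]

/-- The prime part, for a general level. -/
theorem prime_part (hn : 1 ≤ n) (Γ : FormalGroup k) [Γ.IsComm]
    (hΓ : mulSeries Γ p = PowerSeries.X ^ (p ^ n))
    (H : FormalGroup E) [H.IsComm] (hH : IsUniversalDeformation p n Γ H) (M : ℕ) (P : Ideal E)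
    (hP : P.IsPrime) (hst : IsStableIdeal p n Γ H M P) :
    ∃ h, h ≤ n ∧ P = heightIdeal p n H h := by
  obtain ⟨φ₀, ι, Θ, hι, hι1, hφ₀, hΘ, hΘι⟩ := exists_transfer p n Γ hΓ H hH hn
  have hΘu : IsUnit (PowerSeries.coeff 1 Θ) :=
    isUnit_coeff_one_of_map p n Θ ι hΘι (by rw [hι1]; exact isUnit_one)
  have hdeep := deepStable_of_stable p n Γ H hH hn φ₀ ι Θ hι hι1 hφ₀ hΘ hΘι M P hst
  have hP' : (Ideal.comap φ₀.symm.toAlgHom.toRingHom P).IsPrime := Ideal.comap_isPrime _ _
  obtain ⟨h, hh, hPh⟩ := prime_classification p n hn _ hP' M hdeep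
  refine ⟨h, hh, ?_⟩
  rw [heightIdeal_of_transfer p n H hn φ₀ Θ hΘ hΘu h hh, ← hPh]
  ext x
  simp [Ideal.mem_comap]

/-- Height ideals are prime and stable. -/
theorem heightIdeal_prime_stable (hn : 1 ≤ n) (Γ : FormalGroup k) [Γ.IsComm]
    (hΓ : mulSeries Γ p = PowerSeries.X ^ (p ^ n))
    (H : FormalGroup E) [H.IsComm] (hH : IsUniversalDeformation p n Γ H) (M : ℕ) (h : ℕ) (hh : h ≤ n) :
    (heightIdeal p n H h).IsPrime ∧ IsStableIdeal p n Γ H M (heightIdeal p n H h) := by
  obtain ⟨φ₀, ι, Θ, hι, hι1, hφ₀, hΘ, hΘι⟩ := exists_transfer p n Γ hΓ H hH hn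
  have hΘu : IsUnit (PowerSeries.coeff 1 Θ) :=
    isUnit_coeff_one_of_map p n Θ ι hΘι (by rw [hι1]; exact isUnit_one)
  have hI : htIdeal p H n = IsLocalRing.maximalIdeal E := by
    rw [← heightIdeal_eq_htIdeal, heightIdeal_of_transfer p n H hn φ₀ Θ hΘ hΘu n le_rfl, JJ_n p n hn]
    exact comap_maximal_equiv p n φ₀
  constructor
  · rw [heightIdeal_of_transfer p n H hn φ₀ Θ hΘ hΘu h hh]
    have := JJ_prime p n h hh hn
    exact Ideal.comap_isPrime _ _
  · intro g φ hg _ hφ
    exact heightIdeal_stable p n H hn hI g hg.2 φ hφ h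

/-- The statement of S0351 (note `M ≥ 1` is not even needed for the two cores). -/
theorem main_S0351 (hn : 1 ≤ n) (Γ : FormalGroup k) [Γ.IsComm]
    (hΓ : mulSeries Γ p = PowerSeries.X ^ (p ^ n))
    (H : FormalGroup E) [H.IsComm] (hH : IsUniversalDeformation p n Γ H) (M : ℕ) (_hM : 1 ≤ M) :
    (∀ P : Ideal E, (P.IsPrime ∧ IsStableIdeal p n Γ H M P) ↔ ∃ h : ℕ, h ≤ n ∧ P = heightIdeal p n H h) ∧
    (∀ J : Ideal E, (J.IsRadical ∧ IsStableIdeal p n Γ H M J) ↔
        (∃ h : ℕ, h ≤ n ∧ J = heightIdeal p n H h) ∨ J = ⊤) := by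
  constructor
  · intro P
    constructor
    · rintro ⟨hP, hst⟩
      exact prime_part p n hn Γ hΓ H hH M P hP hst
    · rintro ⟨h, hh, rfl⟩
      exact heightIdeal_prime_stable p n hn Γ hΓ H hH M h hh
  · intro J
    constructor
    · rintro ⟨hJ, hst⟩
      by_cases hJ1 : J = ⊤
      · exact Or.inr hJ1
      · left
        exact radical_classification p n Γ hΓ H hH hn M J hJ hst hJ1
          (fun M' P hP hs => prime_part p n hn Γ hΓ H hH M' P hP hs)
    · rintro (⟨h, hh, rfl⟩ | rfl)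
      · have := heightIdeal_prime_stable p n hn Γ hΓ H hH M h hh
        exact ⟨this.1.isRadical, this.2⟩
      · refine ⟨?_, ?_⟩
        · intro x _
          exact Submodule.mem_top
        · intro g φ _ _ _
          exact Ideal.comap_top

end

end Crest.Agent.LT
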